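import Crest.Agent.NG.ValueGen

/-!
Chunk R342-T0: `Ach G w`: some one-shot strategy wins on `(x,y)` with probability at least `w x y`.
`ach_zero`: a one-dimensional strategy (`n = Unit`, `S = 1`, all weight on one fixed answer);
`ach_value`: `value_general` and monotonicity; `qf_kronecker`: the trace of a Kronecker product is
the product of the traces (`Matrix.trace_kronecker`, `mul_kronecker_mul`), and
`tr (Sᴴ P S R)` is real for Hermitian `P, R`.
-/

set_option autoImplicit false

namespace Crest.Agent.NG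
open Matrix Complex Crest.MathPhysics.NonlocalGame
open scoped ComplexOrder Kronecker

def Ach (G : Game) (w : Fin G.nX → Fin G.nY → ℝ) : Prop :=
  ∃ (n : Type) (_ : Fintype n) (_ : DecidableEq n) (S : Matrix n n ℂ)
    (E : Fin G.nX → Fin G.nA → Matrix n n ℂ) (F : Fin G.nY → Fin G.nB → Matrix n n ℂ),
    nsq S = 1 ∧ (∀ x, IsPOVM (E x)) ∧ (∀ y, IsPOVM (F y)) ∧ ∀ x y, w x y ≤ winQ G E F S x y

/-- sub-POVM -/
def IsSubPOVM {n A : Type} [Fintype n] [DecidableEq n] [Fintype A] (E : A → Matrix n n ℂ) : Prop :=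
  (∀ a, (E a).PosSemidef) ∧ (1 - ∑ a, E a).PosSemidef

private theorem ach_povm {k : ℕ} (hk : 0 < k) :
    IsPOVM (fun a : Fin k => if a = ⟨0, hk⟩ then (1 : Matrix Unit Unit ℂ) else 0) := by
  constructor
  · intro a
    dsimp only
    split_ifs
    · exact Matrix.PosSemidef.one
    · exact Matrix.PosSemidef.zero
  · rw [Finset.sum_ite_eq']
    simp

theorem ach_zero {G : Game} (hA : 0 < G.nA) (hB : 0 < G.nB) : Ach G (fun _ _ => 0) := by
  refine ⟨Unit, inferInstance, inferInstance, 1,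
    fun _ a => if a = ⟨0, hA⟩ then 1 else 0, fun _ b => if b = ⟨0, hB⟩ then 1 else 0,
    by simp [nsq], fun _ => ach_povm hA, fun _ => ach_povm hB, fun x y => ?_⟩
  unfold winQ
  refine Finset.sum_nonneg fun a _ => Finset.sum_nonneg fun b _ => ?_
  by_cases h1 : a = ⟨0, hA⟩ <;> by_cases h2 : b = ⟨0, hB⟩ <;> split_ifs <;> simp [qf, h1, h2]

theorem ach_value {G : Game} {v : ℝ} (hv : ValBound G v) {w : Fin G.nX → Fin G.nY → ℝ}
    (hw : Ach G w) : ∑ x, ∑ y, G.prob x y * w x y ≤ v := by
  obtain ⟨n, i1, i2, S, E, F, hS, hE, hF, h⟩ := hw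
  refine le_trans ?_ (value_general hv S hS E F hE hF)
  exact Finset.sum_le_sum fun x _ => Finset.sum_le_sum fun y _ =>
    mul_le_mul_of_nonneg_left (h x y) (G.prob_nonneg x y)

private theorem ach_im {m : Type} [Fintype m] [DecidableEq m] (S P R : Matrix m m ℂ)
    (hP : P.IsHermitian) (hR : R.IsHermitian) : ((Sᴴ * P * S * R).trace).im = 0 := by
  have h : star ((Sᴴ * P * S * R).trace) = (Sᴴ * P * S * R).trace := by
    rw [← Matrix.trace_conjTranspose]
    simp only [Matrix.conjTranspose_mul, Matrix.conjTranspose_conjTranspose, hP.eq, hR.eq]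
    rw [Matrix.trace_mul_comm]
    simp only [Matrix.mul_assoc]
  rw [Complex.star_def, Complex.conj_eq_iff_im] at h
  exact h

theorem qf_kronecker {m n : Type} [Fintype m] [DecidableEq m] [Fintype n] [DecidableEq n]
    (S P R : Matrix m m ℂ) (S' P' R' : Matrix n n ℂ) (hP : P.IsHermitian) (hR : R.IsHermitian) :
    qf (S ⊗ₖ S') (P ⊗ₖ P') (R ⊗ₖ R') = qf S P R * qf S' P' R' := by
  unfold qf
  rw [Matrix.conjTranspose_kronecker, ← Matrix.mul_kronecker_mul, ← Matrix.mul_kronecker_mul,
    ← Matrix.mul_kronecker_mul, Matrix.trace_kronecker, Complex.mul_re, ach_im S P R hP hR,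
    zero_mul, sub_zero]

end Crest.Agent.NG
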