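import Crest.Agent.NG.Ach

/-!
Chunk R342-T1 (`ach_step`, tensor step). Data: unit vector `S'` with sub-POVMs `E' x a`, `F' y b`
(sums `≤ 1`), and a strategy `(S, E, F)` achieving `w`. New strategy on the product index type:
vector `S' ⊗ₖ S`, POVM `a ↦ E' x a ⊗ₖ 1 + (1 - ∑ E' x) ⊗ₖ E x a`, same for Bob: if the own filter
succeeds use its outcome, otherwise continue with the second strategy. Expanding `winQ`: the term
(success, success) gives `winQ E' F' S'`, the term (fail, fail) gives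
`qf S' (1-∑E') (1-∑F') * winQ E F S ≥ (...) * w`, the two mixed terms are nonnegative
(`qf_kronecker`, `qf_nonneg`); `1 - (pA + pB - pAB) = qf S' (1-∑E') (1-∑F') ≥ 0`.
-/

set_option autoImplicit false

namespace Crest.Agent.NG
open Matrix Complex Crest.MathPhysics.NonlocalGame
open scoped ComplexOrder Kronecker

private theorem qf_sub_left' {n : Type} [Fintype n] [DecidableEq n] (Ψ P P' Q : Matrix n n ℂ) :
    qf Ψ (P - P') Q = qf Ψ P Q - qf Ψ P' Q := by
  have h := qf_add_left Ψ (P - P') P' Q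
  rw [sub_add_cancel] at h
  linarith

private theorem qf_sub_right' {n : Type} [Fintype n] [DecidableEq n] (Ψ P Q Q' : Matrix n n ℂ) :
    qf Ψ P (Q - Q') = qf Ψ P Q - qf Ψ P Q' := by
  have h := qf_add_right Ψ P (Q - Q') Q'
  rw [sub_add_cancel] at h
  linarith

/-- the combined measurement -/
private def comb {m n A : Type} [Fintype m] [DecidableEq m] [Fintype n] [DecidableEq n]
    [Fintype A] (E : A → Matrix m m ℂ) (E₀ : A → Matrix n n ℂ) (a : A) :
    Matrix (m × n) (m × n) ℂ :=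
  E a ⊗ₖ (1 : Matrix n n ℂ) + (1 - ∑ a, E a) ⊗ₖ E₀ a

private theorem comb_povm {m n A : Type} [Fintype m] [DecidableEq m] [Fintype n] [DecidableEq n]
    [Fintype A] {E : A → Matrix m m ℂ} {E₀ : A → Matrix n n ℂ} (hE : IsSubPOVM E)
    (hE₀ : IsPOVM E₀) : IsPOVM (comb E E₀) := by
  constructor
  · intro a
    exact ((hE.1 a).kronecker Matrix.PosSemidef.one).add (hE.2.kronecker (hE₀.1 a))
  · unfold comb
    rw [Finset.sum_add_distrib]
    have h1 : ∑ a, E a ⊗ₖ (1 : Matrix n n ℂ) = (∑ a, E a) ⊗ₖ (1 : Matrix n n ℂ) := by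
      ext ⟨i, j⟩ ⟨i', j'⟩
      simp [Matrix.sum_apply, Matrix.kroneckerMap_apply, Finset.sum_mul]
    have h2 : ∑ a, (1 - ∑ a, E a) ⊗ₖ E₀ a = (1 - ∑ a, E a) ⊗ₖ (∑ a, E₀ a) := by
      ext ⟨i, j⟩ ⟨i', j'⟩
      simp [Matrix.sum_apply, Matrix.kroneckerMap_apply, Finset.mul_sum]
    rw [h1, h2, hE₀.2, ← Matrix.add_kronecker, add_sub_cancel, Matrix.one_kronecker_one]

theorem ach_step {G : Game} {w : Fin G.nX → Fin G.nY → ℝ} (hw : Ach G w)
    {n : Type} [Fintype n] [DecidableEq n] (S : Matrix n n ℂ) (hS : nsq S = 1)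
    (E : Fin G.nX → Fin G.nA → Matrix n n ℂ) (F : Fin G.nY → Fin G.nB → Matrix n n ℂ)
    (hE : ∀ x, IsSubPOVM (E x)) (hF : ∀ y, IsSubPOVM (F y)) :
    Ach G (fun x y => winQ G E F S x y +
      (1 - (qf S (∑ a, E x a) 1 + qf S 1 (∑ b, F y b) - qf S (∑ a, E x a) (∑ b, F y b))) * w x y) := by
  obtain ⟨m, i1, i2, S₀, E₀, F₀, hS₀, hE₀, hF₀, h⟩ := hw
  have h11 : qf S 1 1 = 1 := by rw [qf_one_one, hS]
  have h11' : qf S₀ 1 1 = 1 := by rw [qf_one_one, hS₀]
  refine ⟨n × m, inferInstance, inferInstance, S ⊗ₖ S₀, fun x => comb (E x) (E₀ x),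
    fun y => comb (F y) (F₀ y), ?_, fun x => comb_povm (hE x) (hE₀ x),
    fun y => comb_povm (hF y) (hF₀ y), ?_⟩
  · rw [← qf_one_one, ← Matrix.one_kronecker_one,
      qf_kronecker S 1 1 S₀ 1 1 Matrix.isHermitian_one Matrix.isHermitian_one, h11, h11', mul_one]
  · intro x y
    set CE : Matrix n n ℂ := 1 - ∑ a, E x a with hCE
    set CF : Matrix n n ℂ := 1 - ∑ b, F y b with hCF
    have hCEp : CE.PosSemidef := (hE x).2
    have hCFp : CF.PosSemidef := (hF y).2
    have hc : 1 - (qf S (∑ a, E x a) 1 + qf S 1 (∑ b, F y b) -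
        qf S (∑ a, E x a) (∑ b, F y b)) = qf S CE CF := by
      rw [hCE, hCF, qf_sub_left', qf_sub_right', qf_sub_right', h11]
      ring
    have hcn : 0 ≤ qf S CE CF := qf_nonneg hCEp hCFp S
    beta_reduce
    rw [hc]
    have hterm : ∀ a b, qf S (E x a) (F y b) + qf S CE CF * qf S₀ (E₀ x a) (F₀ y b) ≤
        qf (S ⊗ₖ S₀) (comb (E x) (E₀ x) a) (comb (F y) (F₀ y) b) := by
      intro a b
      unfold comb
      rw [← hCE, ← hCF, qf_add_left, qf_add_right, qf_add_right,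
        qf_kronecker _ _ _ _ _ _ ((hE x).1 a).1 ((hF y).1 b).1,
        qf_kronecker _ _ _ _ _ _ ((hE x).1 a).1 hCFp.1,
        qf_kronecker _ _ _ _ _ _ hCEp.1 ((hF y).1 b).1,
        qf_kronecker _ _ _ _ _ _ hCEp.1 hCFp.1, h11', mul_one]
      have e1 : 0 ≤ qf S (E x a) CF * qf S₀ 1 (F₀ y b) :=
        mul_nonneg (qf_nonneg ((hE x).1 a) hCFp S)
          (qf_nonneg Matrix.PosSemidef.one ((hF₀ y).1 b) S₀)
      have e2 : 0 ≤ qf S CE (F y b) * qf S₀ (E₀ x a) 1 :=
        mul_nonneg (qf_nonneg hCEp ((hF y).1 b) S)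
          (qf_nonneg ((hE₀ x).1 a) Matrix.PosSemidef.one S₀)
      linarith
    have hsum : winQ G E F S x y + qf S CE CF * winQ G E₀ F₀ S₀ x y ≤
        winQ G (fun x => comb (E x) (E₀ x)) (fun y => comb (F y) (F₀ y)) (S ⊗ₖ S₀) x y := by
      unfold winQ
      rw [Finset.mul_sum, ← Finset.sum_add_distrib]
      refine Finset.sum_le_sum fun a _ => ?_
      rw [Finset.mul_sum, ← Finset.sum_add_distrib]
      refine Finset.sum_le_sum fun b _ => ?_
      by_cases hab : G.accept x y a b = true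
      · rw [if_pos hab, if_pos hab, if_pos hab]
        exact hterm a b
      · rw [if_neg hab, if_neg hab, if_neg hab, mul_zero, add_zero]
    have h2 : qf S CE CF * w x y ≤ qf S CE CF * winQ G E₀ F₀ S₀ x y :=
      mul_le_mul_of_nonneg_left (h x y) hcn
    linarith

end Crest.Agent.NG
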