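import Crest.Agent.NG.TrialsLimit

/-!
Chunk R342-T3 (`trials_kraus`). Apply `trials_limit` to `E' x a = (W x)ᴴ * E x a * W x`,
`F' y b = V y * F y b * (V y)ᴴ`: `∑_a E' x a = WᴴW ≤ 1`, `qf S (WᴴPW) (VQVᴴ) = qf (W S V) P Q`
(cyclicity; rectangular matrices), `qf S (WᴴW) 1 = nsq (W S)`, ...
-/

set_option autoImplicit false

namespace Crest.Agent.NG
open Matrix Complex Crest.MathPhysics.NonlocalGame
open scoped ComplexOrder Kronecker

private theorem qf_kraus {n l : Type} [Fintype n] [DecidableEq n] [Fintype l] [DecidableEq l]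
    (S : Matrix l l ℂ) (W : Matrix n l ℂ) (V : Matrix l n ℂ) (P Q : Matrix n n ℂ) :
    qf S (Wᴴ * P * W) (V * Q * Vᴴ) = qf (W * S * V) P Q := by
  unfold qf
  congr 1
  have e1 : (W * S * V)ᴴ * P * (W * S * V) * Q = Vᴴ * (Sᴴ * (Wᴴ * P * W) * S * (V * Q)) := by
    simp only [Matrix.conjTranspose_mul, Matrix.mul_assoc]
  have e2 : Sᴴ * (Wᴴ * P * W) * S * (V * Q * Vᴴ) = (Sᴴ * (Wᴴ * P * W) * S * (V * Q)) * Vᴴ := by
    simp only [Matrix.mul_assoc]
  rw [e1, e2, Matrix.trace_mul_comm]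

private theorem qf_kraus_left {n l : Type} [Fintype n] [DecidableEq n] [Fintype l]
    [DecidableEq l] (S : Matrix l l ℂ) (W : Matrix n l ℂ) : qf S (Wᴴ * W) 1 = nsq (W * S) := by
  rw [nsq_eq_trace]
  unfold qf
  rw [Matrix.mul_one, Matrix.conjTranspose_mul]
  simp only [Matrix.mul_assoc]

private theorem qf_kraus_right {n l : Type} [Fintype n] [DecidableEq n] [Fintype l]
    [DecidableEq l] (S : Matrix l l ℂ) (V : Matrix l n ℂ) : qf S 1 (V * Vᴴ) = nsq (S * V) := by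
  rw [nsq_eq_trace]
  unfold qf
  congr 1
  have e1 : (S * V)ᴴ * (S * V) = Vᴴ * (Sᴴ * 1 * S * V) := by
    simp only [Matrix.conjTranspose_mul, Matrix.mul_assoc, Matrix.one_mul]
  have e2 : Sᴴ * 1 * S * (V * Vᴴ) = (Sᴴ * 1 * S * V) * Vᴴ := by
    simp only [Matrix.mul_assoc]
  rw [e1, e2, Matrix.trace_mul_comm]

theorem trials_kraus {G : Game} {v : ℝ} (hv : ValBound G v) (hA : 0 < G.nA) (hB : 0 < G.nB)
    {n l : Type} [Fintype n] [DecidableEq n] [Fintype l] [DecidableEq l]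
    (S : Matrix l l ℂ) (hS : S ≠ 0)
    (E : Fin G.nX → Fin G.nA → Matrix n n ℂ) (F : Fin G.nY → Fin G.nB → Matrix n n ℂ)
    (hE : ∀ x, IsPOVM (E x)) (hF : ∀ y, IsPOVM (F y))
    (W : Fin G.nX → Matrix n l ℂ) (V : Fin G.nY → Matrix l n ℂ)
    (hW : ∀ x, (1 - (W x)ᴴ * W x).PosSemidef) (hV : ∀ y, (1 - V y * (V y)ᴴ).PosSemidef) :
    ∑ x, ∑ y, G.prob x y * (winQ G E F (W x * S * V y) x y /
      (nsq (W x * S) + nsq (S * V y) - nsq (W x * S * V y))) ≤ v := by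
  have sE : ∀ x, ∑ a, (W x)ᴴ * E x a * W x = (W x)ᴴ * W x := by
    intro x
    rw [← Matrix.sum_mul, ← Matrix.mul_sum, (hE x).2, Matrix.mul_one]
  have sF : ∀ y, ∑ b, V y * F y b * (V y)ᴴ = V y * (V y)ᴴ := by
    intro y
    rw [← Matrix.sum_mul, ← Matrix.mul_sum, (hF y).2, Matrix.mul_one]
  have h := trials_limit hv hA hB S hS (fun x a => (W x)ᴴ * E x a * W x)
    (fun y b => V y * F y b * (V y)ᴴ)
    (fun x => ⟨fun a => ((hE x).1 a).conjTranspose_mul_mul_same (W x), by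
      rw [sE]; exact hW x⟩)
    (fun y => ⟨fun b => ((hF y).1 b).mul_mul_conjTranspose_same (V y), by
      rw [sF]; exact hV y⟩)
  refine le_trans (le_of_eq ?_) h
  refine Finset.sum_congr rfl fun x _ => Finset.sum_congr rfl fun y _ => ?_
  rw [sE, sF, qf_kraus_left, qf_kraus_right]
  have e1 : qf S ((W x)ᴴ * W x) (V y * (V y)ᴴ) = nsq (W x * S * V y) := by
    have := qf_kraus S (W x) (V y) 1 1
    rw [Matrix.mul_one, Matrix.mul_one, qf_one_one] at this
    exact this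
  have e2 : winQ G (fun x a => (W x)ᴴ * E x a * W x) (fun y b => V y * F y b * (V y)ᴴ) S x y =
      winQ G E F (W x * S * V y) x y := by
    unfold winQ
    refine Finset.sum_congr rfl fun a _ => Finset.sum_congr rfl fun b _ => ?_
    rw [qf_kraus]
  rw [e1, e2]

end Crest.Agent.NG
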