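import Crest.Agent.NG.FilterMat
import Crest.Agent.NG.Trials

/-!
Chunk R342-U3 (`sim_universal`). Given `LocalData` with `(m, E, F, Ψ, a', b')`, `ε = εA + εB > 0`.
If `ε ≥ 1` the bound is trivial: `wn ≤ ∑ μ nsq Ψ = 1 ≤ C ε^{1/4}` (`winQ_le_nsq`, `v ≥ 0`; `v ≥ 0`
from `ach_zero`, `ach_value`). If `ε < 1` let `η = ε^{1/4}`, `K = a'`, `L = b'`, `filter_mat`,
`X_xy = W x S V y`, `D_xy = nsq (W x S) + nsq (S V y) - nsq X_xy ≥ nsq X_xy`
(`nsq X ≤ nsq (W S)`, `≤ nsq (S V)` by contraction: `nsq_mul_le_right/left`).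
`trials_kraus`: `∑ μ winQ(X)/D ≤ v`. So
`winQ Ψ ≤ winQ X + ‖Ψ-X‖(‖Ψ‖+‖X‖)`, `winQ X = D · (winQ X/D) ≤ winQ X/D + max (D-1) 0`
(as `0 ≤ winQ X/D ≤ 1`), `max (D-1) 0 ≤ max (nsq Ψ - 1) 0 + |D - nsq Ψ|`,
`|D - nsq Ψ| ≤ |nsq(WS) - nsq Ψ| + |nsq(SV) - nsq Ψ| + |nsq X - nsq Ψ|`.
All products `‖U-U'‖(‖U‖+‖U'‖)` are bounded pointwise by `nsq (U-U')/(2η) + η (nsq U + nsq U')`.
-/

set_option autoImplicit false

namespace Crest.Agent.NG
open Matrix Complex Crest.MathPhysics.NonlocalGame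
open scoped ComplexOrder

private theorem sim536_amgm {u p q η : ℝ} (hη : 0 < η) (hu : 0 ≤ u) (hp : 0 ≤ p) (hq : 0 ≤ q) :
    Real.sqrt u * (Real.sqrt p + Real.sqrt q) ≤ u / (2 * η) + η * (p + q) := by
  have h1 := Real.sq_sqrt hu
  have h2 := Real.sq_sqrt hp
  have h3 := Real.sq_sqrt hq
  set a := Real.sqrt u
  set b := Real.sqrt p
  set c := Real.sqrt q
  have h4 : u / (2 * η) + η * (p + q) - a * (b + c)
      = ((a - η * (b + c)) ^ 2 + η ^ 2 * (b - c) ^ 2) / (2 * η) := by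
    field_simp
    nlinarith
  have h5 : 0 ≤ ((a - η * (b + c)) ^ 2 + η ^ 2 * (b - c) ^ 2) / (2 * η) := by positivity
  linarith

private theorem sim536_nsq_diff {m n : Type} [Fintype m] [Fintype n] [DecidableEq n]
    [DecidableEq m] {η : ℝ} (hη : 0 < η) (U U' : Matrix m n ℂ) :
    |nsq U - nsq U'| ≤ nsq (U - U') / (2 * η) + η * (nsq U + nsq U') := by
  have h1 := nsq_nonneg U
  have h2 := nsq_nonneg U'
  have h3 := nsq_nonneg (U - U')
  have key := sim536_amgm hη h3 h1 h2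
  have t1 : Real.sqrt (nsq U) ≤ Real.sqrt (nsq (U - U')) + Real.sqrt (nsq U') := by
    have := sqrt_nsq_add_le (U - U') U'
    simpa using this
  have t2 : Real.sqrt (nsq U') ≤ Real.sqrt (nsq (U - U')) + Real.sqrt (nsq U) := by
    have := sqrt_nsq_add_le (U' - U) U
    rw [nsq_sub_comm U' U] at this
    simpa using this
  have e1 := Real.sq_sqrt h1
  have e2 := Real.sq_sqrt h2
  have p1 := Real.sqrt_nonneg (nsq U)
  have p2 := Real.sqrt_nonneg (nsq U')
  refine le_trans ?_ key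
  rw [abs_le]
  constructor <;> nlinarith

/-- pure real arithmetic: first part of the pointwise estimate -/
private theorem sim536_point1 {w wX r D N a b A B Y xx η pW pS : ℝ}
    (hr0 : 0 ≤ r) (hr1 : r ≤ 1) (hwX : wX = D * r)
    (hw : w ≤ wX + (Y / (2 * η) + η * (N + xx)))
    (hD : D = pW + pS - xx)
    (hpW : |pW - a| ≤ 40 * η * a + η ^ 2)
    (hpS : |pS - b| ≤ 40 * η * b + η ^ 2)
    (haN : |a - N| ≤ A / (2 * η) + η * (a + N))
    (hbN : |b - N| ≤ B / (2 * η) + η * (b + N))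
    (hxN : |xx - N| ≤ Y / (2 * η) + η * (xx + N)) :
    w ≤ r + max (N - 1) 0 + (40 * η * a + η ^ 2 + (A / (2 * η) + η * (a + N))
      + (40 * η * b + η ^ 2 + (B / (2 * η) + η * (b + N)))
      + (Y / (2 * η) + η * (xx + N))) + (Y / (2 * η) + η * (N + xx)) := by
  have hmax : D * r ≤ r + max (D - 1) 0 := by
    have h0 := le_max_left (D - 1) 0
    have h1 := le_max_right (D - 1) (0 : ℝ)
    have h2 : (D - 1) * r ≤ max (D - 1) 0 * 1 :=
      mul_le_mul h0 hr1 hr0 h1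
    linarith
  have hmax2 : max (D - 1) 0 ≤ max (N - 1) 0 + |D - N| := by
    have h0 := le_max_left (N - 1) 0
    have h1 := le_max_right (N - 1) (0 : ℝ)
    have h2 := le_abs_self (D - N)
    have h3 := abs_nonneg (D - N)
    exact max_le (by linarith) (by linarith)
  have hDN : |D - N| ≤ 40 * η * a + η ^ 2 + (A / (2 * η) + η * (a + N))
      + (40 * η * b + η ^ 2 + (B / (2 * η) + η * (b + N)))
      + (Y / (2 * η) + η * (xx + N)) := by
    rw [abs_le] at *
    constructor <;> linarith [hpW.1, hpW.2, hpS.1, hpS.2, haN.1, haN.2, hbN.1, hbN.2, hxN.1, hxN.2]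
  linarith

/-- pure real arithmetic: the bound of `Y` -/
private theorem sim536_point2 {N b A B c Y η ya : ℝ} (hη : 0 < η) (hη1 : η ≤ 1)
    (hN : 0 ≤ N) (hA : 0 ≤ A) (hB : 0 ≤ B)
    (hb2 : b ≤ 2 * N + 2 * B) (hY2 : Y ≤ 2 * ya + 2 * B)
    (hya : ya ≤ 10000 / η ^ 2 * c + 10000 * η ^ 2 * b + η ^ 2)
    (hc : c ≤ 2 * A + 2 * B) :
    Y ≤ η * (80002 * ((A + B) * (1 / η ^ 3)) + 40000 * (η * N) + 2 * η) := by
  have h1 : 10000 / η ^ 2 * c ≤ 10000 / η ^ 2 * (2 * A + 2 * B) :=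
    mul_le_mul_of_nonneg_left hc (by positivity)
  have h2 : 10000 * η ^ 2 * b ≤ 10000 * η ^ 2 * (2 * N + 2 * B) :=
    mul_le_mul_of_nonneg_left hb2 (by positivity)
  have h3 : 10000 / η ^ 2 * (2 * A + 2 * B) = 20000 * ((A + B) * (1 / η ^ 2)) := by ring
  have h4 : 10000 * η ^ 2 * (2 * N + 2 * B) = 20000 * (η ^ 2 * N) + 20000 * (η ^ 2 * B) := by ring
  have h5 : η * (80002 * ((A + B) * (1 / η ^ 3)) + 40000 * (η * N) + 2 * η)
      = 80002 * ((A + B) * (1 / η ^ 2)) + 40000 * (η ^ 2 * N) + 2 * η ^ 2 := by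
    field_simp
  have h6 : 1 ≤ 1 / η ^ 2 := by
    rw [le_div_iff₀ (by positivity)]
    have := pow_le_one₀ (n := 2) hη.le hη1
    linarith
  have h7 : B ≤ (A + B) * (1 / η ^ 2) := by
    calc B ≤ A + B := by linarith
      _ = (A + B) * 1 := (mul_one _).symm
      _ ≤ (A + B) * (1 / η ^ 2) := mul_le_mul_of_nonneg_left h6 (by linarith)
  have h8 : η ^ 2 * B ≤ (A + B) * (1 / η ^ 2) := by
    calc η ^ 2 * B ≤ 1 * B := mul_le_mul_of_nonneg_right (pow_le_one₀ hη.le hη1) hB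
      _ = B := one_mul _
      _ ≤ _ := h7
  rw [h5]
  linarith

/-- pure real arithmetic: the pointwise estimate -/
private theorem sim536_point {w wX r D N a b A B c Y xx η pW pS ya : ℝ} (hη : 0 < η) (hη1 : η ≤ 1)
    (hr0 : 0 ≤ r) (hr1 : r ≤ 1) (hwX : wX = D * r)
    (hN : 0 ≤ N) (hA : 0 ≤ A) (hB : 0 ≤ B)
    (hw : w ≤ wX + (Y / (2 * η) + η * (N + xx)))
    (hD : D = pW + pS - xx)
    (hpW : |pW - a| ≤ 40 * η * a + η ^ 2)
    (hpS : |pS - b| ≤ 40 * η * b + η ^ 2)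
    (haN : |a - N| ≤ A / (2 * η) + η * (a + N))
    (hbN : |b - N| ≤ B / (2 * η) + η * (b + N))
    (hxN : |xx - N| ≤ Y / (2 * η) + η * (xx + N))
    (ha2 : a ≤ 2 * N + 2 * A) (hb2 : b ≤ 2 * N + 2 * B)
    (hx2 : xx ≤ 2 * N + 2 * Y) (hY2 : Y ≤ 2 * ya + 2 * B)
    (hya : ya ≤ 10000 / η ^ 2 * c + 10000 * η ^ 2 * b + η ^ 2)
    (hc : c ≤ 2 * A + 2 * B) :
    w ≤ r + max (N - 1) 0 + 200172 * η * N + 12 * η + 400100 / η ^ 3 * (A + B) := by
  have hm := sim536_point1 hr0 hr1 hwX hw hD hpW hpS haN hbN hxN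
  have hY := sim536_point2 hη hη1 hN hA hB hb2 hY2 hya hc
  have hQ0 : 0 ≤ (A + B) * (1 / η ^ 3) := by positivity
  have hZ0 : 0 ≤ 80002 * ((A + B) * (1 / η ^ 3)) + 40000 * (η * N) + 2 * η := by positivity
  obtain ⟨Q, hQ⟩ : ∃ Q, Q = (A + B) * (1 / η ^ 3) := ⟨_, rfl⟩
  obtain ⟨P, hP⟩ : ∃ P, P = η * N := ⟨_, rfl⟩
  rw [← hQ, ← hP] at hY hZ0
  rw [← hQ] at hQ0
  have hYη : Y / (2 * η) + Y / (2 * η) ≤ 80002 * Q + 40000 * P + 2 * η := by
    have e1 : Y / (2 * η) + Y / (2 * η) = Y / η := by field_simp; ring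
    rw [e1, div_le_iff₀ hη]
    linarith
  have hηY : η * Y ≤ 80002 * Q + 40000 * P + 2 * η := by
    calc η * Y ≤ η * (η * (80002 * Q + 40000 * P + 2 * η)) := mul_le_mul_of_nonneg_left hY hη.le
      _ = η ^ 2 * (80002 * Q + 40000 * P + 2 * η) := by ring
      _ ≤ 1 * (80002 * Q + 40000 * P + 2 * η) :=
          mul_le_mul_of_nonneg_right (pow_le_one₀ hη.le hη1) hZ0
      _ = _ := one_mul _
  have hηa : η * a ≤ 2 * P + 2 * (η * A) := by
    calc η * a ≤ η * (2 * N + 2 * A) := mul_le_mul_of_nonneg_left ha2 hη.le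
      _ = _ := by rw [hP]; ring
  have hηb : η * b ≤ 2 * P + 2 * (η * B) := by
    calc η * b ≤ η * (2 * N + 2 * B) := mul_le_mul_of_nonneg_left hb2 hη.le
      _ = _ := by rw [hP]; ring
  have hηxx : η * xx ≤ 2 * P + 2 * (η * Y) := by
    calc η * xx ≤ η * (2 * N + 2 * Y) := mul_le_mul_of_nonneg_left hx2 hη.le
      _ = _ := by rw [hP]; ring
  have hη2 : η ^ 2 ≤ η := by
    calc η ^ 2 = η * η := by ring
      _ ≤ 1 * η := mul_le_mul_of_nonneg_right hη1 hη.le
      _ = η := one_mul _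
  have hηi3 : 1 ≤ 1 / η ^ 3 := by
    rw [le_div_iff₀ (by positivity)]
    have := pow_le_one₀ (n := 3) hη.le hη1
    linarith
  have hηi13 : 1 / η ≤ 1 / η ^ 3 := by
    apply one_div_le_one_div_of_le (by positivity)
    have := pow_le_pow_of_le_one hη.le hη1 (show 1 ≤ 3 by norm_num)
    simpa using this
  have hAB2 : A / (2 * η) + B / (2 * η) ≤ Q / 2 := by
    have hAB : A / (2 * η) + B / (2 * η) = (A + B) * (1 / η) / 2 := by field_simp
    have h1 : (A + B) * (1 / η) ≤ Q := by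
      rw [hQ]; exact mul_le_mul_of_nonneg_left hηi13 (by linarith)
    rw [hAB]; linarith
  have hAB3 : η * A + η * B ≤ Q := by
    have h1 : η ≤ 1 / η ^ 3 := le_trans hη1 hηi3
    have h2 : η * A + η * B = (A + B) * η := by ring
    rw [h2, hQ]
    exact mul_le_mul_of_nonneg_left h1 (by linarith)
  have e5 : 400100 / η ^ 3 * (A + B) = 400100 * Q := by rw [hQ]; ring
  have e7 : 200172 * η * N = 200172 * P := by rw [hP]; ring
  rw [e5, e7]
  have e8 : (40 * η * a + η ^ 2 + (A / (2 * η) + η * (a + N))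
      + (40 * η * b + η ^ 2 + (B / (2 * η) + η * (b + N)))
      + (Y / (2 * η) + η * (xx + N))) + (Y / (2 * η) + η * (N + xx))
      = 41 * (η * a) + 41 * (η * b) + 2 * η ^ 2 + (A / (2 * η) + B / (2 * η))
        + (Y / (2 * η) + Y / (2 * η)) + 4 * (η * N) + 2 * (η * xx) := by ring
  rw [← hP] at e8
  linarith

theorem sim_universal : ∃ Cu : ℝ, 1 ≤ Cu ∧ ∀ {G : Game} {v : ℝ}, ValBound G v →
    0 < G.nA → 0 < G.nB →
    ∀ {J : Fin G.nX → Fin G.nY → ℝ} {wn εA εB : ℝ}, LocalData G J wn εA εB →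
    ∑ x, ∑ y, J x y = 1 → 0 < εA → 0 < εB →
    wn ≤ v + ∑ x, ∑ y, max (J x y - G.prob x y) 0 + Cu * (εA + εB) ^ (1 / 4 : ℝ) := by
  refine ⟨1000000, by norm_num, ?_⟩
  intro G v hv hnA hnB J wn εA εB hLD hJ1 hεA hεB
  obtain ⟨m, _, _, E, F, Ψ, a', b', hE, hF, hJ, hwn, hA', hB'⟩ := hLD
  have hv0 : 0 ≤ v := by
    have := ach_value hv (ach_zero (G := G) hnA hnB)
    simpa using this
  have hμ := G.prob_nonneg
  have hmaxnn : 0 ≤ ∑ x, ∑ y, max (J x y - G.prob x y) 0 :=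
    Finset.sum_nonneg fun x _ => Finset.sum_nonneg fun y _ => le_max_right _ _
  have hEN : ∑ x, ∑ y, G.prob x y * nsq (Ψ x y) = 1 := by
    rw [← hJ1]
    exact Finset.sum_congr rfl fun x _ => Finset.sum_congr rfl fun y _ => hJ x y
  have hε : 0 < εA + εB := by linarith
  set ε := εA + εB with hεdef
  set η : ℝ := ε ^ (1 / 4 : ℝ) with hηdef
  have hηpos : 0 < η := Real.rpow_pos_of_pos hε _
  have hη4 : η ^ 4 = ε := by
    rw [hηdef, ← Real.rpow_natCast, ← Real.rpow_mul hε.le]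
    norm_num
  by_cases hbig : 1 ≤ ε
  · have hη1 : 1 ≤ η := Real.one_le_rpow hbig (by norm_num)
    have hwn1 : wn ≤ 1 := by
      rw [← hwn, ← hEN]
      exact Finset.sum_le_sum fun x _ => Finset.sum_le_sum fun y _ =>
        mul_le_mul_of_nonneg_left (winQ_le_nsq hE hF _ _ _) (hμ x y)
    nlinarith
  · push Not at hbig
    have hη1 : η ≤ 1 := Real.rpow_le_one hε.le hbig.le (by norm_num)
    have hm : Nonempty m := by
      by_contra hne
      rw [not_nonempty_iff] at hne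
      have : ∀ x y, nsq (Ψ x y) = 0 := fun x y => by simp [nsq]
      simp [this] at hEN
    obtain ⟨l, _, _, S, W, V, hS, hW, hV, hX, hWS, hSV⟩ :=
      filter_mat a' b' η hηpos hη1 (η ^ 2) (by positivity) hm
    have htr := trials_kraus hv hnA hnB S hS E F hE hF W V hW hV
    have hpt : ∀ x y, winQ G E F (Ψ x y) x y ≤
        (winQ G E F (W x * S * V y) x y /
          (nsq (W x * S) + nsq (S * V y) - nsq (W x * S * V y))) + max (nsq (Ψ x y) - 1) 0
        + 200172 * η * nsq (Ψ x y) + 12 * η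
        + 400100 / η ^ 3 * (nsq (Ψ x y - a' x) + nsq (Ψ x y - b' y)) := by
      intro x y
      have hx1 : nsq (W x * S * V y) ≤ nsq (W x * S) := nsq_mul_le_right (hV y) _
      have hx2 : nsq (W x * S * V y) ≤ nsq (S * V y) := by
        rw [Matrix.mul_assoc]
        exact nsq_mul_le_left (hW x) _
      have hwq0 := winQ_nonneg hE hF (W x * S * V y) x y
      have hwq1 := winQ_le_nsq hE hF (W x * S * V y) x y
      have hXn := nsq_nonneg (W x * S * V y)
      set D := nsq (W x * S) + nsq (S * V y) - nsq (W x * S * V y) with hD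
      have hDX : nsq (W x * S * V y) ≤ D := by rw [hD]; linarith
      have hDnn : 0 ≤ D := le_trans hXn hDX
      refine sim536_point (wX := winQ G E F (W x * S * V y) x y) (D := D) (a := nsq (a' x))
        (b := nsq (b' y)) (c := nsq (a' x - b' y)) (Y := nsq (Ψ x y - W x * S * V y))
        (xx := nsq (W x * S * V y)) (pW := nsq (W x * S)) (pS := nsq (S * V y))
        (ya := nsq (W x * S * V y - b' y))
        hηpos hη1 (by positivity) ?_ ?_ (nsq_nonneg _) (nsq_nonneg _) (nsq_nonneg _)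
        ?_ hD (hWS x) (hSV y) ?_ ?_ ?_ ?_ ?_ ?_ ?_ (hX x y) ?_
      · exact div_le_one_of_le₀ (hwq1.trans hDX) hDnn
      · rcases eq_or_lt_of_le hDnn with h0 | h0
        · have : winQ G E F (W x * S * V y) x y = 0 := by
            apply le_antisymm _ hwq0
            linarith
          rw [this, ← h0]
          simp
        · field_simp
      · have h1 := winQ_sub_le hE hF (Ψ x y) (W x * S * V y) x y
        have h2 := sim536_amgm hηpos (nsq_nonneg (Ψ x y - W x * S * V y)) (nsq_nonneg (Ψ x y))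
          (nsq_nonneg (W x * S * V y))
        linarith
      · have := sim536_nsq_diff hηpos (a' x) (Ψ x y)
        rwa [nsq_sub_comm] at this
      · have := sim536_nsq_diff hηpos (b' y) (Ψ x y)
        rwa [nsq_sub_comm] at this
      · have := sim536_nsq_diff hηpos (W x * S * V y) (Ψ x y)
        rwa [nsq_sub_comm] at this
      · have := nsq_add_le (Ψ x y) (a' x - Ψ x y)
        rw [nsq_sub_comm (a' x)] at this
        simpa using this
      · have := nsq_add_le (Ψ x y) (b' y - Ψ x y)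
        rw [nsq_sub_comm (b' y)] at this
        simpa using this
      · have := nsq_add_le (Ψ x y) (W x * S * V y - Ψ x y)
        rw [nsq_sub_comm (W x * S * V y)] at this
        simpa using this
      · have := nsq_add_le (W x * S * V y - b' y) (b' y - Ψ x y)
        rw [sub_add_sub_cancel, nsq_sub_comm (W x * S * V y) (Ψ x y), nsq_sub_comm (b' y)] at this
        exact this
      · have := nsq_add_le (a' x - Ψ x y) (Ψ x y - b' y)
        rw [sub_add_sub_cancel, nsq_sub_comm (a' x) (Ψ x y)] at this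
        exact this
    -- sum up
    have hsum : wn ≤ ∑ x, ∑ y, G.prob x y * (
        (winQ G E F (W x * S * V y) x y /
          (nsq (W x * S) + nsq (S * V y) - nsq (W x * S * V y))) + max (nsq (Ψ x y) - 1) 0
        + 200172 * η * nsq (Ψ x y) + 12 * η
        + 400100 / η ^ 3 * (nsq (Ψ x y - a' x) + nsq (Ψ x y - b' y))) := by
      rw [← hwn]
      exact Finset.sum_le_sum fun x _ => Finset.sum_le_sum fun y _ =>
        mul_le_mul_of_nonneg_left (hpt x y) (hμ x y)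
    have hmx : ∀ x y, G.prob x y * max (nsq (Ψ x y) - 1) 0 = max (J x y - G.prob x y) 0 := by
      intro x y
      rw [mul_max_of_nonneg _ _ (hμ x y), mul_sub, hJ x y]
      simp
    have hsplit : ∑ x, ∑ y, G.prob x y * (
        (winQ G E F (W x * S * V y) x y /
          (nsq (W x * S) + nsq (S * V y) - nsq (W x * S * V y))) + max (nsq (Ψ x y) - 1) 0
        + 200172 * η * nsq (Ψ x y) + 12 * η
        + 400100 / η ^ 3 * (nsq (Ψ x y - a' x) + nsq (Ψ x y - b' y)))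
        = ∑ x, ∑ y, G.prob x y * (winQ G E F (W x * S * V y) x y /
          (nsq (W x * S) + nsq (S * V y) - nsq (W x * S * V y)))
          + ∑ x, ∑ y, max (J x y - G.prob x y) 0
          + 200172 * η * ∑ x, ∑ y, G.prob x y * nsq (Ψ x y)
          + 12 * η * ∑ x, ∑ y, G.prob x y
          + 400100 / η ^ 3 * ∑ x, ∑ y, G.prob x y * nsq (Ψ x y - a' x)
          + 400100 / η ^ 3 * ∑ x, ∑ y, G.prob x y * nsq (Ψ x y - b' y) := by
      simp only [Finset.mul_sum, ← Finset.sum_add_distrib]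
      refine Finset.sum_congr rfl fun x _ => Finset.sum_congr rfl fun y _ => ?_
      rw [← hmx x y]
      ring
    rw [hsplit, hEN, G.prob_sum] at hsum
    have hlast : 400100 / η ^ 3 * ∑ x, ∑ y, G.prob x y * nsq (Ψ x y - a' x)
          + 400100 / η ^ 3 * ∑ x, ∑ y, G.prob x y * nsq (Ψ x y - b' y) ≤ 400100 * η := by
      rw [← mul_add]
      have h1 : ∑ x, ∑ y, G.prob x y * nsq (Ψ x y - a' x)
          + ∑ x, ∑ y, G.prob x y * nsq (Ψ x y - b' y) ≤ η ^ 4 := by
        rw [hη4]; linarith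
      calc 400100 / η ^ 3 * _ ≤ 400100 / η ^ 3 * η ^ 4 :=
            mul_le_mul_of_nonneg_left h1 (by positivity)
        _ = 400100 * η := by field_simp
    nlinarith

end Crest.Agent.NG
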