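import Crest.Agent.NG.Cond

/-!
Chunk R342-V4 (`tv_sum`): total variation of the coordinates under conditioning on a (weighted)
event of not too small probability. `g z ∈ [0, 1]`, `Z = ∑ Pr z g z > 0`, `L = log (1/Z) ≥ 0`,
`J_i(x,y) = (∑_z Pr z 1(z_i = (x,y)) g z)/Z`. Then
`∑_{i∈I} ∑_{x,y} max (J_i - μ) 0 ≤ 2 √(|I| L)`.
Proof. Let `f_i = 1(J_i > μ) - μ(J_i > μ)` (function of `z_i`, mean zero, `|f_i| ≤ 1`),
`Φ = ∑_{i∈I} f_i(z_i)`; the left side is `A = (∑ Pr g Φ)/Z` (note `∑ J_i = 1`).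
For `0 ≤ t ≤ 1`: `exp (t A) ≤ (∑ Pr g exp(tΦ))/Z ≤ (∑ Pr exp (tΦ))/Z = (∏_{i∈I} E exp(t f_i))/Z
≤ (exp(t²))^{|I|}/Z`. So `t A ≤ |I| t² + L`; take `t = A/(2|I|) ≤ 1`.
-/

set_option autoImplicit false

namespace Crest.Agent.NG

variable {k : ℕ} {X Y : Type} [Fintype X] [Fintype Y] [DecidableEq X] [DecidableEq Y]

/-- one factor of the exponential moment -/
theorem tv_factor {W : Type} [Fintype W] (p : W → ℝ) (hp : ∀ w, 0 ≤ p w) (hp1 : ∑ w, p w = 1)
    (f : W → ℝ) (hf0 : ∑ w, p w * f w = 0) (hf1 : ∀ w, |f w| ≤ 1) (t : ℝ) (ht0 : 0 ≤ t)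
    (ht1 : t ≤ 1) : ∑ w, p w * Real.exp (t * f w) ≤ Real.exp (t ^ 2) := by
  have h1 : ∀ w, Real.exp (t * f w) ≤ 1 + t * f w + t ^ 2 := by
    intro w
    have ha : |t * f w| ≤ 1 := by
      rw [abs_mul, abs_of_nonneg ht0]
      calc t * |f w| ≤ 1 * 1 := mul_le_mul ht1 (hf1 w) (abs_nonneg _) (by norm_num)
        _ = 1 := one_mul 1
    have h2 := Real.abs_exp_sub_one_sub_id_le ha
    have h3 := (abs_le.mp h2).2
    have h4 : (t * f w) ^ 2 ≤ t ^ 2 := by
      rw [mul_pow]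
      have : (f w) ^ 2 ≤ 1 := by
        rw [← sq_abs]; exact pow_le_one₀ (abs_nonneg _) (hf1 w)
      nlinarith [sq_nonneg t]
    linarith
  calc ∑ w, p w * Real.exp (t * f w) ≤ ∑ w, p w * (1 + t * f w + t ^ 2) :=
        Finset.sum_le_sum fun w _ => mul_le_mul_of_nonneg_left (h1 w) (hp w)
    _ = ∑ w, (p w * (1 + t ^ 2) + t * (p w * f w)) := Finset.sum_congr rfl fun w _ => by ring
    _ = 1 + t ^ 2 := by
        rw [Finset.sum_add_distrib, ← Finset.sum_mul, hp1, ← Finset.mul_sum, hf0]; ring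
    _ ≤ Real.exp (t ^ 2) := by rw [add_comm]; exact Real.add_one_le_exp _

theorem tv_opt (A c L : ℝ) (hA0 : 0 ≤ A) (hc : 0 ≤ c) (hL : 0 ≤ L) (hAc : A ≤ c)
    (hkey : ∀ t : ℝ, 0 ≤ t → t ≤ 1 → t * A ≤ c * t ^ 2 + L) : A ≤ 2 * Real.sqrt (c * L) := by
  rcases hc.eq_or_lt with hc0 | hc0
  · have h0 := Real.sqrt_nonneg (c * L)
    linarith
  · have h1 := hkey (A / (2 * c)) (by positivity)
      (by rw [div_le_one (by positivity)]; linarith)
    have h3 : A / (2 * c) * A = 2 * (A ^ 2 / (4 * c)) := by field_simp; norm_num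
    have h4 : c * (A / (2 * c)) ^ 2 = A ^ 2 / (4 * c) := by field_simp; norm_num
    rw [h3, h4] at h1
    have h6 : A ^ 2 / (4 * c) ≤ L := by linarith
    rw [div_le_iff₀ (by positivity)] at h6
    have h2 : A ^ 2 ≤ (2 ^ 2) * (c * L) := by linarith
    have h7 : A ≤ Real.sqrt ((2 ^ 2) * (c * L)) := Real.le_sqrt_of_sq_le h2
    rw [Real.sqrt_mul (by positivity), Real.sqrt_sq (by norm_num)] at h7
    exact h7

theorem tv_sum {μ : X → Y → ℝ} (hμ : IsProb μ) (g : (Fin k → X × Y) → ℝ) (hg : ∀ z, 0 ≤ g z)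
    (hg1 : ∀ z, g z ≤ 1) (Z : ℝ) (hZ : Z = ∑ z, Pr μ z * g z) (hZ0 : 0 < Z)
    (J : Fin k → X → Y → ℝ)
    (hJ : ∀ i x y, J i x y = (∑ z, Pr μ z * ((if z i = (x, y) then 1 else 0) * g z)) / Z)
    (I : Finset (Fin k)) :
    ∑ i ∈ I, ∑ x, ∑ y, max (J i x y - μ x y) 0 ≤
      2 * Real.sqrt (I.card * Real.log (1 / Z)) := by
  classical
  set p : X × Y → ℝ := fun w => μ w.1 w.2 with hp
  have hp0 : ∀ w, 0 ≤ p w := fun w => hμ.nonneg _ _
  have hp1 : ∑ w, p w = 1 := by rw [hp, Fintype.sum_prod_type]; exact hμ.sum_one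
  set S : Fin k → X × Y → ℝ := fun i w => if p w < J i w.1 w.2 then 1 else 0 with hS
  have hS0 : ∀ i w, 0 ≤ S i w := by intro i w; simp only [hS]; split_ifs <;> norm_num
  have hS1 : ∀ i w, S i w ≤ 1 := by intro i w; simp only [hS]; split_ifs <;> norm_num
  set m : Fin k → ℝ := fun i => ∑ w, p w * S i w with hm
  have hm0 : ∀ i, 0 ≤ m i := fun i => Finset.sum_nonneg fun w _ => mul_nonneg (hp0 w) (hS0 i w)
  have hm1 : ∀ i, m i ≤ 1 := by
    intro i
    calc m i ≤ ∑ w, p w := Finset.sum_le_sum fun w _ => by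
          have := mul_le_mul_of_nonneg_left (hS1 i w) (hp0 w); linarith
      _ = 1 := hp1
  set f : Fin k → X × Y → ℝ := fun i w => S i w - m i with hf
  have hf0 : ∀ i, ∑ w, p w * f i w = 0 := by
    intro i
    have : ∑ w, p w * f i w = ∑ w, p w * S i w - (∑ w, p w) * m i := by
      rw [Finset.sum_mul, ← Finset.sum_sub_distrib]
      exact Finset.sum_congr rfl fun w _ => by simp only [hf]; ring
    rw [this, hp1, one_mul]; simp only [hm, sub_self]
  have hf1 : ∀ i w, |f i w| ≤ 1 := by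
    intro i w
    rw [abs_le]
    simp only [hf]
    constructor <;> linarith [hS0 i w, hS1 i w, hm0 i, hm1 i]
  set Φ : (Fin k → X × Y) → ℝ := fun z => ∑ i ∈ I, f i (z i) with hΦ
  set A : ℝ := (∑ z, Pr μ z * (g z * Φ z)) / Z with hA
  -- the left side
  have hJsum : ∀ i (F : X × Y → ℝ), ∑ w, J i w.1 w.2 * F w =
      (∑ z, Pr μ z * (g z * F (z i))) / Z := by
    intro i F
    have h1 : ∀ w : X × Y, J i w.1 w.2 * F w =
        (∑ z, Pr μ z * ((if z i = w then 1 else 0) * g z) * F w) / Z := by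
      intro w
      rw [hJ i w.1 w.2, ← Finset.sum_mul]
      ring
    rw [Finset.sum_congr rfl fun w _ => h1 w, ← Finset.sum_div, Finset.sum_comm]
    congr 1
    refine Finset.sum_congr rfl fun z _ => ?_
    rw [Finset.sum_eq_single (z i)]
    · rw [if_pos rfl]; ring
    · intro w _ hw
      rw [if_neg (Ne.symm hw)]; ring
    · intro h; exact absurd (Finset.mem_univ _) h
  have hJ1 : ∀ i, ∑ w : X × Y, J i w.1 w.2 = 1 := by
    intro i
    have := hJsum i (fun _ => 1)
    simp only [mul_one] at this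
    rw [this, ← hZ, div_self hZ0.ne']
  have hLHSi : ∀ i, ∑ x, ∑ y, max (J i x y - μ x y) 0 =
      (∑ z, Pr μ z * (g z * f i (z i))) / Z := by
    intro i
    rw [← hJsum i (f i)]
    have h1 : ∑ x, ∑ y, max (J i x y - μ x y) 0 = ∑ w : X × Y, max (J i w.1 w.2 - p w) 0 := by
      rw [Fintype.sum_prod_type]
    have h2 : ∀ w : X × Y, max (J i w.1 w.2 - p w) 0 = J i w.1 w.2 * S i w - p w * S i w := by
      intro w
      simp only [hS]
      split_ifs with h
      · rw [max_eq_left (by linarith)]; ring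
      · rw [max_eq_right (by linarith)]; ring
    rw [h1, Finset.sum_congr rfl fun w _ => h2 w, Finset.sum_sub_distrib]
    have h3 : ∑ w : X × Y, J i w.1 w.2 * f i w =
        ∑ w : X × Y, J i w.1 w.2 * S i w - (∑ w : X × Y, J i w.1 w.2) * m i := by
      rw [Finset.sum_mul, ← Finset.sum_sub_distrib]
      exact Finset.sum_congr rfl fun w _ => by simp only [hf]; ring
    rw [h3, hJ1 i, one_mul]
  have hLHS : ∑ i ∈ I, ∑ x, ∑ y, max (J i x y - μ x y) 0 = A := by
    rw [Finset.sum_congr rfl fun i _ => hLHSi i, ← Finset.sum_div, Finset.sum_comm]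
    simp only [hA]
    congr 1
    refine Finset.sum_congr rfl fun z _ => ?_
    simp only [hΦ, Finset.mul_sum]
  have hA0 : 0 ≤ A := by
    rw [← hLHS]
    exact Finset.sum_nonneg fun i _ => Finset.sum_nonneg fun x _ => Finset.sum_nonneg
      fun y _ => le_max_right _ _
  have hΦle : ∀ z, Φ z ≤ I.card := by
    intro z
    calc Φ z ≤ ∑ i ∈ I, (1 : ℝ) := Finset.sum_le_sum fun i _ => (abs_le.mp (hf1 i (z i))).2
      _ = I.card := by simp
  have hPr0 : ∀ z : Fin k → X × Y, 0 ≤ Pr μ z := fun z => Pr_nonneg hμ z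
  have hAle : A ≤ I.card := by
    simp only [hA]
    rw [div_le_iff₀ hZ0, hZ, Finset.mul_sum]
    refine Finset.sum_le_sum fun z _ => ?_
    calc Pr μ z * (g z * Φ z) ≤ Pr μ z * (g z * I.card) :=
          mul_le_mul_of_nonneg_left (mul_le_mul_of_nonneg_left (hΦle z) (hg z)) (hPr0 z)
      _ = I.card * (Pr μ z * g z) := by ring
  -- the exponential moment
  have hexp : ∀ t : ℝ, 0 ≤ t → t ≤ 1 →
      ∑ z, Pr μ z * Real.exp (t * Φ z) ≤ Real.exp (I.card * t ^ 2) := by
    intro t ht0 ht1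
    have h1 : ∀ z : Fin k → X × Y, Pr μ z * Real.exp (t * Φ z) =
        ∏ j, (p (z j) * Real.exp (t * (if j ∈ I then f j (z j) else 0))) := by
      intro z
      rw [Finset.prod_mul_distrib, ← Real.exp_sum, ← Finset.mul_sum]
      congr 3
      simp only [hΦ]
      rw [Finset.sum_ite_mem, Finset.univ_inter]
    rw [Finset.sum_congr rfl fun z _ => h1 z,
      ← Fintype.piFinset_univ, ← Finset.prod_univ_sum (fun _ : Fin k => (Finset.univ : Finset (X × Y)))
        (fun j w => p w * Real.exp (t * (if j ∈ I then f j w else 0)))]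
    have h2 : ∀ j, ∑ w, p w * Real.exp (t * (if j ∈ I then f j w else 0)) ≤
        if j ∈ I then Real.exp (t ^ 2) else 1 := by
      intro j
      split_ifs with h
      · exact tv_factor p hp0 hp1 (f j) (hf0 j) (hf1 j) t ht0 ht1
      · simp [hp1]
    calc ∏ j, ∑ w, p w * Real.exp (t * (if j ∈ I then f j w else 0))
        ≤ ∏ j, (if j ∈ I then Real.exp (t ^ 2) else 1) :=
          Finset.prod_le_prod (fun j _ => Finset.sum_nonneg fun w _ =>
            mul_nonneg (hp0 w) (Real.exp_pos _).le) fun j _ => h2 j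
      _ = Real.exp (I.card * t ^ 2) := by
          rw [Finset.prod_ite_mem, Finset.univ_inter, Finset.prod_const, ← Real.exp_nat_mul]
  have hZ1 : Z ≤ 1 := by
    rw [hZ, ← Pr_sum (k := k) hμ]
    refine Finset.sum_le_sum fun z _ => ?_
    have := mul_le_mul_of_nonneg_left (hg1 z) (hPr0 z)
    linarith
  have hL0 : 0 ≤ Real.log (1 / Z) := Real.log_nonneg (by rw [le_div_iff₀ hZ0]; linarith)
  have hkey : ∀ t : ℝ, 0 ≤ t → t ≤ 1 → t * A ≤ I.card * t ^ 2 + Real.log (1 / Z) := by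
    intro t ht0 ht1
    have h1 : Real.exp (t * A) * Z ≤ ∑ z, Pr μ z * Real.exp (t * Φ z) := by
      have h2 : Real.exp (t * A) * Z = ∑ z, Pr μ z * (g z * (Real.exp (t * A) *
          (1 + (t * Φ z - t * A)))) := by
        have h3 : ∀ z, Pr μ z * (g z * (Real.exp (t * A) * (1 + (t * Φ z - t * A)))) =
            Real.exp (t * A) * (1 - t * A) * (Pr μ z * g z) +
              Real.exp (t * A) * t * (Pr μ z * (g z * Φ z)) := fun z => by ring
        rw [Finset.sum_congr rfl fun z _ => h3 z, Finset.sum_add_distrib, ← Finset.mul_sum,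
          ← Finset.mul_sum, ← hZ]
        have h4 : ∑ z, Pr μ z * (g z * Φ z) = A * Z := by
          simp only [hA]; rw [div_mul_cancel₀ _ hZ0.ne']
        rw [h4]; ring
      rw [h2]
      refine Finset.sum_le_sum fun z _ => mul_le_mul_of_nonneg_left ?_ (hPr0 z)
      have h5 : Real.exp (t * A) * (1 + (t * Φ z - t * A)) ≤ Real.exp (t * Φ z) := by
        have h6 : 1 + (t * Φ z - t * A) ≤ Real.exp (t * Φ z - t * A) := by
          rw [add_comm]; exact Real.add_one_le_exp _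
        calc Real.exp (t * A) * (1 + (t * Φ z - t * A))
            ≤ Real.exp (t * A) * Real.exp (t * Φ z - t * A) :=
              mul_le_mul_of_nonneg_left h6 (Real.exp_pos _).le
          _ = Real.exp (t * Φ z) := by rw [← Real.exp_add]; congr 1; ring
      calc g z * (Real.exp (t * A) * (1 + (t * Φ z - t * A)))
          ≤ g z * Real.exp (t * Φ z) := mul_le_mul_of_nonneg_left h5 (hg z)
        _ ≤ 1 * Real.exp (t * Φ z) :=
            mul_le_mul_of_nonneg_right (hg1 z) (Real.exp_pos _).le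
        _ = Real.exp (t * Φ z) := one_mul _
    have h2 := h1.trans (hexp t ht0 ht1)
    have h3 : Real.exp (t * A) ≤ Real.exp (I.card * t ^ 2 + Real.log (1 / Z)) := by
      rw [Real.exp_add, Real.exp_log (by positivity)]
      rw [mul_one_div, le_div_iff₀ hZ0]
      exact h2
    exact Real.exp_le_exp.mp h3
  rw [hLHS]
  exact tv_opt A _ _ hA0 (Nat.cast_nonneg _) hL0 hAle hkey

end Crest.Agent.NG
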