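import Crest.Agent.NG.Bridge
import Crest.Agent.NG.Sim536
import Crest.Agent.NG.TV

/-!
Chunk R342-A2 (`avg536`): like `avg537`, with `sim_universal` (`pwin i ≤ v + TV_i +
Cu (ΔA i + ΔB i)^{1/4}` after `η → 0`) and `∑_{i} t_i^{1/4} ≤ n^{3/4} (∑ t_i)^{1/4}` (Hölder, or
twice Cauchy-Schwarz `∑ √c_i ≤ √(n ∑ c_i)`).
-/

set_option autoImplicit false

namespace Crest.Agent.NG
open Matrix Complex Crest.MathPhysics.NonlocalGame
open scoped ComplexOrder

/-- the errors in a local data record are nonnegative -/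
theorem LocalData.eps_nonneg {G : Game} {J : Fin G.nX → Fin G.nY → ℝ} {wn εA εB : ℝ}
    (h : LocalData G J wn εA εB) : 0 ≤ εA ∧ 0 ≤ εB := by
  obtain ⟨m, _, _, E, F, Ψ, a', b', _, _, _, _, hA, hB⟩ := h
  refine ⟨le_trans ?_ hA, le_trans ?_ hB⟩
  · refine Finset.sum_nonneg fun x _ => Finset.sum_nonneg fun y _ =>
      mul_nonneg (G.prob_nonneg x y) ?_
    unfold nsq
    positivity
  · refine Finset.sum_nonneg fun x _ => Finset.sum_nonneg fun y _ =>
      mul_nonneg (G.prob_nonneg x y) ?_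
    unfold nsq
    positivity

theorem pow_four_sum_le {ι : Type} (s : Finset ι) (f : ι → ℝ) (hf : ∀ i ∈ s, 0 ≤ f i) :
    (∑ i ∈ s, f i) ^ 4 ≤ (s.card : ℝ) ^ 3 * ∑ i ∈ s, f i ^ 4 := by
  rcases s.eq_empty_or_nonempty with rfl | hs
  · simp
  have hn : (0 : ℝ) < s.card := by exact_mod_cast hs.card_pos
  have h := pow_sum_div_card_le_sum_pow (s := s) (f := f) hf 3
  rw [div_le_iff₀ (by positivity)] at h
  norm_num at h
  linarith

/-- power mean for fourth roots -/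
theorem sum_rpow_quarter_le {ι : Type} (s : Finset ι) (t : ι → ℝ) (ht : ∀ i ∈ s, 0 ≤ t i)
    (T : ℝ) (hT : ∑ i ∈ s, t i ≤ T) :
    ∑ i ∈ s, t i ^ (1 / 4 : ℝ) ≤ (s.card : ℝ) ^ (3 / 4 : ℝ) * T ^ (1 / 4 : ℝ) := by
  have hf : ∀ i ∈ s, 0 ≤ t i ^ (1 / 4 : ℝ) := fun i hi => Real.rpow_nonneg (ht i hi) _
  have hT0 : 0 ≤ T := le_trans (Finset.sum_nonneg ht) hT
  have h1 := pow_four_sum_le s (fun i => t i ^ (1 / 4 : ℝ)) hf
  have h2 : ∑ i ∈ s, (t i ^ (1 / 4 : ℝ)) ^ 4 = ∑ i ∈ s, t i := by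
    refine Finset.sum_congr rfl fun i hi => ?_
    rw [← Real.rpow_natCast, ← Real.rpow_mul (ht i hi)]
    norm_num
  rw [h2] at h1
  have h3 : (∑ i ∈ s, t i ^ (1 / 4 : ℝ)) ^ 4 ≤ (s.card : ℝ) ^ 3 * T :=
    h1.trans (mul_le_mul_of_nonneg_left hT (by positivity))
  have hS : 0 ≤ ∑ i ∈ s, t i ^ (1 / 4 : ℝ) := Finset.sum_nonneg hf
  have h4 : ((∑ i ∈ s, t i ^ (1 / 4 : ℝ)) ^ 4) ^ (1 / 4 : ℝ) ≤
      ((s.card : ℝ) ^ 3 * T) ^ (1 / 4 : ℝ) :=
    Real.rpow_le_rpow (by positivity) h3 (by norm_num)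
  rw [← Real.rpow_natCast, ← Real.rpow_mul hS, Real.mul_rpow (by positivity) hT0,
    ← Real.rpow_natCast, ← Real.rpow_mul (by positivity)] at h4
  norm_num at h4
  norm_num
  exact h4

theorem avg536 : ∃ Cu : ℝ, 1 ≤ Cu ∧ ∀ {G : Game} {k d : ℕ} {v : ℝ}, ValBound G v →
    0 < G.nA → 0 < G.nB →
    ∀ (S : Strategy G k d d), Nondeg S → ∀ C : Finset (Fin k),
    ∑ i ∈ Finset.univ.filter (fun i : Fin k => i ∉ C), pwin S C i ≤
      ((k : ℝ) - C.card) * v +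
      2 * Real.sqrt (((k : ℝ) - C.card) * Real.log (1 / PW S C)) +
      Cu * ((k : ℝ) - C.card) ^ (3 / 4 : ℝ) * (2 * Real.log (1 / PW S C) +
        C.card * Real.log ((G.nA * G.nB : ℕ) : ℝ)) ^ (1 / 4 : ℝ) := by
  obtain ⟨Cu, hCu, hsim⟩ := sim_universal
  refine ⟨Cu, hCu, ?_⟩
  intro G k d v hv hA hB S hS C
  obtain ⟨ΔA, ΔB, hsA, hsB, hloc⟩ := bridge S hS C
  set I : Finset (Fin k) := Finset.univ.filter (fun i : Fin k => i ∉ C) with hI
  have hIcard : (I.card : ℝ) = (k : ℝ) - C.card := by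
    have h1 : I = Cᶜ := by
      ext i
      simp [hI]
    rw [h1, Finset.card_compl, Fintype.card_fin, Nat.cast_sub]
    simpa using Finset.card_le_univ C
  have hmem : ∀ i ∈ I, i ∉ C := fun i hi => (Finset.mem_filter.mp hi).2
  have hnn : ∀ i ∈ I, 0 ≤ ΔA i ∧ 0 ≤ ΔB i := by
    intro i hi
    constructor
    · refine le_of_forall_pos_le_add fun η hη => ?_
      have := (hloc i (hmem i hi) η hη).eps_nonneg.1
      linarith
    · refine le_of_forall_pos_le_add fun η hη => ?_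
      have := (hloc i (hmem i hi) η hη).eps_nonneg.2
      linarith
  have hcoord : ∀ i ∈ I, pwin S C i ≤ v + ∑ x, ∑ y, max (Jlaw S C i x y - G.prob x y) 0 +
      Cu * (ΔA i + ΔB i) ^ (1 / 4 : ℝ) := by
    intro i hi
    have hη : ∀ η : ℝ, 0 < η → pwin S C i ≤
        v + ∑ x, ∑ y, max (Jlaw S C i x y - G.prob x y) 0 +
        Cu * ((ΔA i + η) + (ΔB i + η)) ^ (1 / 4 : ℝ) := fun η hη =>
      hsim hv hA hB (hloc i (hmem i hi) η hη) (Jlaw_sum S C i)
        (by linarith [(hnn i hi).1]) (by linarith [(hnn i hi).2])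
    have hcont : Filter.Tendsto (fun η : ℝ =>
        v + ∑ x, ∑ y, max (Jlaw S C i x y - G.prob x y) 0 +
        Cu * ((ΔA i + η) + (ΔB i + η)) ^ (1 / 4 : ℝ)) (nhdsWithin 0 (Set.Ioi 0))
        (nhds (v + ∑ x, ∑ y, max (Jlaw S C i x y - G.prob x y) 0 +
        Cu * ((ΔA i + 0) + (ΔB i + 0)) ^ (1 / 4 : ℝ))) := by
      refine tendsto_nhdsWithin_of_tendsto_nhds ?_
      refine Continuous.tendsto' ?_ _ _ rfl
      refine continuous_const.add (continuous_const.mul ?_)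
      exact Continuous.rpow_const (by fun_prop) (fun _ => Or.inr (by norm_num))
    have := ge_of_tendsto hcont (Filter.eventually_of_mem self_mem_nhdsWithin
      (fun η hη' => hη η hη'))
    simpa using this
  have htv := tv_sum (isProb_game G) (gz S C) (gz_nonneg S C) (gz_le_one S C) (PW S C) rfl
    (PW_pos S C) (Jlaw S C) (fun i x y => rfl) I
  have hsumt : ∑ i ∈ I, (ΔA i + ΔB i) ≤ 2 * Real.log (1 / PW S C) +
      C.card * Real.log ((G.nA * G.nB : ℕ) : ℝ) := by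
    rw [Finset.sum_add_distrib]
    have hA' : (0 : ℝ) < G.nA := by exact_mod_cast hA
    have hB' : (0 : ℝ) < G.nB := by exact_mod_cast hB
    push_cast
    rw [Real.log_mul hA'.ne' hB'.ne']
    linarith
  have hq := sum_rpow_quarter_le I (fun i => ΔA i + ΔB i)
    (fun i hi => add_nonneg (hnn i hi).1 (hnn i hi).2) _ hsumt
  have hsum := Finset.sum_le_sum hcoord
  rw [Finset.sum_add_distrib, Finset.sum_add_distrib, ← Finset.mul_sum, Finset.sum_const,
    nsmul_eq_mul] at hsum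
  rw [hIcard] at hsum htv hq
  have hq' := mul_le_mul_of_nonneg_left hq (by linarith : (0 : ℝ) ≤ Cu)
  rw [← mul_assoc] at hq'
  linarith

end Crest.Agent.NG
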