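import Crest.Agent.NG.CompBasic

/-!
Chunk R342-D1 (`component_walk`): metric lemma on the support components.
For `w` of positive probability, `w0 ∈ supportComponent w`: take a simple path `w = u_0, ..., u_t = w0`
in the support graph (`SimpleGraph.Reachable.exists_isPath`), `t ≤ |C| - 1`. Each edge shares `x`
or `y`, so `‖Ψ u_s - Ψ u_{s+1}‖ ≤ e(u_s) + e(u_{s+1})` with
`e u = max ‖Ψ u - a u.1‖ ‖Ψ u - b u.2‖`. Each vertex of `C` occurs in at most two edges:
`‖Ψ w - Ψ w0‖ ≤ 2 ∑_{u ∈ C} e u` and it is `0` if `|C| = 1`. Cauchy-Schwarz: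
`‖Ψ w - Ψ w0‖² ≤ 4 |C| ∑_{u∈C} e u² ≤ 8 (|C|-1) ∑_{u ∈ C} e u²` for `|C| ≥ 2`, hence
`μ(C) ‖..‖² ≤ ∑_{u∈C} κ μ(u) e u²` by the hypothesis on `κ`. Sum over `w ∈ C` with weights `μ(w)`
and over the components (partition of the pairs of positive probability), `e u² ≤ ‖‖²+‖‖²`.
All members of the component of a pair of positive probability have positive probability.
-/

set_option autoImplicit false

namespace Crest.Agent.NG
open Crest.MathPhysics.NonlocalGame

/-- Telescoping along a walk: `‖Ψ u - Ψ v‖ + e u ≤ 2 Σ_{support} e`. -/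
private theorem walk_bound {G : Game} {V : Type} [SeminormedAddCommGroup V]
    (Ψ : Fin G.nX × Fin G.nY → V) (e : Fin G.nX × Fin G.nY → ℝ)
    (hadj : ∀ u w, G.supportGraph.Adj u w → ‖Ψ u - Ψ w‖ ≤ e u + e w) (he : ∀ u, 0 ≤ e u)
    {u v : Fin G.nX × Fin G.nY} (p : G.supportGraph.Walk u v) :
    ‖Ψ u - Ψ v‖ + e u ≤ 2 * (p.support.map e).sum := by
  induction p with
  | nil =>
    simp only [sub_self, norm_zero, zero_add, SimpleGraph.Walk.support_nil, List.map_cons,
      List.map_nil, List.sum_cons, List.sum_nil, add_zero]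
    linarith [he ‹_›]
  | @cons u w v h p ih =>
    rw [SimpleGraph.Walk.support_cons, List.map_cons, List.sum_cons]
    have h1 : ‖Ψ u - Ψ v‖ ≤ ‖Ψ u - Ψ w‖ + ‖Ψ w - Ψ v‖ := norm_sub_le_norm_sub_add_norm_sub _ _ _
    have h2 := hadj u w h
    linarith

private theorem mem_component_iff {G : Game} {u v : Fin G.nX × Fin G.nY} :
    v ∈ G.supportComponent u ↔ G.supportGraph.Reachable u v := by
  unfold Game.supportComponent
  exact ⟨fun h => (@Finset.mem_filter _ _ (Classical.decPred _) _ _).1 h |>.2,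
    fun h => (@Finset.mem_filter _ _ (Classical.decPred _) _ _).2 ⟨Finset.mem_univ _, h⟩⟩

private theorem component_norm {G : Game} {V : Type} [SeminormedAddCommGroup V]
    (Ψ : Fin G.nX × Fin G.nY → V) (e : Fin G.nX × Fin G.nY → ℝ)
    (hadj : ∀ u w, G.supportGraph.Adj u w → ‖Ψ u - Ψ w‖ ≤ e u + e w) (he : ∀ u, 0 ≤ e u)
    {u v : Fin G.nX × Fin G.nY} (h : v ∈ G.supportComponent u) :
    ‖Ψ u - Ψ v‖ ≤ 2 * ∑ x ∈ G.supportComponent u, e x := by
  classical
  have hr : G.supportGraph.Reachable u v := mem_component_iff.1 h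
  obtain ⟨p, hp⟩ := hr.exists_isPath
  have h1 := walk_bound Ψ e hadj he p
  have h2 : (p.support.map e).sum = ∑ x ∈ p.support.toFinset, e x := by
    rw [List.sum_toFinset e hp.support_nodup]
  have h3 : ∑ x ∈ p.support.toFinset, e x ≤ ∑ x ∈ G.supportComponent u, e x := by
    refine Finset.sum_le_sum_of_subset_of_nonneg ?_ fun x _ _ => he x
    intro x hx
    rw [List.mem_toFinset] at hx
    exact mem_component_iff.2 ⟨p.takeUntil x hx⟩
  rw [h2] at h1
  linarith [he u]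

theorem component_walk {G : Game} {κ : ℝ} (hκ : KappaHyp G κ) {V : Type}
    [SeminormedAddCommGroup V]
    (Ψ : Fin G.nX × Fin G.nY → V) (a : Fin G.nX → V) (b : Fin G.nY → V)
    (rep : Fin G.nX × Fin G.nY → Fin G.nX × Fin G.nY)
    (hrep : ∀ w, rep w ∈ G.supportComponent w) :
    ∑ w : Fin G.nX × Fin G.nY, G.prob w.1 w.2 * ‖Ψ w - Ψ (rep w)‖ ^ 2 ≤
      κ * (∑ w : Fin G.nX × Fin G.nY, G.prob w.1 w.2 * ‖Ψ w - a w.1‖ ^ 2 +
        ∑ w : Fin G.nX × Fin G.nY, G.prob w.1 w.2 * ‖Ψ w - b w.2‖ ^ 2) := by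
  classical
  have hκ0 := kappa_nonneg hκ
  set μ : Fin G.nX × Fin G.nY → ℝ := fun w => G.prob w.1 w.2 with hμ
  have hμ0 : ∀ w, 0 ≤ μ w := fun w => G.prob_nonneg _ _
  set C := G.supportComponent with hC
  set M : Fin G.nX × Fin G.nY → ℝ := fun w => ∑ u ∈ C w, μ u with hM
  set e : Fin G.nX × Fin G.nY → ℝ := fun u => Real.sqrt (‖Ψ u - a u.1‖ ^ 2 + ‖Ψ u - b u.2‖ ^ 2) with he
  have he0 : ∀ u, 0 ≤ e u := fun u => Real.sqrt_nonneg _
  have hesq : ∀ u, e u ^ 2 = ‖Ψ u - a u.1‖ ^ 2 + ‖Ψ u - b u.2‖ ^ 2 := fun u =>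
    Real.sq_sqrt (by positivity)
  have hea : ∀ u, ‖Ψ u - a u.1‖ ≤ e u := fun u => by
    refine Real.le_sqrt_of_sq_le ?_
    nlinarith [sq_nonneg ‖Ψ u - b u.2‖]
  have heb : ∀ u, ‖Ψ u - b u.2‖ ≤ e u := fun u => by
    refine Real.le_sqrt_of_sq_le ?_
    nlinarith [sq_nonneg ‖Ψ u - a u.1‖]
  have hadj : ∀ u w, G.supportGraph.Adj u w → ‖Ψ u - Ψ w‖ ≤ e u + e w := by
    intro u w h
    rcases h.2.2.2 with h1 | h1
    · have h2 : ‖Ψ u - Ψ w‖ ≤ ‖Ψ u - a u.1‖ + ‖a u.1 - Ψ w‖ := norm_sub_le_norm_sub_add_norm_sub _ _ _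
      have h3 : ‖a u.1 - Ψ w‖ ≤ e w := by
        rw [norm_sub_rev, h1]; exact hea w
      linarith [hea u]
    · have h2 : ‖Ψ u - Ψ w‖ ≤ ‖Ψ u - b u.2‖ + ‖b u.2 - Ψ w‖ := norm_sub_le_norm_sub_add_norm_sub _ _ _
      have h3 : ‖b u.2 - Ψ w‖ ≤ e w := by
        rw [norm_sub_rev, h1]; exact heb w
      linarith [heb u]
  -- one pair
  have hone : ∀ w, 0 < μ w → M w * ‖Ψ w - Ψ (rep w)‖ ^ 2 ≤ κ * ∑ u ∈ C w, μ u * e u ^ 2 := by
    intro w hw
    have hM0 : 0 ≤ M w := Finset.sum_nonneg fun u _ => hμ0 u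
    have hmem : w ∈ C w := mem_component_self w
    have hcard : 1 ≤ (C w).card := Finset.card_pos.2 ⟨w, hmem⟩
    have hnorm := component_norm Ψ e hadj he0 (hrep w)
    have hbound : ‖Ψ w - Ψ (rep w)‖ ^ 2 ≤ 8 * ((C w).card - 1 : ℝ) * ∑ u ∈ C w, e u ^ 2 := by
      rcases Nat.eq_or_lt_of_le hcard with h1 | h1
      · obtain ⟨x, hx⟩ := Finset.card_eq_one.1 h1.symm
        have h2 : w = x := by rw [hx] at hmem; exact Finset.mem_singleton.1 hmem
        have h3 : rep w = x := by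
          have := hrep w
          rw [hx] at this
          exact Finset.mem_singleton.1 this
        have h4 : rep w = w := by rw [h3, h2]
        rw [h4, ← h1]
        simp
      · have h2 : (2 : ℝ) ≤ (C w).card := by exact_mod_cast h1
        have h3 : (∑ u ∈ C w, e u) ^ 2 ≤ (C w).card * ∑ u ∈ C w, e u ^ 2 := sq_sum_le_card_mul_sum_sq
        have h4 : ‖Ψ w - Ψ (rep w)‖ ^ 2 ≤ (2 * ∑ u ∈ C w, e u) ^ 2 :=
          pow_le_pow_left₀ (norm_nonneg _) hnorm 2
        have h5 : 0 ≤ ∑ u ∈ C w, e u ^ 2 := Finset.sum_nonneg fun u _ => sq_nonneg _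
        nlinarith
    calc M w * ‖Ψ w - Ψ (rep w)‖ ^ 2 ≤ M w * (8 * ((C w).card - 1 : ℝ) * ∑ u ∈ C w, e u ^ 2) := by
          gcongr
      _ = ∑ u ∈ C w, (8 * ((C w).card - 1 : ℝ) * M w) * e u ^ 2 := by
          rw [← Finset.mul_sum]; ring
      _ ≤ ∑ u ∈ C w, (κ * μ u) * e u ^ 2 :=
          Finset.sum_le_sum fun u hu => mul_le_mul_of_nonneg_right (hκ w hw u hu) (sq_nonneg _)
      _ = _ := by
          rw [Finset.mul_sum]
          exact Finset.sum_congr rfl fun u _ => by ring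
  have hMpos : ∀ w, 0 < μ w → 0 < M w := fun w hw =>
    hw.trans_le (Finset.single_le_sum (f := μ) (fun u _ => hμ0 u) (mem_component_self w))
  have hterm : ∀ w, μ w * ‖Ψ w - Ψ (rep w)‖ ^ 2 ≤
      ∑ u, (if u ∈ C w then μ w / M w else 0) * (κ * (μ u * e u ^ 2)) := by
    intro w
    rcases (hμ0 w).eq_or_lt with h | h
    · rw [← h, zero_mul]
      refine Finset.sum_nonneg fun u _ => ?_
      rw [zero_div, ite_self, zero_mul]
    · have h1 := hone w h
      have h2 := hMpos w h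
      have h3 : ∑ u, (if u ∈ C w then μ w / M w else 0) * (κ * (μ u * e u ^ 2)) =
          μ w / M w * (κ * ∑ u ∈ C w, μ u * e u ^ 2) := by
        simp_rw [ite_mul, zero_mul]
        rw [← Finset.sum_filter, Finset.filter_mem_eq_inter, Finset.univ_inter, Finset.mul_sum,
          Finset.mul_sum]
      rw [h3]
      calc μ w * ‖Ψ w - Ψ (rep w)‖ ^ 2 = μ w / M w * (M w * ‖Ψ w - Ψ (rep w)‖ ^ 2) := by
            field_simp
        _ ≤ _ := by gcongr
  have hcol : ∀ u, (∑ w, if u ∈ C w then μ w / M w else 0) * (κ * (μ u * e u ^ 2)) ≤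
      κ * (μ u * e u ^ 2) := by
    intro u
    rcases (hμ0 u).eq_or_lt with h | h
    · rw [← h]; simp
    · have h1 : ∀ w, (if u ∈ C w then μ w / M w else 0) = if w ∈ C u then μ w / M u else 0 := by
        intro w
        by_cases hw : u ∈ C w
        · have h2 : C u = C w := component_eq hw
          have h3 : w ∈ C u := by rw [h2]; exact mem_component_self w
          rw [if_pos hw, if_pos h3]
          simp only [hM, h2]
        · have h3 : w ∉ C u := fun h4 => hw (by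
            have h5 : C w = C u := component_eq h4
            rw [h5]; exact mem_component_self u)
          rw [if_neg hw, if_neg h3]
      simp_rw [h1]
      rw [← Finset.sum_filter, Finset.filter_mem_eq_inter, Finset.univ_inter, ← Finset.sum_div,
        div_self (hMpos u h).ne', one_mul]
  calc ∑ w, μ w * ‖Ψ w - Ψ (rep w)‖ ^ 2 ≤
        ∑ w, ∑ u, (if u ∈ C w then μ w / M w else 0) * (κ * (μ u * e u ^ 2)) :=
        Finset.sum_le_sum fun w _ => hterm w
    _ = ∑ u, (∑ w, if u ∈ C w then μ w / M w else 0) * (κ * (μ u * e u ^ 2)) := by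
        rw [Finset.sum_comm]
        exact Finset.sum_congr rfl fun u _ => by rw [Finset.sum_mul]
    _ ≤ ∑ u, κ * (μ u * e u ^ 2) := Finset.sum_le_sum fun u _ => hcol u
    _ = _ := by
        rw [← Finset.mul_sum, ← Finset.sum_add_distrib]
        congr 1
        refine Finset.sum_congr rfl fun u _ => ?_
        rw [hesq u]
        ring

end Crest.Agent.NG
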