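import Crest.Agent.NG.Trials
import Crest.Agent.NG.Walk

/-!
Chunk R342-D2 (`sim_components`). Given `LocalData` with `(m, E, F, Ψ, a', b')`.
For a finset `s` of pairs choose `argmin` of `nsq (Ψ u)`, `rep w := argmin (supportComponent w)`
(depends only on the component; `component_eq`), so `nsq (Ψ (rep w)) ≤ nsq (Ψ w)`.
Alice's block `rX x`: `rep (x,y)` for some `y` with `μ x y > 0` (any choice gives the same pair by
`component_eq_of_adj`), none if there is no such `y`; same for Bob: `rX x = rY y = rep (x,y)` when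
`μ x y > 0`. `trials_kraus` with index type `l = (X × Y) × m` (or `m × (X × Y)`), `S` = block
diagonal with block `u` equal to `Ψ u` if `u` is a representative (`rep u = u`), else `0`;
`W x` selects the block `rX x` (`W x i (u, j) = if u = rX x ∧ i = j then 1 else 0`), `V y` same.
(If `S = 0` then all `Ψ (rep w) = 0` and the bound is trivial.)
For `μ x y > 0`: `W x S V y = Ψ (rep (x,y)) =: Φ`, denominator `nsq Φ + nsq Φ - nsq Φ = nsq Φ`. So
`∑ μ winQ(Φ_xy)/nsq(Φ_xy) ≤ v`. Then
`∑ μ winQ(Ψ) ≤ ∑ μ winQ(Φ) + ∑ μ ‖Ψ-Φ‖(‖Ψ‖+‖Φ‖)` (`winQ_sub_le`),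
`winQ Φ = nsq Φ * (winQ Φ / nsq Φ) ≤ winQ Φ/nsq Φ + max (nsq Φ - 1) 0`, `nsq Φ ≤ nsq Ψ`,
`μ * max (nsq Ψ - 1) 0 = max (J - μ) 0`; Cauchy-Schwarz:
`∑ μ ‖Ψ-Φ‖ * 2‖Ψ‖ ≤ 2 √(∑ μ ‖Ψ-Φ‖²) √(∑ μ nsq Ψ) = 2 √(...)`, and `component_walk`
(apply it in `EuclideanSpace`, or any seminormed structure on matrices with `‖X‖² = nsq X`, e.g.
`Matrix.frobeniusSeminormedAddCommGroup`).
-/

set_option autoImplicit false

namespace Crest.Agent.NG
open Matrix Complex Crest.MathPhysics.NonlocalGame
open scoped ComplexOrder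

namespace Sim537Aux

/-- the minimiser of `f` on a nonempty finset -/
private noncomputable def argm {α : Type} (f : α → ℝ) (s : Finset α) (h : s.Nonempty) : α :=
  (s.exists_min_image f h).choose

private theorem argm_mem {α : Type} (f : α → ℝ) (s : Finset α) (h : s.Nonempty) :
    argm f s h ∈ s := (s.exists_min_image f h).choose_spec.1

private theorem argm_le {α : Type} (f : α → ℝ) (s : Finset α) (h : s.Nonempty) {u : α}
    (hu : u ∈ s) : f (argm f s h) ≤ f u := (s.exists_min_image f h).choose_spec.2 u hu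

private theorem argm_congr {α : Type} (f : α → ℝ) {s s' : Finset α} (h : s.Nonempty)
    (h' : s'.Nonempty) (e : s = s') : argm f s h = argm f s' h' := by
  subst e; rfl

open scoped Matrix.Norms.Frobenius in
/-- the Frobenius norm -/
private theorem norm_sq_eq {m : Type} [Fintype m] (X : Matrix m m ℂ) : ‖X‖ ^ 2 = nsq X := by
  rw [Matrix.frobenius_norm_def, ← Real.sqrt_eq_rpow, Real.sq_sqrt]
  · unfold nsq
    refine Finset.sum_congr rfl fun i _ => Finset.sum_congr rfl fun j _ => ?_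
    rw [Real.rpow_two]
  · exact Finset.sum_nonneg fun _ _ => Finset.sum_nonneg fun _ _ => by positivity

section blocks
variable {P m : Type} [Fintype P] [DecidableEq P] [Fintype m] [DecidableEq m]

/-- block diagonal matrix -/
private def SB (Ψ : P → Matrix m m ℂ) : Matrix (P × m) (P × m) ℂ :=
  Matrix.of fun p q => if p.1 = q.1 then Ψ p.1 p.2 q.2 else 0

/-- block selector -/
private def WB (o : Option P) : Matrix m (P × m) ℂ :=
  Matrix.of fun i q => if o = some q.1 ∧ i = q.2 then 1 else 0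

private theorem WB_mul (u : P) (Ψ : P → Matrix m m ℂ) (i : m) (q : P × m) :
    ((WB (some u) : Matrix m (P × m) ℂ) * SB Ψ) i q = if u = q.1 then Ψ u i q.2 else 0 := by
  rw [Matrix.mul_apply, Finset.sum_eq_single (u, i)]
  · simp [WB, SB]
  · intro p _ hp
    have : ¬ (some u = some p.1 ∧ i = p.2) := by
      rintro ⟨h1, h2⟩
      exact hp (Prod.ext (Option.some.inj h1).symm h2.symm)
    simp only [WB, Matrix.of_apply]
    rw [if_neg this, zero_mul]
  · intro h; exact absurd (Finset.mem_univ _) h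

private theorem mul_WB (u : P) (Ψ : P → Matrix m m ℂ) (q : P × m) (j : m) :
    (SB Ψ * (WB (some u) : Matrix m (P × m) ℂ)ᴴ) q j = if q.1 = u then Ψ u q.2 j else 0 := by
  rw [Matrix.mul_apply, Finset.sum_eq_single (u, j)]
  · simp only [WB, SB, Matrix.conjTranspose_apply, Matrix.of_apply]
    by_cases h : q.1 = u
    · simp [h]
    · simp [h]
  · intro p _ hp
    have : ¬ (some u = some p.1 ∧ j = p.2) := by
      rintro ⟨h1, h2⟩
      exact hp (Prod.ext (Option.some.inj h1).symm h2.symm)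
    simp only [WB, Matrix.of_apply, Matrix.conjTranspose_apply]
    rw [if_neg this, star_zero, mul_zero]
  · intro h; exact absurd (Finset.mem_univ _) h

private theorem WB_mul_mul (u : P) (Ψ : P → Matrix m m ℂ) :
    (WB (some u) : Matrix m (P × m) ℂ) * SB Ψ * (WB (some u) : Matrix m (P × m) ℂ)ᴴ = Ψ u := by
  ext i j
  rw [Matrix.mul_apply, Finset.sum_eq_single (u, j)]
  · rw [WB_mul]
    simp [WB]
  · intro p _ hp
    have : ¬ (some u = some p.1 ∧ j = p.2) := by
      rintro ⟨h1, h2⟩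
      exact hp (Prod.ext (Option.some.inj h1).symm h2.symm)
    simp only [WB, Matrix.of_apply, Matrix.conjTranspose_apply]
    rw [if_neg this, star_zero, mul_zero]
  · intro h; exact absurd (Finset.mem_univ _) h

private theorem nsq_WB_mul (u : P) (Ψ : P → Matrix m m ℂ) :
    nsq ((WB (some u) : Matrix m (P × m) ℂ) * SB Ψ) = nsq (Ψ u) := by
  unfold nsq
  refine Finset.sum_congr rfl fun i _ => ?_
  simp only [WB_mul]
  rw [Fintype.sum_prod_type, Finset.sum_eq_single u]
  · simp
  · intro v _ hv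
    refine Finset.sum_eq_zero fun j _ => ?_
    rw [if_neg (Ne.symm hv)]
    simp
  · intro h; exact absurd (Finset.mem_univ _) h

private theorem nsq_mul_WB (u : P) (Ψ : P → Matrix m m ℂ) :
    nsq (SB Ψ * (WB (some u) : Matrix m (P × m) ℂ)ᴴ) = nsq (Ψ u) := by
  unfold nsq
  simp only [mul_WB]
  rw [Fintype.sum_prod_type, Finset.sum_eq_single u]
  · simp
  · intro v _ hv
    refine Finset.sum_eq_zero fun j _ => ?_
    simp [hv]
  · intro h; exact absurd (Finset.mem_univ _) h

omit [Fintype P] in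
private theorem WB_contr (o : Option P) :
    (1 - (WB o : Matrix m (P × m) ℂ)ᴴ * (WB o : Matrix m (P × m) ℂ)).PosSemidef := by
  have h : (1 - (WB o : Matrix m (P × m) ℂ)ᴴ * (WB o : Matrix m (P × m) ℂ)) =
      Matrix.diagonal (fun q : P × m => if o = some q.1 then (0 : ℂ) else 1) := by
    ext p q
    rw [Matrix.sub_apply, Matrix.mul_apply]
    simp only [Matrix.conjTranspose_apply, WB, Matrix.of_apply]
    by_cases hpq : p = q
    · subst hpq
      rw [Matrix.one_apply_eq, Matrix.diagonal_apply_eq]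
      by_cases ho : o = some p.1
      · simp [ho]
      · simp [ho]
    · rw [Matrix.one_apply_ne hpq, Matrix.diagonal_apply_ne _ hpq]
      rw [Finset.sum_eq_zero, sub_zero]
      intro i _
      by_cases h1 : o = some p.1 ∧ i = p.2
      · have h2 : ¬ (o = some q.1 ∧ i = q.2) := by
          rintro ⟨h2, h3⟩
          refine hpq (Prod.ext ?_ ?_)
          · exact Option.some.inj (h1.1.symm.trans h2)
          · rw [← h1.2, h3]
        rw [if_neg h2, mul_zero]
      · rw [if_neg h1, star_zero, zero_mul]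
  rw [h]
  refine Matrix.PosSemidef.diagonal fun q => ?_
  simp only [Pi.zero_apply]
  split_ifs
  · exact le_rfl
  · exact zero_le_one

end blocks

end Sim537Aux

open Sim537Aux

theorem sim_components {G : Game} {v κ : ℝ} (hv : ValBound G v) (hκ : KappaHyp G κ)
    (hA : 0 < G.nA) (hB : 0 < G.nB)
    {J : Fin G.nX → Fin G.nY → ℝ} {wn εA εB : ℝ} (h : LocalData G J wn εA εB)
    (hJ : ∑ x, ∑ y, J x y = 1) :
    wn ≤ v + ∑ x, ∑ y, max (J x y - G.prob x y) 0 + 2 * Real.sqrt (κ * (εA + εB)) := by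
  classical
  obtain ⟨m, _, _, E, F, Ψ, a', b', hE, hF, hΨJ, hwn, hεA, hεB⟩ := h
  have hκ0 := kappa_nonneg hκ
  -- representatives
  set ΨP : Fin G.nX × Fin G.nY → Matrix m m ℂ := fun u => Ψ u.1 u.2 with hΨP
  set rep : Fin G.nX × Fin G.nY → Fin G.nX × Fin G.nY := fun w =>
    argm (fun u => nsq (ΨP u)) (G.supportComponent w) ⟨w, mem_component_self w⟩ with hrep
  have hrep_mem : ∀ w, rep w ∈ G.supportComponent w := fun w => argm_mem _ _ _
  have hrep_le : ∀ w, nsq (ΨP (rep w)) ≤ nsq (ΨP w) := fun w =>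
    argm_le (fun u => nsq (ΨP u)) _ _ (mem_component_self w)
  have hrep_adj : ∀ z w : Fin G.nX × Fin G.nY, 0 < G.prob z.1 z.2 → 0 < G.prob w.1 w.2 →
      (z.1 = w.1 ∨ z.2 = w.2) → rep z = rep w := fun z w hz hw hzw =>
    argm_congr _ _ _ (component_eq_of_adj hz hw hzw).symm
  set rX : Fin G.nX → Option (Fin G.nX × Fin G.nY) := fun x =>
    if h : ∃ y, 0 < G.prob x y then some (rep (x, h.choose)) else none with hrX
  set rY : Fin G.nY → Option (Fin G.nX × Fin G.nY) := fun y =>
    if h : ∃ x, 0 < G.prob x y then some (rep (h.choose, y)) else none with hrY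
  have hrX' : ∀ x y, 0 < G.prob x y → rX x = some (rep (x, y)) := by
    intro x y hxy
    have hex : ∃ y, 0 < G.prob x y := ⟨y, hxy⟩
    simp only [hrX]
    rw [dif_pos hex]
    congr 1
    exact hrep_adj _ _ hex.choose_spec hxy (Or.inl rfl)
  have hrY' : ∀ x y, 0 < G.prob x y → rY y = some (rep (x, y)) := by
    intro x y hxy
    have hex : ∃ x, 0 < G.prob x y := ⟨x, hxy⟩
    simp only [hrY]
    rw [dif_pos hex]
    congr 1
    exact hrep_adj _ _ hex.choose_spec hxy (Or.inr rfl)
  set S : Matrix ((Fin G.nX × Fin G.nY) × m) ((Fin G.nX × Fin G.nY) × m) ℂ := SB ΨP with hS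
  -- `S ≠ 0`
  have hS0 : S ≠ 0 := by
    intro h0
    have h1 : ∀ x y, J x y = 0 := by
      intro x y
      have h2 : Ψ x y = 0 := by
        ext i j
        have h3 := congrFun (congrFun h0 ((x, y), i)) ((x, y), j)
        simpa [hS, SB, hΨP] using h3
      rw [← hΨJ, h2]
      simp [nsq]
    simp [h1] at hJ
  have hkr := trials_kraus hv hA hB S hS0 E F hE hF (fun x => WB (rX x)) (fun y => (WB (rY y))ᴴ)
    (fun x => WB_contr _) (fun y => by
      rw [Matrix.conjTranspose_conjTranspose]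
      exact WB_contr _)
  -- the main term
  have hmain : ∑ x, ∑ y, G.prob x y * (winQ G E F (ΨP (rep (x, y))) x y /
      nsq (ΨP (rep (x, y)))) ≤ v := by
    refine le_trans (le_of_eq ?_) hkr
    refine Finset.sum_congr rfl fun x _ => Finset.sum_congr rfl fun y _ => ?_
    rcases (G.prob_nonneg x y).eq_or_lt with h0 | h0
    · rw [← h0, zero_mul, zero_mul]
    · rw [hrX' x y h0, hrY' x y h0]
      simp only [hS]
      rw [WB_mul_mul, nsq_WB_mul, nsq_mul_WB, add_sub_cancel_right]
  -- pointwise estimate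
  have hpt : ∀ x y, G.prob x y * winQ G E F (Ψ x y) x y ≤
      G.prob x y * (winQ G E F (ΨP (rep (x, y))) x y / nsq (ΨP (rep (x, y)))) +
        max (J x y - G.prob x y) 0 +
        2 * (G.prob x y * (Real.sqrt (nsq (Ψ x y - ΨP (rep (x, y)))) *
          Real.sqrt (nsq (Ψ x y)))) := by
    intro x y
    have hμ := G.prob_nonneg x y
    set Φ := ΨP (rep (x, y)) with hΦ
    have hle : nsq Φ ≤ nsq (Ψ x y) := hrep_le (x, y)
    have h1 := winQ_sub_le (G := G) hE hF (Ψ x y) Φ x y
    have h2 : Real.sqrt (nsq Φ) ≤ Real.sqrt (nsq (Ψ x y)) := Real.sqrt_le_sqrt hle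
    have h3 : Real.sqrt (nsq (Ψ x y - Φ)) * (Real.sqrt (nsq (Ψ x y)) + Real.sqrt (nsq Φ)) ≤
        2 * (Real.sqrt (nsq (Ψ x y - Φ)) * Real.sqrt (nsq (Ψ x y))) := by
      have := mul_le_mul_of_nonneg_left h2 (Real.sqrt_nonneg (nsq (Ψ x y - Φ)))
      linarith
    have h4 := winQ_nonneg (G := G) hE hF Φ x y
    have h5 := winQ_le_nsq (G := G) hE hF Φ x y
    have h6 : winQ G E F Φ x y ≤ winQ G E F Φ x y / nsq Φ + max (nsq (Ψ x y) - 1) 0 := by
      have hn := nsq_nonneg Φ
      rcases hn.eq_or_lt with hn0 | hn0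
      · rw [← hn0] at h5 ⊢
        have : winQ G E F Φ x y = 0 := le_antisymm h5 h4
        rw [this, zero_div, zero_add]
        exact le_max_right _ _
      · set p := winQ G E F Φ x y / nsq Φ with hp
        have hp0 : 0 ≤ p := div_nonneg h4 hn
        have hp1 : p ≤ 1 := (div_le_one hn0).2 h5
        have e1 : winQ G E F Φ x y = nsq Φ * p := by
          rw [hp]; field_simp
        rw [e1]
        have h7 : nsq Φ * p ≤ p + (nsq Φ - 1) * p := by linarith [sub_mul (nsq Φ) 1 p]
        have h8 : (nsq Φ - 1) * p ≤ max (nsq (Ψ x y) - 1) 0 := by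
          rcases le_or_gt 0 (nsq Φ - 1) with h9 | h9
          · calc (nsq Φ - 1) * p ≤ (nsq Φ - 1) * 1 := mul_le_mul_of_nonneg_left hp1 h9
              _ ≤ nsq (Ψ x y) - 1 := by linarith
              _ ≤ _ := le_max_left _ _
          · exact (mul_nonpos_of_nonpos_of_nonneg h9.le hp0).trans (le_max_right _ _)
        linarith
    have h7 : G.prob x y * max (nsq (Ψ x y) - 1) 0 = max (J x y - G.prob x y) 0 := by
      rw [mul_max_of_nonneg _ _ hμ, mul_zero, mul_sub, mul_one, hΨJ]
    have h8 : winQ G E F (Ψ x y) x y ≤ winQ G E F Φ x y / nsq Φ + max (nsq (Ψ x y) - 1) 0 +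
        2 * (Real.sqrt (nsq (Ψ x y - Φ)) * Real.sqrt (nsq (Ψ x y))) := by linarith
    calc G.prob x y * winQ G E F (Ψ x y) x y
        ≤ G.prob x y * (winQ G E F Φ x y / nsq Φ + max (nsq (Ψ x y) - 1) 0 +
          2 * (Real.sqrt (nsq (Ψ x y - Φ)) * Real.sqrt (nsq (Ψ x y)))) :=
          mul_le_mul_of_nonneg_left h8 hμ
      _ = _ := by rw [mul_add, mul_add, h7]; ring
  -- Cauchy-Schwarz
  have hCS : ∑ x, ∑ y, G.prob x y * (Real.sqrt (nsq (Ψ x y - ΨP (rep (x, y)))) *
      Real.sqrt (nsq (Ψ x y))) ≤ Real.sqrt (κ * (εA + εB)) := by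
    have h1 : ∑ x, ∑ y, G.prob x y * (Real.sqrt (nsq (Ψ x y - ΨP (rep (x, y)))) *
        Real.sqrt (nsq (Ψ x y))) =
        ∑ w : Fin G.nX × Fin G.nY, Real.sqrt (G.prob w.1 w.2 * nsq (ΨP w - ΨP (rep w))) *
          Real.sqrt (G.prob w.1 w.2 * nsq (ΨP w)) := by
      rw [Fintype.sum_prod_type]
      refine Finset.sum_congr rfl fun x _ => Finset.sum_congr rfl fun y _ => ?_
      have hμ := G.prob_nonneg x y
      rw [Real.sqrt_mul hμ, Real.sqrt_mul hμ]
      have : G.prob x y = Real.sqrt (G.prob x y) * Real.sqrt (G.prob x y) :=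
        (Real.mul_self_sqrt hμ).symm
      simp only [hΨP]
      calc G.prob x y * (Real.sqrt (nsq (Ψ x y - Ψ (rep (x, y)).1 (rep (x, y)).2)) *
            Real.sqrt (nsq (Ψ x y)))
          = (Real.sqrt (G.prob x y) * Real.sqrt (G.prob x y)) *
            (Real.sqrt (nsq (Ψ x y - Ψ (rep (x, y)).1 (rep (x, y)).2)) *
            Real.sqrt (nsq (Ψ x y))) := by rw [← this]
        _ = _ := by ring
    have h2 : ∑ w : Fin G.nX × Fin G.nY, G.prob w.1 w.2 * nsq (ΨP w) = 1 := by
      rw [Fintype.sum_prod_type, ← hJ]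
      exact Finset.sum_congr rfl fun x _ => Finset.sum_congr rfl fun y _ => hΨJ x y
    have h3 : ∑ w : Fin G.nX × Fin G.nY, G.prob w.1 w.2 * nsq (ΨP w - ΨP (rep w)) ≤
        κ * (εA + εB) := by
      letI := Matrix.frobeniusSeminormedAddCommGroup (m := m) (n := m) (α := ℂ)
      have hw := component_walk hκ ΨP a' b' rep hrep_mem
      have hn : ∀ X : Matrix m m ℂ, ‖X‖ ^ 2 = nsq X := fun X => norm_sq_eq X
      simp only [hn] at hw
      refine hw.trans (mul_le_mul_of_nonneg_left (add_le_add ?_ ?_) hκ0)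
      · rw [Fintype.sum_prod_type]; exact hεA
      · rw [Fintype.sum_prod_type]; exact hεB
    rw [h1]
    refine (Real.sum_sqrt_mul_sqrt_le _ (fun w => mul_nonneg (G.prob_nonneg _ _) (nsq_nonneg _))
      (fun w => mul_nonneg (G.prob_nonneg _ _) (nsq_nonneg _))).trans ?_
    rw [h2, Real.sqrt_one, mul_one]
    exact Real.sqrt_le_sqrt h3
  -- conclusion
  have hsum : wn ≤ ∑ x, ∑ y, (G.prob x y * (winQ G E F (ΨP (rep (x, y))) x y /
      nsq (ΨP (rep (x, y)))) + max (J x y - G.prob x y) 0 +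
        2 * (G.prob x y * (Real.sqrt (nsq (Ψ x y - ΨP (rep (x, y)))) *
          Real.sqrt (nsq (Ψ x y))))) := by
    rw [← hwn]
    exact Finset.sum_le_sum fun x _ => Finset.sum_le_sum fun y _ => hpt x y
  simp only [Finset.sum_add_distrib, ← Finset.mul_sum] at hsum
  linarith

end Crest.Agent.NG
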