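import Crest.Agent.NG.Bridge
import Crest.Agent.NG.Sim537
import Crest.Agent.NG.TV

/-!
Chunk R342-A1 (`avg537`): sum over the coordinates outside `C`.
`ΔA i, ΔB i ≥ 0` (from `LocalData` for all `η`, `nsq ≥ 0`); `sim_components` for every `η > 0`,
let `η → 0`: `pwin i ≤ v + TV_i + 2 √(κ (ΔA i + ΔB i))`; `tv_sum` (with `g = gz S C`, `Z = PW`),
Cauchy-Schwarz `∑_{i∉C} √(c_i) ≤ √(n ∑ c_i)`, `n = k - |C|`; `log nA + log nB = log (nA nB)`.
-/

set_option autoImplicit false

namespace Crest.Agent.NG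
open Matrix Complex Crest.MathPhysics.NonlocalGame
open scoped ComplexOrder

variable {G : Game} {k d : ℕ}

theorem localData_nonneg {J : Fin G.nX → Fin G.nY → ℝ} {wn εA εB : ℝ}
    (h : LocalData G J wn εA εB) : 0 ≤ εA ∧ 0 ≤ εB := by
  obtain ⟨m, hm, hdm, E, F, Ψ, a', b', -, -, -, -, hA, hB⟩ := h
  constructor
  · refine le_trans ?_ hA
    refine Finset.sum_nonneg fun x _ => Finset.sum_nonneg fun y _ => ?_
    exact mul_nonneg (G.prob_nonneg x y)
      (Finset.sum_nonneg fun i _ => Finset.sum_nonneg fun j _ => by positivity)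
  · refine le_trans ?_ hB
    refine Finset.sum_nonneg fun x _ => Finset.sum_nonneg fun y _ => ?_
    exact mul_nonneg (G.prob_nonneg x y)
      (Finset.sum_nonneg fun i _ => Finset.sum_nonneg fun j _ => by positivity)

theorem sum_sqrt_le_sqrt_card_mul {ι : Type} (s : Finset ι) (c : ι → ℝ) (κ : ℝ)
    (hc : ∀ i ∈ s, 0 ≤ c i) :
    ∑ i ∈ s, Real.sqrt (κ * c i) ≤ Real.sqrt (κ * (s.card * ∑ i ∈ s, c i)) := by
  rcases le_or_gt 0 κ with hκ | hκ
  · apply Real.le_sqrt_of_sq_le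
    have h1 := sq_sum_le_card_mul_sum_sq (s := s) (f := fun i => Real.sqrt (κ * c i))
    refine h1.trans ?_
    have h2 : ∑ i ∈ s, Real.sqrt (κ * c i) ^ 2 = κ * ∑ i ∈ s, c i := by
      rw [Finset.mul_sum]
      refine Finset.sum_congr rfl fun i hi => ?_
      rw [Real.sq_sqrt (mul_nonneg hκ (hc i hi))]
    rw [h2]
    exact le_of_eq (by ring)
  · have h1 : ∀ i ∈ s, Real.sqrt (κ * c i) = 0 := fun i hi =>
      Real.sqrt_eq_zero_of_nonpos (mul_nonpos_of_nonpos_of_nonneg hκ.le (hc i hi))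
    rw [Finset.sum_eq_zero h1]
    exact Real.sqrt_nonneg _

theorem avg537 {v κ : ℝ} (hv : ValBound G v) (hκ : KappaHyp G κ) (hA : 0 < G.nA) (hB : 0 < G.nB)
    (S : Strategy G k d d) (hS : Nondeg S) (C : Finset (Fin k)) :
    ∑ i ∈ Finset.univ.filter (fun i : Fin k => i ∉ C), pwin S C i ≤
      ((k : ℝ) - C.card) * v +
      2 * Real.sqrt (((k : ℝ) - C.card) * Real.log (1 / PW S C)) +
      2 * Real.sqrt (κ * (((k : ℝ) - C.card) * (2 * Real.log (1 / PW S C) +
        C.card * Real.log ((G.nA * G.nB : ℕ) : ℝ)))) := by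
  classical
  obtain ⟨ΔA, ΔB, hsA, hsB, hloc⟩ := bridge S hS C
  set I : Finset (Fin k) := Finset.univ.filter (fun i : Fin k => i ∉ C) with hI
  have hmem : ∀ i ∈ I, i ∉ C := fun i hi => by simpa [hI] using hi
  have hcard : (I.card : ℝ) = (k : ℝ) - C.card := by
    have h1 : I = Finset.univ \ C := by
      ext i; simp [hI]
    have h2 : I.card = k - C.card := by
      rw [h1, Finset.card_sdiff_of_subset (Finset.subset_univ _), Finset.card_univ, Fintype.card_fin]
    have h3 : C.card ≤ k := by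
      simpa using Finset.card_le_univ C
    rw [h2, Nat.cast_sub h3]
  have hnnA : ∀ i ∈ I, 0 ≤ ΔA i := fun i hi =>
    le_of_forall_pos_le_add fun η hη => (localData_nonneg (hloc i (hmem i hi) η hη)).1
  have hnnB : ∀ i ∈ I, 0 ≤ ΔB i := fun i hi =>
    le_of_forall_pos_le_add fun η hη => (localData_nonneg (hloc i (hmem i hi) η hη)).2
  have hstep : ∀ i ∈ I, pwin S C i ≤
      v + ∑ x, ∑ y, max (Jlaw S C i x y - G.prob x y) 0 +
        2 * Real.sqrt (κ * (ΔA i + ΔB i)) := by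
    intro i hi
    have hlim : Filter.Tendsto (fun η : ℝ =>
        v + ∑ x, ∑ y, max (Jlaw S C i x y - G.prob x y) 0 +
          2 * Real.sqrt (κ * ((ΔA i + η) + (ΔB i + η)))) (nhdsWithin 0 (Set.Ioi 0))
        (nhds (v + ∑ x, ∑ y, max (Jlaw S C i x y - G.prob x y) 0 +
          2 * Real.sqrt (κ * ((ΔA i + 0) + (ΔB i + 0))))) := by
      apply Filter.Tendsto.mono_left _ nhdsWithin_le_nhds
      apply Continuous.tendsto (f := fun η : ℝ =>
        v + ∑ x, ∑ y, max (Jlaw S C i x y - G.prob x y) 0 +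
          2 * Real.sqrt (κ * ((ΔA i + η) + (ΔB i + η))))
      fun_prop
    have h1 : pwin S C i ≤ v + ∑ x, ∑ y, max (Jlaw S C i x y - G.prob x y) 0 +
          2 * Real.sqrt (κ * ((ΔA i + 0) + (ΔB i + 0))) := by
      refine ge_of_tendsto hlim ?_
      filter_upwards [self_mem_nhdsWithin] with η hη
      exact sim_components hv hκ hA hB (hloc i (hmem i hi) η hη) (Jlaw_sum S C i)
    simpa using h1
  have htv : ∑ i ∈ I, ∑ x, ∑ y, max (Jlaw S C i x y - G.prob x y) 0 ≤
      2 * Real.sqrt (I.card * Real.log (1 / PW S C)) :=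
    tv_sum (isProb_game G) (gz S C) (gz_nonneg S C) (gz_le_one S C) (PW S C) rfl (PW_pos S C)
      (Jlaw S C) (fun i x y => rfl) I
  have hcs := sum_sqrt_le_sqrt_card_mul I (fun i => ΔA i + ΔB i) κ
    (fun i hi => add_nonneg (hnnA i hi) (hnnB i hi))
  have hlog : Real.log ((G.nA * G.nB : ℕ) : ℝ) = Real.log G.nA + Real.log G.nB := by
    push_cast
    rw [Real.log_mul (by positivity) (by positivity)]
  have hcsum : ∑ i ∈ I, (ΔA i + ΔB i) ≤
      2 * Real.log (1 / PW S C) + C.card * Real.log ((G.nA * G.nB : ℕ) : ℝ) := by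
    rw [Finset.sum_add_distrib, hlog]
    linarith [hsA, hsB]
  have hcs2 : Real.sqrt (κ * (I.card * ∑ i ∈ I, (ΔA i + ΔB i))) ≤
      Real.sqrt (κ * (I.card * (2 * Real.log (1 / PW S C) +
        C.card * Real.log ((G.nA * G.nB : ℕ) : ℝ)))) := by
    rcases le_or_gt 0 κ with hκ0 | hκ0
    · apply Real.sqrt_le_sqrt
      apply mul_le_mul_of_nonneg_left _ hκ0
      exact mul_le_mul_of_nonneg_left hcsum (Nat.cast_nonneg _)
    · rw [Real.sqrt_eq_zero_of_nonpos]
      · exact Real.sqrt_nonneg _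
      · apply mul_nonpos_of_nonpos_of_nonneg hκ0.le
        apply mul_nonneg (Nat.cast_nonneg _)
        exact Finset.sum_nonneg fun i hi => add_nonneg (hnnA i hi) (hnnB i hi)
  calc ∑ i ∈ I, pwin S C i
      ≤ ∑ i ∈ I, (v + ∑ x, ∑ y, max (Jlaw S C i x y - G.prob x y) 0 +
        2 * Real.sqrt (κ * (ΔA i + ΔB i))) := Finset.sum_le_sum hstep
    _ = I.card * v + ∑ i ∈ I, ∑ x, ∑ y, max (Jlaw S C i x y - G.prob x y) 0 +
        2 * ∑ i ∈ I, Real.sqrt (κ * (ΔA i + ΔB i)) := by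
        rw [Finset.sum_add_distrib, Finset.sum_add_distrib, Finset.sum_const, nsmul_eq_mul,
          ← Finset.mul_sum]
    _ ≤ I.card * v + 2 * Real.sqrt (I.card * Real.log (1 / PW S C)) +
        2 * Real.sqrt (κ * (I.card * (2 * Real.log (1 / PW S C) +
        C.card * Real.log ((G.nA * G.nB : ℕ) : ℝ)))) := by
        have := hcs.trans hcs2
        linarith
    _ = _ := by rw [hcard]

end Crest.Agent.NG
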