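import Crest.Agent.NG.WinQ

/-!
Chunk R342-C3 (`bundle`): a family of local data indexed by public records `r` of weight `p r`
is bundled into block diagonal matrices (`Matrix.blockDiagonal`, index type `n × R`):
`Ψ x y = blockDiagonal (fun r => √(p r) • Ψ r x y)`, `E x a = blockDiagonal (fun r => E r x a)`, ...
`nsq (blockDiagonal D) = ∑_r nsq (D r)`, products and conjugate transposes are blockwise, trace is
the sum of the traces.
-/

set_option autoImplicit false
set_option linter.unusedSectionVars false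

namespace Crest.Agent.NG
open Matrix Complex Crest.MathPhysics.NonlocalGame
open scoped ComplexOrder

namespace BundleC

variable {R n : Type} [Fintype R] [Fintype n] [DecidableEq R] [DecidableEq n]

theorem nsq_bd (D : R → Matrix n n ℂ) : nsq (blockDiagonal D) = ∑ r, nsq (D r) := by
  rw [nsq_eq_trace, blockDiagonal_conjTranspose, ← blockDiagonal_mul, trace_blockDiagonal,
    Complex.re_sum]
  exact Finset.sum_congr rfl fun r _ => (nsq_eq_trace (D r)).symm

theorem qf_bd (D P Q : R → Matrix n n ℂ) :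
    qf (blockDiagonal D) (blockDiagonal P) (blockDiagonal Q) = ∑ r, qf (D r) (P r) (Q r) := by
  unfold qf
  rw [blockDiagonal_conjTranspose, ← blockDiagonal_mul, ← blockDiagonal_mul,
    ← blockDiagonal_mul, trace_blockDiagonal, Complex.re_sum]

theorem posSemidef_bd {D : R → Matrix n n ℂ} (h : ∀ r, (D r).PosSemidef) :
    (blockDiagonal D).PosSemidef := by
  choose T hT using fun r => exists_conj_mul_self (h r)
  have e : blockDiagonal D = (blockDiagonal T)ᴴ * blockDiagonal T := by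
    rw [blockDiagonal_conjTranspose, ← blockDiagonal_mul]
    congr 1
    funext r
    exact hT r
  rw [e]
  exact posSemidef_conjTranspose_mul_self _

theorem sum_bd {A : Type} [Fintype A] (D : A → R → Matrix n n ℂ) :
    ∑ a, blockDiagonal (D a) = blockDiagonal (fun r => ∑ a, D a r) := by
  have h := map_sum (blockDiagonalAddMonoidHom n n R ℂ) D Finset.univ
  simp only [blockDiagonalAddMonoidHom_apply] at h
  rw [← h]
  congr 1
  funext r
  simp

theorem povm_bd {A : Type} [Fintype A] {E : R → A → Matrix n n ℂ} (h : ∀ r, IsPOVM (E r)) :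
    IsPOVM (fun a => blockDiagonal (fun r => E r a)) := by
  refine ⟨fun a => posSemidef_bd fun r => (h r).1 a, ?_⟩
  rw [sum_bd]
  simp only [(h _).2]
  exact blockDiagonal_one

theorem qf_smul (c : ℂ) (Ψ P Q : Matrix n n ℂ) : qf (c • Ψ) P Q = ‖c‖ ^ 2 * qf Ψ P Q := by
  unfold qf
  rw [conjTranspose_smul, Matrix.smul_mul, Matrix.smul_mul, Matrix.smul_mul, Matrix.mul_smul,
    Matrix.smul_mul, smul_smul, Matrix.trace_smul, smul_eq_mul]
  have : star c * c = ((‖c‖ ^ 2 : ℝ) : ℂ) := by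
    rw [Complex.star_def, ← Complex.normSq_eq_conj_mul_self, Complex.normSq_eq_norm_sq]
  rw [this, Complex.re_ofReal_mul]

/-- scaled block -/
noncomputable def sc (p : R → ℝ) (D : R → Matrix n n ℂ) : Matrix (n × R) (n × R) ℂ :=
  blockDiagonal (fun r => ((Real.sqrt (p r) : ℝ) : ℂ) • D r)

theorem norm_sqrt_sq {t : ℝ} (h : 0 ≤ t) : ‖((Real.sqrt t : ℝ) : ℂ)‖ ^ 2 = t := by
  rw [Complex.norm_real, Real.norm_eq_abs, sq_abs, Real.sq_sqrt h]

theorem nsq_sc {p : R → ℝ} (hp : ∀ r, 0 ≤ p r) (D : R → Matrix n n ℂ) :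
    nsq (sc p D) = ∑ r, p r * nsq (D r) := by
  unfold sc
  rw [nsq_bd]
  refine Finset.sum_congr rfl fun r _ => ?_
  rw [nsq_smul, norm_sqrt_sq (hp r)]

theorem sc_sub (p : R → ℝ) (D D' : R → Matrix n n ℂ) :
    sc p D - sc p D' = sc p (fun r => D r - D' r) := by
  unfold sc
  rw [← blockDiagonal_sub]
  congr 1
  funext r
  simp [smul_sub]

theorem qf_sc {p : R → ℝ} (hp : ∀ r, 0 ≤ p r) (D P Q : R → Matrix n n ℂ) :
    qf (sc p D) (blockDiagonal P) (blockDiagonal Q) = ∑ r, p r * qf (D r) (P r) (Q r) := by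
  unfold sc
  rw [qf_bd]
  refine Finset.sum_congr rfl fun r _ => ?_
  rw [qf_smul, norm_sqrt_sq (hp r)]

theorem winQ_sc {G : Game} {p : R → ℝ} (hp : ∀ r, 0 ≤ p r)
    (E : R → Fin G.nX → Fin G.nA → Matrix n n ℂ) (F : R → Fin G.nY → Fin G.nB → Matrix n n ℂ)
    (D : R → Matrix n n ℂ) (x : Fin G.nX) (y : Fin G.nY) :
    winQ G (fun x a => blockDiagonal (fun r => E r x a)) (fun y b => blockDiagonal (fun r => F r y b))
      (sc p D) x y = ∑ r, p r * winQ G (E r) (F r) (D r) x y := by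
  unfold winQ
  simp only [Finset.mul_sum]
  symm
  rw [Finset.sum_comm]
  refine Finset.sum_congr rfl fun a _ => ?_
  rw [Finset.sum_comm]
  refine Finset.sum_congr rfl fun b _ => ?_
  split_ifs
  · rw [qf_sc hp]
  · simp

end BundleC

open BundleC in
theorem bundle {G : Game} {R n : Type} [Fintype R] [Fintype n] [DecidableEq R] [DecidableEq n]
    (p : R → ℝ) (hp : ∀ r, 0 ≤ p r)
    (E : R → Fin G.nX → Fin G.nA → Matrix n n ℂ) (F : R → Fin G.nY → Fin G.nB → Matrix n n ℂ)
    (Ψ : R → Fin G.nX → Fin G.nY → Matrix n n ℂ)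
    (a' : R → Fin G.nX → Matrix n n ℂ) (b' : R → Fin G.nY → Matrix n n ℂ)
    (hE : ∀ r x, IsPOVM (E r x)) (hF : ∀ r y, IsPOVM (F r y))
    (J : Fin G.nX → Fin G.nY → ℝ) (wn εA εB : ℝ)
    (hJ : ∀ x y, G.prob x y * ∑ r, p r * nsq (Ψ r x y) = J x y)
    (hwn : ∑ r, p r * ∑ x, ∑ y, G.prob x y * winQ G (E r) (F r) (Ψ r x y) x y = wn)
    (hA : ∑ r, p r * ∑ x, ∑ y, G.prob x y * nsq (Ψ r x y - a' r x) ≤ εA)
    (hB : ∑ r, p r * ∑ x, ∑ y, G.prob x y * nsq (Ψ r x y - b' r y) ≤ εB) :
    LocalData G J wn εA εB := by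
  have hswap : ∀ f : R → Fin G.nX → Fin G.nY → ℝ,
      ∑ x, ∑ y, G.prob x y * ∑ r, p r * f r x y = ∑ r, p r * ∑ x, ∑ y, G.prob x y * f r x y := by
    intro f
    simp only [Finset.mul_sum]
    symm
    rw [Finset.sum_comm]
    refine Finset.sum_congr rfl fun x _ => ?_
    rw [Finset.sum_comm]
    exact Finset.sum_congr rfl fun y _ => Finset.sum_congr rfl fun r _ => by ring
  refine ⟨n × R, inferInstance, inferInstance, fun x a => blockDiagonal (fun r => E r x a),
    fun y b => blockDiagonal (fun r => F r y b), fun x y => sc p (fun r => Ψ r x y),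
    fun x => sc p (fun r => a' r x), fun y => sc p (fun r => b' r y),
    fun x => povm_bd fun r => hE r x, fun y => povm_bd fun r => hF r y, ?_, ?_, ?_, ?_⟩
  · intro x y
    rw [nsq_sc hp]
    exact hJ x y
  · rw [← hwn, ← hswap]
    refine Finset.sum_congr rfl fun x _ => Finset.sum_congr rfl fun y _ => ?_
    rw [winQ_sc hp]
  · refine le_trans (le_of_eq ?_) hA
    rw [← hswap]
    refine Finset.sum_congr rfl fun x _ => Finset.sum_congr rfl fun y _ => ?_
    rw [sc_sub, nsq_sc hp]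
  · refine le_trans (le_of_eq ?_) hB
    rw [← hswap]
    refine Finset.sum_congr rfl fun x _ => Finset.sum_congr rfl fun y _ => ?_
    rw [sc_sub, nsq_sc hp]

end Crest.Agent.NG
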