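import Crest.Agent.NG.Nsq

/-!
Chunk R342-F8: `winQ`. The operator `T : Ψ ↦ ∑_{(a,b) accepted} E_a Ψ F_b` is a positive
semidefinite contraction for the inner product `tr (Φᴴ Ψ)` (all `(a,b)` together sum to the
identity and each summand is positive semidefinite), so `0 ≤ winQ Ψ ≤ nsq Ψ` and
`winQ Ψ - winQ Φ ≤ ‖Ψ-Φ‖ (‖Ψ‖+‖Φ‖)`. For the last one: for a positive semidefinite form
`B ≤ ⟨,⟩`: `√B(Ψ,Ψ) ≤ √B(Φ,Φ) + √B(Ψ-Φ,Ψ-Φ)` (Minkowski; e.g. `winQ Ψ = ∑ nsq (R_a Ψ T_b)`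
with `E_a = R_aᴴR_a`, `F_b = T_bT_bᴴ` is the squared norm of a linear image of `Ψ` in
`EuclideanSpace`), hence `B(Ψ)-B(Φ) = (√B(Ψ)-√B(Φ))(√B(Ψ)+√B(Φ)) ≤ ‖Ψ-Φ‖(‖Ψ‖+‖Φ‖)`.
-/

set_option autoImplicit false

namespace Crest.Agent.NG
open Matrix Complex Crest.MathPhysics.NonlocalGame
open scoped ComplexOrder

variable {n : Type} [Fintype n] [DecidableEq n]

variable {G : Game} {E : Fin G.nX → Fin G.nA → Matrix n n ℂ}
  {F : Fin G.nY → Fin G.nB → Matrix n n ℂ}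

theorem winQ_nonneg (hE : ∀ x, IsPOVM (E x)) (hF : ∀ y, IsPOVM (F y)) (Ψ : Matrix n n ℂ) (x y) :
    0 ≤ winQ G E F Ψ x y := by
  unfold winQ
  refine Finset.sum_nonneg fun a _ => Finset.sum_nonneg fun b _ => ?_
  split_ifs
  · exact qf_nonneg ((hE x).1 a) ((hF y).1 b) Ψ
  · exact le_rfl

theorem winQ_le_nsq (hE : ∀ x, IsPOVM (E x)) (hF : ∀ y, IsPOVM (F y)) (Ψ : Matrix n n ℂ) (x y) :
    winQ G E F Ψ x y ≤ nsq Ψ := by
  have h1 : nsq Ψ = ∑ a, ∑ b, qf Ψ (E x a) (F y b) := by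
    rw [← qf_one_one]
    conv_lhs => arg 2; rw [← (hE x).2]
    rw [qf_sum_left]
    refine Finset.sum_congr rfl fun a _ => ?_
    conv_lhs => rw [← (hF y).2]
    rw [qf_sum_right]
  rw [h1]
  unfold winQ
  refine Finset.sum_le_sum fun a _ => Finset.sum_le_sum fun b _ => ?_
  split_ifs
  · exact le_rfl
  · exact qf_nonneg ((hE x).1 a) ((hF y).1 b) Ψ

omit [DecidableEq n] in
private theorem qf_quad (t : ℝ) (X Y P Q : Matrix n n ℂ) :
    qf ((t : ℂ) • X + Y) P Q = t ^ 2 * qf X P Q +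
      t * (((Xᴴ * P * Y * Q).trace).re + ((Yᴴ * P * X * Q).trace).re) + qf Y P Q := by
  unfold qf
  have h1 : ((t : ℂ) • X + Y)ᴴ = (t : ℂ) • Xᴴ + Yᴴ := by
    rw [conjTranspose_add, conjTranspose_smul]
    simp
  rw [h1]
  simp only [Matrix.add_mul, Matrix.mul_add, Matrix.smul_mul, Matrix.mul_smul, trace_add,
    trace_smul, smul_eq_mul, Complex.add_re, Complex.re_ofReal_mul]
  ring

omit [DecidableEq n] in
private theorem winQ_quad (G : Game) (E : Fin G.nX → Fin G.nA → Matrix n n ℂ)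
    (F : Fin G.nY → Fin G.nB → Matrix n n ℂ) (X Y : Matrix n n ℂ) (x y) :
    ∃ L : ℝ, ∀ t : ℝ, winQ G E F ((t : ℂ) • X + Y) x y =
      t ^ 2 * winQ G E F X x y + t * L + winQ G E F Y x y := by
  refine ⟨∑ a, ∑ b, if G.accept x y a b = true then
    (((Xᴴ * E x a * Y * F y b).trace).re + ((Yᴴ * E x a * X * F y b).trace).re) else 0,
    fun t => ?_⟩
  unfold winQ
  simp only [Finset.mul_sum, ← Finset.sum_add_distrib]
  refine Finset.sum_congr rfl fun a _ => Finset.sum_congr rfl fun b _ => ?_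
  split_ifs
  · exact qf_quad t X Y _ _
  · simp

private theorem sqrt_aux {a c L v : ℝ} (ha : 0 ≤ a) (hc : 0 ≤ c) (hd : discrim a L c ≤ 0)
    (hv : v = a + L + c) : Real.sqrt v ≤ Real.sqrt a + Real.sqrt c := by
  have h0 : 0 ≤ Real.sqrt a * Real.sqrt c := mul_nonneg (Real.sqrt_nonneg _) (Real.sqrt_nonneg _)
  have h2 : L ^ 2 ≤ (2 * (Real.sqrt a * Real.sqrt c)) ^ 2 := by
    rw [mul_pow, mul_pow, Real.sq_sqrt ha, Real.sq_sqrt hc]
    unfold discrim at hd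
    linarith
  have h3 : L ≤ 2 * (Real.sqrt a * Real.sqrt c) :=
    (le_abs_self L).trans (abs_le_of_sq_le_sq h2 (by linarith))
  rw [Real.sqrt_le_left (add_nonneg (Real.sqrt_nonneg _) (Real.sqrt_nonneg _)), hv]
  have h5 := Real.sq_sqrt ha
  have h6 := Real.sq_sqrt hc
  calc a + L + c = Real.sqrt a ^ 2 + L + Real.sqrt c ^ 2 := by rw [h5, h6]
    _ ≤ Real.sqrt a ^ 2 + 2 * (Real.sqrt a * Real.sqrt c) + Real.sqrt c ^ 2 := by linarith
    _ = (Real.sqrt a + Real.sqrt c) ^ 2 := by ring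

private theorem sqrt_winQ_add_le (hE : ∀ x, IsPOVM (E x)) (hF : ∀ y, IsPOVM (F y))
    (X Y : Matrix n n ℂ) (x y) :
    Real.sqrt (winQ G E F (X + Y) x y) ≤
      Real.sqrt (winQ G E F X x y) + Real.sqrt (winQ G E F Y x y) := by
  obtain ⟨L, hL⟩ := winQ_quad G E F X Y x y
  refine sqrt_aux (L := L) (winQ_nonneg hE hF X x y) (winQ_nonneg hE hF Y x y)
    (discrim_le_zero fun t => ?_) ?_
  · have := winQ_nonneg hE hF ((t : ℂ) • X + Y) x y
    rw [hL t] at this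
    linarith
  · have h4 := hL 1
    rw [Complex.ofReal_one, one_smul] at h4
    rw [h4]
    ring

private theorem sub_aux {p q N M R p' : ℝ} (hp : 0 ≤ p) (hq : 0 ≤ q)
    (h1 : Real.sqrt p ≤ p' + Real.sqrt q) (h2 : p' ≤ R) (h3 : Real.sqrt p ≤ N)
    (h4 : Real.sqrt q ≤ M) (hR : 0 ≤ R) : p - q ≤ R * (N + M) := by
  have h5 := Real.sq_sqrt hp
  have h6 := Real.sq_sqrt hq
  have h7 : p - q = (Real.sqrt p - Real.sqrt q) * (Real.sqrt p + Real.sqrt q) := by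
    linear_combination -h5 + h6
  rw [h7]
  calc (Real.sqrt p - Real.sqrt q) * (Real.sqrt p + Real.sqrt q)
      ≤ R * (Real.sqrt p + Real.sqrt q) :=
        mul_le_mul_of_nonneg_right (by linarith) (add_nonneg (Real.sqrt_nonneg _) (Real.sqrt_nonneg _))
    _ ≤ R * (N + M) := mul_le_mul_of_nonneg_left (by linarith) hR

theorem winQ_sub_le (hE : ∀ x, IsPOVM (E x)) (hF : ∀ y, IsPOVM (F y)) (Ψ Φ : Matrix n n ℂ) (x y) :
    winQ G E F Ψ x y - winQ G E F Φ x y ≤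
      Real.sqrt (nsq (Ψ - Φ)) * (Real.sqrt (nsq Ψ) + Real.sqrt (nsq Φ)) := by
  have h1 := sqrt_winQ_add_le hE hF (Ψ - Φ) Φ x y
  rw [sub_add_cancel] at h1
  exact sub_aux (winQ_nonneg hE hF Ψ x y) (winQ_nonneg hE hF Φ x y) h1
    (Real.sqrt_le_sqrt (winQ_le_nsq hE hF (Ψ - Φ) x y))
    (Real.sqrt_le_sqrt (winQ_le_nsq hE hF Ψ x y))
    (Real.sqrt_le_sqrt (winQ_le_nsq hE hF Φ x y)) (Real.sqrt_nonneg _)

end Crest.Agent.NG
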