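import Crest.Agent.NG.GaugeAlg
import Crest.Agent.NG.WinQ

/-!
Chunk R342-C4: normalised and rotated POVMs.
`E c = U A^{-1/2} A_c A^{-1/2} Uᴴ` with `∑_c A_c = A`, `F d = Vᴴ B^{-1/2} B_d B^{-1/2} V`,
`Ψ' = U (√α A^{1/2} K B^{1/2}) V`: `qf Ψ' (E c) (F d) = α qf K (A_c) (B_d)` by cyclicity of the
trace.
-/

set_option autoImplicit false

namespace Crest.Agent.NG
open Matrix Complex Crest.MathPhysics.NonlocalGame
open scoped ComplexOrder

variable {n : Type} [Fintype n] [DecidableEq n]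

/-- rotated normalised element -/
noncomputable def rotE (U A Ac : Matrix n n ℂ) : Matrix n n ℂ :=
  U * ((msqrt A)⁻¹ * Ac * (msqrt A)⁻¹) * Uᴴ

theorem msqrt_inv_mul_self {A : Matrix n n ℂ} (hA : A.PosDef) :
    (msqrt A)⁻¹ * msqrt A = 1 :=
  nonsing_inv_mul _ ((isUnit_iff_isUnit_det _).1 (msqrt_isUnit hA))

theorem msqrt_mul_inv_self {A : Matrix n n ℂ} (hA : A.PosDef) :
    msqrt A * (msqrt A)⁻¹ = 1 :=
  mul_nonsing_inv _ ((isUnit_iff_isUnit_det _).1 (msqrt_isUnit hA))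

theorem rotE_povm {I : Type} [Fintype I] {U A : Matrix n n ℂ}
    (hU : U ∈ Matrix.unitaryGroup n ℂ) (hA : A.PosDef) (Ac : I → Matrix n n ℂ)
    (hAc : ∀ c, (Ac c).PosSemidef) (hsum : ∑ c, Ac c = A) :
    IsPOVM (fun c => rotE U A (Ac c)) := by
  constructor
  · intro c
    have h : rotE U A (Ac c) = (U * (msqrt A)⁻¹) * Ac c * (U * (msqrt A)⁻¹)ᴴ := by
      unfold rotE
      rw [conjTranspose_mul, msqrt_inv_conjTranspose hA]
      simp only [Matrix.mul_assoc]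
    show (rotE U A (Ac c)).PosSemidef
    rw [h]
    exact (hAc c).mul_mul_conjTranspose_same _
  · have h : ∑ c, rotE U A (Ac c) = U * ((msqrt A)⁻¹ * (∑ c, Ac c) * (msqrt A)⁻¹) * Uᴴ := by
      unfold rotE
      rw [Matrix.mul_sum, Matrix.sum_mul, Matrix.mul_sum, Matrix.sum_mul]
    rw [h, hsum]
    have h2 : (msqrt A)⁻¹ * A * (msqrt A)⁻¹ = 1 := by
      nth_rewrite 2 [← msqrt_mul_self hA]
      rw [← Matrix.mul_assoc, msqrt_inv_mul_self hA, Matrix.one_mul, msqrt_mul_inv_self hA]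
    rw [h2, Matrix.mul_one]
    exact (Matrix.mem_unitaryGroup_iff).1 hU

theorem qf_rot {α : ℝ} (hα : 0 < α) {U V K A B Ac Bd : Matrix n n ℂ}
    (hU : U ∈ Matrix.unitaryGroup n ℂ) (hV : V ∈ Matrix.unitaryGroup n ℂ)
    (hA : A.PosDef) (hB : B.PosDef) :
    qf (U * psiOf α K A B * V) (rotE U A Ac) (rotE Vᴴ B Bd) = α * qf K Ac Bd := by
  have hUU : Uᴴ * U = 1 := (Matrix.mem_unitaryGroup_iff').1 hU
  have hVV : V * Vᴴ = 1 := (Matrix.mem_unitaryGroup_iff).1 hV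
  set s := msqrt A with hs
  set t := msqrt B with ht
  have hsH : sᴴ = s := msqrt_conjTranspose hA
  have htH : tᴴ = t := msqrt_conjTranspose hB
  have hss : s * s⁻¹ = 1 := msqrt_mul_inv_self hA
  have hss' : s⁻¹ * s = 1 := msqrt_inv_mul_self hA
  have htt : t * t⁻¹ = 1 := msqrt_mul_inv_self hB
  have htt' : t⁻¹ * t = 1 := msqrt_inv_mul_self hB
  have e1 : (U * psiOf α K A B * V)ᴴ * rotE U A Ac * (U * psiOf α K A B * V) * rotE Vᴴ B Bd =
      (α : ℂ) • (Vᴴ * t * (Kᴴ * Ac * K * Bd) * t⁻¹ * V) := by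
    have hp : U * psiOf α K A B * V = (Real.sqrt α : ℂ) • (U * (s * K * t) * V) := by
      unfold psiOf
      rw [Matrix.mul_smul, Matrix.smul_mul]
    have hpH : (U * psiOf α K A B * V)ᴴ = (Real.sqrt α : ℂ) • (Vᴴ * (t * Kᴴ * s) * Uᴴ) := by
      rw [hp, conjTranspose_smul, conjTranspose_mul, conjTranspose_mul, conjTranspose_mul,
        conjTranspose_mul, hsH, htH]
      congr 1
      · simp
      · simp only [Matrix.mul_assoc]
    rw [hp, ← hp, hpH, hp]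
    unfold rotE
    rw [conjTranspose_conjTranspose, ← hs, ← ht]
    simp only [Matrix.smul_mul, Matrix.mul_smul, smul_smul]
    congr 1
    · rw [← Complex.ofReal_mul, Real.mul_self_sqrt hα.le]
    · calc Vᴴ * (t * Kᴴ * s) * Uᴴ * (U * (s⁻¹ * Ac * s⁻¹) * Uᴴ) * (U * (s * K * t) * V) *
            (Vᴴ * (t⁻¹ * Bd * t⁻¹) * V)
          = Vᴴ * t * Kᴴ * s * (Uᴴ * U) * s⁻¹ * Ac * s⁻¹ * (Uᴴ * U) * s * K * t * (V * Vᴴ) * t⁻¹ *
            Bd * t⁻¹ * V := by simp only [Matrix.mul_assoc]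
        _ = Vᴴ * t * Kᴴ * (s * s⁻¹) * Ac * (s⁻¹ * s) * K * (t * t⁻¹) * Bd * t⁻¹ * V := by
            rw [hUU, hVV]; simp only [Matrix.mul_assoc, Matrix.one_mul, Matrix.mul_one]
        _ = _ := by
            rw [hss, hss', htt]; simp only [Matrix.mul_assoc, Matrix.one_mul, Matrix.mul_one]
  unfold qf
  rw [e1, Matrix.trace_smul, smul_eq_mul, Complex.re_ofReal_mul]
  congr 2
  calc (Vᴴ * t * (Kᴴ * Ac * K * Bd) * t⁻¹ * V).trace
      = (V * (Vᴴ * t * (Kᴴ * Ac * K * Bd) * t⁻¹)).trace := Matrix.trace_mul_comm _ _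
    _ = (t * (Kᴴ * Ac * K * Bd) * t⁻¹).trace := by
        congr 1
        calc V * (Vᴴ * t * (Kᴴ * Ac * K * Bd) * t⁻¹) =
            (V * Vᴴ) * (t * (Kᴴ * Ac * K * Bd) * t⁻¹) := by simp only [Matrix.mul_assoc]
          _ = _ := by rw [hVV, Matrix.one_mul]
    _ = (t⁻¹ * (t * (Kᴴ * Ac * K * Bd))).trace := Matrix.trace_mul_comm _ _
    _ = (Kᴴ * Ac * K * Bd).trace := by
        congr 1
        rw [← Matrix.mul_assoc, htt', Matrix.one_mul]

theorem nsq_rot {α : ℝ} (hα : 0 < α) {U V K A B : Matrix n n ℂ}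
    (hU : U ∈ Matrix.unitaryGroup n ℂ) (hV : V ∈ Matrix.unitaryGroup n ℂ)
    (hA : A.PosDef) (hB : B.PosDef) :
    nsq (U * psiOf α K A B * V) = α * qf K A B := by
  rw [nsq_mul_unitary hV, nsq_unitary_mul hU, nsq_psiOf hα hA hB]

end Crest.Agent.NG
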