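import Crest.Agent.NG.CoordFam
import Crest.Agent.NG.Bundle
import Crest.Agent.NG.Rotate

/-!
Chunk R342-C5: the coordinate theorem. Take `U r x`, `b r y` from `gauge (gaugeHyp_bob H i hi)`,
`W r y`, `c r x` from `gauge (gaugeHyp_alice H i hi)` (Alice version: `psiOf α Kᴴ (fB) (fA)` is the
conjugate transpose of `psiOf α K (fA) (fB)`), `V r y := (W r y)ᴴ`,
`Ψ' r x y = U r x * psiOf α K (fA r x) (fB r y) * V r y`, `b' r y = b r y * V r y`,
`a' r x = U r x * (c r x)ᴴ`; POVMs `rotE (U r x) (fA r x) (condX .. (Mi · a c) ..)`,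
`rotE (V r y)ᴴ (fB r y) (...)`; finish with `bundle`, `qf_rot`, `nsq_rot`, `qf_hybrid_coord`,
`HB_step`, `HA_step`.
-/

set_option autoImplicit false

namespace Crest.Agent.NG
open Matrix Complex Crest.MathPhysics.NonlocalGame
open scoped ComplexOrder

section master
variable {k : ℕ} {X Y : Type} [Fintype X] [Fintype Y] [DecidableEq X] [DecidableEq Y]
variable {A B n : Type} [Fintype A] [Fintype B] [Fintype n] [DecidableEq n]
variable {μ : X → Y → ℝ} {C : Finset (Fin k)} {M : (Fin k → X) → A → Matrix n n ℂ}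
    {N : (Fin k → Y) → B → Matrix n n ℂ} {K : Matrix n n ℂ}
    {w : (Fin k → X × Y) → A → B → ℝ}

theorem coord_master (H : StratHyp μ C M N K w) (i : Fin k) (hi : i ∉ C)
    (f : A → (Fin k → X) → Matrix n n ℂ) (h : B → (Fin k → Y) → Matrix n n ℂ) (φ : X → Y → ℝ) :
    ∑ r : Rec k X Y A B, Pr μ r.1 * ∑ x, ∑ y, μ x y * (φ x y * (w r.1 r.2.1 r.2.2 *
      qf K (condX μ (SXs C (i.val + 1)) (f r.2.1) (Function.update r.1 i (x, (r.1 i).2)))
        (condY μ (SYs C i.val) (h r.2.2) (Function.update r.1 i ((r.1 i).1, y))))) =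
    ∑ z, Pr μ z * ∑ a, ∑ b, (φ (z i).1 (z i).2 * (w z a b *
      qf K (f a (fun j => (z j).1)) (h b (fun j => (z j).2)))) := by
  rw [Fintype.sum_prod_type, Finset.sum_comm, Fintype.sum_prod_type]
  have h1 : ∀ (a : A) (b : B),
      ∑ z, Pr μ z * ∑ x, ∑ y, μ x y * (φ x y * (w z a b *
      qf K (condX μ (SXs C (i.val + 1)) (f a) (Function.update z i (x, (z i).2)))
        (condY μ (SYs C i.val) (h b) (Function.update z i ((z i).1, y))))) =
      ∑ z, Pr μ z * (φ (z i).1 (z i).2 *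
        (w z a b * qf K (f a (fun j => (z j).1)) (h b (fun j => (z j).2)))) := fun a b =>
    qf_hybrid_coord H.hμ C i hi K (f a) (h b) (fun z => w z a b)
      (fun z z' hz => H.hwC z z' hz a b) φ
  have h2 : ∑ z, Pr μ z * ∑ a, ∑ b, (φ (z i).1 (z i).2 * (w z a b *
      qf K (f a (fun j => (z j).1)) (h b (fun j => (z j).2)))) =
      ∑ a, ∑ b, ∑ z, Pr μ z * (φ (z i).1 (z i).2 *
        (w z a b * qf K (f a (fun j => (z j).1)) (h b (fun j => (z j).2)))) := by
    simp_rw [Finset.mul_sum]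
    rw [Finset.sum_comm]
    refine Finset.sum_congr rfl fun a _ => ?_
    rw [Finset.sum_comm]
  rw [h2]
  exact Finset.sum_congr rfl fun a _ => Finset.sum_congr rfl fun b _ => h1 a b

end master

theorem sum_swap32 {R X Y C D : Type} [Fintype R] [Fintype X] [Fintype Y] [Fintype C] [Fintype D]
    (F : R → X → Y → C → D → ℝ) : ∑ r, ∑ x, ∑ y, ∑ c, ∑ d, F r x y c d =
      ∑ c, ∑ d, ∑ r, ∑ x, ∑ y, F r x y c d := by
  simp_rw [← Fintype.sum_prod_type']
  exact Fintype.sum_equiv ⟨fun p => (p.2.2.2.1, p.2.2.2.2, p.1, p.2.1, p.2.2.1),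
    fun p => (p.2.2.1, p.2.2.2.1, p.2.2.2.2, p.1, p.2.1), fun _ => rfl, fun _ => rfl⟩ _ _
    (fun _ => rfl)

theorem psiOf_conjTranspose {n : Type} [Fintype n] [DecidableEq n] (α : ℝ) {K A B : Matrix n n ℂ}
    (hA : A.PosDef) (hB : B.PosDef) : (psiOf α K A B)ᴴ = psiOf α Kᴴ B A := by
  unfold psiOf
  rw [conjTranspose_smul, conjTranspose_mul, conjTranspose_mul, msqrt_conjTranspose hA,
    msqrt_conjTranspose hB, Matrix.mul_assoc]
  congr 1
  simp

variable {G : Game} {k : ℕ} {A B n : Type} [Fintype A] [Fintype B] [DecidableEq A] [DecidableEq B]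
  [Fintype n] [DecidableEq n]

theorem coord {C : Finset (Fin k)} {M : (Fin k → Fin G.nX) → A → Matrix n n ℂ}
    {N : (Fin k → Fin G.nY) → B → Matrix n n ℂ} {K : Matrix n n ℂ}
    {w : (Fin k → Fin G.nX × Fin G.nY) → A → B → ℝ}
    (H : StratHyp G.prob C M N K w) (i : Fin k) (hi : i ∉ C)
    (Mi : (Fin k → Fin G.nX) → A → Fin G.nA → Matrix n n ℂ)
    (hMi : ∀ x a c, (Mi x a c).PosSemidef) (hMi1 : ∀ x a, ∑ c, Mi x a c = M x a)
    (Ni : (Fin k → Fin G.nY) → B → Fin G.nB → Matrix n n ℂ)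
    (hNi : ∀ y b d, (Ni y b d).PosSemidef) (hNi1 : ∀ y b, ∑ d, Ni y b d = N y b)
    (η : ℝ) (hη : 0 < η) :
    LocalData G
      (fun x y => ∑ z, Pr G.prob z * ((if z i = (x, y) then 1 else 0) * ∑ a, ∑ b, w z a b *
        qf K (M (fun j => (z j).1) a) (N (fun j => (z j).2) b)))
      (∑ z, Pr G.prob z * ∑ a, ∑ b, w z a b * ∑ c, ∑ d,
        if G.accept (z i).1 (z i).2 c d = true then
          qf K (Mi (fun j => (z j).1) a c) (Ni (fun j => (z j).2) b d) else 0)
      (HA G.prob C M N K w i.val - HA G.prob C M N K w (i.val + 1) + η)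
      (HB G.prob C M N K w (i.val + 1) - HB G.prob C M N K w i.val + η) := by
  classical
  set μ := G.prob with hμdef
  have GB := gaugeHyp_bob H i hi
  have GA := gaugeHyp_alice H i hi
  obtain ⟨U, b, hU, hUb⟩ := gauge GB η hη
  obtain ⟨W, c, hW, hWc⟩ := gauge GA η hη
  rw [← HB_step H i hi] at hUb
  rw [← HA_step H i hi] at hWc
  have hVW : ∀ r y, (W r y)ᴴ ∈ Matrix.unitaryGroup n ℂ := fun r y => by
    have := hW r y
    rw [Matrix.mem_unitaryGroup_iff] at this ⊢
    rw [Matrix.star_eq_conjTranspose, conjTranspose_conjTranspose]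
    exact Matrix.mem_unitaryGroup_iff'.1 (hW r y)
  have hfA : ∀ (r : Rec k (Fin G.nX) (Fin G.nY) A B) x, (fA μ C M i r x).PosDef := GB.hA
  have hfB : ∀ (r : Rec k (Fin G.nX) (Fin G.nY) A B) y, (fB μ C N i r y).PosDef := GB.hB
  have hα : ∀ r : Rec k (Fin G.nX) (Fin G.nY) A B, 0 < w r.1 r.2.1 r.2.2 := GB.hα
  -- the data
  let Ψ : Rec k (Fin G.nX) (Fin G.nY) A B → Fin G.nX → Fin G.nY → Matrix n n ℂ := fun r x y =>
    U r x * psiOf (w r.1 r.2.1 r.2.2) K (fA μ C M i r x) (fB μ C N i r y) * (W r y)ᴴ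
  let Ac : Rec k (Fin G.nX) (Fin G.nY) A B → Fin G.nX → Fin G.nA → Matrix n n ℂ := fun r x c =>
    condX μ (SXs C (i.val + 1)) (fun x => Mi x r.2.1 c) (Function.update r.1 i (x, (r.1 i).2))
  let Bd : Rec k (Fin G.nX) (Fin G.nY) A B → Fin G.nY → Fin G.nB → Matrix n n ℂ := fun r y d =>
    condY μ (SYs C i.val) (fun y => Ni y r.2.2 d) (Function.update r.1 i ((r.1 i).1, y))
  have hAcsum : ∀ r x, ∑ c, Ac r x c = fA μ C M i r x := by
    intro r x
    simp only [Ac, fA]
    rw [← condX_sum]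
    congr 1
    funext x'
    exact hMi1 x' r.2.1
  have hBdsum : ∀ r y, ∑ d, Bd r y d = fB μ C N i r y := by
    intro r y
    simp only [Bd, fB]
    rw [← condY_sum]
    congr 1
    funext y'
    exact hNi1 y' r.2.2
  have hAcpos : ∀ r x c, (Ac r x c).PosSemidef := fun r x c =>
    condX_posSemidef H.hμ _ _ (fun x' => hMi x' _ _) _
  have hBdpos : ∀ r y d, (Bd r y d).PosSemidef := fun r y d =>
    condY_posSemidef H.hμ _ _ (fun y' => hNi y' _ _) _
  have hΨn : ∀ r x y, nsq (Ψ r x y) =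
      w r.1 r.2.1 r.2.2 * qf K (fA μ C M i r x) (fB μ C N i r y) := fun r x y =>
    nsq_rot (hα r) (hU r x) (hVW r y) (hfA r x) (hfB r y)
  refine bundle (R := Rec k (Fin G.nX) (Fin G.nY) A B) (fun r => Pr μ r.1)
    (fun r => Pr_nonneg H.hμ r.1)
    (fun r x c => rotE (U r x) (fA μ C M i r x) (Ac r x c))
    (fun r y d => rotE ((W r y)ᴴ)ᴴ (fB μ C N i r y) (Bd r y d))
    Ψ (fun r x => U r x * (c r x)ᴴ) (fun r y => b r y * (W r y)ᴴ)
    (fun r x => rotE_povm (hU r x) (hfA r x) _ (hAcpos r x) (hAcsum r x))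
    (fun r y => rotE_povm (by rw [conjTranspose_conjTranspose]; exact hW r y) (hfB r y) _
      (hBdpos r y) (hBdsum r y)) _ _ _ _ ?_ ?_ ?_ ?_
  · -- joint law
    intro x y
    have key := coord_master H i hi (fun a x => M x a) (fun b y => N y b)
      (fun x' y' => if (x', y') = (x, y) then 1 else 0)
    have e1 : ∀ r : Rec k (Fin G.nX) (Fin G.nY) A B,
        ∑ x', ∑ y', μ x' y' * ((if (x', y') = (x, y) then (1 : ℝ) else 0) * (w r.1 r.2.1 r.2.2 *
      qf K (condX μ (SXs C (i.val + 1)) (fun x => M x r.2.1)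
          (Function.update r.1 i (x', (r.1 i).2)))
        (condY μ (SYs C i.val) (fun y => N y r.2.2) (Function.update r.1 i ((r.1 i).1, y'))))) =
        μ x y * (w r.1 r.2.1 r.2.2 * qf K (fA μ C M i r x) (fB μ C N i r y)) := by
      intro r
      rw [Finset.sum_eq_single x, Finset.sum_eq_single y]
      · simp [fA, fB]
      · intro y' _ hy'
        rw [if_neg (by simpa using hy')]
        ring
      · intro hy; exact absurd (Finset.mem_univ y) hy
      · intro x' _ hx'
        refine Finset.sum_eq_zero fun y' _ => ?_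
        rw [if_neg (by simp [hx'])]
        ring
      · intro hx; exact absurd (Finset.mem_univ x) hx
    simp_rw [e1] at key
    calc μ x y * ∑ r, Pr μ r.1 * nsq (Ψ r x y)
        = ∑ r : Rec k (Fin G.nX) (Fin G.nY) A B, Pr μ r.1 *
            (μ x y * (w r.1 r.2.1 r.2.2 * qf K (fA μ C M i r x) (fB μ C N i r y))) := by
          rw [Finset.mul_sum]
          refine Finset.sum_congr rfl fun r _ => ?_
          rw [hΨn]
          ring
      _ = _ := key
      _ = _ := by
          refine Finset.sum_congr rfl fun z _ => ?_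
          simp_rw [← Finset.mul_sum]
  · -- winning probability
    have e0 : ∀ r : Rec k (Fin G.nX) (Fin G.nY) A B, ∀ x y,
        winQ G (fun x c => rotE (U r x) (fA μ C M i r x) (Ac r x c))
          (fun y d => rotE ((W r y)ᴴ)ᴴ (fB μ C N i r y) (Bd r y d)) (Ψ r x y) x y =
        ∑ c, ∑ d, (if G.accept x y c d = true then (1 : ℝ) else 0) * (w r.1 r.2.1 r.2.2 *
          qf K (Ac r x c) (Bd r y d)) := by
      intro r x y
      unfold winQ
      refine Finset.sum_congr rfl fun c _ => Finset.sum_congr rfl fun d _ => ?_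
      split_ifs
      · rw [one_mul]
        exact qf_rot (hα r) (hU r x) (hVW r y) (hfA r x) (hfB r y)
      · rw [zero_mul]
    have key : ∀ (c : Fin G.nA) (d : Fin G.nB), _ := fun c d =>
      coord_master H i hi (fun a x => Mi x a c) (fun b y => Ni y b d)
        (fun x' y' => if G.accept x' y' c d = true then (1 : ℝ) else 0)
    calc ∑ r : Rec k (Fin G.nX) (Fin G.nY) A B, Pr μ r.1 * ∑ x, ∑ y, μ x y *
          winQ G (fun x c => rotE (U r x) (fA μ C M i r x) (Ac r x c))
          (fun y d => rotE ((W r y)ᴴ)ᴴ (fB μ C N i r y) (Bd r y d)) (Ψ r x y) x y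
        = ∑ c : Fin G.nA, ∑ d : Fin G.nB, ∑ r : Rec k (Fin G.nX) (Fin G.nY) A B,
            Pr μ r.1 * ∑ x, ∑ y, μ x y *
            ((if G.accept x y c d = true then (1 : ℝ) else 0) * (w r.1 r.2.1 r.2.2 *
              qf K (Ac r x c) (Bd r y d))) := by
          simp_rw [e0, Finset.mul_sum]
          exact sum_swap32 _
      _ = ∑ c : Fin G.nA, ∑ d : Fin G.nB, ∑ z, Pr μ z * ∑ a, ∑ b,
            ((if G.accept (z i).1 (z i).2 c d = true then (1 : ℝ) else 0) * (w z a b *
              qf K (Mi (fun j => (z j).1) a c) (Ni (fun j => (z j).2) b d))) :=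
          Finset.sum_congr rfl fun c _ => Finset.sum_congr rfl fun d _ => key c d
      _ = _ := by
          simp_rw [Finset.mul_sum]
          rw [← sum_swap32]
          refine Finset.sum_congr rfl fun z _ => Finset.sum_congr rfl fun a _ =>
            Finset.sum_congr rfl fun b _ => Finset.sum_congr rfl fun c _ =>
            Finset.sum_congr rfl fun d _ => ?_
          split_ifs <;> ring
  · -- Alice
    refine le_trans (le_of_eq ?_) hWc
    refine Finset.sum_congr rfl fun r _ => ?_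
    congr 1
    rw [Finset.sum_comm]
    refine Finset.sum_congr rfl fun y _ => Finset.sum_congr rfl fun x _ => ?_
    congr 1
    have e : Ψ r x y - U r x * (c r x)ᴴ =
        U r x * (W r y * psiOf (w r.1 r.2.1 r.2.2) Kᴴ (fB μ C N i r y) (fA μ C M i r x) -
          c r x)ᴴ := by
      rw [conjTranspose_sub, conjTranspose_mul, ← psiOf_conjTranspose _ (hfA r x) (hfB r y),
        conjTranspose_conjTranspose, Matrix.mul_sub, ← Matrix.mul_assoc]
    rw [e, nsq_unitary_mul (hU r x), nsq_conjTranspose]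
  · -- Bob
    refine le_trans (le_of_eq ?_) hUb
    refine Finset.sum_congr rfl fun r _ => ?_
    congr 1
    refine Finset.sum_congr rfl fun x _ => Finset.sum_congr rfl fun y _ => ?_
    congr 1
    have e : Ψ r x y - b r y * (W r y)ᴴ =
        (U r x * psiOf (w r.1 r.2.1 r.2.2) K (fA μ C M i r x) (fB μ C N i r y) - b r y) *
          (W r y)ᴴ := by
      rw [Matrix.sub_mul]
    rw [e, nsq_mul_unitary (hVW r y)]

end Crest.Agent.NG
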