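import Crest.Agent.NG.BridgeDefs
import Crest.Agent.NG.Coord

/-!
Chunk R342-B2 (`bridge`): specialisation of the coordinate theorem to a nondegenerate strategy.
`A = ({j // j ∈ C} → Fin nA)`, `MC x α = ∑_{a, a|_C = α} S.M x a` (positive definite: the fibre is
nonempty), `NC y β = ∑_{b, b|_C = β} (S.N y b)ᵀ`, `w z α β = (∏_{j : C} (1 or 1/2)) / PW`,
`Mi x α c = ∑_{a|_C = α, a i = c} S.M x a`. Then `StratHyp` holds (`hw1` is the definition of
`PW`; regroup the sum over `a` by its restriction: `Finset.sum_fiberwise`), `w ≤ 1/PW`,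
`card A = nA^|C|`. Put `ΔA i = HA i - HA (i+1)`, `ΔB i = HB (i+1) - HB i`; `HA_telescope`,
`HB_telescope`; `coord` gives the local data.
-/

set_option autoImplicit false

namespace Crest.Agent.NG
open Matrix Complex Crest.MathPhysics.NonlocalGame
open scoped ComplexOrder

section regroup

variable {k : ℕ} {T T' : Type} [Fintype T] [Fintype T'] [DecidableEq T] [DecidableEq T']

/-- restriction of a string to `C` -/
def rsC (C : Finset (Fin k)) (a : Fin k → T) : {j // j ∈ C} → T := fun j => a j.1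

omit [Fintype T] [DecidableEq T] in
theorem rsC_surj (C : Finset (Fin k)) (h : Nonempty (Fin k → T)) (α : {j // j ∈ C} → T) :
    ∃ a : Fin k → T, rsC C a = α := by
  obtain ⟨a0⟩ := h
  refine ⟨fun j => if h : j ∈ C then α ⟨j, h⟩ else a0 j, ?_⟩
  funext j
  simp [rsC, j.2]

theorem regroup (C : Finset (Fin k)) (W : ({j // j ∈ C} → T) → ({j // j ∈ C} → T') → ℝ)
    (q : (Fin k → T) → (Fin k → T') → ℝ) :
    ∑ α, ∑ β, W α β * ∑ a ∈ Finset.univ.filter (fun a => rsC C a = α),
      ∑ b ∈ Finset.univ.filter (fun b => rsC C b = β), q a b =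
    ∑ a, ∑ b, W (rsC C a) (rsC C b) * q a b := by
  rw [← Finset.sum_fiberwise (Finset.univ : Finset (Fin k → T)) (rsC C)]
  refine Finset.sum_congr rfl fun α _ => ?_
  have h1 : ∀ a ∈ Finset.univ.filter (fun a : Fin k → T => rsC C a = α),
      ∑ b, W (rsC C a) (rsC C b) * q a b =
      ∑ β, ∑ b ∈ Finset.univ.filter (fun b : Fin k → T' => rsC C b = β), W α β * q a b := by
    intro a ha
    rw [← Finset.sum_fiberwise (Finset.univ : Finset (Fin k → T')) (rsC C)]
    refine Finset.sum_congr rfl fun β _ => ?_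
    refine Finset.sum_congr rfl fun b hb => ?_
    rw [(Finset.mem_filter.mp ha).2, (Finset.mem_filter.mp hb).2]
  rw [Finset.sum_congr rfl h1, Finset.sum_comm]
  refine Finset.sum_congr rfl fun β _ => ?_
  rw [Finset.mul_sum]
  refine Finset.sum_congr rfl fun a _ => ?_
  rw [Finset.mul_sum]

theorem regroup2 (C : Finset (Fin k)) (i : Fin k) (φ : T → T' → Prop) [∀ c d, Decidable (φ c d)]
    (W : ({j // j ∈ C} → T) → ({j // j ∈ C} → T') → ℝ)
    (q : (Fin k → T) → (Fin k → T') → ℝ) :
    ∑ α, ∑ β, W α β * ∑ c, ∑ d, (if φ c d then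
      ∑ a ∈ Finset.univ.filter (fun a => rsC C a = α ∧ a i = c),
      ∑ b ∈ Finset.univ.filter (fun b => rsC C b = β ∧ b i = d), q a b else 0) =
    ∑ a, ∑ b, W (rsC C a) (rsC C b) * ((if φ (a i) (b i) then 1 else 0) * q a b) := by
  rw [← regroup]
  refine Finset.sum_congr rfl fun α _ => ?_
  refine Finset.sum_congr rfl fun β _ => ?_
  congr 1
  rw [← Finset.sum_fiberwise (Finset.univ.filter (fun a : Fin k → T => rsC C a = α))
    (fun a => a i)]
  refine Finset.sum_congr rfl fun c _ => ?_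
  have h1 : ∀ a ∈ (Finset.univ.filter (fun a : Fin k → T => rsC C a = α)).filter
      (fun a => a i = c),
      ∑ b ∈ Finset.univ.filter (fun b => rsC C b = β),
        ((if φ (a i) (b i) then (1 : ℝ) else 0) * q a b) =
      ∑ d, ∑ b ∈ Finset.univ.filter (fun b => rsC C b = β ∧ b i = d),
        ((if φ c d then (1 : ℝ) else 0) * q a b) := by
    intro a ha
    rw [← Finset.sum_fiberwise (Finset.univ.filter (fun b : Fin k → T' => rsC C b = β))
      (fun b => b i)]
    refine Finset.sum_congr rfl fun d _ => ?_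
    rw [Finset.filter_filter]
    refine Finset.sum_congr rfl fun b hb => ?_
    rw [(Finset.mem_filter.mp ha).2, (Finset.mem_filter.mp hb).2.2]
  rw [Finset.sum_congr rfl h1, Finset.sum_comm]
  refine Finset.sum_congr rfl fun d _ => ?_
  rw [Finset.filter_filter]
  by_cases h : φ c d
  · simp [h]
  · simp [h]

end regroup

variable {G : Game} {k d : ℕ}

theorem qfiber (K : Matrix (Fin d) (Fin d) ℂ) {ι κ : Type} (s : Finset ι) (t : Finset κ)
    (P : ι → Matrix (Fin d) (Fin d) ℂ) (Q : κ → Matrix (Fin d) (Fin d) ℂ) :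
    qf K (∑ a ∈ s, P a) (∑ b ∈ t, Q b) = ∑ a ∈ s, ∑ b ∈ t, qf K (P a) (Q b) := by
  rw [qf_sum_left]
  refine Finset.sum_congr rfl fun a _ => ?_
  rw [qf_sum_right]

theorem posDef_sum_fiber {ι : Type} (s : Finset ι) (hs : s.Nonempty)
    (P : ι → Matrix (Fin d) (Fin d) ℂ) (h : ∀ i ∈ s, (P i).PosDef) : (∑ i ∈ s, P i).PosDef := by
  classical
  induction hs using Finset.Nonempty.cons_induction with
  | singleton a => simpa using h a (by simp)
  | cons a s ha hs ih =>
    rw [Finset.sum_cons]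
    exact (h a (by simp)).add (ih fun i hi => h i (by simp [hi]))

theorem answers_nonempty (S : Strategy G k d d) :
    Nonempty (Fin k → Fin G.nA) ∧ Nonempty (Fin k → Fin G.nB) := by
  rcases Nat.eq_zero_or_pos k with rfl | hk
  · exact ⟨⟨fun i => i.elim0⟩, ⟨fun i => i.elim0⟩⟩
  · obtain ⟨h1, h2⟩ := answers_pos hk S
    exact ⟨⟨fun _ => ⟨0, h1⟩⟩, ⟨fun _ => ⟨0, h2⟩⟩⟩

/-- grouped operators of Alice -/
noncomputable def MCo (S : Strategy G k d d) (C : Finset (Fin k)) (x : Fin k → Fin G.nX)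
    (α : {j // j ∈ C} → Fin G.nA) : Matrix (Fin d) (Fin d) ℂ :=
  ∑ a ∈ Finset.univ.filter (fun a => rsC C a = α), S.M x a

/-- grouped operators of Bob -/
noncomputable def NCo (S : Strategy G k d d) (C : Finset (Fin k)) (y : Fin k → Fin G.nY)
    (β : {j // j ∈ C} → Fin G.nB) : Matrix (Fin d) (Fin d) ℂ :=
  ∑ b ∈ Finset.univ.filter (fun b => rsC C b = β), (S.N y b)ᵀ

noncomputable def MIo (S : Strategy G k d d) (C : Finset (Fin k)) (i : Fin k)
    (x : Fin k → Fin G.nX) (α : {j // j ∈ C} → Fin G.nA) (c : Fin G.nA) :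
    Matrix (Fin d) (Fin d) ℂ :=
  ∑ a ∈ Finset.univ.filter (fun a => rsC C a = α ∧ a i = c), S.M x a

noncomputable def NIo (S : Strategy G k d d) (C : Finset (Fin k)) (i : Fin k)
    (y : Fin k → Fin G.nY) (β : {j // j ∈ C} → Fin G.nB) (c : Fin G.nB) :
    Matrix (Fin d) (Fin d) ℂ :=
  ∑ b ∈ Finset.univ.filter (fun b => rsC C b = β ∧ b i = c), (S.N y b)ᵀ

noncomputable def wCo (S : Strategy G k d d) (C : Finset (Fin k))
    (z : Fin k → Fin G.nX × Fin G.nY) (α : {j // j ∈ C} → Fin G.nA)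
    (β : {j // j ∈ C} → Fin G.nB) : ℝ :=
  (∏ j : {j // j ∈ C}, if G.accept (z j.1).1 (z j.1).2 (α j) (β j) = true then (1 : ℝ) else 1 / 2)
    / PW S C

theorem wCo_rs (S : Strategy G k d d) (C : Finset (Fin k))
    (z : Fin k → Fin G.nX × Fin G.nY) (a : Fin k → Fin G.nA) (b : Fin k → Fin G.nB) :
    wCo S C z (rsC C a) (rsC C b) = evw G C z a b / PW S C := by
  unfold wCo evw rsC
  congr 1
  exact Finset.prod_coe_sort C
    (fun j => if G.accept (z j).1 (z j).2 (a j) (b j) = true then (1 : ℝ) else 1 / 2)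

theorem MCo_sum (S : Strategy G k d d) (C : Finset (Fin k)) (x) : ∑ α, MCo S C x α = 1 := by
  unfold MCo
  rw [Finset.sum_fiberwise (Finset.univ) (rsC C) (fun a => S.M x a)]
  exact S.M_sum x

theorem NCo_sum (S : Strategy G k d d) (C : Finset (Fin k)) (y) : ∑ β, NCo S C y β = 1 := by
  unfold NCo
  rw [Finset.sum_fiberwise (Finset.univ) (rsC C) (fun b => (S.N y b)ᵀ), ← Matrix.transpose_sum,
    S.N_sum y, Matrix.transpose_one]

theorem gz_regroup (S : Strategy G k d d) (C : Finset (Fin k))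
    (z : Fin k → Fin G.nX × Fin G.nY) :
    ∑ α, ∑ β, wCo S C z α β * qf (KOf S.ψ) (MCo S C (fun j => (z j).1) α)
      (NCo S C (fun j => (z j).2) β) = gz S C z / PW S C := by
  unfold MCo NCo
  simp_rw [qfiber]
  rw [regroup]
  unfold gz law
  simp_rw [wCo_rs]
  rw [Finset.sum_div]
  refine Finset.sum_congr rfl fun a _ => ?_
  rw [Finset.sum_div]
  refine Finset.sum_congr rfl fun b _ => ?_
  ring

theorem win_regroup (S : Strategy G k d d) (C : Finset (Fin k)) (i : Fin k)
    (z : Fin k → Fin G.nX × Fin G.nY) :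
    ∑ α, ∑ β, wCo S C z α β * ∑ c, ∑ e,
      (if G.accept (z i).1 (z i).2 c e = true then
        qf (KOf S.ψ) (MIo S C i (fun j => (z j).1) α c) (NIo S C i (fun j => (z j).2) β e) else 0) =
    (∑ a, ∑ b, evw G C z a b *
      ((if G.accept (z i).1 (z i).2 (a i) (b i) = true then 1 else 0) * law S z a b)) / PW S C := by
  unfold MIo NIo
  simp_rw [qfiber]
  rw [regroup2 C i (fun c e => G.accept (z i).1 (z i).2 c e = true)]
  unfold law
  simp_rw [wCo_rs]
  rw [Finset.sum_div]
  refine Finset.sum_congr rfl fun a _ => ?_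
  rw [Finset.sum_div]
  refine Finset.sum_congr rfl fun b _ => ?_
  ring

theorem stratHyp_of (S : Strategy G k d d) (hS : Nondeg S) (C : Finset (Fin k)) :
    StratHyp G.prob C (MCo S C) (NCo S C) (KOf S.ψ) (wCo S C) := by
  obtain ⟨hA, hB⟩ := answers_nonempty S
  have hP := PW_pos S C
  refine ⟨isProb_game G, fun x => ⟨fun α => ?_, MCo_sum S C x⟩,
    fun y => ⟨fun β => ?_, NCo_sum S C y⟩, hS.2.2, nsq_KOf S, ?_, ?_, ?_⟩
  · refine posDef_sum_fiber _ ?_ _ fun a _ => hS.1 x a
    obtain ⟨a, ha⟩ := rsC_surj C hA α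
    exact ⟨a, by simp [ha]⟩
  · refine posDef_sum_fiber _ ?_ _ fun b _ => (hS.2.1 y b).transpose
    obtain ⟨b, hb⟩ := rsC_surj C hB β
    exact ⟨b, by simp [hb]⟩
  · intro z α β
    refine div_pos (Finset.prod_pos fun j _ => ?_) hP
    split_ifs <;> norm_num
  · intro z z' h α β
    unfold wCo
    congr 1
    refine Finset.prod_congr rfl fun j _ => ?_
    rw [h j.1 j.2]
  · simp_rw [gz_regroup]
    have : ∑ z, Pr G.prob z * (gz S C z / PW S C) = PW S C / PW S C := by
      conv_rhs => rw [show PW S C / PW S C = (∑ z, Pr G.prob z * gz S C z) / PW S C from rfl]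
      rw [Finset.sum_div]
      refine Finset.sum_congr rfl fun z _ => ?_
      ring
    rw [this, div_self hP.ne']

theorem wCo_le (S : Strategy G k d d) (C : Finset (Fin k)) (z α β) :
    wCo S C z α β ≤ 1 / PW S C := by
  have hP := PW_pos S C
  unfold wCo
  refine div_le_div_of_nonneg_right ?_ hP.le
  refine Finset.prod_le_one (fun j _ => ?_) (fun j _ => ?_)
  · split_ifs <;> norm_num
  · split_ifs <;> norm_num

theorem log_card_bound {P : ℝ} (hP : 0 < P) (C : Finset (Fin k)) (n : ℕ)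
    (hn : Nonempty (Fin k → Fin n)) :
    Real.log (1 / P * (Fintype.card ({j // j ∈ C} → Fin n) : ℝ)) =
      Real.log (1 / P) + C.card * Real.log n := by
  have hcard : Fintype.card ({j // j ∈ C} → Fin n) = n ^ C.card := by
    simp
  rw [hcard]
  have hpos : (0 : ℝ) < ((n ^ C.card : ℕ) : ℝ) := by
    have h0 : 0 < n ^ C.card := by
      rcases C.eq_empty_or_nonempty with rfl | ⟨j, hj⟩
      · simp
      · obtain ⟨a⟩ := hn
        have : 0 < n := lt_of_le_of_lt (Nat.zero_le _) (a j).2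
        positivity
    exact_mod_cast h0
  rw [Real.log_mul (by positivity) hpos.ne']
  push_cast
  rw [Real.log_pow]

theorem bridge (S : Strategy G k d d) (hS : Nondeg S) (C : Finset (Fin k)) :
    ∃ ΔA ΔB : Fin k → ℝ,
      (∑ i ∈ Finset.univ.filter (fun i : Fin k => i ∉ C), ΔA i ≤
        Real.log (1 / PW S C) + C.card * Real.log G.nB) ∧
      (∑ i ∈ Finset.univ.filter (fun i : Fin k => i ∉ C), ΔB i ≤
        Real.log (1 / PW S C) + C.card * Real.log G.nA) ∧
      ∀ i, i ∉ C → ∀ η : ℝ, 0 < η →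
        LocalData G (Jlaw S C i) (pwin S C i) (ΔA i + η) (ΔB i + η) := by
  obtain ⟨hA, hB⟩ := answers_nonempty S
  have hP := PW_pos S C
  have H := stratHyp_of S hS C
  refine ⟨fun i => HA G.prob C (MCo S C) (NCo S C) (KOf S.ψ) (wCo S C) i.val -
      HA G.prob C (MCo S C) (NCo S C) (KOf S.ψ) (wCo S C) (i.val + 1),
    fun i => HB G.prob C (MCo S C) (NCo S C) (KOf S.ψ) (wCo S C) (i.val + 1) -
      HB G.prob C (MCo S C) (NCo S C) (KOf S.ψ) (wCo S C) i.val, ?_, ?_, ?_⟩
  · rw [← log_card_bound hP C G.nB hB]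
    exact HA_telescope H _ (wCo_le S C)
  · rw [← log_card_bound hP C G.nA hA]
    exact HB_telescope H _ (wCo_le S C)
  · intro i hi η hη
    have key := coord H i hi (MIo S C i)
      (fun x α c => Matrix.posSemidef_sum _ fun a _ => S.M_posSemidef x a)
      (fun x α => by
        unfold MIo MCo
        rw [← Finset.sum_fiberwise (Finset.univ.filter (fun a => rsC C a = α)) (fun a => a i)]
        refine Finset.sum_congr rfl fun c _ => ?_
        rw [Finset.filter_filter])
      (NIo S C i)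
      (fun y β c => Matrix.posSemidef_sum _ fun b _ => (S.N_posSemidef y b).transpose)
      (fun y β => by
        unfold NIo NCo
        rw [← Finset.sum_fiberwise (Finset.univ.filter (fun a => rsC C a = β)) (fun a => a i)]
        refine Finset.sum_congr rfl fun c _ => ?_
        rw [Finset.filter_filter]) η hη
    have e1 : (fun x y => ∑ z, Pr G.prob z * ((if z i = (x, y) then 1 else 0) *
        ∑ a, ∑ b, wCo S C z a b *
        qf (KOf S.ψ) (MCo S C (fun j => (z j).1) a) (NCo S C (fun j => (z j).2) b))) =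
        Jlaw S C i := by
      funext x y
      simp_rw [gz_regroup]
      unfold Jlaw
      rw [Finset.sum_div]
      refine Finset.sum_congr rfl fun z _ => ?_
      ring
    have e2 : (∑ z, Pr G.prob z * ∑ a, ∑ b, wCo S C z a b * ∑ c, ∑ e,
        if G.accept (z i).1 (z i).2 c e = true then
          qf (KOf S.ψ) (MIo S C i (fun j => (z j).1) a c) (NIo S C i (fun j => (z j).2) b e)
          else 0) = pwin S C i := by
      simp_rw [win_regroup]
      unfold pwin
      rw [Finset.sum_div]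
      refine Finset.sum_congr rfl fun z _ => ?_
      ring
    rw [e1, e2] at key
    exact key

end Crest.Agent.NG
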