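import Crest.Agent.NG.Defs

/-!
Chunk R342-H1: kernels and conditional expectations `condX`, `condY` (finite sums over strings).
* `kX_sum`, `kY_sum`: each conditional law sums to one (`X`, `Y` nonempty since `μ` has mass one);
  `mu_eq_kX`, `mu_eq_kY`: `μ x y = μY(y) kX(y,x) = μX(x) kY(x,y)` (if the marginal is zero both
  sides vanish because `μ ≥ 0`).
* `condX_const`: `∑_x ∏_j ker_j(x_j) = ∏_j ∑_x ker_j(x) = 1` (`Finset.prod_univ_sum` /
  `Fintype.piFinset_univ`).
* `condX_update_rev`: on a revealed coordinate only `w.1` matters.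
* `condX_update_hid`: if `x_i` is hidden, average over `kX(w.2, ·)`:
  `condX SX f (update z i w) = ∑_x kX w.2 x • condX (insert i SX) f (update z i (x, w.2))`
  (in the product over `j` only the factor `j = i` differs).
-/

set_option autoImplicit false

namespace Crest.Agent.NG
open Matrix Complex
open scoped ComplexOrder

variable {k : ℕ} {X Y : Type} [Fintype X] [Fintype Y] [DecidableEq X] [DecidableEq Y]
variable {V : Type} [AddCommGroup V] [Module ℝ V]

/-- `μ` is a probability distribution -/
structure IsProb (μ : X → Y → ℝ) : Prop where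
  nonneg : ∀ x y, 0 ≤ μ x y
  sum_one : ∑ x, ∑ y, μ x y = 1

variable {μ : X → Y → ℝ}

theorem kX_nonneg (hμ : IsProb μ) (y : Y) (x : X) : 0 ≤ kX μ y x := by
  unfold kX
  split_ifs
  · positivity
  · exact div_nonneg (hμ.nonneg x y) (Finset.sum_nonneg fun x' _ => hμ.nonneg x' y)

theorem kY_nonneg (hμ : IsProb μ) (x : X) (y : Y) : 0 ≤ kY μ x y := by
  unfold kY
  split_ifs
  · positivity
  · exact div_nonneg (hμ.nonneg x y) (Finset.sum_nonneg fun y' _ => hμ.nonneg x y')

theorem kX_sum (hμ : IsProb μ) (y : Y) : ∑ x, kX μ y x = 1 := by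
  have hX : Nonempty X := by
    by_contra h
    rw [not_nonempty_iff] at h
    have := hμ.sum_one
    simp at this
  unfold kX
  split_ifs with h
  · rw [Finset.sum_const, Finset.card_univ, nsmul_eq_mul]
    exact mul_inv_cancel₀ (by exact_mod_cast Fintype.card_ne_zero)
  · rw [← Finset.sum_div]
    exact div_self h

theorem kY_sum (hμ : IsProb μ) (x : X) : ∑ y, kY μ x y = 1 := by
  have hY : Nonempty Y := by
    by_contra h
    rw [not_nonempty_iff] at h
    have := hμ.sum_one
    simp at this
  unfold kY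
  split_ifs with h
  · rw [Finset.sum_const, Finset.card_univ, nsmul_eq_mul]
    exact mul_inv_cancel₀ (by exact_mod_cast Fintype.card_ne_zero)
  · rw [← Finset.sum_div]
    exact div_self h

theorem mu_eq_kX (hμ : IsProb μ) (x : X) (y : Y) : μ x y = (∑ x', μ x' y) * kX μ y x := by
  unfold kX
  split_ifs with h
  · have := (Finset.sum_eq_zero_iff_of_nonneg (fun x' _ => hμ.nonneg x' y)).mp h x
      (Finset.mem_univ x)
    rw [this, h, zero_mul]
  · field_simp

theorem mu_eq_kY (hμ : IsProb μ) (x : X) (y : Y) : μ x y = (∑ y', μ x y') * kY μ x y := by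
  unfold kY
  split_ifs with h
  · have := (Finset.sum_eq_zero_iff_of_nonneg (fun y' _ => hμ.nonneg x y')).mp h y
      (Finset.mem_univ y)
    rw [this, h, zero_mul]
  · field_simp

theorem Pr_nonneg (hμ : IsProb μ) (z : Fin k → X × Y) : 0 ≤ Pr μ z := by
  exact Finset.prod_nonneg fun j _ => hμ.nonneg _ _

theorem Pr_sum (hμ : IsProb μ) : ∑ z : Fin k → X × Y, Pr μ z = 1 := by
  unfold Pr
  have h2 := Finset.prod_univ_sum (fun _ : Fin k => (Finset.univ : Finset (X × Y)))
      (fun _ w => μ w.1 w.2)
  rw [Fintype.piFinset_univ] at h2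
  rw [← h2]
  have h3 : ∑ w : X × Y, μ w.1 w.2 = 1 := by
    rw [Fintype.sum_prod_type]
    exact hμ.sum_one
  simp [h3]

theorem kerX_nonneg (hμ : IsProb μ) (p : Prop) [Decidable p] (w : X × Y) (x : X) :
    0 ≤ kerX μ p w x := by
  unfold kerX
  split_ifs
  · exact zero_le_one
  · exact le_rfl
  · exact kX_nonneg hμ _ _

theorem kerY_nonneg (hμ : IsProb μ) (p : Prop) [Decidable p] (w : X × Y) (y : Y) :
    0 ≤ kerY μ p w y := by
  unfold kerY
  split_ifs
  · exact zero_le_one
  · exact le_rfl
  · exact kY_nonneg hμ _ _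

theorem kerX_sum (hμ : IsProb μ) (p : Prop) [Decidable p] (w : X × Y) :
    ∑ x, kerX μ p w x = 1 := by
  unfold kerX
  split_ifs
  · simp
  · exact kX_sum hμ _

theorem kerY_sum (hμ : IsProb μ) (p : Prop) [Decidable p] (w : X × Y) :
    ∑ y, kerY μ p w y = 1 := by
  unfold kerY
  split_ifs
  · simp
  · exact kY_sum hμ _

theorem condX_weight_nonneg (hμ : IsProb μ) (SX : Finset (Fin k)) (z : Fin k → X × Y)
    (x : Fin k → X) : 0 ≤ ∏ j, kerX μ (j ∈ SX) (z j) (x j) := by
  exact Finset.prod_nonneg fun j _ => kerX_nonneg hμ _ _ _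

theorem condX_weight_sum (hμ : IsProb μ) (SX : Finset (Fin k)) (z : Fin k → X × Y) :
    ∑ x : Fin k → X, ∏ j, kerX μ (j ∈ SX) (z j) (x j) = 1 := by
  have h2 := Finset.prod_univ_sum (fun _ : Fin k => (Finset.univ : Finset X))
      (fun j w => kerX μ (j ∈ SX) (z j) w)
  rw [Fintype.piFinset_univ] at h2
  rw [← h2]
  simp [kerX_sum hμ]

theorem condY_weight_nonneg (hμ : IsProb μ) (SY : Finset (Fin k)) (z : Fin k → X × Y)
    (y : Fin k → Y) : 0 ≤ ∏ j, kerY μ (j ∈ SY) (z j) (y j) := by
  exact Finset.prod_nonneg fun j _ => kerY_nonneg hμ _ _ _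

theorem condY_weight_sum (hμ : IsProb μ) (SY : Finset (Fin k)) (z : Fin k → X × Y) :
    ∑ y : Fin k → Y, ∏ j, kerY μ (j ∈ SY) (z j) (y j) = 1 := by
  have h2 := Finset.prod_univ_sum (fun _ : Fin k => (Finset.univ : Finset Y))
      (fun j w => kerY μ (j ∈ SY) (z j) w)
  rw [Fintype.piFinset_univ] at h2
  rw [← h2]
  simp [kerY_sum hμ]

theorem condX_sum {ι : Type} (s : Finset ι) (SX : Finset (Fin k)) (f : ι → (Fin k → X) → V)
    (z : Fin k → X × Y) :
    condX μ SX (fun x => ∑ c ∈ s, f c x) z = ∑ c ∈ s, condX μ SX (f c) z := by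
  unfold condX
  rw [Finset.sum_comm]
  refine Finset.sum_congr rfl fun x _ => ?_
  rw [Finset.smul_sum]

theorem condY_sum {ι : Type} (s : Finset ι) (SY : Finset (Fin k)) (f : ι → (Fin k → Y) → V)
    (z : Fin k → X × Y) :
    condY μ SY (fun y => ∑ c ∈ s, f c y) z = ∑ c ∈ s, condY μ SY (f c) z := by
  unfold condY
  rw [Finset.sum_comm]
  refine Finset.sum_congr rfl fun x _ => ?_
  rw [Finset.smul_sum]

theorem condX_const (hμ : IsProb μ) (SX : Finset (Fin k)) (v : V) (z : Fin k → X × Y) :
    condX μ SX (fun _ => v) z = v := by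
  unfold condX
  rw [← Finset.sum_smul, condX_weight_sum hμ, one_smul]

theorem condY_const (hμ : IsProb μ) (SY : Finset (Fin k)) (v : V) (z : Fin k → X × Y) :
    condY μ SY (fun _ => v) z = v := by
  unfold condY
  rw [← Finset.sum_smul, condY_weight_sum hμ, one_smul]

theorem condX_update_rev {SX : Finset (Fin k)} {i : Fin k} (hi : i ∈ SX) (f : (Fin k → X) → V)
    (z : Fin k → X × Y) (w w' : X × Y) (h : w.1 = w'.1) :
    condX μ SX f (Function.update z i w) = condX μ SX f (Function.update z i w') := by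
  unfold condX
  refine Finset.sum_congr rfl fun x _ => ?_
  congr 1
  refine Finset.prod_congr rfl fun j _ => ?_
  by_cases hj : j = i
  · subst hj
    simp only [Function.update_self, kerX, hi, if_true, h]
  · rw [Function.update_of_ne hj, Function.update_of_ne hj]

theorem condY_update_rev {SY : Finset (Fin k)} {i : Fin k} (hi : i ∈ SY) (f : (Fin k → Y) → V)
    (z : Fin k → X × Y) (w w' : X × Y) (h : w.2 = w'.2) :
    condY μ SY f (Function.update z i w) = condY μ SY f (Function.update z i w') := by
  unfold condY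
  refine Finset.sum_congr rfl fun x _ => ?_
  congr 1
  refine Finset.prod_congr rfl fun j _ => ?_
  by_cases hj : j = i
  · subst hj
    simp only [Function.update_self, kerY, hi, if_true, h]
  · rw [Function.update_of_ne hj, Function.update_of_ne hj]

theorem condX_update_hid {SX : Finset (Fin k)} {i : Fin k} (hi : i ∉ SX)
    (f : (Fin k → X) → V) (z : Fin k → X × Y) (w : X × Y) :
    condX μ SX f (Function.update z i w) =
      ∑ x, kX μ w.2 x • condX μ (insert i SX) f (Function.update z i (x, w.2)) := by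
  classical
  unfold condX
  simp_rw [Finset.smul_sum, smul_smul]
  rw [Finset.sum_comm]
  refine Finset.sum_congr rfl fun x' _ => ?_
  rw [← Finset.sum_smul]
  congr 1
  rw [← Finset.mul_prod_erase Finset.univ _ (Finset.mem_univ i)]
  have h1 : ∀ x : X, kX μ w.2 x * ∏ j, kerX μ (j ∈ insert i SX)
      (Function.update z i (x, w.2) j) (x' j) =
      (if x = x' i then kX μ w.2 x else 0) * ∏ j ∈ Finset.univ.erase i,
        kerX μ (j ∈ SX) (Function.update z i w j) (x' j) := by
    intro x
    rw [← Finset.mul_prod_erase Finset.univ _ (Finset.mem_univ i), ← mul_assoc]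
    congr 1
    · simp only [Function.update_self, kerX, Finset.mem_insert, true_or, if_true]
      by_cases hx : x = x' i
      · simp [hx]
      · simp [hx, Ne.symm hx]
    · refine Finset.prod_congr rfl fun j hj => ?_
      have hj' : j ≠ i := Finset.ne_of_mem_erase hj
      rw [Function.update_of_ne hj', Function.update_of_ne hj']
      unfold kerX
      simp [hj']
  rw [Finset.sum_congr rfl fun x _ => h1 x, ← Finset.sum_mul]
  congr 1
  simp [kerX, hi]

theorem condY_update_hid {SY : Finset (Fin k)} {i : Fin k} (hi : i ∉ SY)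
    (f : (Fin k → Y) → V) (z : Fin k → X × Y) (w : X × Y) :
    condY μ SY f (Function.update z i w) =
      ∑ y, kY μ w.1 y • condY μ (insert i SY) f (Function.update z i (w.1, y)) := by
  classical
  unfold condY
  simp_rw [Finset.smul_sum, smul_smul]
  rw [Finset.sum_comm]
  refine Finset.sum_congr rfl fun x' _ => ?_
  rw [← Finset.sum_smul]
  congr 1
  rw [← Finset.mul_prod_erase Finset.univ _ (Finset.mem_univ i)]
  have h1 : ∀ x : Y, kY μ w.1 x * ∏ j, kerY μ (j ∈ insert i SY)
      (Function.update z i (w.1, x) j) (x' j) =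
      (if x = x' i then kY μ w.1 x else 0) * ∏ j ∈ Finset.univ.erase i,
        kerY μ (j ∈ SY) (Function.update z i w j) (x' j) := by
    intro x
    rw [← Finset.mul_prod_erase Finset.univ _ (Finset.mem_univ i), ← mul_assoc]
    congr 1
    · simp only [Function.update_self, kerY, Finset.mem_insert, true_or, if_true]
      by_cases hx : x = x' i
      · simp [hx]
      · simp [hx, Ne.symm hx]
    · refine Finset.prod_congr rfl fun j hj => ?_
      have hj' : j ≠ i := Finset.ne_of_mem_erase hj
      rw [Function.update_of_ne hj', Function.update_of_ne hj']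
      unfold kerY
      simp [hj']
  rw [Finset.sum_congr rfl fun x _ => h1 x, ← Finset.sum_mul]
  congr 1
  simp [kerY, hi]

end Crest.Agent.NG
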