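import Crest.Agent.NG.Perturb
import Crest.Agent.NG.Cond

/-!
Chunk R342-B1: the law of a `k`-fold strategy and elementary bounds.
`law ≥ 0` (`qf_nonneg`), `∑_{a,b} law = qf K 1 1 = nsq K = 1`, the event weight is between
`2^{-|C|}` and `1`, so `2^{-|C|} ≤ PW ≤ 1`, `0 ≤ gz ≤ 1`, `∑_{x,y} Jlaw = 1`.
-/

set_option autoImplicit false

namespace Crest.Agent.NG
open Matrix Complex Crest.MathPhysics.NonlocalGame
open scoped ComplexOrder

variable {G : Game} {k d : ℕ}

theorem isProb_game (G : Game) : IsProb G.prob := ⟨G.prob_nonneg, G.prob_sum⟩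

/-- event weight: product over `C` of (1 if won, 1/2 if lost) -/
noncomputable def evw (G : Game) {k : ℕ} (C : Finset (Fin k)) (z : Fin k → Fin G.nX × Fin G.nY)
    (a : Fin k → Fin G.nA) (b : Fin k → Fin G.nB) : ℝ :=
  ∏ j ∈ C, if G.accept (z j).1 (z j).2 (a j) (b j) = true then (1 : ℝ) else 1 / 2

/-- probability of the answers given the questions -/
noncomputable def law (S : Strategy G k d d) (z : Fin k → Fin G.nX × Fin G.nY)
    (a : Fin k → Fin G.nA) (b : Fin k → Fin G.nB) : ℝ :=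
  qf (KOf S.ψ) (S.M (fun j => (z j).1) a) ((S.N (fun j => (z j).2) b)ᵀ)

noncomputable def gz (S : Strategy G k d d) (C : Finset (Fin k))
    (z : Fin k → Fin G.nX × Fin G.nY) : ℝ :=
  ∑ a, ∑ b, evw G C z a b * law S z a b

/-- probability of the (weighted) event -/
noncomputable def PW (S : Strategy G k d d) (C : Finset (Fin k)) : ℝ :=
  ∑ z, Pr G.prob z * gz S C z

/-- winning probability of coordinate `i` given the event -/
noncomputable def pwin (S : Strategy G k d d) (C : Finset (Fin k)) (i : Fin k) : ℝ :=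
  (∑ z, Pr G.prob z * ∑ a, ∑ b, evw G C z a b *
    ((if G.accept (z i).1 (z i).2 (a i) (b i) = true then 1 else 0) * law S z a b)) / PW S C

/-- law of the question pair of coordinate `i` given the event -/
noncomputable def Jlaw (S : Strategy G k d d) (C : Finset (Fin k)) (i : Fin k)
    (x : Fin G.nX) (y : Fin G.nY) : ℝ :=
  (∑ z, Pr G.prob z * ((if z i = (x, y) then 1 else 0) * gz S C z)) / PW S C

theorem law_nonneg (S : Strategy G k d d) (z a b) : 0 ≤ law S z a b :=
  qf_nonneg (S.M_posSemidef _ _) (S.N_posSemidef _ _).transpose _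

theorem law_sum (S : Strategy G k d d) (z) : ∑ a, ∑ b, law S z a b = 1 := by
  unfold law
  have h1 : ∀ a, ∑ b, qf (KOf S.ψ) (S.M (fun j => (z j).1) a) ((S.N (fun j => (z j).2) b)ᵀ) =
      qf (KOf S.ψ) (S.M (fun j => (z j).1) a) 1 := by
    intro a
    rw [← qf_sum_right, ← Matrix.transpose_sum, S.N_sum, Matrix.transpose_one]
  simp_rw [h1]
  rw [← qf_sum_left, S.M_sum, qf_one_one, nsq_KOf]

theorem evw_pos (C : Finset (Fin k)) (z : Fin k → Fin G.nX × Fin G.nY) (a b) :
    0 < evw G C z a b := by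
  unfold evw
  refine Finset.prod_pos fun j _ => ?_
  split_ifs <;> norm_num

theorem evw_le_one (C : Finset (Fin k)) (z : Fin k → Fin G.nX × Fin G.nY) (a b) :
    evw G C z a b ≤ 1 := by
  unfold evw
  refine Finset.prod_le_one (fun j _ => ?_) (fun j _ => ?_)
  · split_ifs <;> norm_num
  · split_ifs <;> norm_num

theorem evw_ge (C : Finset (Fin k)) (z : Fin k → Fin G.nX × Fin G.nY) (a b) :
    (1 / 2 : ℝ) ^ C.card ≤ evw G C z a b := by
  unfold evw
  rw [← Finset.prod_const]
  refine Finset.prod_le_prod (fun j _ => by norm_num) (fun j _ => ?_)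
  split_ifs <;> norm_num

theorem gz_nonneg (S : Strategy G k d d) (C) (z) : 0 ≤ gz S C z :=
  Finset.sum_nonneg fun a _ => Finset.sum_nonneg fun b _ =>
    mul_nonneg (evw_pos C z a b).le (law_nonneg S z a b)

theorem gz_le_one (S : Strategy G k d d) (C) (z) : gz S C z ≤ 1 := by
  rw [← law_sum S z]
  unfold gz
  refine Finset.sum_le_sum fun a _ => Finset.sum_le_sum fun b _ => ?_
  exact mul_le_of_le_one_left (law_nonneg S z a b) (evw_le_one C z a b)

theorem gz_ge (S : Strategy G k d d) (C) (z) : (1 / 2 : ℝ) ^ C.card ≤ gz S C z := by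
  have h1 : (1 / 2 : ℝ) ^ C.card = ∑ a, ∑ b, (1 / 2 : ℝ) ^ C.card * law S z a b := by
    simp_rw [← Finset.mul_sum]
    rw [law_sum, mul_one]
  rw [h1]
  unfold gz
  refine Finset.sum_le_sum fun a _ => Finset.sum_le_sum fun b _ => ?_
  exact mul_le_mul_of_nonneg_right (evw_ge C z a b) (law_nonneg S z a b)

theorem PW_ge (S : Strategy G k d d) (C : Finset (Fin k)) : (1 / 2 : ℝ) ^ C.card ≤ PW S C := by
  have h1 : (1 / 2 : ℝ) ^ C.card = ∑ z : Fin k → Fin G.nX × Fin G.nY,
      Pr G.prob z * (1 / 2 : ℝ) ^ C.card := by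
    rw [← Finset.sum_mul, Pr_sum (isProb_game G), one_mul]
  rw [h1]
  unfold PW
  exact Finset.sum_le_sum fun z _ =>
    mul_le_mul_of_nonneg_left (gz_ge S C z) (Pr_nonneg (isProb_game G) z)

theorem PW_pos (S : Strategy G k d d) (C : Finset (Fin k)) : 0 < PW S C :=
  lt_of_lt_of_le (by positivity) (PW_ge S C)

theorem PW_le_one (S : Strategy G k d d) (C : Finset (Fin k)) : PW S C ≤ 1 := by
  rw [← Pr_sum (k := k) (isProb_game G)]
  unfold PW
  exact Finset.sum_le_sum fun z _ =>
    mul_le_of_le_one_right (Pr_nonneg (isProb_game G) z) (gz_le_one S C z)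

theorem Jlaw_sum (S : Strategy G k d d) (C : Finset (Fin k)) (i : Fin k) :
    ∑ x, ∑ y, Jlaw S C i x y = 1 := by
  unfold Jlaw
  simp_rw [← Finset.sum_div]
  rw [div_eq_one_iff_eq (PW_pos S C).ne']
  have h1 : ∀ x : Fin G.nX, ∑ y : Fin G.nY, ∑ z : Fin k → Fin G.nX × Fin G.nY,
      Pr G.prob z * ((if z i = (x, y) then 1 else 0) * gz S C z) =
      ∑ z : Fin k → Fin G.nX × Fin G.nY, ∑ y : Fin G.nY,
        Pr G.prob z * ((if z i = (x, y) then 1 else 0) * gz S C z) := fun x => Finset.sum_comm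
  simp_rw [h1]
  rw [Finset.sum_comm]
  unfold PW
  refine Finset.sum_congr rfl fun z _ => ?_
  rw [← Fintype.sum_prod_type' (f := fun (x : Fin G.nX) (y : Fin G.nY) =>
    Pr G.prob z * ((if z i = (x, y) then (1 : ℝ) else 0) * gz S C z))]
  simp

end Crest.Agent.NG
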