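import Crest.Agent.NG.Defs

/-!
Chunk R342-D0: elementary facts on `supportComponent` (reachability in `supportGraph`).
-/

set_option autoImplicit false

namespace Crest.Agent.NG
open Crest.MathPhysics.NonlocalGame

/-- hypothesis of S0537 on `κ` -/
def KappaHyp (G : Game) (κ : ℝ) : Prop :=
  ∀ z : Fin G.nX × Fin G.nY, 0 < G.prob z.1 z.2 → ∀ w ∈ G.supportComponent z,
      8 * ((G.supportComponent z).card - 1 : ℝ) * (∑ u ∈ G.supportComponent z, G.prob u.1 u.2)
        ≤ κ * G.prob w.1 w.2

theorem mem_component_iff' {G : Game} {u v : Fin G.nX × Fin G.nY} :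
    v ∈ G.supportComponent u ↔ G.supportGraph.Reachable u v := by
  unfold Game.supportComponent
  exact ⟨fun h => (@Finset.mem_filter _ _ (Classical.decPred _) _ _).1 h |>.2,
    fun h => (@Finset.mem_filter _ _ (Classical.decPred _) _ _).2 ⟨Finset.mem_univ _, h⟩⟩

theorem mem_component_self {G : Game} (z : Fin G.nX × Fin G.nY) : z ∈ G.supportComponent z :=
  mem_component_iff'.2 (SimpleGraph.Reachable.refl z)

theorem kappa_nonneg {G : Game} {κ : ℝ} (hκ : KappaHyp G κ) : 0 ≤ κ := by
  obtain ⟨x, y, hxy⟩ : ∃ x y, 0 < G.prob x y := by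
    by_contra hcon
    push Not at hcon
    have h1 : ∑ x, ∑ y, G.prob x y ≤ 0 :=
      Finset.sum_nonpos fun x _ => Finset.sum_nonpos fun y _ => hcon x y
    rw [G.prob_sum] at h1
    linarith
  have hz : 0 < G.prob ((x, y) : Fin G.nX × Fin G.nY).1 ((x, y) : Fin G.nX × Fin G.nY).2 := hxy
  have h := hκ (x, y) hz (x, y) (mem_component_self _)
  have hcard : (1 : ℝ) ≤ (G.supportComponent (x, y)).card := by
    have : 0 < (G.supportComponent (x, y)).card := Finset.card_pos.2 ⟨_, mem_component_self _⟩
    exact_mod_cast this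
  have hsum : 0 ≤ ∑ u ∈ G.supportComponent (x, y), G.prob u.1 u.2 :=
    Finset.sum_nonneg fun u _ => G.prob_nonneg _ _
  have h0 : 0 ≤ 8 * ((G.supportComponent (x, y)).card - 1 : ℝ) *
      ∑ u ∈ G.supportComponent (x, y), G.prob u.1 u.2 :=
    mul_nonneg (mul_nonneg (by norm_num) (by linarith)) hsum
  by_contra hneg
  push Not at hneg
  have h2 : κ * G.prob x y < 0 := mul_neg_of_neg_of_pos hneg hxy
  exact absurd (h0.trans h) (not_le.2 h2)

theorem component_eq {G : Game} {z w : Fin G.nX × Fin G.nY} (h : w ∈ G.supportComponent z) :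
    G.supportComponent w = G.supportComponent z := by
  have h' := mem_component_iff'.1 h
  ext u
  rw [mem_component_iff', mem_component_iff']
  exact ⟨fun h2 => h'.trans h2, fun h2 => h'.symm.trans h2⟩

theorem component_pos {G : Game} {z w : Fin G.nX × Fin G.nY} (h : w ∈ G.supportComponent z)
    (hz : 0 < G.prob z.1 z.2) : 0 < G.prob w.1 w.2 := by
  have h' := mem_component_iff'.1 h
  obtain ⟨p⟩ := h'
  induction p with
  | nil => exact hz
  | @cons u v w hadj p ih => exact ih (mem_component_iff'.2 ⟨p⟩) hadj.2.2.1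

theorem component_eq_of_adj {G : Game} {z w : Fin G.nX × Fin G.nY}
    (hz : 0 < G.prob z.1 z.2) (hw : 0 < G.prob w.1 w.2) (h : z.1 = w.1 ∨ z.2 = w.2) :
    G.supportComponent w = G.supportComponent z := by
  by_cases heq : z = w
  · rw [heq]
  · exact component_eq (mem_component_iff'.2
      (SimpleGraph.Adj.reachable (show G.supportGraph.Adj z w from ⟨heq, hz, hw, h⟩)))

end Crest.Agent.NG
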