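import Crest.Agent.NG.Cond

/-!
Chunk R342-H2: positivity of conditional expectations of matrix families: nonnegative weights
with sum one; for `PosDef` at least one weight is positive (`Matrix.posDef_sum` needs a
nonempty index; drop zero weights: sum of PSD matrices with one PosDef summand is PosDef).
-/

set_option autoImplicit false

namespace Crest.Agent.NG
open Matrix Complex
open scoped ComplexOrder

variable {k : ℕ} {X Y : Type} [Fintype X] [Fintype Y] [DecidableEq X] [DecidableEq Y]
variable {n : Type} [Fintype n] [DecidableEq n] {μ : X → Y → ℝ}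

theorem cp_smul_posSemidef {c : ℝ} (hc : 0 ≤ c) {A : Matrix n n ℂ} (hA : A.PosSemidef) :
    (c • A).PosSemidef := by
  have : c • A = (c : ℂ) • A := by
    ext i j
    simp [Matrix.smul_apply]
  rw [this]
  exact hA.smul (by exact_mod_cast hc)

theorem cp_smul_posDef {c : ℝ} (hc : 0 < c) {A : Matrix n n ℂ} (hA : A.PosDef) :
    (c • A).PosDef := by
  have : c • A = (c : ℂ) • A := by
    ext i j
    simp [Matrix.smul_apply]
  rw [this]
  exact hA.smul (by exact_mod_cast hc)

theorem convex_posSemidef {ι : Type} [Fintype ι] (c : ι → ℝ) (hc : ∀ i, 0 ≤ c i)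
    (f : ι → Matrix n n ℂ) (hf : ∀ i, (f i).PosSemidef) : (∑ i, c i • f i).PosSemidef :=
  Matrix.posSemidef_sum _ fun i _ => cp_smul_posSemidef (hc i) (hf i)

/-- a convex combination of positive definite matrices is positive definite -/
theorem convex_posDef {ι : Type} [Fintype ι] (c : ι → ℝ) (hc : ∀ i, 0 ≤ c i) (hc1 : ∑ i, c i = 1)
    (f : ι → Matrix n n ℂ) (hf : ∀ i, (f i).PosDef) : (∑ i, c i • f i).PosDef := by
  classical
  have hex : ∃ i, 0 < c i := by
    by_contra hno
    push Not at hno
    have : ∑ i, c i ≤ 0 := Finset.sum_nonpos fun i _ => hno i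
    linarith
  obtain ⟨i, hi⟩ := hex
  rw [← Finset.add_sum_erase Finset.univ _ (Finset.mem_univ i)]
  exact (cp_smul_posDef hi (hf i)).add_posSemidef
    (Matrix.posSemidef_sum _ fun j _ => cp_smul_posSemidef (hc j) (hf j).posSemidef)

theorem condX_posDef (hμ : IsProb μ) (SX : Finset (Fin k)) (f : (Fin k → X) → Matrix n n ℂ)
    (hf : ∀ x, (f x).PosDef) (z : Fin k → X × Y) : (condX μ SX f z).PosDef :=
  convex_posDef _ (condX_weight_nonneg hμ SX z) (condX_weight_sum hμ SX z) f hf

theorem condY_posDef (hμ : IsProb μ) (SY : Finset (Fin k)) (f : (Fin k → Y) → Matrix n n ℂ)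
    (hf : ∀ y, (f y).PosDef) (z : Fin k → X × Y) : (condY μ SY f z).PosDef :=
  convex_posDef _ (condY_weight_nonneg hμ SY z) (condY_weight_sum hμ SY z) f hf

theorem condX_posSemidef (hμ : IsProb μ) (SX : Finset (Fin k)) (f : (Fin k → X) → Matrix n n ℂ)
    (hf : ∀ x, (f x).PosSemidef) (z : Fin k → X × Y) : (condX μ SX f z).PosSemidef :=
  convex_posSemidef _ (condX_weight_nonneg hμ SX z) f hf

theorem condY_posSemidef (hμ : IsProb μ) (SY : Finset (Fin k)) (f : (Fin k → Y) → Matrix n n ℂ)
    (hf : ∀ y, (f y).PosSemidef) (z : Fin k → X × Y) : (condY μ SY f z).PosSemidef :=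
  convex_posSemidef _ (condY_weight_nonneg hμ SY z) f hf

end Crest.Agent.NG
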