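import Crest.Agent.NG.GaugeAlg

/-!
Definitions for R342-G5, R342-G6: hypotheses of the gauge theorem, the analytic function `Fz`,
the entropy decrease `gap`.
-/

set_option autoImplicit false

namespace Crest.Agent.NG
open Matrix Complex
open scoped ComplexOrder

variable {R X Y n : Type} [Fintype R] [Fintype X] [Fintype Y] [Fintype n] [DecidableEq n]

/-- hypotheses of the gauge theorem -/
structure GaugeHyp (p : R → ℝ) (μ : X → Y → ℝ) (k : X → Y → ℝ)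
    (A : R → X → Matrix n n ℂ) (B : R → Y → Matrix n n ℂ)
    (Ay : R → Y → Matrix n n ℂ) (Bx : R → X → Matrix n n ℂ)
    (K : Matrix n n ℂ) (α α' : R → ℝ) : Prop where
  hp : ∀ r, 0 ≤ p r
  hμ : ∀ x y, 0 ≤ μ x y
  hk : ∀ x y, 0 ≤ k x y
  hk1 : ∀ x, ∑ y, k x y = 1
  hμk : ∀ x y, μ x y = (∑ y', μ x y') * k x y
  hA : ∀ r x, (A r x).PosDef
  hB : ∀ r y, (B r y).PosDef
  hAy : ∀ r y, (Ay r y).PosDef
  hAy2 : ∀ r y, ∑ x, μ x y • A r x = (∑ x, μ x y) • Ay r y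
  hBx : ∀ r x, (Bx r x).PosDef
  hBx2 : ∀ r x, Bx r x = ∑ y, k x y • B r y
  hK : IsUnit K
  hα : ∀ r, 0 < α r
  hα' : ∀ r, 0 < α' r
  hnorm : ∑ r, p r * ∑ x, ∑ y, μ x y * (α r * qf K (A r x) (B r y)) = 1

variable {p : R → ℝ} {μ : X → Y → ℝ} {k : X → Y → ℝ}
    {A : R → X → Matrix n n ℂ} {B : R → Y → Matrix n n ℂ}
    {Ay : R → Y → Matrix n n ℂ} {Bx : R → X → Matrix n n ℂ}
    {K : Matrix n n ℂ} {α α' : R → ℝ}

noncomputable def Fz (p : R → ℝ) (μ : X → Y → ℝ) (k : X → Y → ℝ)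
    (A : R → X → Matrix n n ℂ) (B : R → Y → Matrix n n ℂ)
    (Ay : R → Y → Matrix n n ℂ) (Bx : R → X → Matrix n n ℂ)
    (K : Matrix n n ℂ) (α α' : R → ℝ) (z : ℂ) : ℂ :=
  ∑ r, ∑ x, ((p r * ∑ y, μ x y : ℝ) : ℂ) *
    ∑ y, tf (rhoOf (α r) K (A r x) (Bx r x)) (rhoOf (α r) K (Ay r y) (B r y))
      (rhoOf (α' r) K 1 (B r y)) (rhoOf (α' r) K 1 (Bx r x)) (lam (k x y) (B r y) (Bx r x)) z

/-- the entropy decrease of the coordinate -/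
noncomputable def gap (p : R → ℝ) (μ : X → Y → ℝ)
    (A : R → X → Matrix n n ℂ) (B : R → Y → Matrix n n ℂ)
    (Ay : R → Y → Matrix n n ℂ) (Bx : R → X → Matrix n n ℂ)
    (K : Matrix n n ℂ) (α α' : R → ℝ) : ℝ :=
  (∑ r, p r * ∑ x, (∑ y, μ x y) * dpot (α r) (α' r) K (A r x) (Bx r x)) -
    ∑ r, p r * ∑ y, (∑ x, μ x y) * dpot (α r) (α' r) K (Ay r y) (B r y)

end Crest.Agent.NG
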