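import Crest.Agent.NG.Potential
import Crest.Agent.NG.GaugeDefs

/-!
Definitions for the chunks R342-C1 (CoordHyp.lean: `gaugeHyp_bob`, `gaugeHyp_alice`) and
R342-C2 (CoordStep.lean: `HB_step`, `HA_step`).

Coordinate `i ∉ C`, record `r = (z, a, b)` of weight `Pr μ z` (the coordinate `i` of `z` is a dummy):
* `fA r x`: Alice's operator, `x_i = x` revealed;  `fB r y`: Bob's operator, `y_i = y` revealed;
* `fAy r y`: Alice's operator, `x_i` hidden, public `y_i = y`;
* `fBx r x`: Bob's operator, `y_i` hidden, public `x_i = x`.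

C1: fields: `hμk` is `mu_eq_kY`, `hBx2` is `condY_update_hid` + `condY_update_rev` +
`SYs_eq_insert`; `hAy2` from `condX_update_hid`, `SXs_succ`, `mu_eq_kX`; `hnorm` from
`qf_hybrid_coord` with `φ = 1`, `g z = w z a b`, and `hw1`; positivity from `condX_posDef` ...
(`w z' = w z` when `z'` differs from `z` only at `i ∉ C`, `hwC`).
C2: `HB (i+1)`: apply `resample` at coordinate `i`; after `update z i (x,y)` the operators are
`fA r x`, `fBx r x` (`condX_update_rev`; `condY` with hidden coordinate `i` depends only on `x`: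
`condY_update_hid`), `w` unchanged; sum over `y` gives the marginal. `HB i` similarly with
`fAy r y`, `fB r y`. Sum over `r` is `Fintype.sum_prod_type`.
-/
set_option autoImplicit false

namespace Crest.Agent.NG
open Matrix Complex
open scoped ComplexOrder

variable {k : ℕ} {X Y : Type} [Fintype X] [Fintype Y] [DecidableEq X] [DecidableEq Y]
variable {A B n : Type} [Fintype A] [Fintype B] [Fintype n] [DecidableEq n]

/-- records -/
abbrev Rec (k : ℕ) (X Y A B : Type) : Type := (Fin k → X × Y) × A × B

noncomputable def fA (μ : X → Y → ℝ) (C : Finset (Fin k)) (M : (Fin k → X) → A → Matrix n n ℂ)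
    (i : Fin k) (r : Rec k X Y A B) (x : X) : Matrix n n ℂ :=
  condX μ (SXs C (i.val + 1)) (fun x => M x r.2.1) (Function.update r.1 i (x, (r.1 i).2))

noncomputable def fB (μ : X → Y → ℝ) (C : Finset (Fin k)) (N : (Fin k → Y) → B → Matrix n n ℂ)
    (i : Fin k) (r : Rec k X Y A B) (y : Y) : Matrix n n ℂ :=
  condY μ (SYs C i.val) (fun y => N y r.2.2) (Function.update r.1 i ((r.1 i).1, y))

noncomputable def fAy (μ : X → Y → ℝ) (C : Finset (Fin k)) (M : (Fin k → X) → A → Matrix n n ℂ)
    (i : Fin k) (r : Rec k X Y A B) (y : Y) : Matrix n n ℂ :=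
  condX μ (SXs C i.val) (fun x => M x r.2.1) (Function.update r.1 i ((r.1 i).1, y))

noncomputable def fBx (μ : X → Y → ℝ) (C : Finset (Fin k)) (N : (Fin k → Y) → B → Matrix n n ℂ)
    (i : Fin k) (r : Rec k X Y A B) (x : X) : Matrix n n ℂ :=
  condY μ (SYs C (i.val + 1)) (fun y => N y r.2.2) (Function.update r.1 i (x, (r.1 i).2))

end Crest.Agent.NG
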