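import Crest.Agent.NG.CoordDefs

/-!
Chunk R342-C1 (`gaugeHyp_bob`, `gaugeHyp_alice`). See CoordDefs.lean.
Fields: `hμk` is `mu_eq_kY`, `hBx2` is `condY_update_hid` + `condY_update_rev` +
`SYs_eq_insert`; `hAy2` from `condX_update_hid`, `SXs_succ`, `mu_eq_kX`; `hnorm` from
`qf_hybrid_coord` with `φ = 1`, `g z = w z a b`, and `hw1`; positivity from `condX_posDef` ...
-/

set_option autoImplicit false
set_option linter.unusedSectionVars false

namespace Crest.Agent.NG
open Matrix Complex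
open scoped ComplexOrder

variable {k : ℕ} {X Y : Type} [Fintype X] [Fintype Y] [DecidableEq X] [DecidableEq Y]
variable {A B n : Type} [Fintype A] [Fintype B] [Fintype n] [DecidableEq n]

variable {μ : X → Y → ℝ} {C : Finset (Fin k)} {M : (Fin k → X) → A → Matrix n n ℂ}
    {N : (Fin k → Y) → B → Matrix n n ℂ} {K : Matrix n n ℂ}
    {w : (Fin k → X × Y) → A → B → ℝ}

/-- Alice's operator with `x_i` hidden is the average of the operators with `x_i` revealed -/
theorem fAy_eq (i : Fin k) (hi : i ∉ C) (r : Rec k X Y A B) (y : Y) :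
    fAy μ C M i r y = ∑ x, kX μ y x • fA μ C M i r x := by
  unfold fAy fA
  rw [condX_update_hid (not_mem_SXs hi), SXs_succ]
  refine Finset.sum_congr rfl fun x _ => ?_
  congr 1
  exact condX_update_rev (Finset.mem_insert_self _ _) _ _ _ _ rfl

/-- Bob's operator with `y_i` hidden is the average of the operators with `y_i` revealed -/
theorem fBx_eq (i : Fin k) (hi : i ∉ C) (r : Rec k X Y A B) (x : X) :
    fBx μ C N i r x = ∑ y, kY μ x y • fB μ C N i r y := by
  unfold fBx fB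
  rw [condY_update_hid (not_mem_SYs hi), SYs_eq_insert]
  refine Finset.sum_congr rfl fun y _ => ?_
  congr 1
  exact condY_update_rev (Finset.mem_insert_self _ _) _ _ _ _ rfl

theorem fAy_sum (hμ : IsProb μ) (i : Fin k) (hi : i ∉ C) (r : Rec k X Y A B) (y : Y) :
    ∑ x, μ x y • fA μ C M i r x = (∑ x, μ x y) • fAy μ C M i r y := by
  rw [fAy_eq i hi, Finset.smul_sum]
  refine Finset.sum_congr rfl fun x _ => ?_
  rw [smul_smul, ← mu_eq_kX hμ]

theorem fBx_sum (hμ : IsProb μ) (i : Fin k) (hi : i ∉ C) (r : Rec k X Y A B) (x : X) :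
    ∑ y, μ x y • fB μ C N i r y = (∑ y, μ x y) • fBx μ C N i r x := by
  rw [fBx_eq i hi, Finset.smul_sum]
  refine Finset.sum_congr rfl fun y _ => ?_
  rw [smul_smul, ← mu_eq_kY hμ]

theorem StratHyp.nonempty_A (H : StratHyp μ C M N K w) : Nonempty A := by
  by_contra h
  rw [not_nonempty_iff] at h
  have := H.hw1
  simp at this

theorem StratHyp.nonempty_B (H : StratHyp μ C M N K w) : Nonempty B := by
  by_contra h
  rw [not_nonempty_iff] at h
  have := H.hw1
  simp at this

theorem qf_conjTranspose_swap (K P Q : Matrix n n ℂ) : qf Kᴴ Q P = qf K P Q := by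
  unfold qf
  rw [conjTranspose_conjTranspose]
  have h : (K * Q * Kᴴ * P).trace = (Kᴴ * P * K * Q).trace := by
    rw [mul_assoc (K * Q) Kᴴ P, Matrix.trace_mul_comm (K * Q) (Kᴴ * P), ← mul_assoc]
  rw [h]

theorem StratHyp.norm_coord (H : StratHyp μ C M N K w) (i : Fin k) (hi : i ∉ C) :
    ∑ r : Rec k X Y A B, Pr μ r.1 * ∑ x, ∑ y, μ x y *
      (w r.1 r.2.1 r.2.2 * qf K (fA μ C M i r x) (fB μ C N i r y)) = 1 := by
  have e : ∑ z, Pr μ z * ∑ a, ∑ b, w z a b *
      qf K (M (fun j => (z j).1) a) (N (fun j => (z j).2) b) =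
      ∑ a, ∑ b, ∑ z, Pr μ z * (w z a b *
        qf K (M (fun j => (z j).1) a) (N (fun j => (z j).2) b)) := by
    have h1 : ∀ z, Pr μ z * ∑ a, ∑ b, w z a b *
        qf K (M (fun j => (z j).1) a) (N (fun j => (z j).2) b) =
        ∑ a, ∑ b, Pr μ z * (w z a b *
        qf K (M (fun j => (z j).1) a) (N (fun j => (z j).2) b)) := by
      intro z
      rw [Finset.mul_sum]
      exact Finset.sum_congr rfl fun a _ => Finset.mul_sum _ _ _
    rw [Finset.sum_congr rfl fun z _ => h1 z, Finset.sum_comm]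
    exact Finset.sum_congr rfl fun a _ => Finset.sum_comm
  rw [← H.hw1, e, Fintype.sum_prod_type, Finset.sum_comm, Fintype.sum_prod_type]
  refine Finset.sum_congr rfl fun a _ => Finset.sum_congr rfl fun b _ => ?_
  have key := qf_hybrid_coord H.hμ C i hi K (fun x => M x a) (fun y => N y b)
    (fun z => w z a b) (fun z z' h => H.hwC z z' h a b) (fun _ _ => 1)
  simp only [one_mul] at key
  exact key

theorem gaugeHyp_bob (H : StratHyp μ C M N K w) (i : Fin k) (hi : i ∉ C) :
    GaugeHyp (fun r : Rec k X Y A B => Pr μ r.1) μ (kY μ)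
      (fA μ C M i) (fB μ C N i) (fAy μ C M i) (fBx μ C N i) K
      (fun r => w r.1 r.2.1 r.2.2) (fun _ => (Fintype.card A : ℝ)⁻¹) where
  hp r := Pr_nonneg H.hμ r.1
  hμ := H.hμ.nonneg
  hk := kY_nonneg H.hμ
  hk1 := kY_sum H.hμ
  hμk := mu_eq_kY H.hμ
  hA r x := condX_posDef H.hμ _ _ (fun x => (H.hM x).1 r.2.1) _
  hB r y := condY_posDef H.hμ _ _ (fun y => (H.hN y).1 r.2.2) _
  hAy r y := condX_posDef H.hμ _ _ (fun x => (H.hM x).1 r.2.1) _
  hAy2 r y := fAy_sum H.hμ i hi r y
  hBx r x := condY_posDef H.hμ _ _ (fun y => (H.hN y).1 r.2.2) _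
  hBx2 r x := fBx_eq i hi r x
  hK := H.hK
  hα r := H.hw _ _ _
  hα' _ := by
    have := H.nonempty_A
    have h : 0 < Fintype.card A := Fintype.card_pos
    positivity
  hnorm := H.norm_coord i hi

theorem gaugeHyp_alice (H : StratHyp μ C M N K w) (i : Fin k) (hi : i ∉ C) :
    GaugeHyp (fun r : Rec k X Y A B => Pr μ r.1) (fun y x => μ x y) (kX μ)
      (fB μ C N i) (fA μ C M i) (fBx μ C N i) (fAy μ C M i) Kᴴ
      (fun r => w r.1 r.2.1 r.2.2) (fun _ => (Fintype.card B : ℝ)⁻¹) where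
  hp r := Pr_nonneg H.hμ r.1
  hμ y x := H.hμ.nonneg x y
  hk := kX_nonneg H.hμ
  hk1 := kX_sum H.hμ
  hμk y x := mu_eq_kX H.hμ x y
  hA r y := condY_posDef H.hμ _ _ (fun y => (H.hN y).1 r.2.2) _
  hB r x := condX_posDef H.hμ _ _ (fun x => (H.hM x).1 r.2.1) _
  hAy r x := condY_posDef H.hμ _ _ (fun y => (H.hN y).1 r.2.2) _
  hAy2 r x := fBx_sum H.hμ i hi r x
  hBx r y := condX_posDef H.hμ _ _ (fun x => (H.hM x).1 r.2.1) _
  hBx2 r y := fAy_eq i hi r y
  hK := by
    have h := H.hK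
    rw [Matrix.isUnit_iff_isUnit_det] at h ⊢
    rw [Matrix.det_conjTranspose]
    exact h.star
  hα r := H.hw _ _ _
  hα' _ := by
    have := H.nonempty_B
    have h : 0 < Fintype.card B := Fintype.card_pos
    positivity
  hnorm := by
    rw [← H.norm_coord i hi]
    refine Finset.sum_congr rfl fun r _ => ?_
    congr 1
    rw [Finset.sum_comm]
    refine Finset.sum_congr rfl fun x _ => Finset.sum_congr rfl fun y _ => ?_
    rw [qf_conjTranspose_swap]

end Crest.Agent.NG
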