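import Crest.Agent.NG.CoordDefs

/-!
Chunk R342-C2 (`HB_step`, `HA_step`). See CoordDefs.lean.
`HB (i+1)`: apply `resample` at coordinate `i`; after `update z i (x,y)` the operators are
`fA r x`, `fBx r x` (`condX_update_rev`; `condY` with hidden coordinate `i` depends only on `x`:
`condY_update_hid`), `w` unchanged (`hwC`); sum over `y` gives the marginal. `HB i` similarly with
`fAy r y`, `fB r y`. Sum over `r` is `Fintype.sum_prod_type`.
-/

set_option autoImplicit false

namespace Crest.Agent.NG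
open Matrix Complex
open scoped ComplexOrder

variable {k : ℕ} {X Y : Type} [Fintype X] [Fintype Y] [DecidableEq X] [DecidableEq Y]
variable {A B n : Type} [Fintype A] [Fintype B] [Fintype n] [DecidableEq n]

variable {μ : X → Y → ℝ} {C : Finset (Fin k)} {M : (Fin k → X) → A → Matrix n n ℂ}
    {N : (Fin k → Y) → B → Matrix n n ℂ} {K : Matrix n n ℂ}
    {w : (Fin k → X × Y) → A → B → ℝ}

theorem coordStep_swap {X' : Type} [Fintype X'] (p : ℝ) (m : X' → ℝ) (D : A → B → X' → ℝ) :
    p * ∑ x, m x * ∑ a, ∑ b, D a b x = ∑ a, ∑ b, p * ∑ x, m x * D a b x := by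
  simp only [Finset.mul_sum]
  rw [Finset.sum_comm]
  refine Finset.sum_congr rfl fun a _ => ?_
  rw [Finset.sum_comm]

theorem coordStep_resX (hμ : IsProb μ) (i : Fin k) (F : (Fin k → X × Y) → A → B → ℝ)
    (D : (Fin k → X × Y) → A → B → X → ℝ)
    (h : ∀ z x y a b, F (Function.update z i (x, y)) a b = D z a b x) :
    ∑ z, Pr μ z * ∑ a, ∑ b, F z a b =
      ∑ r : Rec k X Y A B, Pr μ r.1 * ∑ x, (∑ y, μ x y) * D r.1 r.2.1 r.2.2 x := by
  rw [resample hμ i (fun z => ∑ a, ∑ b, F z a b), Fintype.sum_prod_type]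
  refine Finset.sum_congr rfl fun z _ => ?_
  rw [Fintype.sum_prod_type]
  simp only [h]
  rw [← coordStep_swap (Pr μ z) (fun x => ∑ y, μ x y) (fun a b x => D z a b x)]
  congr 1
  refine Finset.sum_congr rfl fun x _ => ?_
  rw [Finset.sum_mul]

theorem coordStep_resY (hμ : IsProb μ) (i : Fin k) (F : (Fin k → X × Y) → A → B → ℝ)
    (D : (Fin k → X × Y) → A → B → Y → ℝ)
    (h : ∀ z x y a b, F (Function.update z i (x, y)) a b = D z a b y) :
    ∑ z, Pr μ z * ∑ a, ∑ b, F z a b =
      ∑ r : Rec k X Y A B, Pr μ r.1 * ∑ y, (∑ x, μ x y) * D r.1 r.2.1 r.2.2 y := by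
  rw [resample hμ i (fun z => ∑ a, ∑ b, F z a b), Fintype.sum_prod_type]
  refine Finset.sum_congr rfl fun z _ => ?_
  rw [Fintype.sum_prod_type]
  simp only [h]
  rw [← coordStep_swap (Pr μ z) (fun y => ∑ x, μ x y) (fun a b y => D z a b y)]
  congr 1
  rw [Finset.sum_comm]
  refine Finset.sum_congr rfl fun y _ => ?_
  rw [Finset.sum_mul]

omit [Fintype n] [DecidableEq n] in
theorem coordStep_X1 (i : Fin k) (f : (Fin k → X) → Matrix n n ℂ) (z : Fin k → X × Y) (x : X)
    (y : Y) : condX μ (SXs C (i.val + 1)) f (Function.update z i (x, y)) =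
      condX μ (SXs C (i.val + 1)) f (Function.update z i (x, (z i).2)) :=
  condX_update_rev (mem_SXs.2 (Or.inr (Nat.lt_succ_self _))) f z _ _ rfl

omit [Fintype n] [DecidableEq n] in
theorem coordStep_X0 (i : Fin k) (hi : i ∉ C) (f : (Fin k → X) → Matrix n n ℂ)
    (z : Fin k → X × Y) (x : X)
    (y : Y) : condX μ (SXs C i.val) f (Function.update z i (x, y)) =
      condX μ (SXs C i.val) f (Function.update z i ((z i).1, y)) := by
  rw [condX_update_hid (not_mem_SXs hi), condX_update_hid (not_mem_SXs hi)]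

omit [Fintype n] [DecidableEq n] in
theorem coordStep_Y1 (i : Fin k) (hi : i ∉ C) (f : (Fin k → Y) → Matrix n n ℂ)
    (z : Fin k → X × Y) (x : X)
    (y : Y) : condY μ (SYs C (i.val + 1)) f (Function.update z i (x, y)) =
      condY μ (SYs C (i.val + 1)) f (Function.update z i (x, (z i).2)) := by
  rw [condY_update_hid (not_mem_SYs hi), condY_update_hid (not_mem_SYs hi)]

omit [Fintype n] [DecidableEq n] in
theorem coordStep_Y0 (i : Fin k) (f : (Fin k → Y) → Matrix n n ℂ) (z : Fin k → X × Y) (x : X)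
    (y : Y) : condY μ (SYs C i.val) f (Function.update z i (x, y)) =
      condY μ (SYs C i.val) f (Function.update z i ((z i).1, y)) :=
  condY_update_rev (mem_SYs.2 (Or.inr (le_refl _))) f z _ _ rfl

theorem coordStep_w (H : StratHyp μ C M N K w) (i : Fin k) (hi : i ∉ C) (z : Fin k → X × Y)
    (v : X × Y) (a : A) (b : B) : w (Function.update z i v) a b = w z a b := by
  refine H.hwC _ _ (fun j hj => ?_) a b
  have : j ≠ i := fun h => hi (h ▸ hj)
  exact Function.update_of_ne this _ _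

theorem HB_step (H : StratHyp μ C M N K w) (i : Fin k) (hi : i ∉ C) :
    HB μ C M N K w (i.val + 1) - HB μ C M N K w i.val =
      gap (fun r : Rec k X Y A B => Pr μ r.1) μ
      (fA μ C M i) (fB μ C N i) (fAy μ C M i) (fBx μ C N i) K
      (fun r => w r.1 r.2.1 r.2.2) (fun _ => (Fintype.card A : ℝ)⁻¹) := by
  unfold HB gap
  congr 1
  · refine coordStep_resX H.hμ i _ (fun z a b x => dpot (w z a b) ((Fintype.card A : ℝ)⁻¹) K
      (fA μ C M i (z, a, b) x) (fBx μ C N i (z, a, b) x)) ?_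
    intro z x y a b
    rw [coordStep_w H i hi, coordStep_X1, coordStep_Y1 i hi]
    rfl
  · refine coordStep_resY H.hμ i _ (fun z a b y => dpot (w z a b) ((Fintype.card A : ℝ)⁻¹) K
      (fAy μ C M i (z, a, b) y) (fB μ C N i (z, a, b) y)) ?_
    intro z x y a b
    rw [coordStep_w H i hi, coordStep_X0 i hi, coordStep_Y0]
    rfl

theorem HA_step (H : StratHyp μ C M N K w) (i : Fin k) (hi : i ∉ C) :
    HA μ C M N K w i.val - HA μ C M N K w (i.val + 1) =
      gap (fun r : Rec k X Y A B => Pr μ r.1) (fun y x => μ x y)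
      (fB μ C N i) (fA μ C M i) (fBx μ C N i) (fAy μ C M i) Kᴴ
      (fun r => w r.1 r.2.1 r.2.2) (fun _ => (Fintype.card B : ℝ)⁻¹) := by
  unfold HA gap
  congr 1
  · refine coordStep_resY H.hμ i _ (fun z a b y => dpot (w z a b) ((Fintype.card B : ℝ)⁻¹) Kᴴ
      (fB μ C N i (z, a, b) y) (fAy μ C M i (z, a, b) y)) ?_
    intro z x y a b
    rw [coordStep_w H i hi, coordStep_X0 i hi, coordStep_Y0]
    rfl
  · refine coordStep_resX H.hμ i _ (fun z a b x => dpot (w z a b) ((Fintype.card B : ℝ)⁻¹) Kᴴ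
      (fBx μ C N i (z, a, b) x) (fA μ C M i (z, a, b) x)) ?_
    intro z x y a b
    rw [coordStep_w H i hi, coordStep_X1, coordStep_Y1 i hi]
    rfl

end Crest.Agent.NG
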