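import Mathlib
import Crest.Prelude.Def_NonlocalGame

/-!
Row 342 (S0536, S0537): definitions used by all the chunks.
-/

set_option autoImplicit false

namespace Crest.Agent.NG

open Matrix Crest.MathPhysics.NonlocalGame
open scoped ComplexOrder

noncomputable section

/-- squared Frobenius norm -/
def nsq {m n : Type} [Fintype m] [Fintype n] (X : Matrix m n ℂ) : ℝ := ∑ i, ∑ j, ‖X i j‖ ^ 2

section mat
variable {n : Type} [Fintype n] [DecidableEq n]

open Classical in
/-- function of a Hermitian matrix (with complex values): `U diag(f(λ)) U*` -/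
def mfun (f : ℝ → ℂ) (P : Matrix n n ℂ) : Matrix n n ℂ :=
  if h : P.IsHermitian then
    (h.eigenvectorUnitary : Matrix n n ℂ) * diagonal (fun i => f (h.eigenvalues i)) *
      (h.eigenvectorUnitary : Matrix n n ℂ)ᴴ
  else 0

/-- complex power `P^z` of a positive definite matrix -/
def mpow (P : Matrix n n ℂ) (z : ℂ) : Matrix n n ℂ :=
  mfun (fun t => Complex.exp (z * (Real.log t : ℂ))) P

/-- logarithm of a positive definite matrix -/
def mlog (P : Matrix n n ℂ) : Matrix n n ℂ := mfun (fun t => (Real.log t : ℂ)) P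

/-- square root of a positive definite matrix -/
def msqrt (P : Matrix n n ℂ) : Matrix n n ℂ := mpow P (1 / 2)

/-- relative entropy `tr ρ (log ρ - log σ)` (no normalisation) -/
def relEnt (ρ σ : Matrix n n ℂ) : ℝ := ((ρ * (mlog ρ - mlog σ)).trace).re

/-- `ρ = α N^{1/2} K* M K N^{1/2}` -/
def rhoOf (α : ℝ) (K M N : Matrix n n ℂ) : Matrix n n ℂ :=
  (α : ℂ) • (msqrt N * (Kᴴ * M * K) * msqrt N)

/-- the potential: relative entropy of `α N^{1/2} K* M K N^{1/2}` w.r.t. `α' N^{1/2} K* K N^{1/2}` -/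
def dpot (α α' : ℝ) (K M N : Matrix n n ℂ) : ℝ :=
  relEnt (rhoOf α K M N) (rhoOf α' K 1 N)

/-- POVM: positive semidefinite matrices summing to one -/
def IsPOVM {A : Type} [Fintype A] (E : A → Matrix n n ℂ) : Prop :=
  (∀ a, (E a).PosSemidef) ∧ ∑ a, E a = 1

/-- positive definite POVM -/
def IsPDPOVM {A : Type} [Fintype A] (E : A → Matrix n n ℂ) : Prop :=
  (∀ a, (E a).PosDef) ∧ ∑ a, E a = 1

/-- `tr (Ψ* P Ψ Q)` (real part) -/
def qf (Ψ P Q : Matrix n n ℂ) : ℝ := ((Ψᴴ * P * Ψ * Q).trace).re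

/-- winning weight of the "vector" `Ψ` on the question pair `(x,y)` -/
def winQ (G : Game) (E : Fin G.nX → Fin G.nA → Matrix n n ℂ) (F : Fin G.nY → Fin G.nB → Matrix n n ℂ)
    (Ψ : Matrix n n ℂ) (x : Fin G.nX) (y : Fin G.nY) : ℝ :=
  ∑ a, ∑ b, if G.accept x y a b = true then qf Ψ (E x a) (F y b) else 0

end mat

/-- The hypothesis of both statements. -/
def ValBound (G : Game) (v : ℝ) : Prop :=
  ∀ (dA dB : ℕ) (S : Strategy G 1 dA dB), S.probWinsAtLeast 1 ≤ v

/-! ### product probability and conditional expectations -/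

section prob
variable {k : ℕ} {X Y : Type} [Fintype X] [Fintype Y] [DecidableEq X] [DecidableEq Y]

/-- product weight of a string of question pairs -/
def Pr (μ : X → Y → ℝ) (z : Fin k → X × Y) : ℝ := ∏ j, μ (z j).1 (z j).2

/-- a conditional law of `y` given `x` (uniform when `x` has probability zero) -/
def kY (μ : X → Y → ℝ) (x : X) (y : Y) : ℝ :=
  if (∑ y', μ x y') = 0 then (Fintype.card Y : ℝ)⁻¹ else μ x y / ∑ y', μ x y'

/-- a conditional law of `x` given `y` (uniform when `y` has probability zero) -/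
def kX (μ : X → Y → ℝ) (y : Y) (x : X) : ℝ :=
  if (∑ x', μ x' y) = 0 then (Fintype.card X : ℝ)⁻¹ else μ x y / ∑ x', μ x' y

/-- law of `x_j` given the public data of coordinate `j`; `rev` says that `x_j` is revealed -/
def kerX (μ : X → Y → ℝ) (rev : Prop) [Decidable rev] (w : X × Y) (x : X) : ℝ :=
  if rev then (if x = w.1 then 1 else 0) else kX μ w.2 x

/-- law of `y_j` given the public data of coordinate `j`; `rev` says that `y_j` is revealed -/
def kerY (μ : X → Y → ℝ) (rev : Prop) [Decidable rev] (w : X × Y) (y : Y) : ℝ :=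
  if rev then (if y = w.2 then 1 else 0) else kY μ w.1 y

variable {V : Type} [AddCommGroup V] [Module ℝ V]

/-- conditional expectation of `f(x)` given the public data: `x_j` known for `j ∈ SX`,
otherwise resampled from its law given `y_j` -/
def condX (μ : X → Y → ℝ) (SX : Finset (Fin k)) (f : (Fin k → X) → V) (z : Fin k → X × Y) : V :=
  ∑ x : Fin k → X, (∏ j, kerX μ (j ∈ SX) (z j) (x j)) • f x

/-- conditional expectation of `f(y)` given the public data -/
def condY (μ : X → Y → ℝ) (SY : Finset (Fin k)) (f : (Fin k → Y) → V) (z : Fin k → X × Y) : V :=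
  ∑ y : Fin k → Y, (∏ j, kerY μ (j ∈ SY) (z j) (y j)) • f y

end prob

/-- The hybrid sets: `x` is revealed on `C` and on the coordinates `< s` -/
def SXs {k : ℕ} (C : Finset (Fin k)) (s : ℕ) : Finset (Fin k) :=
  Finset.univ.filter fun j => j ∈ C ∨ j.val < s

/-- The hybrid sets: `y` is revealed on `C` and on the coordinates `≥ s` -/
def SYs {k : ℕ} (C : Finset (Fin k)) (s : ℕ) : Finset (Fin k) :=
  Finset.univ.filter fun j => j ∈ C ∨ s ≤ j.val

/-! ### the two potentials -/
section pot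
variable {k : ℕ} {X Y : Type} [Fintype X] [Fintype Y] [DecidableEq X] [DecidableEq Y]
variable {A B n : Type} [Fintype A] [Fintype B] [Fintype n] [DecidableEq n]

/-- Bob side potential of the hybrid `s` -/
def HB (μ : X → Y → ℝ) (C : Finset (Fin k)) (M : (Fin k → X) → A → Matrix n n ℂ)
    (N : (Fin k → Y) → B → Matrix n n ℂ) (K : Matrix n n ℂ)
    (w : (Fin k → X × Y) → A → B → ℝ) (s : ℕ) : ℝ :=
  ∑ z, Pr μ z * ∑ a, ∑ b, dpot (w z a b) ((Fintype.card A : ℝ)⁻¹) K
    (condX μ (SXs C s) (fun x => M x a) z) (condY μ (SYs C s) (fun y => N y b) z)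

/-- Alice side potential of the hybrid `s` -/
def HA (μ : X → Y → ℝ) (C : Finset (Fin k)) (M : (Fin k → X) → A → Matrix n n ℂ)
    (N : (Fin k → Y) → B → Matrix n n ℂ) (K : Matrix n n ℂ)
    (w : (Fin k → X × Y) → A → B → ℝ) (s : ℕ) : ℝ :=
  ∑ z, Pr μ z * ∑ a, ∑ b, dpot (w z a b) ((Fintype.card B : ℝ)⁻¹) Kᴴ
    (condY μ (SYs C s) (fun y => N y b) z) (condX μ (SXs C s) (fun x => M x a) z)

end pot

/-- Output of the coordinate theorem, input of the two simulation theorems: matrices `Ψ x y`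
(unnormalised shared vectors), POVMs, local approximations `a' x` (known to Alice) and `b' y`
(known to Bob). `J` is the joint law of the question pair given the event, `wn` the winning
probability given the event. -/
def LocalData (G : Game) (J : Fin G.nX → Fin G.nY → ℝ) (wn εA εB : ℝ) : Prop :=
  ∃ (m : Type) (_ : Fintype m) (_ : DecidableEq m)
    (E : Fin G.nX → Fin G.nA → Matrix m m ℂ) (F : Fin G.nY → Fin G.nB → Matrix m m ℂ)
    (Ψ : Fin G.nX → Fin G.nY → Matrix m m ℂ)
    (a' : Fin G.nX → Matrix m m ℂ) (b' : Fin G.nY → Matrix m m ℂ),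
    (∀ x, IsPOVM (E x)) ∧ (∀ y, IsPOVM (F y)) ∧
    (∀ x y, G.prob x y * nsq (Ψ x y) = J x y) ∧
    (∑ x, ∑ y, G.prob x y * winQ G E F (Ψ x y) x y = wn) ∧
    (∑ x, ∑ y, G.prob x y * nsq (Ψ x y - a' x) ≤ εA) ∧
    (∑ x, ∑ y, G.prob x y * nsq (Ψ x y - b' y) ≤ εB)

end

end Crest.Agent.NG
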