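import Crest.Agent.NG.Value

/-!
Chunk R342-L2a (`embed_square`, `answers_pos`). Every strategy is equivalent to one with equal local
dimensions `d = dA + dB` (or `max`): extend `ψ` by zero, `M` by `fromBlocks (M x a) 0 0 (if a = a0 then 1
else 0)` for a fixed answer string `a0` (reindexed along `finSumFinEquiv`), same for `N`.
`answers_pos`: `ψ` is a unit vector, so `dA, dB > 0`; `∑_a M x a = 1 ≠ 0` so the set of answer
strings is nonempty; `k ≥ 1` gives `nA > 0`. (Question strings exist: `prob_sum = 1`.)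
-/

set_option autoImplicit false

namespace Crest.Agent.NG
open Matrix Complex Crest.MathPhysics.NonlocalGame
open scoped ComplexOrder Kronecker

/-- answers exist -/
theorem answers_pos {G : Game} {k dA dB : ℕ} (hk : 1 ≤ k) (S : Strategy G k dA dB) :
    0 < G.nA ∧ 0 < G.nB := by
  have hX : Nonempty (Fin G.nX) := by
    by_contra h
    rw [not_nonempty_iff] at h
    have := G.prob_sum
    simp at this
  have hY : Nonempty (Fin G.nY) := by
    by_contra h
    rw [not_nonempty_iff] at h
    have := G.prob_sum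
    simp at this
  have hd : Nonempty (Fin dA × Fin dB) := by
    by_contra h
    rw [not_nonempty_iff] at h
    have := S.ψ_norm
    simp at this
  obtain ⟨iA, iB⟩ := hd
  have : Nonempty (Fin k) := ⟨⟨0, by omega⟩⟩
  constructor
  · by_contra h
    have h0 : G.nA = 0 := by omega
    have h1 := S.M_sum (fun _ => hX.some)
    have : IsEmpty (Fin G.nA) := by rw [h0]; infer_instance
    rw [Finset.univ_eq_empty, Finset.sum_empty] at h1
    have h2 := congrFun (congrFun h1 iA) iA
    simp at h2
  · by_contra h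
    have h0 : G.nB = 0 := by omega
    have h1 := S.N_sum (fun _ => hY.some)
    have : IsEmpty (Fin G.nB) := by rw [h0]; infer_instance
    rw [Finset.univ_eq_empty, Finset.sum_empty] at h1
    have h2 := congrFun (congrFun h1 iB) iB
    simp at h2

/-- the matrix of an injection of basis vectors -/
private def embV {m d : ℕ} (f : Fin m → Fin d) : Matrix (Fin d) (Fin m) ℂ :=
  fun i j => if i = f j then 1 else 0

private theorem embV_iso {m d : ℕ} {f : Fin m → Fin d} (hf : Function.Injective f) :
    (embV f)ᴴ * embV f = 1 := by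
  ext j k
  rw [Matrix.mul_apply, Finset.sum_eq_single (f j)]
  · simp only [Matrix.conjTranspose_apply, embV, if_true, star_one, one_mul, Matrix.one_apply]
    by_cases h : j = k
    · simp [h]
    · rw [if_neg (fun h' => h (hf h')), if_neg h]
  · intro i _ hi
    simp [Matrix.conjTranspose_apply, embV, hi]
  · intro h
    exact absurd (Finset.mem_univ _) h

private noncomputable def embM {m d : ℕ} (f : Fin m → Fin d) (c : Prop) [Decidable c]
    (M : Matrix (Fin m) (Fin m) ℂ) : Matrix (Fin d) (Fin d) ℂ :=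
  embV f * M * (embV f)ᴴ + if c then 1 - embV f * (embV f)ᴴ else 0

private theorem embM_psd {m d : ℕ} {f : Fin m → Fin d} (hf : Function.Injective f) (c : Prop)
    [Decidable c] {M : Matrix (Fin m) (Fin m) ℂ} (hM : M.PosSemidef) :
    (embM f c M).PosSemidef := by
  unfold embM
  refine (hM.mul_mul_conjTranspose_same (embV f)).add ?_
  split_ifs
  · have h1 : (1 : Matrix (Fin d) (Fin d) ℂ) - embV f * (embV f)ᴴ =
        (1 - embV f * (embV f)ᴴ)ᴴ * (1 - embV f * (embV f)ᴴ) := by
      have h2 : embV f * (embV f)ᴴ * (embV f * (embV f)ᴴ) = embV f * (embV f)ᴴ := by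
        rw [Matrix.mul_assoc, ← Matrix.mul_assoc (embV f)ᴴ, embV_iso hf, Matrix.one_mul]
      rw [Matrix.conjTranspose_sub, Matrix.conjTranspose_one, Matrix.conjTranspose_mul,
        Matrix.conjTranspose_conjTranspose, Matrix.sub_mul, Matrix.mul_sub, Matrix.mul_sub,
        Matrix.one_mul, Matrix.one_mul, Matrix.mul_one, h2]
      abel
    rw [h1]
    exact Matrix.posSemidef_conjTranspose_mul_self _
  · exact Matrix.PosSemidef.zero

private theorem embM_conj {m d : ℕ} {f : Fin m → Fin d} (hf : Function.Injective f) (c : Prop)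
    [Decidable c] (M : Matrix (Fin m) (Fin m) ℂ) :
    (embV f)ᴴ * embM f c M * embV f = M := by
  have h1 := embV_iso hf
  have h2 : (embV f)ᴴ * (embV f * M * (embV f)ᴴ) * embV f = M := by
    have : (embV f)ᴴ * (embV f * M * (embV f)ᴴ) * embV f =
        ((embV f)ᴴ * embV f) * M * ((embV f)ᴴ * embV f) := by
      simp only [Matrix.mul_assoc]
    rw [this, h1, Matrix.one_mul, Matrix.mul_one]
  have h3 : (embV f)ᴴ * (1 - embV f * (embV f)ᴴ) * embV f = 0 := by
    have : (embV f)ᴴ * (1 - embV f * (embV f)ᴴ) * embV f =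
        (embV f)ᴴ * embV f - ((embV f)ᴴ * embV f) * ((embV f)ᴴ * embV f) := by
      rw [Matrix.mul_sub, Matrix.sub_mul, Matrix.mul_one]
      simp only [Matrix.mul_assoc]
    rw [this, h1, Matrix.one_mul, sub_self]
  unfold embM
  rw [Matrix.mul_add, Matrix.add_mul, h2]
  split_ifs
  · rw [h3, add_zero]
  · rw [Matrix.mul_zero, Matrix.zero_mul, add_zero]

private theorem embM_sum {m d : ℕ} (f : Fin m → Fin d) {A : Type} [Fintype A] [DecidableEq A]
    (a0 : A) (M : A → Matrix (Fin m) (Fin m) ℂ) (hM : ∑ a, M a = 1) :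
    ∑ a, embM f (a = a0) (M a) = 1 := by
  unfold embM
  rw [Finset.sum_add_distrib, Finset.sum_ite_eq' Finset.univ a0, if_pos (Finset.mem_univ _),
    ← Matrix.sum_mul, ← Matrix.mul_sum, hM, Matrix.mul_one]
  abel

private theorem emb_quad {I J : Type} [Fintype I] [Fintype J] [DecidableEq I] [DecidableEq J]
    (W : Matrix J I ℂ) (X : Matrix J J ℂ) (v : I → ℂ) :
    dotProduct (star (W.mulVec v)) (X.mulVec (W.mulVec v)) =
      dotProduct (star v) ((Wᴴ * X * W).mulVec v) := by
  rw [Matrix.star_mulVec, ← Matrix.dotProduct_mulVec, Matrix.mulVec_mulVec, Matrix.mulVec_mulVec,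
    Matrix.mul_assoc]

private theorem emb_norm {I : Type} [Fintype I] (v : I → ℂ) :
    ∑ i, ‖v i‖ ^ 2 = (dotProduct (star v) v).re := by
  unfold dotProduct
  rw [Complex.re_sum]
  refine Finset.sum_congr rfl fun i _ => ?_
  rw [Pi.star_apply, Complex.star_def, Complex.conj_mul', ← Complex.ofReal_pow, Complex.ofReal_re]

theorem embed_square {G : Game} {k dA dB : ℕ} (hk : 1 ≤ k) (S : Strategy G k dA dB) :
    ∃ (d : ℕ) (S' : Strategy G k d d), ∀ x y a b, S'.answerProb x y a b = S.answerProb x y a b := by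
  obtain ⟨hA, hB⟩ := answers_pos hk S
  have hfA : Function.Injective (Fin.castAdd dB : Fin dA → Fin (dA + dB)) :=
    Fin.castAdd_injective dA dB
  have hfB : Function.Injective (Fin.natAdd dA : Fin dB → Fin (dA + dB)) :=
    Fin.natAdd_injective dB dA
  set VA : Matrix (Fin (dA + dB)) (Fin dA) ℂ := embV (Fin.castAdd dB) with hVA
  set VB : Matrix (Fin (dA + dB)) (Fin dB) ℂ := embV (Fin.natAdd dA) with hVB
  have hW : (VA ⊗ₖ VB)ᴴ * (VA ⊗ₖ VB) = 1 := by
    rw [Matrix.conjTranspose_kronecker, ← Matrix.mul_kronecker_mul, hVA, hVB, embV_iso hfA,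
      embV_iso hfB, Matrix.one_kronecker_one]
  refine ⟨dA + dB,
    { ψ := (VA ⊗ₖ VB).mulVec S.ψ
      ψ_norm := ?_
      M := fun x a => embM (Fin.castAdd dB) (a = fun _ => ⟨0, hA⟩) (S.M x a)
      N := fun y b => embM (Fin.natAdd dA) (b = fun _ => ⟨0, hB⟩) (S.N y b)
      M_posSemidef := fun x a => embM_psd hfA _ (S.M_posSemidef x a)
      N_posSemidef := fun y b => embM_psd hfB _ (S.N_posSemidef y b)
      M_sum := fun x => embM_sum _ _ _ (S.M_sum x)
      N_sum := fun y => embM_sum _ _ _ (S.N_sum y) }, ?_⟩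
  · have h1 := emb_quad (VA ⊗ₖ VB) 1 S.ψ
    rw [Matrix.mul_one, hW, Matrix.one_mulVec, Matrix.one_mulVec] at h1
    rw [emb_norm, h1, ← emb_norm]
    exact S.ψ_norm
  · intro x y a b
    unfold Strategy.answerProb
    dsimp only
    rw [emb_quad]
    congr 3
    rw [Matrix.conjTranspose_kronecker, ← Matrix.mul_kronecker_mul, ← Matrix.mul_kronecker_mul,
      hVA, hVB, embM_conj hfA, embM_conj hfB]

end Crest.Agent.NG
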