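import Mathlib

/-!
Chunk R342-U1 (`filter_exists`): pure real analysis, no matrices.

Let `q = 1 + η`, levels `T l = B q / q^l` (`l = 0, 1, 2, ...`), weights `g_l = T (l+1)`.
For `s ≥ 0` let `F_l(s) = clamp ((s - T (l+1)) / (T l - T (l+1))) 0 1` (a ramp, `0` below `T (l+1)`,
`1` above `T l`) and `u_l(s) = sin (π/2 F_{l+1}(s)) cos (π/2 F_l(s))`.  As `F_{l+1} = 1` or
`F_l = 0` always, `u_l² = S_{l+1} - S_l` with `S_l = sin² (π/2 F_l)`, so the sum telescopes.
-/

set_option autoImplicit false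

namespace Crest.Agent.NG

namespace Filt

/-- levels -/
noncomputable def T (q B : ℝ) (l : ℕ) : ℝ := B * q / q ^ l

/-- ramps -/
noncomputable def F (q B : ℝ) (l : ℕ) (s : ℝ) : ℝ :=
  max 0 (min 1 ((s - T q B (l + 1)) / (T q B l - T q B (l + 1))))

/-- the square roots of the partition of unity -/
noncomputable def u (q B : ℝ) (l : ℕ) (s : ℝ) : ℝ :=
  Real.sin (Real.pi / 2 * F q B (l + 1) s) * Real.cos (Real.pi / 2 * F q B l s)

variable {q B : ℝ}

lemma T_pos (hq : 1 < q) (hB : 0 < B) (l : ℕ) : 0 < T q B l := by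
  unfold T; have : 0 < q := by linarith
  positivity

lemma T_succ (hq : 1 < q) (l : ℕ) : T q B l = q * T q B (l + 1) := by
  unfold T; have : 0 < q := by linarith
  rw [pow_succ]; field_simp

lemma T_one (hq : 1 < q) : T q B 1 = B := by
  unfold T; have : 0 < q := by linarith
  field_simp

lemma T_lt (hq : 1 < q) (hB : 0 < B) (l : ℕ) : T q B (l + 1) < T q B l := by
  have h1 := T_pos hq hB (l + 1)
  rw [T_succ hq l]; nlinarith

lemma T_anti (hq : 1 < q) (hB : 0 < B) : Antitone (T q B) :=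
  antitone_nat_of_succ_le fun l => (T_lt hq hB l).le

lemma F_nonneg (l : ℕ) (s : ℝ) : 0 ≤ F q B l s := le_max_left _ _

lemma F_le_one (l : ℕ) (s : ℝ) : F q B l s ≤ 1 :=
  max_le zero_le_one (min_le_left _ _)

lemma F_eq_zero (hq : 1 < q) (hB : 0 < B) {l : ℕ} {s : ℝ} (h : s ≤ T q B (l + 1)) :
    F q B l s = 0 := by
  have h1 := T_lt hq hB l
  unfold F
  apply max_eq_left
  refine (min_le_right _ _).trans ?_
  exact div_nonpos_of_nonpos_of_nonneg (by linarith) (by linarith)

lemma F_eq_one (hq : 1 < q) (hB : 0 < B) {l : ℕ} {s : ℝ} (h : T q B l ≤ s) :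
    F q B l s = 1 := by
  have h1 := T_lt hq hB l
  unfold F
  have h2 : 1 ≤ (s - T q B (l + 1)) / (T q B l - T q B (l + 1)) := by
    rw [le_div_iff₀ (by linarith)]; linarith
  rw [min_eq_left h2]; exact max_eq_right zero_le_one

lemma clamp_lip (x y : ℝ) : |max 0 (min 1 x) - max 0 (min 1 y)| ≤ |x - y| := by
  refine (abs_max_sub_max_le_max _ _ _ _).trans ?_
  rw [sub_self, abs_zero]
  refine max_le (abs_nonneg _) ?_
  refine (abs_min_sub_min_le_max _ _ _ _).trans ?_
  rw [sub_self, abs_zero]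
  exact max_le (abs_nonneg _) le_rfl

lemma F_lip (hq : 1 < q) (hB : 0 < B) (l : ℕ) (s s' : ℝ) :
    T q B (l + 1) * |F q B l s - F q B l s'| ≤ 1 / (q - 1) * |s - s'| := by
  have h1 := T_pos hq hB (l + 1)
  have h2 : T q B l - T q B (l + 1) = (q - 1) * T q B (l + 1) := by
    rw [T_succ hq l]; ring
  have h3 : |F q B l s - F q B l s'| ≤ |s - s'| / ((q - 1) * T q B (l + 1)) := by
    unfold F
    refine (clamp_lip _ _).trans ?_
    rw [h2, ← sub_div, abs_div, abs_of_pos (a := (q - 1) * T q B (l + 1))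
      (mul_pos (by linarith) h1)]
    have : s - T q B (l + 1) - (s' - T q B (l + 1)) = s - s' := by ring
    rw [this]
  calc T q B (l + 1) * |F q B l s - F q B l s'|
      ≤ T q B (l + 1) * (|s - s'| / ((q - 1) * T q B (l + 1))) :=
        mul_le_mul_of_nonneg_left h3 h1.le
    _ = 1 / (q - 1) * |s - s'| := by
        have : q - 1 ≠ 0 := by linarith
        field_simp

/-- always `F_{l+1} = 1` or `F_l = 0` -/
lemma F_or (hq : 1 < q) (hB : 0 < B) (l : ℕ) (s : ℝ) :
    F q B (l + 1) s = 1 ∨ F q B l s = 0 := by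
  rcases le_total (T q B (l + 1)) s with h | h
  · exact Or.inl (F_eq_one hq hB h)
  · exact Or.inr (F_eq_zero hq hB h)

lemma u_sq (hq : 1 < q) (hB : 0 < B) (l : ℕ) (s : ℝ) :
    u q B l s ^ 2 = Real.sin (Real.pi / 2 * F q B (l + 1) s) ^ 2
      - Real.sin (Real.pi / 2 * F q B l s) ^ 2 := by
  unfold u
  rw [mul_pow, Real.cos_sq']
  rcases F_or hq hB l s with h | h
  · rw [h, mul_one, Real.sin_pi_div_two]; ring
  · rw [h, mul_zero, Real.sin_zero]; ring

lemma sum_u_sq (hq : 1 < q) (hB : 0 < B) (n : ℕ) {s : ℝ} (hs : s ≤ B) :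
    ∑ l ∈ Finset.range n, u q B l s ^ 2 = Real.sin (Real.pi / 2 * F q B n s) ^ 2 := by
  have h0 : F q B 0 s = 0 := F_eq_zero hq hB (by rw [T_one hq]; exact hs)
  simp_rw [u_sq hq hB]
  rw [Finset.sum_range_sub (fun l => Real.sin (Real.pi / 2 * F q B l s) ^ 2), h0]
  simp

lemma sum_u_sq_le (hq : 1 < q) (hB : 0 < B) (n : ℕ) {s : ℝ} (hs : s ≤ B) :
    ∑ l ∈ Finset.range n, u q B l s ^ 2 ≤ 1 := by
  rw [sum_u_sq hq hB n hs]; exact Real.sin_sq_le_one _

/-- if `u_l(s) ≠ 0` then `T (l+2) < s < T l` -/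
lemma u_ne (hq : 1 < q) (hB : 0 < B) {l : ℕ} {s : ℝ} (h : u q B l s ≠ 0) :
    T q B (l + 2) < s ∧ s < T q B l := by
  constructor
  · by_contra hc
    push Not at hc
    apply h
    unfold u
    rw [F_eq_zero hq hB hc]; simp
  · by_contra hc
    push Not at hc
    apply h
    unfold u
    rw [F_eq_one hq hB hc]; simp

lemma abs_u_le (l : ℕ) (s : ℝ) : |u q B l s| ≤ 1 := by
  unfold u
  rw [abs_mul]
  exact mul_le_one₀ (Real.abs_sin_le_one _) (abs_nonneg _) (Real.abs_cos_le_one _)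

lemma u_lip (hq : 1 < q) (hq2 : q ≤ 2) (hB : 0 < B) (l : ℕ) (s s' : ℝ) :
    T q B (l + 1) * |u q B l s - u q B l s'| ≤ 6 / (q - 1) * |s - s'| := by
  have h1 := T_pos hq hB (l + 1)
  have h2 := T_pos hq hB (l + 1 + 1)
  have hpi := Real.pi_lt_four
  have hpi0 := Real.pi_pos
  have hl1 := F_lip hq hB (l + 1) s s'
  have hl0 := F_lip hq hB l s s'
  set a := F q B (l + 1) s
  set a' := F q B (l + 1) s'
  set b := F q B l s
  set b' := F q B l s'
  have hT : T q B (l + 1) = q * T q B (l + 1 + 1) := T_succ hq (l + 1)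
  have key : |u q B l s - u q B l s'| ≤ Real.pi / 2 * |a - a'| + Real.pi / 2 * |b - b'| := by
    have e : u q B l s - u q B l s' =
        (Real.sin (Real.pi / 2 * a) - Real.sin (Real.pi / 2 * a')) * Real.cos (Real.pi / 2 * b)
        + Real.sin (Real.pi / 2 * a') *
          (Real.cos (Real.pi / 2 * b) - Real.cos (Real.pi / 2 * b')) := by
      show Real.sin (Real.pi / 2 * a) * Real.cos (Real.pi / 2 * b)
        - Real.sin (Real.pi / 2 * a') * Real.cos (Real.pi / 2 * b') = _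
      ring
    rw [e]
    refine (abs_add_le _ _).trans ?_
    rw [abs_mul, abs_mul]
    have s1 : |Real.sin (Real.pi / 2 * a) - Real.sin (Real.pi / 2 * a')|
        ≤ Real.pi / 2 * |a - a'| := by
      have := Real.abs_sin_sub_sin_le (Real.pi / 2 * a) (Real.pi / 2 * a')
      rw [← mul_sub, abs_mul, abs_of_pos (by positivity : (0:ℝ) < Real.pi / 2)] at this
      exact this
    have s2 : |Real.cos (Real.pi / 2 * b) - Real.cos (Real.pi / 2 * b')|
        ≤ Real.pi / 2 * |b - b'| := by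
      have := Real.abs_cos_sub_cos_le (Real.pi / 2 * b) (Real.pi / 2 * b')
      rw [← mul_sub, abs_mul, abs_of_pos (by positivity : (0:ℝ) < Real.pi / 2)] at this
      exact this
    have c1 := Real.abs_cos_le_one (Real.pi / 2 * b)
    have c2 := Real.abs_sin_le_one (Real.pi / 2 * a')
    have n1 : 0 ≤ |Real.sin (Real.pi / 2 * a) - Real.sin (Real.pi / 2 * a')| := abs_nonneg _
    have n2 : 0 ≤ |Real.cos (Real.pi / 2 * b) - Real.cos (Real.pi / 2 * b')| := abs_nonneg _
    nlinarith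
  have n3 : 0 ≤ |s - s'| := abs_nonneg _
  have hq1 : 0 < q - 1 := by linarith
  set c := 1 / (q - 1) * |s - s'| with hc
  have hc0 : 0 ≤ c := by positivity
  have hA : T q B (l + 1) * |a - a'| ≤ 2 * c := by
    rw [hT, mul_assoc]
    have : q * (T q B (l + 1 + 1) * |a - a'|) ≤ q * c := mul_le_mul_of_nonneg_left hl1 (by linarith)
    nlinarith
  have hcc : 6 / (q - 1) * |s - s'| = 6 * c := by rw [hc]; ring
  rw [hcc]
  calc T q B (l + 1) * |u q B l s - u q B l s'|
      ≤ T q B (l + 1) * (Real.pi / 2 * |a - a'| + Real.pi / 2 * |b - b'|) :=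
        mul_le_mul_of_nonneg_left key h1.le
    _ = Real.pi / 2 * (T q B (l + 1) * |a - a'|) + Real.pi / 2 * (T q B (l + 1) * |b - b'|) := by
        ring
    _ ≤ Real.pi / 2 * (2 * c) + Real.pi / 2 * c := by
        have hp : 0 ≤ Real.pi / 2 := by positivity
        exact add_le_add (mul_le_mul_of_nonneg_left hA hp) (mul_le_mul_of_nonneg_left hl0 hp)
    _ ≤ 6 * c := by nlinarith

/-- at most two `l` have `u_l(s) ≠ 0` -/
lemma sum_abs_u (hq : 1 < q) (hB : 0 < B) (n : ℕ) (s : ℝ) :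
    ∑ l ∈ Finset.range n, |u q B l s| ≤ 2 := by
  classical
  by_cases hex : ∃ l, u q B l s ≠ 0
  · set l0 := Nat.find hex with hl0
    have h0 := u_ne hq hB (Nat.find_spec hex)
    have hz : ∀ l, l ≠ l0 → l ≠ l0 + 1 → u q B l s = 0 := by
      intro l h1 h2
      by_contra hc
      have h3 : l0 ≤ l := Nat.find_min' hex hc
      have h4 : l0 + 2 ≤ l := by omega
      have h5 := (u_ne hq hB hc).2
      have h6 := T_anti hq hB h4
      linarith [h0.1]
    have : ∀ l ∈ Finset.range n, |u q B l s| ≤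
        (if l = l0 then (1:ℝ) else 0) + (if l = l0 + 1 then (1:ℝ) else 0) := by
      intro l _
      by_cases h1 : l = l0
      · rw [if_pos h1]
        have : (0:ℝ) ≤ (if l = l0 + 1 then (1:ℝ) else 0) := by split_ifs <;> norm_num
        linarith [abs_u_le (q := q) (B := B) l s]
      · by_cases h2 : l = l0 + 1
        · rw [if_pos h2, if_neg h1]
          linarith [abs_u_le (q := q) (B := B) l s]
        · rw [hz l h1 h2, if_neg h1, if_neg h2]; simp
    refine (Finset.sum_le_sum this).trans ?_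
    rw [Finset.sum_add_distrib, Finset.sum_ite_eq', Finset.sum_ite_eq']
    split_ifs <;> norm_num
  · push Not at hex
    have : ∑ l ∈ Finset.range n, |u q B l s| = 0 :=
      Finset.sum_eq_zero fun l _ => by rw [hex l, abs_zero]
    rw [this]; norm_num

end Filt

open Filt

theorem filter_exists (η : ℝ) (hη : 0 < η) (hη1 : η ≤ 1) (B ζ : ℝ) (hB : 0 < B) (hζ : 0 < ζ) :
    ∃ (L : Type) (_ : Fintype L) (g : L → ℝ) (φ χ : L → ℝ → ℝ),
      (∃ l, g l ≠ 0) ∧
      (∀ s, |s| ≤ B → ∑ l, φ l s ^ 2 ≤ 1) ∧ (∀ s, |s| ≤ B → ∑ l, χ l s ^ 2 ≤ 1) ∧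
      (∀ s t, |s| ≤ B → |t| ≤ B →
        |∑ l, g l * φ l s * χ l t - t| ≤ 40 / η * |s - t| + 40 * η * |t| + ζ) ∧
      (∀ s, |s| ≤ B → |∑ l, g l ^ 2 * φ l s ^ 2 - s ^ 2| ≤ 40 * η * s ^ 2 + ζ) ∧
      (∀ s, |s| ≤ B → |∑ l, g l ^ 2 * χ l s ^ 2 - s ^ 2| ≤ 40 * η * s ^ 2 + ζ) := by
  set q : ℝ := 1 + η with hqdef
  have hq : 1 < q := by linarith
  have hq2 : q ≤ 2 := by linarith
  have hqη : q - 1 = η := by rw [hqdef]; ring
  -- choose `n`
  obtain ⟨n, hn⟩ : ∃ n, T q B n ≤ min ζ 1 := by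
    have h1 : Filter.Tendsto (fun n : ℕ => T q B n) Filter.atTop (nhds 0) := by
      unfold T
      exact Filter.Tendsto.div_atTop tendsto_const_nhds (tendsto_pow_atTop_atTop_of_one_lt hq)
    have h2 : (0:ℝ) < min ζ 1 := lt_min hζ one_pos
    obtain ⟨n, hn⟩ := (h1.eventually (gt_mem_nhds h2)).exists
    exact ⟨n, hn.le⟩
  set N := n + 1 with hN
  have hTN : T q B N ≤ min ζ 1 := (T_lt hq hB n).le.trans hn
  have hTζ : T q B N ≤ ζ := hTN.trans (min_le_left _ _)
  have hT1 : T q B N ≤ 1 := hTN.trans (min_le_right _ _)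
  have hT0 := T_pos hq hB N
  -- sign
  set σ : ℝ → ℝ := fun t => if t < 0 then -1 else 1 with hσ
  have hσ2 : ∀ t, σ t ^ 2 = 1 := by
    intro t; simp only [hσ]; split_ifs <;> norm_num
  have hσa : ∀ t, |σ t| = 1 := by
    intro t; simp only [hσ]; split_ifs <;> norm_num
  have hσt : ∀ t, t = σ t * |t| := by
    intro t; simp only [hσ]; split_ifs with h
    · rw [abs_of_neg h]; ring
    · rw [abs_of_nonneg (not_lt.mp h)]; ring
  -- `1 - ∑ u²` only matters below the last level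
  have hgap : ∀ s : ℝ, 0 ≤ s → s ≤ B →
      s * (1 - ∑ l ∈ Finset.range N, u q B l s ^ 2) ≤ ζ ∧
      s ^ 2 * (1 - ∑ l ∈ Finset.range N, u q B l s ^ 2) ≤ ζ := by
    intro s h0 hs
    have hle := sum_u_sq_le hq hB N hs
    have hnn : 0 ≤ ∑ l ∈ Finset.range N, u q B l s ^ 2 := Finset.sum_nonneg fun l _ => sq_nonneg _
    rcases le_total (T q B N) s with h | h
    · have : ∑ l ∈ Finset.range N, u q B l s ^ 2 = 1 := by
        rw [sum_u_sq hq hB N hs, F_eq_one hq hB h]; simp
      rw [this]; simp [hζ.le]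
    · constructor
      · nlinarith
      · have : s ^ 2 ≤ ζ := by nlinarith
        nlinarith [sq_nonneg s]
  have hw : ∀ (l : ℕ) (s : ℝ), u q B l s ≠ 0 → |T q B (l + 1) - s| ≤ η * s ∧
      |T q B (l + 1) ^ 2 - s ^ 2| ≤ 3 * η * s ^ 2 := by
    intro l s hne
    obtain ⟨h1, h2⟩ := u_ne hq hB hne
    have e1 : T q B (l + 1) = q * T q B (l + 2) := T_succ hq (l + 1)
    have e2 : T q B l = q * T q B (l + 1) := T_succ hq l
    have p2 := T_pos hq hB (l + 2)
    have p1 := T_pos hq hB (l + 1)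
    have hs : 0 < s := p2.trans h1
    have a1 : T q B (l + 1) ≤ q * s := by rw [e1]; nlinarith
    have a2 : s ≤ q * T q B (l + 1) := by rw [← e2]; exact h2.le
    set g := T q B (l + 1)
    have b1 : g - s ≤ η * s := by rw [hqdef] at a1; linarith
    have b2 : s - g ≤ η * s := by
      rw [hqdef] at a2
      rcases le_total g s with h | h
      · nlinarith
      · nlinarith
    have b3 : |g - s| ≤ η * s := abs_le.mpr ⟨by linarith, b1⟩
    refine ⟨b3, ?_⟩
    have e3 : g ^ 2 - s ^ 2 = (g - s) * (g + s) := by ring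
    rw [e3, abs_mul, abs_of_pos (by linarith : 0 < g + s)]
    have b4 : g + s ≤ 3 * s := by nlinarith
    calc |g - s| * (g + s) ≤ (η * s) * (3 * s) :=
          mul_le_mul b3 b4 (by linarith) (by positivity)
      _ = 3 * η * s ^ 2 := by ring
  have hone : ∀ s : ℝ, 0 ≤ s → s ≤ B →
      |∑ l ∈ Finset.range N, T q B (l + 1) * u q B l s ^ 2 - s| ≤ η * s + ζ := by
    intro s h0 hs
    have hle := sum_u_sq_le hq hB N hs
    have hnn : 0 ≤ ∑ l ∈ Finset.range N, u q B l s ^ 2 := Finset.sum_nonneg fun l _ => sq_nonneg _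
    have e : ∑ l ∈ Finset.range N, T q B (l + 1) * u q B l s ^ 2 - s =
        ∑ l ∈ Finset.range N, (T q B (l + 1) - s) * u q B l s ^ 2
        - s * (1 - ∑ l ∈ Finset.range N, u q B l s ^ 2) := by
      simp_rw [sub_mul]
      rw [Finset.sum_sub_distrib, ← Finset.mul_sum]; ring
    rw [e]
    refine (abs_sub _ _).trans ?_
    have h1 : |∑ l ∈ Finset.range N, (T q B (l + 1) - s) * u q B l s ^ 2| ≤ η * s := by
      calc |∑ l ∈ Finset.range N, (T q B (l + 1) - s) * u q B l s ^ 2|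
          ≤ ∑ l ∈ Finset.range N, |(T q B (l + 1) - s) * u q B l s ^ 2| :=
            Finset.abs_sum_le_sum_abs _ _
        _ ≤ ∑ l ∈ Finset.range N, η * s * u q B l s ^ 2 := by
            refine Finset.sum_le_sum fun l _ => ?_
            rw [abs_mul, abs_of_nonneg (sq_nonneg (u q B l s))]
            by_cases hu : u q B l s = 0
            · rw [hu]; simp
            · exact mul_le_mul_of_nonneg_right (hw l s hu).1 (sq_nonneg _)
        _ = η * s * ∑ l ∈ Finset.range N, u q B l s ^ 2 := by rw [Finset.mul_sum]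
        _ ≤ η * s := by
            have : 0 ≤ η * s := by positivity
            nlinarith
    have h2 : |s * (1 - ∑ l ∈ Finset.range N, u q B l s ^ 2)| ≤ ζ := by
      rw [abs_of_nonneg (mul_nonneg h0 (by linarith))]; exact (hgap s h0 hs).1
    linarith
  have htwo : ∀ s : ℝ, 0 ≤ s → s ≤ B →
      |∑ l ∈ Finset.range N, T q B (l + 1) ^ 2 * u q B l s ^ 2 - s ^ 2| ≤ 3 * η * s ^ 2 + ζ := by
    intro s h0 hs
    have hle := sum_u_sq_le hq hB N hs
    have hnn : 0 ≤ ∑ l ∈ Finset.range N, u q B l s ^ 2 := Finset.sum_nonneg fun l _ => sq_nonneg _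
    have e : ∑ l ∈ Finset.range N, T q B (l + 1) ^ 2 * u q B l s ^ 2 - s ^ 2 =
        ∑ l ∈ Finset.range N, (T q B (l + 1) ^ 2 - s ^ 2) * u q B l s ^ 2
        - s ^ 2 * (1 - ∑ l ∈ Finset.range N, u q B l s ^ 2) := by
      simp_rw [sub_mul]
      rw [Finset.sum_sub_distrib, ← Finset.mul_sum]; ring
    rw [e]
    refine (abs_sub _ _).trans ?_
    have h1 : |∑ l ∈ Finset.range N, (T q B (l + 1) ^ 2 - s ^ 2) * u q B l s ^ 2|
        ≤ 3 * η * s ^ 2 := by
      calc |∑ l ∈ Finset.range N, (T q B (l + 1) ^ 2 - s ^ 2) * u q B l s ^ 2|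
          ≤ ∑ l ∈ Finset.range N, |(T q B (l + 1) ^ 2 - s ^ 2) * u q B l s ^ 2| :=
            Finset.abs_sum_le_sum_abs _ _
        _ ≤ ∑ l ∈ Finset.range N, 3 * η * s ^ 2 * u q B l s ^ 2 := by
            refine Finset.sum_le_sum fun l _ => ?_
            rw [abs_mul, abs_of_nonneg (sq_nonneg (u q B l s))]
            by_cases hu : u q B l s = 0
            · rw [hu]; simp
            · exact mul_le_mul_of_nonneg_right (hw l s hu).2 (sq_nonneg _)
        _ = 3 * η * s ^ 2 * ∑ l ∈ Finset.range N, u q B l s ^ 2 := by rw [Finset.mul_sum]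
        _ ≤ 3 * η * s ^ 2 := by
            have : 0 ≤ 3 * η * s ^ 2 := by positivity
            nlinarith
    have h2 : |s ^ 2 * (1 - ∑ l ∈ Finset.range N, u q B l s ^ 2)| ≤ ζ := by
      rw [abs_of_nonneg (mul_nonneg (sq_nonneg s) (by linarith))]; exact (hgap s h0 hs).2
    linarith
  have hcross : ∀ s t : ℝ, |∑ l ∈ Finset.range N,
      T q B (l + 1) * (u q B l s - u q B l t) * u q B l t| ≤ 12 / η * |s - t| := by
    intro s t
    calc |∑ l ∈ Finset.range N, T q B (l + 1) * (u q B l s - u q B l t) * u q B l t|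
        ≤ ∑ l ∈ Finset.range N, |T q B (l + 1) * (u q B l s - u q B l t) * u q B l t| :=
          Finset.abs_sum_le_sum_abs _ _
      _ ≤ ∑ l ∈ Finset.range N, 6 / η * |s - t| * |u q B l t| := by
          refine Finset.sum_le_sum fun l _ => ?_
          rw [abs_mul, abs_mul, abs_of_pos (T_pos hq hB (l + 1))]
          have := u_lip hq hq2 hB l s t
          rw [hqη] at this
          exact mul_le_mul_of_nonneg_right this (abs_nonneg _)
      _ = 6 / η * |s - t| * ∑ l ∈ Finset.range N, |u q B l t| := by rw [Finset.mul_sum]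
      _ ≤ 6 / η * |s - t| * 2 :=
          mul_le_mul_of_nonneg_left (sum_abs_u hq hB N t) (by positivity)
      _ = 12 / η * |s - t| := by ring
  refine ⟨Fin N, inferInstance, fun l => T q B (l + 1), fun l s => u q B l |s|,
    fun l s => σ s * u q B l |s|, ⟨⟨0, by omega⟩, (T_pos hq hB _).ne'⟩, ?_, ?_, ?_, ?_, ?_⟩
  · intro s hs
    rw [Fin.sum_univ_eq_sum_range (fun l => u q B l |s| ^ 2) N]
    exact sum_u_sq_le hq hB N hs
  · intro s hs
    rw [Fin.sum_univ_eq_sum_range (fun l => (σ s * u q B l |s|) ^ 2) N]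
    simp_rw [mul_pow, hσ2, one_mul]
    exact sum_u_sq_le hq hB N hs
  · intro s t hs ht
    rw [Fin.sum_univ_eq_sum_range (fun l => T q B (l + 1) * u q B l |s| * (σ t * u q B l |t|)) N]
    have e : ∑ l ∈ Finset.range N, T q B (l + 1) * u q B l |s| * (σ t * u q B l |t|) - t =
        σ t * (∑ l ∈ Finset.range N,
          T q B (l + 1) * (u q B l |s| - u q B l |t|) * u q B l |t|
          + (∑ l ∈ Finset.range N, T q B (l + 1) * u q B l |t| ^ 2 - |t|)) := by
      rw [← add_sub_assoc, ← Finset.sum_add_distrib, mul_sub, ← hσt t, Finset.mul_sum]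
      congr 1
      refine Finset.sum_congr rfl fun l _ => ?_
      ring
    rw [e, abs_mul, hσa, one_mul]
    refine (abs_add_le _ _).trans ?_
    have h1 := hcross |s| |t|
    have h2 := hone |t| (abs_nonneg t) ht
    have h3 : |(|s| - |t|)| ≤ |s - t| := abs_abs_sub_abs_le_abs_sub s t
    have h4 : 12 / η * |(|s| - |t|)| ≤ 40 / η * |s - t| := by
      have : 12 / η ≤ 40 / η := by gcongr; norm_num
      exact mul_le_mul this h3 (abs_nonneg _) (by positivity)
    have h5 : 0 ≤ η * |t| := by positivity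
    linarith
  · intro s hs
    rw [Fin.sum_univ_eq_sum_range (fun l => T q B (l + 1) ^ 2 * u q B l |s| ^ 2) N]
    have h1 := htwo |s| (abs_nonneg s) hs
    rw [sq_abs] at h1
    have h5 : 0 ≤ η * s ^ 2 := by positivity
    linarith
  · intro s hs
    rw [Fin.sum_univ_eq_sum_range (fun l => T q B (l + 1) ^ 2 * (σ s * u q B l |s|) ^ 2) N]
    simp_rw [mul_pow, hσ2, one_mul]
    have h1 := htwo |s| (abs_nonneg s) hs
    rw [sq_abs] at h1
    have h5 : 0 ≤ η * s ^ 2 := by positivity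
    linarith

end Crest.Agent.NG
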