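import Crest.Agent.NG.Mfun

/-!
Chunk R342-F7: elementary properties of `nsq`, `qf`.
`nsq X = Re tr (Xᴴ X)`; it is the squared norm of `EuclideanSpace ℂ (m × n)`.
`qf Ψ P Q = Re tr (Ψᴴ P Ψ Q)`: for PSD `P = RᴴR, Q = TTᴴ` it equals `nsq (R Ψ T)`.
-/

set_option autoImplicit false

namespace Crest.Agent.NG
open Matrix Complex Crest.MathPhysics.NonlocalGame
open scoped ComplexOrder

variable {m n l : Type} [Fintype m] [Fintype n] [Fintype l] [DecidableEq n] [DecidableEq m]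

theorem nsq_nonneg (X : Matrix m n ℂ) : 0 ≤ nsq X :=
  Finset.sum_nonneg fun _ _ => Finset.sum_nonneg fun _ _ => by positivity

theorem nsq_eq_trace (X : Matrix m n ℂ) : nsq X = ((Xᴴ * X).trace).re := by
  unfold nsq
  simp only [Matrix.trace, Matrix.diag_apply, Matrix.mul_apply, Matrix.conjTranspose_apply,
    Complex.re_sum]
  rw [Finset.sum_comm]
  refine Finset.sum_congr rfl fun j _ => Finset.sum_congr rfl fun i _ => ?_
  rw [← Complex.normSq_eq_norm_sq, Complex.star_def, ← Complex.normSq_eq_conj_mul_self,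
    Complex.ofReal_re]

theorem nsq_eq_zero (X : Matrix m n ℂ) : nsq X = 0 ↔ X = 0 := by
  unfold nsq
  rw [Finset.sum_eq_zero_iff_of_nonneg fun _ _ => Finset.sum_nonneg fun _ _ => by positivity]
  constructor
  · intro h
    ext i j
    have h1 := h i (Finset.mem_univ i)
    rw [Finset.sum_eq_zero_iff_of_nonneg fun _ _ => by positivity] at h1
    have h2 := h1 j (Finset.mem_univ j)
    simpa using h2
  · intro h i _
    simp [h]

theorem nsq_conjTranspose (X : Matrix m n ℂ) : nsq Xᴴ = nsq X := by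
  unfold nsq
  rw [Finset.sum_comm]
  simp [Matrix.conjTranspose_apply]

theorem nsq_smul (c : ℂ) (X : Matrix m n ℂ) : nsq (c • X) = ‖c‖ ^ 2 * nsq X := by
  unfold nsq
  simp only [Matrix.smul_apply, smul_eq_mul, norm_mul, mul_pow, Finset.mul_sum]

theorem nsq_unitary_mul {U : Matrix m m ℂ} (hU : U ∈ Matrix.unitaryGroup m ℂ) (X : Matrix m n ℂ) :
    nsq (U * X) = nsq X := by
  rw [nsq_eq_trace, nsq_eq_trace]
  have h : Uᴴ * U = 1 := by
    have := Matrix.mem_unitaryGroup_iff'.1 hU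
    simpa [Matrix.star_eq_conjTranspose] using this
  rw [Matrix.conjTranspose_mul, Matrix.mul_assoc, ← Matrix.mul_assoc Uᴴ, h, Matrix.one_mul]

theorem nsq_mul_unitary {U : Matrix n n ℂ} (hU : U ∈ Matrix.unitaryGroup n ℂ) (X : Matrix m n ℂ) :
    nsq (X * U) = nsq X := by
  rw [← nsq_conjTranspose, Matrix.conjTranspose_mul, nsq_eq_trace, ← nsq_conjTranspose X,
    nsq_eq_trace]
  have h : U * Uᴴ = 1 := by
    have := Matrix.mem_unitaryGroup_iff.1 hU
    simpa [Matrix.star_eq_conjTranspose] using this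
  rw [Matrix.conjTranspose_mul, Matrix.mul_assoc, ← Matrix.mul_assoc Uᴴᴴ,
    Matrix.conjTranspose_conjTranspose U, h, Matrix.one_mul]

theorem re_trace_conj (A : Matrix n n ℂ) : ((Aᴴ).trace).re = (A.trace).re := by
  rw [Matrix.trace_conjTranspose]
  simp

theorem nsq_sub (X Y : Matrix m n ℂ) :
    nsq (X - Y) = nsq X + nsq Y - 2 * ((Yᴴ * X).trace).re := by
  rw [nsq_eq_trace, nsq_eq_trace, nsq_eq_trace]
  have h : ((Xᴴ * Y).trace).re = ((Yᴴ * X).trace).re := by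
    rw [← re_trace_conj (Xᴴ * Y), Matrix.conjTranspose_mul, Matrix.conjTranspose_conjTranspose]
  rw [Matrix.conjTranspose_sub, Matrix.sub_mul, Matrix.mul_sub, Matrix.mul_sub, Matrix.trace_sub,
    Matrix.trace_sub, Matrix.trace_sub, Complex.sub_re, Complex.sub_re, Complex.sub_re, h]
  ring

theorem nsq_sub_comm (X Y : Matrix m n ℂ) : nsq (X - Y) = nsq (Y - X) := by
  unfold nsq
  simp only [Matrix.sub_apply, norm_sub_rev]

theorem sqrt_nsq_eq (X : Matrix m n ℂ) :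
    Real.sqrt (nsq X) = ‖(WithLp.toLp 2 (fun p : m × n => X p.1 p.2) : EuclideanSpace ℂ (m × n))‖ := by
  rw [EuclideanSpace.norm_eq, Fintype.sum_prod_type]
  rfl

/-- triangle inequality for `√nsq` -/
theorem sqrt_nsq_add_le (X Y : Matrix m n ℂ) :
    Real.sqrt (nsq (X + Y)) ≤ Real.sqrt (nsq X) + Real.sqrt (nsq Y) := by
  rw [sqrt_nsq_eq, sqrt_nsq_eq, sqrt_nsq_eq]
  have h : (WithLp.toLp 2 (fun p : m × n => (X + Y) p.1 p.2) : EuclideanSpace ℂ (m × n)) =
      WithLp.toLp 2 (fun p : m × n => X p.1 p.2) + WithLp.toLp 2 (fun p : m × n => Y p.1 p.2) := by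
    ext p
    simp
  rw [h]
  exact norm_add_le _ _

theorem nsq_add_le (X Y : Matrix m n ℂ) : nsq (X + Y) ≤ 2 * nsq X + 2 * nsq Y := by
  unfold nsq
  rw [Finset.mul_sum, Finset.mul_sum, ← Finset.sum_add_distrib]
  refine Finset.sum_le_sum fun i _ => ?_
  rw [Finset.mul_sum, Finset.mul_sum, ← Finset.sum_add_distrib]
  refine Finset.sum_le_sum fun j _ => ?_
  rw [Matrix.add_apply]
  have h := norm_add_le (X i j) (Y i j)
  have h0 := norm_nonneg (X i j + Y i j)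
  nlinarith [sq_nonneg (‖X i j‖ - ‖Y i j‖)]

theorem re_trace_nonneg {A : Matrix n n ℂ} (hA : A.PosSemidef) : 0 ≤ (A.trace).re := by
  have h := hA.trace_nonneg
  exact (Complex.le_def.1 h).1

/-- multiplication by a contraction on the left -/
theorem nsq_mul_le_left {W : Matrix l m ℂ} (hW : (1 - Wᴴ * W).PosSemidef) (X : Matrix m n ℂ) :
    nsq (W * X) ≤ nsq X := by
  classical
  have h1 := re_trace_nonneg (hW.conjTranspose_mul_mul_same X)
  have h2 : nsq (W * X) = ((Xᴴ * (Wᴴ * W) * X).trace).re := by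
    rw [nsq_eq_trace, Matrix.conjTranspose_mul]
    simp only [Matrix.mul_assoc]
  have h3 : nsq X = ((Xᴴ * (1 : Matrix m m ℂ) * X).trace).re := by
    rw [nsq_eq_trace, Matrix.mul_one]
  rw [Matrix.mul_sub, Matrix.sub_mul, Matrix.trace_sub, Complex.sub_re] at h1
  rw [h2, h3]
  linarith

/-- multiplication by a contraction on the right -/
theorem nsq_mul_le_right {W : Matrix n l ℂ} (hW : (1 - W * Wᴴ).PosSemidef) (X : Matrix m n ℂ) :
    nsq (X * W) ≤ nsq X := by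
  classical
  rw [← nsq_conjTranspose, Matrix.conjTranspose_mul, ← nsq_conjTranspose X]
  apply nsq_mul_le_left
  rwa [Matrix.conjTranspose_conjTranspose]

theorem qf_one_one (Ψ : Matrix n n ℂ) : qf Ψ 1 1 = nsq Ψ := by
  rw [nsq_eq_trace]
  unfold qf
  rw [Matrix.mul_one, Matrix.mul_one]

open scoped MatrixOrder in
theorem exists_conj_mul_self {Q : Matrix n n ℂ} (hQ : Q.PosSemidef) :
    ∃ T : Matrix n n ℂ, Q = Tᴴ * T := by
  obtain ⟨B, hB⟩ := CStarAlgebra.nonneg_iff_eq_star_mul_self.mp hQ.nonneg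
  exact ⟨B, hB⟩

theorem qf_nonneg {P Q : Matrix n n ℂ} (hP : P.PosSemidef) (hQ : Q.PosSemidef)
    (Ψ : Matrix n n ℂ) : 0 ≤ qf Ψ P Q := by
  unfold qf
  obtain ⟨T, hT⟩ := exists_conj_mul_self hQ
  have h := re_trace_nonneg (((hP.conjTranspose_mul_mul_same Ψ)).mul_mul_conjTranspose_same T)
  rw [hT]
  have e : (Ψᴴ * P * Ψ * (Tᴴ * T)).trace = (T * (Ψᴴ * P * Ψ) * Tᴴ).trace := by
    rw [Matrix.mul_assoc T, Matrix.trace_mul_comm T, Matrix.mul_assoc (Ψᴴ * P * Ψ)]
  rw [e]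
  exact h

theorem qf_add_left (Ψ P P' Q : Matrix n n ℂ) : qf Ψ (P + P') Q = qf Ψ P Q + qf Ψ P' Q := by
  unfold qf
  rw [Matrix.mul_add, Matrix.add_mul, Matrix.add_mul, Matrix.trace_add, Complex.add_re]

theorem qf_add_right (Ψ P Q Q' : Matrix n n ℂ) : qf Ψ P (Q + Q') = qf Ψ P Q + qf Ψ P Q' := by
  unfold qf
  rw [Matrix.mul_add, Matrix.trace_add, Complex.add_re]

theorem qf_smul_left (c : ℝ) (Ψ P Q : Matrix n n ℂ) : qf Ψ (c • P) Q = c * qf Ψ P Q := by
  unfold qf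
  rw [Matrix.mul_smul, Matrix.smul_mul, Matrix.smul_mul, Matrix.trace_smul, Complex.real_smul,
    Complex.re_ofReal_mul]

theorem qf_smul_right (c : ℝ) (Ψ P Q : Matrix n n ℂ) : qf Ψ P (c • Q) = c * qf Ψ P Q := by
  unfold qf
  rw [Matrix.mul_smul, Matrix.trace_smul, Complex.real_smul, Complex.re_ofReal_mul]

theorem qf_sum_left {ι : Type} (s : Finset ι) (Ψ : Matrix n n ℂ) (P : ι → Matrix n n ℂ)
    (Q : Matrix n n ℂ) : qf Ψ (∑ i ∈ s, P i) Q = ∑ i ∈ s, qf Ψ (P i) Q := by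
  unfold qf
  rw [Matrix.mul_sum, Matrix.sum_mul, Matrix.sum_mul, Matrix.trace_sum, Complex.re_sum]

theorem qf_sum_right {ι : Type} (s : Finset ι) (Ψ : Matrix n n ℂ) (P : Matrix n n ℂ)
    (Q : ι → Matrix n n ℂ) : qf Ψ P (∑ i ∈ s, Q i) = ∑ i ∈ s, qf Ψ P (Q i) := by
  unfold qf
  rw [Matrix.mul_sum, Matrix.trace_sum, Complex.re_sum]

end Crest.Agent.NG
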