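import Crest.Agent.NG.Mfun

/-!
Chunk R342-F4: double spectral sums for two Hermitian matrices `P = ∑ λ_i u_i u_i*`,
`Q = ∑ λ'_j v_j v_j*`. With `c i j = |⟨u_i, v_j⟩|² = ‖(Uᴴ * V) i j‖ ^ 2`:
`nsq (∑_l f_l(P) * h_l(Q)) = ∑_{ij} c i j * ‖∑_l f_l(λ_i) * h_l(λ'_j)‖²`
because `∑_l f_l(P) h_l(Q) = U * (D ∘ (UᴴV)) * Vᴴ` with `D i j = ∑_l f_l(λ_i) h_l(λ'_j)`
(Hadamard product) and `nsq` is unitarily invariant; `∑_i c i j = 1`, `∑_j c i j = 1`.
Special cases: `nsq (P - Q) = ∑ c i j (λ_i - λ'_j)²`, `nsq Q = ∑ c i j λ'_j²`,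
`card n = ∑ c i j`. The theorem is the resulting comparison.
-/

set_option autoImplicit false

namespace Crest.Agent.NG
open Matrix Complex
open scoped ComplexOrder

variable {n : Type} [Fintype n] [DecidableEq n]

private theorem nsq_trace_aux (X : Matrix n n ℂ) : nsq X = ((Xᴴ * X).trace).re := by
  unfold nsq
  rw [Matrix.trace, Finset.sum_comm, Complex.re_sum]
  refine Finset.sum_congr rfl fun j _ => ?_
  rw [Matrix.diag_apply, Matrix.mul_apply, Complex.re_sum]
  refine Finset.sum_congr rfl fun i _ => ?_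
  rw [Matrix.conjTranspose_apply, ← Complex.normSq_eq_norm_sq]
  have h : star (X i j) * X i j = ((Complex.normSq (X i j) : ℝ) : ℂ) :=
    (Complex.normSq_eq_conj_mul_self (z := X i j)).symm
  rw [h]
  exact (Complex.ofReal_re _).symm

private theorem nsq_conj_aux {U V : Matrix n n ℂ} (hU : Uᴴ * U = 1) (hV : Vᴴ * V = 1)
    (X : Matrix n n ℂ) : nsq (U * X * Vᴴ) = nsq X := by
  rw [nsq_trace_aux, nsq_trace_aux]
  have h1 : (U * X * Vᴴ)ᴴ * (U * X * Vᴴ) = V * (Xᴴ * (Uᴴ * U) * X * Vᴴ) := by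
    rw [Matrix.conjTranspose_mul, Matrix.conjTranspose_mul, Matrix.conjTranspose_conjTranspose]
    simp only [Matrix.mul_assoc]
  rw [h1, hU, Matrix.trace_mul_comm, Matrix.mul_one, Matrix.mul_assoc, Matrix.mul_assoc, hV,
    Matrix.mul_one]

private theorem unit_aux {P : Matrix n n ℂ} (hP : P.IsHermitian) :
    (hP.eigenvectorUnitary : Matrix n n ℂ)ᴴ * (hP.eigenvectorUnitary : Matrix n n ℂ) = 1 := by
  have := Unitary.coe_star_mul_self hP.eigenvectorUnitary
  rwa [Matrix.star_eq_conjTranspose] at this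

theorem double_sum {L : Type} [Fintype L] {P Q : Matrix n n ℂ} (hP : P.IsHermitian)
    (hQ : Q.IsHermitian) (f h : L → ℝ → ℂ) :
    nsq (∑ l, mfun (f l) P * mfun (h l) Q) =
      ∑ i, ∑ j, ‖((hP.eigenvectorUnitary : Matrix n n ℂ)ᴴ *
        (hQ.eigenvectorUnitary : Matrix n n ℂ)) i j‖ ^ 2 *
        ‖∑ l, f l (hP.eigenvalues i) * h l (hQ.eigenvalues j)‖ ^ 2 := by
  set U := (hP.eigenvectorUnitary : Matrix n n ℂ) with hUdef
  set V := (hQ.eigenvectorUnitary : Matrix n n ℂ) with hVdef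
  have e1 : ∑ l, mfun (f l) P * mfun (h l) Q =
      U * (∑ l, diagonal (fun i => f l (hP.eigenvalues i)) * (Uᴴ * V) *
        diagonal (fun j => h l (hQ.eigenvalues j))) * Vᴴ := by
    rw [Finset.mul_sum, Finset.sum_mul]
    refine Finset.sum_congr rfl fun l _ => ?_
    rw [mfun_eq (f l) hP, mfun_eq (h l) hQ]
    simp only [Matrix.mul_assoc, ← hUdef, ← hVdef]
  rw [e1, nsq_conj_aux (unit_aux hP) (unit_aux hQ)]
  unfold nsq
  refine Finset.sum_congr rfl fun i _ => Finset.sum_congr rfl fun j _ => ?_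
  rw [← mul_pow, ← norm_mul]
  congr 2
  rw [Matrix.sum_apply, Finset.mul_sum]
  refine Finset.sum_congr rfl fun l _ => ?_
  rw [Matrix.mul_diagonal, Matrix.diagonal_mul]
  ring

theorem transfer {L : Type} [Fintype L] {P Q : Matrix n n ℂ} (hP : P.IsHermitian)
    (hQ : Q.IsHermitian) (f h : L → ℝ → ℂ) (a b c : ℝ)
    (hb : ∀ i j, ‖∑ l, f l (hP.eigenvalues i) * h l (hQ.eigenvalues j) - (hQ.eigenvalues j : ℂ)‖ ^ 2
      ≤ a * (hP.eigenvalues i - hQ.eigenvalues j) ^ 2 + b * (hQ.eigenvalues j) ^ 2 + c) :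
    nsq ((∑ l, mfun (f l) P * mfun (h l) Q) - Q) ≤
      a * nsq (P - Q) + b * nsq Q + c * Fintype.card n := by
  set W := ((hP.eigenvectorUnitary : Matrix n n ℂ)ᴴ *
        (hQ.eigenvectorUnitary : Matrix n n ℂ)) with hW
  -- the left-hand side
  have e0 : (∑ l, mfun (f l) P * mfun (h l) Q) - Q =
      ∑ l : Option L, mfun (l.elim (fun _ => 1) f) P *
        mfun (l.elim (fun t => -(t : ℂ)) h) Q := by
    rw [Fintype.sum_option]
    simp only [Option.elim_none, Option.elim_some]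
    rw [mfun_one hP, Matrix.one_mul]
    have h1 : mfun (fun t : ℝ => -(t : ℂ)) Q = -Q := by
      have h2 := mfun_smul (-1) (fun t : ℝ => (t : ℂ)) hQ
      rw [mfun_id hQ] at h2
      simp only [neg_mul, one_mul, neg_smul, one_smul] at h2
      exact h2.symm
    rw [h1]
    abel
  have e1 : nsq ((∑ l, mfun (f l) P * mfun (h l) Q) - Q) = ∑ i, ∑ j, ‖W i j‖ ^ 2 *
      ‖∑ l, f l (hP.eigenvalues i) * h l (hQ.eigenvalues j) - (hQ.eigenvalues j : ℂ)‖ ^ 2 := by
    rw [e0, double_sum hP hQ]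
    refine Finset.sum_congr rfl fun i _ => Finset.sum_congr rfl fun j _ => ?_
    congr 3
    rw [Fintype.sum_option]
    simp only [Option.elim_none, Option.elim_some]
    ring
  have e2 : nsq (P - Q) = ∑ i, ∑ j, ‖W i j‖ ^ 2 *
      (hP.eigenvalues i - hQ.eigenvalues j) ^ 2 := by
    have h0 : P - Q = ∑ l : Bool, mfun (if l then (fun t : ℝ => (t : ℂ)) else fun _ => 1) P *
        mfun (if l then (fun _ => 1) else fun t : ℝ => -(t : ℂ)) Q := by
      rw [Fintype.sum_bool]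
      simp only [if_true, Bool.false_eq_true, if_false]
      have h1 : mfun (fun t : ℝ => -(t : ℂ)) Q = -Q := by
        have h2 := mfun_smul (-1) (fun t : ℝ => (t : ℂ)) hQ
        rw [mfun_id hQ] at h2
        simp only [neg_mul, one_mul, neg_smul, one_smul] at h2
        exact h2.symm
      rw [h1, mfun_one hP, mfun_one hQ, mfun_id hP, Matrix.mul_one, Matrix.one_mul]
      abel
    rw [h0, double_sum hP hQ]
    refine Finset.sum_congr rfl fun i _ => Finset.sum_congr rfl fun j _ => ?_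
    congr 1
    rw [Fintype.sum_bool]
    simp only [if_true, Bool.false_eq_true, if_false, mul_one, one_mul]
    rw [← Complex.ofReal_neg, ← Complex.ofReal_add, Complex.norm_real, Real.norm_eq_abs, sq_abs]
    ring
  have e3 : nsq Q = ∑ i, ∑ j, ‖W i j‖ ^ 2 * (hQ.eigenvalues j) ^ 2 := by
    have h0 : Q = ∑ l : Unit, mfun ((fun (_ : Unit) (_ : ℝ) => (1 : ℂ)) l) P *
        mfun ((fun (_ : Unit) (t : ℝ) => (t : ℂ)) l) Q := by
      rw [Fintype.sum_unique, mfun_one hP, mfun_id hQ, Matrix.one_mul]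
    conv_lhs => rw [h0]
    rw [double_sum hP hQ]
    refine Finset.sum_congr rfl fun i _ => Finset.sum_congr rfl fun j _ => ?_
    congr 1
    rw [Fintype.sum_unique, one_mul, Complex.norm_real, Real.norm_eq_abs, sq_abs]
  have e4 : (Fintype.card n : ℝ) = ∑ i, ∑ j, ‖W i j‖ ^ 2 := by
    have h0 : (1 : Matrix n n ℂ) = ∑ l : Unit, mfun ((fun (_ : Unit) (_ : ℝ) => (1 : ℂ)) l) P *
        mfun ((fun (_ : Unit) (_ : ℝ) => (1 : ℂ)) l) Q := by
      rw [Fintype.sum_unique, mfun_one hP, mfun_one hQ, Matrix.one_mul]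
    have h1 : nsq (1 : Matrix n n ℂ) = Fintype.card n := by
      rw [nsq_trace_aux, Matrix.conjTranspose_one, Matrix.one_mul, Matrix.trace_one,
        Complex.natCast_re]
    rw [← h1, h0, double_sum hP hQ]
    refine Finset.sum_congr rfl fun i _ => Finset.sum_congr rfl fun j _ => ?_
    rw [Fintype.sum_unique, one_mul, norm_one, one_pow, mul_one]
  rw [e1, e2, e3, e4]
  simp only [Finset.mul_sum, ← Finset.sum_add_distrib]
  refine Finset.sum_le_sum fun i _ => Finset.sum_le_sum fun j _ => ?_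
  have h1 := mul_le_mul_of_nonneg_left (hb i j) (sq_nonneg ‖W i j‖)
  refine h1.trans (le_of_eq ?_)
  ring

end Crest.Agent.NG
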