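import Crest.Agent.NG.Filter
import Crest.Agent.NG.Transfer
import Crest.Agent.NG.Nsq

/-!
Chunk R342-U2 (`filter_mat`): matrix form of the filter. Let `B` bound the eigenvalues of all the
Hermitian matrices `herm K_x = [[0, K],[Kᴴ, 0]]`, `herm L_y` (finitely many). With `g, φ, χ` from
`filter_exists` put, on the index type `l = (m ⊕ m) × L`,
`S ((i,c),(j,d)) = if i = j ∧ c = d then g c else 0`,
`W x : m × l`, `W x i (j,c) = mfun (φ c) (herm (K x)) (inl i) j`,
`V y : l × m`, `V y (j,c) i = mfun (χ c) (herm (L y)) j (inr i)`.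
* contractions: `W Wᴴ = P_1 (∑_c φ_c(K̃)²) P_1 ≤ 1`, and `1 - Wᴴ W ≥ 0` iff `1 - W Wᴴ ≥ 0`.
* `W S V = P_1 (∑_c g_c φ_c(K̃) χ_c(L̃)) P_2`; `[[0,L],[Lᴴ,0]]` has upper right block `L`, so by
  `transfer` (with `(a+b+c)² ≤ 3(a²+b²+c²)`): `nsq (W S V - L) ≤ 3((40/η)² nsq(K̃-L̃) +
  (40η)² nsq L̃ + ζ² 2|m|)`, `nsq(K̃ - L̃) = 2 nsq (K-L)`, `nsq L̃ = 2 nsq L`; a block has smaller `nsq`.
* `nsq (W S) = tr P_1 (∑ g² φ²)(K̃) P_1` is within `40 η tr(P_1 K̃² P_1) + ζ |m|` of
  `tr (P_1 K̃² P_1) = nsq K`. Same for `V`.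
Choose `ζ` small at the end.
-/

set_option autoImplicit false
set_option linter.unusedSectionVars false

namespace Crest.Agent.NG
open Matrix Complex
open scoped ComplexOrder

namespace FM

section gen
variable {n : Type} [Fintype n] [DecidableEq n]

/-- spectral weights -/
noncomputable def wt {P : Matrix n n ℂ} (h : P.IsHermitian) (q l : n) : ℝ :=
  ‖(h.eigenvectorUnitary : Matrix n n ℂ) q l‖ ^ 2

theorem wt_nonneg {P : Matrix n n ℂ} (h : P.IsHermitian) (q l : n) : 0 ≤ wt h q l := by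
  unfold wt; positivity

theorem diag_eq {P : Matrix n n ℂ} (h : P.IsHermitian) (ψ : ℝ → ℝ) (q : n) :
    mfun (fun t => (ψ t : ℂ)) P q q = ((∑ l, wt h q l * ψ (h.eigenvalues l) : ℝ) : ℂ) := by
  rw [mfun_apply _ h]
  push_cast
  refine Finset.sum_congr rfl fun l _ => ?_
  have h1 : ((wt h q l : ℝ) : ℂ) = (h.eigenvectorUnitary : Matrix n n ℂ) q l *
      (starRingEnd ℂ) ((h.eigenvectorUnitary : Matrix n n ℂ) q l) := by
    rw [Complex.mul_conj, Complex.normSq_eq_norm_sq]; rfl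
  rw [h1]; ring

theorem herm_mfun {P : Matrix n n ℂ} (h : P.IsHermitian) (ψ : ℝ → ℝ) :
    (mfun (fun t => (ψ t : ℂ)) P)ᴴ = mfun (fun t => (ψ t : ℂ)) P := by
  rw [mfun_conjTranspose _ h]
  congr 1
  funext t
  exact Complex.conj_ofReal _

theorem mfun_sq {P : Matrix n n ℂ} (h : P.IsHermitian) (ψ : ℝ → ℝ) :
    mfun (fun t => (ψ t : ℂ)) P * mfun (fun t => (ψ t : ℂ)) P =
      mfun (fun t => ((ψ t ^ 2 : ℝ) : ℂ)) P := by
  rw [mfun_mul _ _ h]
  congr 1
  funext t
  push_cast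
  ring

theorem row_sq {P : Matrix n n ℂ} (h : P.IsHermitian) (ψ : ℝ → ℝ) (q : n) :
    ∑ r, ‖mfun (fun t => (ψ t : ℂ)) P q r‖ ^ 2 = ∑ l, wt h q l * ψ (h.eigenvalues l) ^ 2 := by
  have h1 : mfun (fun t => ((ψ t ^ 2 : ℝ) : ℂ)) P q q =
      ((∑ l, wt h q l * ψ (h.eigenvalues l) ^ 2 : ℝ) : ℂ) := diag_eq h (fun t => ψ t ^ 2) q
  rw [← mfun_sq h, Matrix.mul_apply] at h1
  have h2 : ∀ r, mfun (fun t => (ψ t : ℂ)) P r q =
      (starRingEnd ℂ) (mfun (fun t => (ψ t : ℂ)) P q r) := by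
    intro r
    have := congrFun (congrFun (herm_mfun h ψ) r) q
    rw [← this, Matrix.conjTranspose_apply]
    rfl
  have h3 : (((∑ r, ‖mfun (fun t => (ψ t : ℂ)) P q r‖ ^ 2 : ℝ)) : ℂ) =
      ((∑ l, wt h q l * ψ (h.eigenvalues l) ^ 2 : ℝ) : ℂ) := by
    rw [← h1]
    push_cast
    refine Finset.sum_congr rfl fun r _ => ?_
    rw [h2 r, Complex.mul_conj, Complex.normSq_eq_norm_sq]
    push_cast
    rfl
  exact_mod_cast h3

theorem col_sq {P : Matrix n n ℂ} (h : P.IsHermitian) (ψ : ℝ → ℝ) (q : n) :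
    ∑ r, ‖mfun (fun t => (ψ t : ℂ)) P r q‖ ^ 2 = ∑ l, wt h q l * ψ (h.eigenvalues l) ^ 2 := by
  rw [← row_sq h]
  refine Finset.sum_congr rfl fun r _ => ?_
  have := congrFun (congrFun (herm_mfun h ψ) r) q
  rw [← this, Matrix.conjTranspose_apply, norm_star]

theorem wt_sum {P : Matrix n n ℂ} (h : P.IsHermitian) (q : n) : ∑ l, wt h q l = 1 := by
  have h1 := diag_eq h (fun _ => 1) q
  have h2 : mfun (fun _ => ((1 : ℝ) : ℂ)) P = 1 := by
    rw [← mfun_one h]
    simp
  rw [h2] at h1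
  simp only [Matrix.one_apply_eq, mul_one] at h1
  exact_mod_cast h1.symm

/-- comparison of two spectral sums -/
theorem diff_le {P : Matrix n n ℂ} (h : P.IsHermitian) {m : Type} [Fintype m] (e : m → n)
    (G : ℝ → ℝ) (a c : ℝ)
    (hG : ∀ l, |G (h.eigenvalues l) - h.eigenvalues l ^ 2| ≤ a * h.eigenvalues l ^ 2 + c) :
    |(∑ i, ∑ l, wt h (e i) l * G (h.eigenvalues l)) -
      ∑ i, ∑ l, wt h (e i) l * h.eigenvalues l ^ 2| ≤
      a * (∑ i, ∑ l, wt h (e i) l * h.eigenvalues l ^ 2) + c * Fintype.card m := by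
  rw [← Finset.sum_sub_distrib]
  refine (Finset.abs_sum_le_sum_abs _ _).trans ?_
  have hR : a * (∑ i, ∑ l, wt h (e i) l * h.eigenvalues l ^ 2) + c * Fintype.card m =
      ∑ i, (a * (∑ l, wt h (e i) l * h.eigenvalues l ^ 2) + c) := by
    rw [Finset.sum_add_distrib, ← Finset.mul_sum]
    simp [mul_comm]
  rw [hR]
  refine Finset.sum_le_sum fun i _ => ?_
  rw [← Finset.sum_sub_distrib]
  refine (Finset.abs_sum_le_sum_abs _ _).trans ?_
  have hR2 : a * (∑ l, wt h (e i) l * h.eigenvalues l ^ 2) + c =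
      ∑ l, wt h (e i) l * (a * h.eigenvalues l ^ 2 + c) := by
    have : c = ∑ l, wt h (e i) l * c := by
      rw [← Finset.sum_mul, wt_sum, one_mul]
    conv_lhs => rw [this]
    rw [Finset.mul_sum, ← Finset.sum_add_distrib]
    refine Finset.sum_congr rfl fun l _ => ?_
    ring
  rw [hR2]
  refine Finset.sum_le_sum fun l _ => ?_
  rw [← mul_sub, abs_mul, abs_of_nonneg (wt_nonneg h _ _)]
  exact mul_le_mul_of_nonneg_left (hG l) (wt_nonneg h _ _)

end gen

section blk
variable {m : Type} [Fintype m] [DecidableEq m]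

/-- `[[0,A],[Aᴴ,0]]` -/
def hm (A : Matrix m m ℂ) : Matrix (m ⊕ m) (m ⊕ m) ℂ := fromBlocks 0 A Aᴴ 0

omit [Fintype m] [DecidableEq m] in
theorem hm_herm (A : Matrix m m ℂ) : (hm A).IsHermitian := by
  unfold hm Matrix.IsHermitian
  rw [fromBlocks_conjTranspose]
  simp

theorem hm_row (A : Matrix m m ℂ) (i : m) :
    ∑ r, ‖hm A (Sum.inl i) r‖ ^ 2 = ∑ j, ‖A i j‖ ^ 2 := by
  rw [Fintype.sum_sum_type]
  simp [hm]

theorem hm_col (A : Matrix m m ℂ) (j : m) :
    ∑ r, ‖hm A r (Sum.inr j)‖ ^ 2 = ∑ i, ‖A i j‖ ^ 2 := by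
  rw [Fintype.sum_sum_type]
  simp [hm]

theorem nsq_hm (A : Matrix m m ℂ) : nsq (hm A) = 2 * nsq A := by
  unfold nsq
  rw [Fintype.sum_sum_type]
  have h1 : ∀ i, ∑ j, ‖hm A (Sum.inr i) j‖ ^ 2 = ∑ j, ‖A j i‖ ^ 2 := by
    intro i
    rw [Fintype.sum_sum_type]
    simp [hm]
  simp_rw [hm_row, h1]
  rw [Finset.sum_comm (f := fun i j => ‖A j i‖ ^ 2)]
  ring

theorem hm_sub (A A' : Matrix m m ℂ) : hm A - hm A' = hm (A - A') := by
  unfold hm
  rw [sub_eq_add_neg, fromBlocks_neg, fromBlocks_add]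
  simp [sub_eq_add_neg]

theorem nsq_block (Z : Matrix (m ⊕ m) (m ⊕ m) ℂ) :
    nsq (of fun i j => Z (Sum.inl i) (Sum.inr j) : Matrix m m ℂ) ≤ nsq Z := by
  unfold nsq
  rw [Fintype.sum_sum_type]
  have h1 : ∑ i : m, ∑ j : m, ‖(of fun i j => Z (Sum.inl i) (Sum.inr j) : Matrix m m ℂ) i j‖ ^ 2 ≤
      ∑ i : m, ∑ j, ‖Z (Sum.inl i) j‖ ^ 2 := by
    refine Finset.sum_le_sum fun i _ => ?_
    rw [Fintype.sum_sum_type]
    simp only [of_apply]
    have : 0 ≤ ∑ j : m, ‖Z (Sum.inl i) (Sum.inl j)‖ ^ 2 :=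
      Finset.sum_nonneg fun _ _ => by positivity
    linarith
  have h2 : 0 ≤ ∑ i : m, ∑ j, ‖Z (Sum.inr i) j‖ ^ 2 :=
    Finset.sum_nonneg fun _ _ => Finset.sum_nonneg fun _ _ => by positivity
  linarith

end blk

theorem flip_contraction {m l : Type} [Fintype m] [DecidableEq m] [Fintype l] [DecidableEq l]
    (W : Matrix m l ℂ) (h : (1 - W * Wᴴ).PosSemidef) : (1 - Wᴴ * W).PosSemidef := by
  let _ : Invertible (1 : Matrix m m ℂ) := invertibleOne
  let _ : Invertible (1 : Matrix l l ℂ) := invertibleOne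
  have h1 := (Matrix.PosDef.fromBlocks₁₁ (A := (1 : Matrix m m ℂ)) W (1 : Matrix l l ℂ)
    Matrix.PosDef.one)
  have h2 := (Matrix.PosDef.fromBlocks₂₂ (1 : Matrix m m ℂ) W (D := (1 : Matrix l l ℂ))
    Matrix.PosDef.one)
  simp only [inv_one, Matrix.mul_one] at h1 h2
  exact h1.1 (h2.2 h)

end FM

open FM

theorem filter_mat {m X Y : Type} [Fintype m] [DecidableEq m] [Fintype X] [Fintype Y]
    (K : X → Matrix m m ℂ) (L : Y → Matrix m m ℂ) (η : ℝ) (hη : 0 < η) (hη1 : η ≤ 1)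
    (ζ : ℝ) (hζ : 0 < ζ) (hm : Nonempty m) :
    ∃ (l : Type) (_ : Fintype l) (_ : DecidableEq l) (S : Matrix l l ℂ)
      (W : X → Matrix m l ℂ) (V : Y → Matrix l m ℂ),
      S ≠ 0 ∧ (∀ x, (1 - (W x)ᴴ * W x).PosSemidef) ∧ (∀ y, (1 - V y * (V y)ᴴ).PosSemidef) ∧
      (∀ x y, nsq (W x * S * V y - L y) ≤
        10000 / η ^ 2 * nsq (K x - L y) + 10000 * η ^ 2 * nsq (L y) + ζ) ∧
      (∀ x, |nsq (W x * S) - nsq (K x)| ≤ 40 * η * nsq (K x) + ζ) ∧
      (∀ y, |nsq (S * V y) - nsq (L y)| ≤ 40 * η * nsq (L y) + ζ) := by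
  classical
  -- the bound for the eigenvalues
  obtain ⟨B, hB, hBK, hBL⟩ : ∃ B : ℝ, 0 < B ∧
      (∀ x i, |(hm_herm (K x)).eigenvalues i| ≤ B) ∧
      (∀ y i, |(hm_herm (L y)).eigenvalues i| ≤ B) := by
    refine ⟨1 + (∑ x, ∑ i, |(hm_herm (K x)).eigenvalues i|) +
      ∑ y, ∑ i, |(hm_herm (L y)).eigenvalues i|, ?_, ?_, ?_⟩
    · have h1 : 0 ≤ ∑ x, ∑ i, |(hm_herm (K x)).eigenvalues i| :=
        Finset.sum_nonneg fun _ _ => Finset.sum_nonneg fun _ _ => abs_nonneg _
      have h2 : 0 ≤ ∑ y, ∑ i, |(hm_herm (L y)).eigenvalues i| :=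
        Finset.sum_nonneg fun _ _ => Finset.sum_nonneg fun _ _ => abs_nonneg _
      linarith
    · intro x i
      have h2 : 0 ≤ ∑ y, ∑ i, |(hm_herm (L y)).eigenvalues i| :=
        Finset.sum_nonneg fun _ _ => Finset.sum_nonneg fun _ _ => abs_nonneg _
      have h3 : |(hm_herm (K x)).eigenvalues i| ≤ ∑ i, |(hm_herm (K x)).eigenvalues i| :=
        Finset.single_le_sum (f := fun i => |(hm_herm (K x)).eigenvalues i|)
          (fun _ _ => abs_nonneg _) (Finset.mem_univ i)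
      have h4 : ∑ i, |(hm_herm (K x)).eigenvalues i| ≤
          ∑ x, ∑ i, |(hm_herm (K x)).eigenvalues i| :=
        Finset.single_le_sum (f := fun x => ∑ i, |(hm_herm (K x)).eigenvalues i|)
          (fun _ _ => Finset.sum_nonneg fun _ _ => abs_nonneg _) (Finset.mem_univ x)
      linarith
    · intro y i
      have h2 : 0 ≤ ∑ x, ∑ i, |(hm_herm (K x)).eigenvalues i| :=
        Finset.sum_nonneg fun _ _ => Finset.sum_nonneg fun _ _ => abs_nonneg _
      have h3 : |(hm_herm (L y)).eigenvalues i| ≤ ∑ i, |(hm_herm (L y)).eigenvalues i| :=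
        Finset.single_le_sum (f := fun i => |(hm_herm (L y)).eigenvalues i|)
          (fun _ _ => abs_nonneg _) (Finset.mem_univ i)
      have h4 : ∑ i, |(hm_herm (L y)).eigenvalues i| ≤
          ∑ y, ∑ i, |(hm_herm (L y)).eigenvalues i| :=
        Finset.single_le_sum (f := fun y => ∑ i, |(hm_herm (L y)).eigenvalues i|)
          (fun _ _ => Finset.sum_nonneg fun _ _ => abs_nonneg _) (Finset.mem_univ y)
      linarith
  set M : ℝ := (Fintype.card m : ℝ) with hMdef
  have hM0 : 0 ≤ M := Nat.cast_nonneg _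
  -- the small parameter
  set z : ℝ := min 1 (ζ / (6 * M + 1)) with hz
  have hz0 : 0 < z := lt_min one_pos (by positivity)
  have hz1 : z ≤ 1 := min_le_left _ _
  have hz2 : z * (6 * M + 1) ≤ ζ := by
    have : z ≤ ζ / (6 * M + 1) := min_le_right _ _
    rwa [le_div_iff₀ (by positivity)] at this
  have hzM : z * M ≤ ζ := by nlinarith [mul_nonneg hz0.le hM0]
  have hzM2 : 3 * z ^ 2 * (2 * M) ≤ ζ := by
    have : z ^ 2 ≤ z := by nlinarith
    nlinarith [mul_nonneg hz0.le hM0]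
  obtain ⟨C, _, g, φ, χ, ⟨c0, hg0⟩, hφ, hχ, hpair, hφ2, hχ2⟩ := filter_exists η hη hη1 B z hB hz0
  let S : Matrix ((m ⊕ m) × C) ((m ⊕ m) × C) ℂ := diagonal fun p => (g p.2 : ℂ)
  let W : X → Matrix m ((m ⊕ m) × C) ℂ := fun x => of fun i p =>
    mfun (fun t => (φ p.2 t : ℂ)) (FM.hm (K x)) (Sum.inl i) p.1
  let V : Y → Matrix ((m ⊕ m) × C) m ℂ := fun y => of fun p j =>
    mfun (fun t => (χ p.2 t : ℂ)) (FM.hm (L y)) p.1 (Sum.inr j)
  -- entries of W Wᴴ and Vᴴ V
  have hWW : ∀ x, 1 - W x * (W x)ᴴ = (mfun (fun t => ((1 - ∑ c, φ c t ^ 2 : ℝ) : ℂ))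
      (FM.hm (K x))).submatrix Sum.inl Sum.inl := by
    intro x
    have h1 : mfun (fun t => ((1 - ∑ c, φ c t ^ 2 : ℝ) : ℂ)) (FM.hm (K x)) =
        1 - ∑ c, mfun (fun t => (φ c t : ℂ)) (FM.hm (K x)) *
          (mfun (fun t => (φ c t : ℂ)) (FM.hm (K x)))ᴴ := by
      rw [Finset.sum_congr rfl fun c _ => by rw [herm_mfun (hm_herm (K x)), mfun_sq (hm_herm (K x))]]
      rw [mfun_eq _ (hm_herm (K x))]
      rw [Finset.sum_congr rfl fun c _ => mfun_eq _ (hm_herm (K x))]
      rw [← mfun_one (hm_herm (K x)), mfun_eq _ (hm_herm (K x)), ← Finset.sum_mul,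
        ← Finset.mul_sum, ← Matrix.sub_mul, ← Matrix.mul_sub]
      congr 2
      ext i j
      rw [Matrix.sub_apply, Matrix.sum_apply]
      by_cases hij : i = j
      · subst hij
        simp
      · simp [Matrix.diagonal_apply_ne _ hij]
    rw [h1]
    ext i j
    simp only [Matrix.sub_apply, Matrix.submatrix_apply, Matrix.sum_apply, Matrix.mul_apply,
      Matrix.conjTranspose_apply]
    congr 1
    · by_cases hij : i = j
      · subst hij; simp
      · simp [hij]
    · rw [Fintype.sum_prod_type_right]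
      rfl
  have hVV : ∀ y, 1 - (V y)ᴴ * V y = (mfun (fun t => ((1 - ∑ c, χ c t ^ 2 : ℝ) : ℂ))
      (FM.hm (L y))).submatrix Sum.inr Sum.inr := by
    intro y
    have h1 : mfun (fun t => ((1 - ∑ c, χ c t ^ 2 : ℝ) : ℂ)) (FM.hm (L y)) =
        1 - ∑ c, (mfun (fun t => (χ c t : ℂ)) (FM.hm (L y)))ᴴ *
          (mfun (fun t => (χ c t : ℂ)) (FM.hm (L y))) := by
      rw [Finset.sum_congr rfl fun c _ => by rw [herm_mfun (hm_herm (L y)), mfun_sq (hm_herm (L y))]]
      rw [mfun_eq _ (hm_herm (L y))]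
      rw [Finset.sum_congr rfl fun c _ => mfun_eq _ (hm_herm (L y))]
      rw [← mfun_one (hm_herm (L y)), mfun_eq _ (hm_herm (L y)), ← Finset.sum_mul,
        ← Finset.mul_sum, ← Matrix.sub_mul, ← Matrix.mul_sub]
      congr 2
      ext i j
      rw [Matrix.sub_apply, Matrix.sum_apply]
      by_cases hij : i = j
      · subst hij
        simp
      · simp [Matrix.diagonal_apply_ne _ hij]
    rw [h1]
    ext i j
    simp only [Matrix.sub_apply, Matrix.submatrix_apply, Matrix.sum_apply, Matrix.mul_apply,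
      Matrix.conjTranspose_apply]
    congr 1
    · by_cases hij : i = j
      · subst hij; simp
      · simp [hij]
    · rw [Fintype.sum_prod_type_right]
      rfl
  refine ⟨(m ⊕ m) × C, inferInstance, inferInstance, S, W, V, ?_, ?_, ?_, ?_, ?_, ?_⟩
  · intro hS
    obtain ⟨i0⟩ := hm
    have := congrFun (congrFun hS (Sum.inl i0, c0)) (Sum.inl i0, c0)
    simp only [S, Matrix.diagonal_apply_eq, Matrix.zero_apply] at this
    exact hg0 (by exact_mod_cast this)
  · intro x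
    apply flip_contraction
    rw [hWW x]
    apply Matrix.PosSemidef.submatrix
    apply mfun_posSemidef _ (hm_herm (K x))
    intro i
    have := hφ _ (hBK x i)
    linarith
  · intro y
    have h1 : (1 - (V y)ᴴ * ((V y)ᴴ)ᴴ).PosSemidef := by
      rw [conjTranspose_conjTranspose, hVV y]
      apply Matrix.PosSemidef.submatrix
      apply mfun_posSemidef _ (hm_herm (L y))
      intro i
      have := hχ _ (hBL y i)
      linarith
    have h2 := flip_contraction _ h1
    rwa [conjTranspose_conjTranspose] at h2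
  · intro x y
    have h1 : W x * S * V y - L y = (of fun i j =>
        ((∑ c, mfun (fun t => ((g c * φ c t : ℝ) : ℂ)) (FM.hm (K x)) *
          mfun (fun t => (χ c t : ℂ)) (FM.hm (L y))) - FM.hm (L y)) (Sum.inl i) (Sum.inr j) :
          Matrix m m ℂ) := by
      ext i j
      simp only [of_apply, Matrix.sub_apply]
      congr 1
      rw [Matrix.sum_apply, Matrix.mul_apply, Fintype.sum_prod_type_right]
      refine Finset.sum_congr rfl fun c _ => ?_
      rw [Matrix.mul_apply]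
      refine Finset.sum_congr rfl fun r _ => ?_
      have h2 : (W x * S) i (r, c) = mfun (fun t => ((g c * φ c t : ℝ) : ℂ)) (FM.hm (K x))
          (Sum.inl i) r := by
        simp only [S, Matrix.mul_diagonal, W, of_apply]
        have h3 : mfun (fun t => ((g c * φ c t : ℝ) : ℂ)) (FM.hm (K x)) =
            (g c : ℂ) • mfun (fun t => (φ c t : ℂ)) (FM.hm (K x)) := by
          rw [mfun_smul _ _ (hm_herm (K x))]
          congr 1
          funext t
          push_cast
          rfl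
        rw [h3, Matrix.smul_apply, smul_eq_mul, mul_comm]
      rw [h2]
      rfl
    rw [h1]
    refine (nsq_block _).trans ?_
    have h2 := transfer (hm_herm (K x)) (hm_herm (L y))
      (fun c t => ((g c * φ c t : ℝ) : ℂ)) (fun c t => (χ c t : ℂ))
      (3 * (40 / η) ^ 2) (3 * (40 * η) ^ 2) (3 * z ^ 2) (by
        intro i j
        have h3 := hpair _ _ (hBK x i) (hBL y j)
        have h4 : ‖∑ c, (((g c * φ c ((hm_herm (K x)).eigenvalues i) : ℝ) : ℂ)) *
            ((χ c ((hm_herm (L y)).eigenvalues j) : ℝ) : ℂ) -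
            (((hm_herm (L y)).eigenvalues j : ℝ) : ℂ)‖ =
            |∑ c, g c * φ c ((hm_herm (K x)).eigenvalues i) *
            χ c ((hm_herm (L y)).eigenvalues j) - (hm_herm (L y)).eigenvalues j| := by
          rw [← Real.norm_eq_abs, ← Complex.norm_real]
          congr 1
          push_cast
          rfl
        rw [h4]
        have h5 := pow_le_pow_left₀ (abs_nonneg _) h3 2
        refine h5.trans ?_
        have h6 : ∀ a b c : ℝ, (a + b + c) ^ 2 ≤ 3 * a ^ 2 + 3 * b ^ 2 + 3 * c ^ 2 := by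
          intro a b c
          nlinarith [sq_nonneg (a - b), sq_nonneg (b - c), sq_nonneg (a - c)]
        refine (h6 _ _ _).trans ?_
        rw [mul_pow, mul_pow (40 * η), sq_abs, sq_abs]
        apply le_of_eq
        ring)
    refine h2.trans ?_
    rw [hm_sub, nsq_hm, nsq_hm, Fintype.card_sum]
    push_cast
    rw [← hMdef]
    have h7 : 0 ≤ nsq (K x - L y) := nsq_nonneg _
    have h8 : 0 ≤ nsq (L y) := nsq_nonneg _
    have h9 : 3 * (40 / η) ^ 2 * (2 * nsq (K x - L y)) ≤ 10000 / η ^ 2 * nsq (K x - L y) := by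
      have : 3 * (40 / η) ^ 2 * (2 * nsq (K x - L y)) = 9600 / η ^ 2 * nsq (K x - L y) := by
        field_simp
        ring
      rw [this]
      apply mul_le_mul_of_nonneg_right _ h7
      gcongr
      norm_num
    have h10 : 3 * (40 * η) ^ 2 * (2 * nsq (L y)) ≤ 10000 * η ^ 2 * nsq (L y) := by
      have : 3 * (40 * η) ^ 2 * (2 * nsq (L y)) = 9600 * η ^ 2 * nsq (L y) := by ring
      rw [this]
      apply mul_le_mul_of_nonneg_right _ h8
      nlinarith [sq_nonneg η]
    have h11 : 3 * z ^ 2 * (M + M) ≤ ζ := by linarith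
    linarith
  · intro x
    have hWS : nsq (W x * S) = ∑ i, ∑ l, wt (hm_herm (K x)) (Sum.inl i) l *
        (fun t => ∑ c, g c ^ 2 * φ c t ^ 2) ((hm_herm (K x)).eigenvalues l) := by
      unfold nsq
      refine Finset.sum_congr rfl fun i _ => ?_
      rw [Fintype.sum_prod_type_right]
      have h1 : ∀ c, ∑ r, ‖(W x * S) i (r, c)‖ ^ 2 =
          ∑ l, g c ^ 2 * (wt (hm_herm (K x)) (Sum.inl i) l *
            φ c ((hm_herm (K x)).eigenvalues l) ^ 2) := by
        intro c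
        rw [← Finset.mul_sum, ← row_sq, Finset.mul_sum]
        refine Finset.sum_congr rfl fun r _ => ?_
        simp only [S, Matrix.mul_diagonal, W, of_apply]
        rw [norm_mul, mul_pow, Complex.norm_real, Real.norm_eq_abs, sq_abs]
        ring
      simp_rw [h1]
      rw [Finset.sum_comm]
      refine Finset.sum_congr rfl fun l _ => ?_
      rw [Finset.mul_sum]
      refine Finset.sum_congr rfl fun c _ => ?_
      ring
    have hK : nsq (K x) = ∑ i, ∑ l, wt (hm_herm (K x)) (Sum.inl i) l *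
        (hm_herm (K x)).eigenvalues l ^ 2 := by
      unfold nsq
      refine Finset.sum_congr rfl fun i _ => ?_
      rw [← hm_row]
      have := row_sq (hm_herm (K x)) (fun t => t) (Sum.inl i)
      rw [mfun_id (hm_herm (K x))] at this
      exact this
    rw [hWS]
    have h3 := diff_le (hm_herm (K x)) (Sum.inl : m → m ⊕ m) (fun t => ∑ c, g c ^ 2 * φ c t ^ 2)
      (40 * η) z (fun l => hφ2 _ (hBK x l))
    rw [← hK] at h3
    refine h3.trans ?_
    linarith
  · intro y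
    have hVS : nsq (S * V y) = ∑ i, ∑ l, wt (hm_herm (L y)) (Sum.inr i) l *
        (fun t => ∑ c, g c ^ 2 * χ c t ^ 2) ((hm_herm (L y)).eigenvalues l) := by
      unfold nsq
      rw [Finset.sum_comm]
      refine Finset.sum_congr rfl fun i _ => ?_
      rw [Fintype.sum_prod_type_right]
      have h1 : ∀ c, ∑ r, ‖(S * V y) (r, c) i‖ ^ 2 =
          ∑ l, g c ^ 2 * (wt (hm_herm (L y)) (Sum.inr i) l *
            χ c ((hm_herm (L y)).eigenvalues l) ^ 2) := by
        intro c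
        rw [← Finset.mul_sum, ← col_sq, Finset.mul_sum]
        refine Finset.sum_congr rfl fun r _ => ?_
        simp only [S, Matrix.diagonal_mul, V, of_apply]
        rw [norm_mul, mul_pow, Complex.norm_real, Real.norm_eq_abs, sq_abs]
      simp_rw [h1]
      rw [Finset.sum_comm]
      refine Finset.sum_congr rfl fun l _ => ?_
      rw [Finset.mul_sum]
      refine Finset.sum_congr rfl fun c _ => ?_
      ring
    have hL : nsq (L y) = ∑ i, ∑ l, wt (hm_herm (L y)) (Sum.inr i) l *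
        (hm_herm (L y)).eigenvalues l ^ 2 := by
      unfold nsq
      rw [Finset.sum_comm]
      refine Finset.sum_congr rfl fun i _ => ?_
      rw [← hm_col]
      have := col_sq (hm_herm (L y)) (fun t => t) (Sum.inr i)
      rw [mfun_id (hm_herm (L y))] at this
      exact this
    rw [hVS]
    have h3 := diff_le (hm_herm (L y)) (Sum.inr : m → m ⊕ m) (fun t => ∑ c, g c ^ 2 * χ c t ^ 2)
      (40 * η) z (fun l => hχ2 _ (hBL y l))
    rw [← hL] at h3
    refine h3.trans ?_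
    linarith

end Crest.Agent.NG
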