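import Mathlib

/-!
Chunk R342-L1 (`lifting`): from conditional bounds to the threshold bound (finite combinatorics).
`g C ω = ∏_{i∈C} (if win ω i then 1 else 1/2)`. Put `a_C = ∑_{ω ∈ Thr} P ω g C ω`,
`b_C = ∑_ω P ω g C ω`, `Thr = {ω : (v+δ) k ≤ #wins}`, `u₊ = 1/2 + (v+3δ/4)/2`,
`u₋ = 1/2 + (v+δ/2)/2`. For `|C| = j < m`: `j ≤ δ k/4`, so
`∑_{i∉C} a_{C∪i} = ∑_{Thr} P g_C ((k-j)/2 + #wins outside C/2) ≥ (k-j) u₊ a_C` because
`#wins outside C ≥ (v+δ)k - j ≥ (k-j)(v + 3δ/4)`, and
`∑_{i∉C} b_{C∪i} ≤ (k-j) u₋ b_C` by the hypothesis.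
Downward induction on `|C| ≤ m`: `a_C ≤ (u₋/u₊)^{m-|C|} b_C` (`m ≤ k`).
`C = ∅`: `a_∅ ≤ (u₋/u₊)^m b_∅`, and `u₋/u₊ = 1 - (δ/8)/u₊ ≤ 1 - δ/8 ≤ exp(-δ/8)` since `u₊ ≤ 1`.
-/

set_option autoImplicit false

namespace Crest.Agent.NG

/-- the weight of a set of coordinates -/
private noncomputable def gg {Ω : Type} {k : ℕ} (win : Ω → Fin k → Bool) (C : Finset (Fin k))
    (ω : Ω) : ℝ := ∏ j ∈ C, (if win ω j = true then (1 : ℝ) else 1 / 2)

private theorem gg_nonneg {Ω : Type} {k : ℕ} (win : Ω → Fin k → Bool) (C : Finset (Fin k))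
    (ω : Ω) : 0 ≤ gg win C ω := by
  unfold gg
  refine Finset.prod_nonneg fun j _ => ?_
  split_ifs <;> norm_num

private theorem gg_insert {Ω : Type} {k : ℕ} (win : Ω → Fin k → Bool) (C : Finset (Fin k))
    (i : Fin k) (hi : i ∉ C) (ω : Ω) :
    gg win (insert i C) ω = gg win C ω * (1 / 2 + (1 / 2) * (if win ω i = true then (1:ℝ) else 0)) := by
  unfold gg
  rw [Finset.prod_insert hi, mul_comm]
  congr 1
  split_ifs <;> norm_num

private theorem card_compl' {k : ℕ} (C : Finset (Fin k)) :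
    ((Finset.univ.filter (fun i => i ∉ C)).card : ℝ) = (k : ℝ) - C.card := by
  have h1 : (Finset.univ.filter (fun i : Fin k => i ∉ C)) = Cᶜ := by
    ext i; simp
  rw [h1, Finset.card_compl, Fintype.card_fin, Nat.cast_sub]
  simpa using Finset.card_le_univ C

/-- the sum over `i ∉ C` of the weights of `insert i C` -/
private theorem sum_gg {Ω : Type} {k : ℕ} (win : Ω → Fin k → Bool) (C : Finset (Fin k)) (ω : Ω) :
    ∑ i ∈ Finset.univ.filter (fun i => i ∉ C), gg win (insert i C) ω =
      gg win C ω * (((k : ℝ) - C.card) / 2 +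
        (1 / 2) * ∑ i ∈ Finset.univ.filter (fun i => i ∉ C), (if win ω i = true then (1:ℝ) else 0)) := by
  have h1 : ∑ i ∈ Finset.univ.filter (fun i => i ∉ C), gg win (insert i C) ω =
      ∑ i ∈ Finset.univ.filter (fun i => i ∉ C),
        gg win C ω * (1 / 2 + (1 / 2) * (if win ω i = true then (1:ℝ) else 0)) := by
    refine Finset.sum_congr rfl fun i hi => ?_
    exact gg_insert win C i (by simpa using hi) ω
  rw [h1, ← Finset.mul_sum, Finset.sum_add_distrib, ← Finset.mul_sum, Finset.sum_const,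
    nsmul_eq_mul, card_compl']
  ring

private theorem wins_split {Ω : Type} {k : ℕ} (win : Ω → Fin k → Bool) (C : Finset (Fin k))
    (ω : Ω) :
    ((Finset.univ.filter fun i => win ω i = true).card : ℝ) - C.card ≤
      ∑ i ∈ Finset.univ.filter (fun i => i ∉ C), (if win ω i = true then (1:ℝ) else 0) := by
  have h1 : ((Finset.univ.filter fun i => win ω i = true).card : ℝ) =
      ∑ i, (if win ω i = true then (1:ℝ) else 0) := by
    rw [Finset.sum_boole]
  have h2 : ∑ i, (if win ω i = true then (1:ℝ) else 0) =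
      ∑ i ∈ Finset.univ.filter (fun i => i ∉ C), (if win ω i = true then (1:ℝ) else 0) +
      ∑ i ∈ Finset.univ.filter (fun i => ¬ (i ∉ C)), (if win ω i = true then (1:ℝ) else 0) := by
    rw [Finset.sum_filter_add_sum_filter_not]
  have h3 : ∑ i ∈ Finset.univ.filter (fun i => ¬ (i ∉ C)), (if win ω i = true then (1:ℝ) else 0) ≤
      C.card := by
    calc ∑ i ∈ Finset.univ.filter (fun i => ¬ (i ∉ C)), (if win ω i = true then (1:ℝ) else 0)
        ≤ ∑ i ∈ Finset.univ.filter (fun i => ¬ (i ∉ C)), (1:ℝ) := by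
          refine Finset.sum_le_sum fun i _ => ?_
          split_ifs <;> norm_num
      _ = C.card := by
          have : (Finset.univ.filter (fun i => ¬ (i ∉ C))) = C := by
            ext i; simp
          rw [this]; simp
  rw [h1, h2]; linarith

theorem lifting {Ω : Type} [Fintype Ω] {k : ℕ} (P : Ω → ℝ) (hP : ∀ ω, 0 ≤ P ω)
    (win : Ω → Fin k → Bool) (v δ : ℝ) (hv : 0 ≤ v) (hδ : 0 < δ) (hvδ : v + δ ≤ 1) (m : ℕ)
    (hm : m ≤ k) (hmδ : ∀ j : ℕ, j < m → (j : ℝ) ≤ δ * k / 4)
    (hcond : ∀ C : Finset (Fin k), C.card < m →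
      ∑ i ∈ Finset.univ.filter (fun i => i ∉ C), ∑ ω, P ω *
        ((∏ j ∈ C, if win ω j = true then (1 : ℝ) else 1 / 2) *
          (if win ω i = true then 1 else 0)) ≤
      ((k : ℝ) - C.card) * (v + δ / 2) *
        ∑ ω, P ω * ∏ j ∈ C, (if win ω j = true then (1 : ℝ) else 1 / 2)) :
    ∑ ω, (if (v + δ) * k ≤ ((Finset.univ.filter fun i => win ω i = true).card : ℝ) then P ω else 0)
      ≤ Real.exp (-(m * δ / 8)) * ∑ ω, P ω := by
  classical
  set thr : Ω → ℝ := fun ω =>
    if (v + δ) * k ≤ ((Finset.univ.filter fun i => win ω i = true).card : ℝ) then P ω else 0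
    with hthr
  have hthr0 : ∀ ω, 0 ≤ thr ω := by
    intro ω; simp only [hthr]; split_ifs
    · exact hP ω
    · exact le_rfl
  have hthrP : ∀ ω, thr ω ≤ P ω := by
    intro ω; simp only [hthr]; split_ifs
    · exact le_rfl
    · exact hP ω
  set up : ℝ := 1 / 2 + (v + 3 * δ / 4) / 2 with hup
  set um : ℝ := 1 / 2 + (v + δ / 2) / 2 with hum
  have hup0 : 0 < up := by rw [hup]; positivity
  have hum0 : 0 < um := by rw [hum]; positivity
  have hup1 : up ≤ 1 := by rw [hup]; linarith
  set q : ℝ := um / up with hq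
  have hq0 : 0 ≤ q := by positivity
  -- the two one step estimates
  have hb : ∀ C : Finset (Fin k), C.card < m →
      ∑ i ∈ Finset.univ.filter (fun i => i ∉ C), ∑ ω, P ω * gg win (insert i C) ω ≤
        ((k : ℝ) - C.card) * um * ∑ ω, P ω * gg win C ω := by
    intro C hC
    have h1 : ∑ i ∈ Finset.univ.filter (fun i => i ∉ C), ∑ ω, P ω * gg win (insert i C) ω =
        ((k : ℝ) - C.card) / 2 * ∑ ω, P ω * gg win C ω +
        (1 / 2) * ∑ i ∈ Finset.univ.filter (fun i => i ∉ C), ∑ ω, P ω *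
          (gg win C ω * (if win ω i = true then 1 else 0)) := by
      rw [Finset.sum_comm]
      simp_rw [← Finset.mul_sum]
      simp_rw [sum_gg]
      rw [Finset.sum_comm (s := Finset.univ.filter (fun i => i ∉ C)), Finset.mul_sum,
        Finset.mul_sum, ← Finset.sum_add_distrib]
      refine Finset.sum_congr rfl fun ω _ => ?_
      rw [← Finset.mul_sum, ← Finset.mul_sum]
      ring
    rw [h1]
    have h2 := hcond C hC
    have h3 : ∑ i ∈ Finset.univ.filter (fun i => i ∉ C), ∑ ω, P ω *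
          (gg win C ω * (if win ω i = true then 1 else 0)) ≤
        ((k : ℝ) - C.card) * (v + δ / 2) * ∑ ω, P ω * gg win C ω := h2
    rw [hum]
    linarith
  have ha : ∀ C : Finset (Fin k), C.card < m →
      ((k : ℝ) - C.card) * up * ∑ ω, thr ω * gg win C ω ≤
      ∑ i ∈ Finset.univ.filter (fun i => i ∉ C), ∑ ω, thr ω * gg win (insert i C) ω := by
    intro C hC
    have h1 : ∑ i ∈ Finset.univ.filter (fun i => i ∉ C), ∑ ω, thr ω * gg win (insert i C) ω =
        ∑ ω, thr ω * (gg win C ω * (((k : ℝ) - C.card) / 2 +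
          (1 / 2) * ∑ i ∈ Finset.univ.filter (fun i => i ∉ C),
            (if win ω i = true then (1:ℝ) else 0))) := by
      rw [Finset.sum_comm]
      refine Finset.sum_congr rfl fun ω _ => ?_
      rw [← Finset.mul_sum, sum_gg]
    rw [h1, Finset.mul_sum]
    refine Finset.sum_le_sum fun ω _ => ?_
    by_cases hω : (v + δ) * k ≤ ((Finset.univ.filter fun i => win ω i = true).card : ℝ)
    · have h2 : thr ω = P ω := by simp only [hthr]; rw [if_pos hω]
      rw [h2]
      have h3 := wins_split win C ω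
      have h4 := hmδ C.card hC
      have h5 : (0 : ℝ) ≤ C.card := Nat.cast_nonneg _
      have h6 : ((k : ℝ) - C.card) * up ≤ ((k : ℝ) - C.card) / 2 +
          (1 / 2) * ∑ i ∈ Finset.univ.filter (fun i => i ∉ C),
            (if win ω i = true then (1:ℝ) else 0) := by
        rw [hup]
        nlinarith [mul_nonneg h5 (add_nonneg hv hδ.le), mul_nonneg h5 hδ.le, mul_nonneg h5 hv]
      have h7 : 0 ≤ P ω * gg win C ω := mul_nonneg (hP ω) (gg_nonneg win C ω)
      nlinarith [mul_le_mul_of_nonneg_left h6 h7]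
    · have h2 : thr ω = 0 := by simp only [hthr]; rw [if_neg hω]
      rw [h2]; simp
  -- downward induction
  have hmain : ∀ t : ℕ, ∀ C : Finset (Fin k), C.card + t = m →
      ∑ ω, thr ω * gg win C ω ≤ q ^ t * ∑ ω, P ω * gg win C ω := by
    intro t
    induction t with
    | zero =>
      intro C _
      rw [pow_zero, one_mul]
      exact Finset.sum_le_sum fun ω _ => mul_le_mul_of_nonneg_right (hthrP ω) (gg_nonneg win C ω)
    | succ t ih =>
      intro C hC
      have hCm : C.card < m := by omega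
      have hCk : (0 : ℝ) < (k : ℝ) - C.card := by
        have : C.card < k := lt_of_lt_of_le hCm hm
        have : (C.card : ℝ) < k := by exact_mod_cast this
        linarith
      have h1 := ha C hCm
      have h2 := hb C hCm
      have h3 : ∑ i ∈ Finset.univ.filter (fun i => i ∉ C), ∑ ω, thr ω * gg win (insert i C) ω ≤
          q ^ t * ∑ i ∈ Finset.univ.filter (fun i => i ∉ C), ∑ ω, P ω * gg win (insert i C) ω := by
        rw [Finset.mul_sum]
        refine Finset.sum_le_sum fun i hi => ?_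
        have hi' : i ∉ C := by simpa using hi
        refine ih (insert i C) ?_
        rw [Finset.card_insert_of_notMem hi']; omega
      have h4 : ((k : ℝ) - C.card) * up * ∑ ω, thr ω * gg win C ω ≤
          q ^ t * (((k : ℝ) - C.card) * um * ∑ ω, P ω * gg win C ω) :=
        h1.trans (h3.trans (mul_le_mul_of_nonneg_left h2 (pow_nonneg hq0 t)))
      have h5 : up * ∑ ω, thr ω * gg win C ω ≤ q ^ t * (um * ∑ ω, P ω * gg win C ω) := by
        by_contra hcon
        push Not at hcon
        have := mul_lt_mul_of_pos_left hcon hCk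
        nlinarith
      have h6 : um = q * up := by rw [hq]; field_simp
      rw [h6] at h5
      have h7 : up * ∑ ω, thr ω * gg win C ω ≤ up * (q ^ (t + 1) * ∑ ω, P ω * gg win C ω) := by
        calc up * ∑ ω, thr ω * gg win C ω ≤ q ^ t * (q * up * ∑ ω, P ω * gg win C ω) := h5
          _ = up * (q ^ (t + 1) * ∑ ω, P ω * gg win C ω) := by ring
      exact le_of_mul_le_mul_left h7 hup0
  have h0 := hmain m ∅ (by simp)
  have hg0 : ∀ ω, gg win ∅ ω = 1 := by intro ω; simp [gg]
  simp only [hg0, mul_one] at h0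
  refine h0.trans ?_
  have hPs : 0 ≤ ∑ ω, P ω := Finset.sum_nonneg fun ω _ => hP ω
  refine mul_le_mul_of_nonneg_right ?_ hPs
  have hq1 : q ≤ 1 - δ / 8 := by
    rw [hq, div_le_iff₀ hup0]
    have : (1 - δ / 8) * up = up - δ / 8 * up := by ring
    rw [this]
    have h8 : δ / 8 * up ≤ δ / 8 := by nlinarith
    have h9 : um = up - δ / 8 := by rw [hum, hup]; ring
    linarith
  have hq2 : q ≤ Real.exp (-(δ / 8)) := by
    have := Real.add_one_le_exp (-(δ / 8))
    linarith
  calc q ^ m ≤ (Real.exp (-(δ / 8))) ^ m := pow_le_pow_left₀ hq0 hq2 m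
    _ = Real.exp (-(m * δ / 8)) := by
      rw [← Real.exp_nat_mul]; congr 1; ring

end Crest.Agent.NG
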