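import Crest.Agent.NG.BridgeDefs
import Crest.Agent.NG.Lifting

/-!
Chunk R342-L3 (`threshold_of_avg`): `reduce_nondeg` + `lifting` with
`Ω = (Fin k → X × Y) × (Fin k → A) × (Fin k → B)`, `P ω = Pr z * law S z a b` (total mass one),
`win ω i = G.accept (z i).1 (z i).2 (a i) (b i)`; `hcond` is the hypothesis multiplied by `PW > 0`;
`probWinsAtLeast` is the same sum (strings of pairs `z` ↔ pairs of strings `(x, y)`:
`Equiv.arrowProdEquivProdArrow`; `answerProb_eq`).
-/

set_option autoImplicit false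

namespace Crest.Agent.NG
open Matrix Complex Crest.MathPhysics.NonlocalGame
open scoped ComplexOrder

/-- `probWinsAtLeast` as a sum over strings of pairs. -/
theorem probWins_eq_sum {G : Game} {k d : ℕ} (S : Strategy G k d d) (t : ℝ) :
    S.probWinsAtLeast t = ∑ z : Fin k → Fin G.nX × Fin G.nY, ∑ a, ∑ b,
      if t ≤ ((Finset.univ.filter fun i : Fin k =>
        G.accept (z i).1 (z i).2 (a i) (b i) = true).card : ℝ)
      then Pr G.prob z * law S z a b else 0 := by
  unfold Strategy.probWinsAtLeast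
  rw [← (Equiv.arrowProdEquivProdArrow (Fin k) (fun _ => Fin G.nX) (fun _ => Fin G.nY)).symm.sum_comp,
    Fintype.sum_prod_type]
  refine Finset.sum_congr rfl fun x _ => Finset.sum_congr rfl fun y _ => ?_
  rw [Finset.mul_sum]
  refine Finset.sum_congr rfl fun a _ => ?_
  rw [Finset.mul_sum]
  refine Finset.sum_congr rfl fun b _ => ?_
  simp only [Equiv.arrowProdEquivProdArrow, Equiv.coe_fn_symm_mk, Pr, law, wins, mul_ite, mul_zero,
    answerProb_eq]
  all_goals rfl

theorem threshold_of_avg {G : Game} {k : ℕ} (hk : 1 ≤ k) {v δ : ℝ} (hv : 0 ≤ v) (hδ : 0 < δ)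
    (hvδ : v + δ ≤ 1) (m : ℕ) (hm : m ≤ k) (hmδ : ∀ j : ℕ, j < m → (j : ℝ) ≤ δ * k / 4)
    (havg : ∀ (d : ℕ) (S : Strategy G k d d), Nondeg S → ∀ C : Finset (Fin k), C.card < m →
      ∑ i ∈ Finset.univ.filter (fun i : Fin k => i ∉ C), pwin S C i ≤
        ((k : ℝ) - C.card) * (v + δ / 2))
    (dA dB : ℕ) (S : Strategy G k dA dB) :
    S.probWinsAtLeast ((v + δ) * k) ≤ Real.exp (-(m * δ / 8)) := by
  refine reduce_nondeg hk _ _ (fun d S hS => ?_) dA dB S
  set P : (Fin k → Fin G.nX × Fin G.nY) × (Fin k → Fin G.nA) × (Fin k → Fin G.nB) → ℝ :=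
    fun ω => Pr G.prob ω.1 * law S ω.1 ω.2.1 ω.2.2 with hPdef
  set win : (Fin k → Fin G.nX × Fin G.nY) × (Fin k → Fin G.nA) × (Fin k → Fin G.nB) →
    Fin k → Bool := fun ω i => G.accept (ω.1 i).1 (ω.1 i).2 (ω.2.1 i) (ω.2.2 i) with hwin
  have hP : ∀ ω, 0 ≤ P ω := fun ω =>
    mul_nonneg (Pr_nonneg (isProb_game G) _) (law_nonneg S _ _ _)
  have hPW : ∀ C : Finset (Fin k), ∑ ω, P ω * ∏ j ∈ C, (if win ω j = true then (1 : ℝ) else 1 / 2)
      = PW S C := by
    intro C
    rw [Fintype.sum_prod_type]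
    unfold PW gz
    refine Finset.sum_congr rfl fun z _ => ?_
    rw [Fintype.sum_prod_type, Finset.mul_sum]
    refine Finset.sum_congr rfl fun a _ => ?_
    rw [Finset.mul_sum]
    refine Finset.sum_congr rfl fun b _ => ?_
    simp only [hPdef, hwin, evw]
    ring
  have hmass : ∑ ω, P ω = 1 := by
    rw [Fintype.sum_prod_type]
    have : ∀ z, ∑ y : (Fin k → Fin G.nA) × (Fin k → Fin G.nB), P (z, y) = Pr G.prob z := by
      intro z
      rw [Fintype.sum_prod_type]
      simp only [hPdef]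
      calc ∑ a, ∑ b, Pr G.prob z * law S z a b = Pr G.prob z * ∑ a, ∑ b, law S z a b := by
            simp only [Finset.mul_sum]
        _ = Pr G.prob z := by rw [law_sum, mul_one]
    simp only [this]
    exact Pr_sum (isProb_game G)
  have hnum : ∀ (C : Finset (Fin k)) (i : Fin k), ∑ ω, P ω *
      ((∏ j ∈ C, if win ω j = true then (1 : ℝ) else 1 / 2) *
        (if win ω i = true then 1 else 0)) = pwin S C i * PW S C := by
    intro C i
    unfold pwin
    rw [div_mul_cancel₀ _ (PW_pos S C).ne', Fintype.sum_prod_type]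
    refine Finset.sum_congr rfl fun z _ => ?_
    rw [Fintype.sum_prod_type, Finset.mul_sum]
    refine Finset.sum_congr rfl fun a _ => ?_
    rw [Finset.mul_sum]
    refine Finset.sum_congr rfl fun b _ => ?_
    simp only [hPdef, hwin, evw]
    ring
  have hL := lifting P hP win v δ hv hδ hvδ m hm hmδ (by
    intro C hC
    rw [hPW C]
    have h1 := havg d S hS C hC
    calc _ = (∑ i ∈ Finset.univ.filter (fun i : Fin k => i ∉ C), pwin S C i) * PW S C := by
          rw [Finset.sum_mul]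
          exact Finset.sum_congr rfl fun i _ => hnum C i
      _ ≤ _ := mul_le_mul_of_nonneg_right h1 (PW_pos S C).le)
  rw [hmass, mul_one] at hL
  refine le_trans (le_of_eq ?_) hL
  rw [probWins_eq_sum, Fintype.sum_prod_type]
  refine Finset.sum_congr rfl fun z _ => ?_
  rw [Fintype.sum_prod_type]

end Crest.Agent.NG
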