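import Crest.Agent.NG.Avg536
import Crest.Agent.NG.Threshold

/-!
Chunk R342-F536 (`final536`): numerics. With `Cu` from `avg536`: `c0 = 1/(1024 Cu⁴)`,
`κ₀ = c0/8`, `c = c0 δ⁴/(1+ℓ)`, `m = ⌈c k⌉`. For `j < m`: `j ≤ 2 c n`, `L ≤ 0.7 j`,
`2√(nL) ≤ 2 n √(1.4 c) ≤ n δ/4`, `Cu n^{3/4} (2L + jℓ)^{1/4} ≤ Cu n (2.8 c (1+ℓ))^{1/4} =
Cu n δ (2.8 c0)^{1/4} ≤ n δ/4` (`2.8·256 ≤ 1024`).
-/

set_option autoImplicit false

namespace Crest.Agent.NG
open Matrix Complex Crest.MathPhysics.NonlocalGame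

theorem final536 :
    ∃ κ₀ : ℝ, 0 < κ₀ ∧ ∀ (G : Game) (v : ℝ), ValBound G v →
      ∀ δ : ℝ, 0 < δ → δ < 1 - v → ∀ (k dA dB : ℕ) (S : Strategy G k dA dB), 1 ≤ k →
        S.probWinsAtLeast ((v + δ) * k) ≤
          Real.exp (-(κ₀ * δ ^ 5 / (1 + Real.log ((G.nA * G.nB : ℕ) : ℝ)) * k)) := by
  obtain ⟨Cu, hCu, hmain⟩ := avg536
  have hCu0 : 0 < Cu := by linarith
  set c0 : ℝ := 1 / (1024 * Cu ^ 4) with hc0
  have hc0pos : 0 < c0 := by positivity
  have hc0le : c0 ≤ 1 / 1024 := by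
    rw [hc0]
    have h1 : (1 : ℝ) ≤ Cu ^ 4 := one_le_pow₀ hCu
    rw [div_le_div_iff₀ (by positivity) (by norm_num)]
    linarith
  refine ⟨c0 / 8, by positivity, ?_⟩
  intro G v hv δ hδ hδv k dA dB S hk
  obtain ⟨hA, hB⟩ := answers_pos hk S
  have hv0 : 0 ≤ v := by
    have := ach_value hv (ach_zero (G := G) hA hB)
    simpa using this
  have hδ1 : δ < 1 := by linarith
  set ℓ : ℝ := Real.log ((G.nA * G.nB : ℕ) : ℝ) with hℓ
  have hℓ0 : 0 ≤ ℓ := by
    rw [hℓ]
    refine Real.log_nonneg ?_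
    exact_mod_cast Nat.mul_pos hA hB
  have hk0 : (0 : ℝ) < k := by exact_mod_cast hk
  set c : ℝ := c0 * δ ^ 4 / (1 + ℓ) with hc
  have hcpos : 0 < c := by positivity
  have hδ4 : δ ^ 4 ≤ δ := by
    have h1 : δ ^ 3 ≤ 1 := pow_le_one₀ hδ.le hδ1.le
    nlinarith
  have hδ42 : δ ^ 4 ≤ δ ^ 2 := by
    have h1 : δ ^ 2 ≤ 1 := pow_le_one₀ hδ.le hδ1.le
    nlinarith [sq_nonneg δ]
  have hcle : c ≤ c0 * δ ^ 4 := by
    rw [hc]
    exact div_le_self (by positivity) (by linarith)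
  have hcle2 : c ≤ δ ^ 4 / 1024 := by
    refine hcle.trans ?_
    have : c0 * δ ^ 4 ≤ 1 / 1024 * δ ^ 4 := mul_le_mul_of_nonneg_right hc0le (by positivity)
    linarith
  have hcle3 : c ≤ 1 / 1024 := by
    have : δ ^ 4 ≤ 1 := pow_le_one₀ hδ.le hδ1.le
    linarith
  set m : ℕ := ⌈c * k⌉₊ with hm
  have hmk : m ≤ k := by
    rw [hm]
    refine Nat.ceil_le.2 ?_
    nlinarith
  have hmle : c * k ≤ m := Nat.le_ceil _
  have hjlt : ∀ j : ℕ, j < m → (j : ℝ) < c * k := fun j hj => Nat.lt_ceil.1 hj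
  have hmδ : ∀ j : ℕ, j < m → (j : ℝ) ≤ δ * k / 4 := by
    intro j hj
    have h1 := hjlt j hj
    have h2 : c ≤ δ / 4 := by linarith
    nlinarith
  have key := threshold_of_avg hk hv0 hδ (by linarith : v + δ ≤ 1) m hmk hmδ ?_ dA dB S
  · refine key.trans (Real.exp_le_exp.2 ?_)
    have h1 : c * k * δ / 8 ≤ m * δ / 8 := by
      have := mul_le_mul_of_nonneg_right hmle hδ.le
      linarith
    have h2 : c0 / 8 * δ ^ 5 / (1 + ℓ) * k = c * k * δ / 8 := by
      rw [hc]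
      field_simp
    rw [h2]
    linarith
  · intro d S' hS' C hC
    have hj := hjlt _ hC
    have hav := hmain hv hA hB S' hS' C
    set j : ℝ := (C.card : ℝ) with hjd
    have hj0 : 0 ≤ j := by rw [hjd]; positivity
    set n : ℝ := (k : ℝ) - j with hn
    have hnk : (k : ℝ) / 2 ≤ n := by
      rw [hn]
      nlinarith
    have hn0 : 0 < n := by linarith
    have hj2 : j ≤ 2 * c * n := by
      nlinarith
    set L : ℝ := Real.log (1 / PW S' C) with hL
    have hPW := PW_pos S' C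
    have hL0 : 0 ≤ L := by
      rw [hL]
      refine Real.log_nonneg ?_
      rw [le_div_iff₀ hPW]
      linarith [PW_le_one S' C]
    have hLle : L ≤ 7 / 10 * j := by
      have h1 : L ≤ Real.log (2 ^ C.card) := by
        rw [hL]
        refine Real.log_le_log (by positivity) ?_
        have h2 := PW_ge S' C
        rw [div_le_iff₀ hPW]
        have h3 : (2 : ℝ) ^ C.card * (1 / 2) ^ C.card = 1 := by
          rw [← mul_pow]; norm_num
        have h4 : (0 : ℝ) < 2 ^ C.card := by positivity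
        calc (1 : ℝ) = 2 ^ C.card * (1 / 2) ^ C.card := h3.symm
          _ ≤ 2 ^ C.card * PW S' C := mul_le_mul_of_nonneg_left h2 h4.le
      rw [Real.log_pow] at h1
      have h5 := Real.log_two_lt_d9
      have h6 : (C.card : ℝ) * Real.log 2 ≤ j * (7 / 10) := by
        rw [← hjd]
        exact mul_le_mul_of_nonneg_left (by linarith) hj0
      linarith
    -- the total variation term
    have ht1 : 2 * Real.sqrt (n * L) ≤ n * δ / 4 := by
      have h1 : Real.sqrt (n * L) ≤ n * δ / 8 := by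
        rw [Real.sqrt_le_left (by positivity)]
        have h2 : L ≤ n * δ ^ 2 / 64 := by
          have h3 : L ≤ 7 / 10 * (2 * c * n) := hLle.trans (by linarith)
          have h4 : c * n ≤ δ ^ 2 / 1024 * n :=
            mul_le_mul_of_nonneg_right (by linarith) hn0.le
          have h5 : 0 ≤ δ ^ 2 * n := by positivity
          nlinarith
        calc n * L ≤ n * (n * δ ^ 2 / 64) := mul_le_mul_of_nonneg_left h2 hn0.le
          _ = (n * δ / 8) ^ 2 := by ring
      linarith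
    -- the quantum term
    have ht2 : Cu * n ^ (3 / 4 : ℝ) * (2 * L + j * ℓ) ^ (1 / 4 : ℝ) ≤ n * δ / 4 := by
      have h1 : 2 * L + j * ℓ ≤ (δ / (4 * Cu)) ^ 4 * n := by
        have h2 : 2 * L + j * ℓ ≤ 7 / 5 * j * (1 + ℓ) := by
          have : 0 ≤ j * ℓ := mul_nonneg hj0 hℓ0
          nlinarith
        have h3 : 7 / 5 * j * (1 + ℓ) ≤ 7 / 5 * (2 * c * n) * (1 + ℓ) := by
          have := mul_le_mul_of_nonneg_right hj2 (by linarith : 0 ≤ 1 + ℓ)
          nlinarith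
        have h4 : 7 / 5 * (2 * c * n) * (1 + ℓ) = 14 / 5 * c0 * δ ^ 4 * n := by
          rw [hc]
          field_simp
          ring
        have h5 : 14 / 5 * c0 * δ ^ 4 * n ≤ (δ / (4 * Cu)) ^ 4 * n := by
          refine mul_le_mul_of_nonneg_right ?_ hn0.le
          rw [div_pow, mul_pow, hc0]
          have e : 14 / 5 * (1 / (1024 * Cu ^ 4)) * δ ^ 4 = (14 / 5 / 1024) * (δ ^ 4 / Cu ^ 4) := by
            field_simp
          have e2 : δ ^ 4 / (4 ^ 4 * Cu ^ 4) = (1 / 256) * (δ ^ 4 / Cu ^ 4) := by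
            field_simp
            ring
          rw [e, e2]
          refine mul_le_mul_of_nonneg_right (by norm_num) (by positivity)
        linarith
      have h0 : 0 ≤ 2 * L + j * ℓ := by
        have : 0 ≤ j * ℓ := mul_nonneg hj0 hℓ0
        linarith
      have h2 : (2 * L + j * ℓ) ^ (1 / 4 : ℝ) ≤ (δ / (4 * Cu)) * n ^ (1 / 4 : ℝ) := by
        have h3 := Real.rpow_le_rpow h0 h1 (by norm_num : (0 : ℝ) ≤ 1 / 4)
        rw [Real.mul_rpow (by positivity) hn0.le] at h3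
        have h4 : ((δ / (4 * Cu)) ^ 4) ^ (1 / 4 : ℝ) = δ / (4 * Cu) := by
          rw [← Real.rpow_natCast, ← Real.rpow_mul (by positivity)]
          norm_num
        rwa [h4] at h3
      calc Cu * n ^ (3 / 4 : ℝ) * (2 * L + j * ℓ) ^ (1 / 4 : ℝ)
          ≤ Cu * n ^ (3 / 4 : ℝ) * ((δ / (4 * Cu)) * n ^ (1 / 4 : ℝ)) :=
            mul_le_mul_of_nonneg_left h2 (by positivity)
        _ = (n ^ (3 / 4 : ℝ) * n ^ (1 / 4 : ℝ)) * (δ / 4) := by
            field_simp
        _ = n * δ / 4 := by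
            rw [← Real.rpow_add hn0]
            norm_num
            ring
    have hav' : ∑ i ∈ Finset.univ.filter (fun i : Fin k => i ∉ C), pwin S' C i ≤
        n * v + n * δ / 4 + n * δ / 4 := by
      linarith
    calc ∑ i ∈ Finset.univ.filter (fun i : Fin k => i ∉ C), pwin S' C i
        ≤ n * v + n * δ / 4 + n * δ / 4 := hav'
      _ = n * (v + δ / 2) := by ring

end Crest.Agent.NG
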