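import Crest.Agent.NG.Avg537
import Crest.Agent.NG.Threshold

/-!
Chunk R342-F537 (`final537`): numerics. `ℓ = log (nA nB) ≥ 0`, `c = δ²/(2048 (1+κ)(1+ℓ))`,
`m = ⌈c k⌉`. For `j = |C| < m`: `j < c k`, `j ≤ 2 c n` with `n = k - j ≥ k/2`,
`L = log (1/PW) ≤ j log 2 ≤ 0.7 j` (`PW_ge`), so
`2√(nL) ≤ 2 n √(1.4 c) ≤ 0.06 δ n`, `2√(κ n (2L + jℓ)) ≤ 2 n √(2.8 c κ (1+ℓ)) ≤ 0.08 δ n`.
`m δ/8 ≥ c k δ/8 = δ³ k/(16384 (1+κ)(1+ℓ))`. `0 ≤ v` by `ach_zero`, `ach_value`.
-/

set_option autoImplicit false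

namespace Crest.Agent.NG
open Matrix Complex Crest.MathPhysics.NonlocalGame

theorem F537.nX_pos (G : Game) : 0 < G.nX := by
  rcases Nat.eq_zero_or_pos G.nX with h | h
  · exfalso
    have h1 := G.prob_sum
    have : IsEmpty (Fin G.nX) := by rw [h]; infer_instance
    simp at h1
  · exact h

theorem F537.nY_pos (G : Game) : 0 < G.nY := by
  rcases Nat.eq_zero_or_pos G.nY with h | h
  · exfalso
    have h1 := G.prob_sum
    have : IsEmpty (Fin G.nY) := by rw [h]; infer_instance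
    simp at h1
  · exact h

theorem F537.dim_pos {G : Game} {k dA dB : ℕ} (S : Strategy G k dA dB) : 0 < dA ∧ 0 < dB := by
  constructor
  · rcases Nat.eq_zero_or_pos dA with h | h
    · exfalso
      subst h
      have h1 := S.ψ_norm
      simp at h1
    · exact h
  · rcases Nat.eq_zero_or_pos dB with h | h
    · exfalso
      subst h
      have h1 := S.ψ_norm
      simp at h1
    · exact h

theorem F537.nA_pos {G : Game} {k dA dB : ℕ} (S : Strategy G k dA dB) (hk : 1 ≤ k) :
    0 < G.nA := by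
  rcases Nat.eq_zero_or_pos G.nA with h | h
  · exfalso
    have hd := (F537.dim_pos S).1
    have h1 := S.M_sum (fun _ => ⟨0, F537.nX_pos G⟩)
    have : IsEmpty (Fin k → Fin G.nA) := by
      rw [h]
      exact ⟨fun f => (f ⟨0, hk⟩).elim0⟩
    rw [Finset.univ_eq_empty, Finset.sum_empty] at h1
    have h2 := congrFun (congrFun h1 ⟨0, hd⟩) ⟨0, hd⟩
    simp at h2
  · exact h

theorem F537.nB_pos {G : Game} {k dA dB : ℕ} (S : Strategy G k dA dB) (hk : 1 ≤ k) :
    0 < G.nB := by
  rcases Nat.eq_zero_or_pos G.nB with h | h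
  · exfalso
    have hd := (F537.dim_pos S).2
    have h1 := S.N_sum (fun _ => ⟨0, F537.nY_pos G⟩)
    have : IsEmpty (Fin k → Fin G.nB) := by
      rw [h]
      exact ⟨fun f => (f ⟨0, hk⟩).elim0⟩
    rw [Finset.univ_eq_empty, Finset.sum_empty] at h1
    have h2 := congrFun (congrFun h1 ⟨0, hd⟩) ⟨0, hd⟩
    simp at h2
  · exact h

/-- `log (1 / PW) ≤ 0.7 |C|` -/
theorem F537.log_PW {G : Game} {k d : ℕ} (S : Strategy G k d d) (C : Finset (Fin k)) :
    0 ≤ Real.log (1 / PW S C) ∧ Real.log (1 / PW S C) ≤ 7 / 10 * C.card := by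
  have h0 := PW_pos S C
  have h1 := PW_le_one S C
  have h2 := PW_ge S C
  have e : Real.log (1 / PW S C) = - Real.log (PW S C) := by
    rw [one_div, Real.log_inv]
  rw [e]
  constructor
  · have := Real.log_nonpos h0.le h1
    linarith
  · have h3 := Real.log_le_log (by positivity) h2
    rw [Real.log_pow, one_div, Real.log_inv] at h3
    have h4 := Real.log_two_lt_d9
    have h5 : (0:ℝ) ≤ C.card := Nat.cast_nonneg _
    nlinarith

theorem final537 (G : Game) (v : ℝ) (hv : ValBound G v) (κ : ℝ) (hκ : KappaHyp G κ)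
    (δ : ℝ) (hδ : 0 < δ) (hδv : δ < 1 - v) (k dA dB : ℕ) (S : Strategy G k dA dB) (hk : 1 ≤ k) :
    S.probWinsAtLeast ((v + δ) * k) ≤
      Real.exp (-(δ ^ 3 / (16384 * (1 + κ) * (1 + Real.log ((G.nA * G.nB : ℕ) : ℝ))) * k)) := by
  have hA := F537.nA_pos S hk
  have hB := F537.nB_pos S hk
  have hv0 : 0 ≤ v := by
    have h := ach_value hv (ach_zero hA hB)
    simpa using h
  have hκ0 := kappa_nonneg hκ
  set ℓ := Real.log ((G.nA * G.nB : ℕ) : ℝ) with hℓ
  have hℓ0 : 0 ≤ ℓ := by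
    apply Real.log_nonneg
    have : 1 ≤ G.nA * G.nB := Nat.mul_pos hA hB
    exact_mod_cast this
  have hδ1 : δ ≤ 1 := by linarith
  have hkpos : (0:ℝ) < k := by exact_mod_cast hk
  set D : ℝ := (1 + κ) * (1 + ℓ) with hD
  have hD1 : 1 ≤ D := by
    rw [hD]
    nlinarith [mul_nonneg hκ0 hℓ0]
  have hDpos : 0 < D := by linarith
  set c : ℝ := δ ^ 2 / (2048 * D) with hc
  have hc0 : 0 < c := by positivity
  have hcD : c * D = δ ^ 2 / 2048 := by
    rw [hc]
    field_simp
  have hcle : c ≤ δ ^ 2 / 2048 := by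
    rw [← hcD]
    nlinarith
  have hδsq : δ ^ 2 ≤ δ := by nlinarith
  have hc1 : c ≤ 1 / 2048 := by
    have : δ ^ 2 ≤ 1 := by nlinarith
    linarith
  set m : ℕ := ⌈c * k⌉₊ with hm
  have hmk : m ≤ k := by
    rw [hm]
    apply Nat.ceil_le.2
    nlinarith
  have hjlt : ∀ j : ℕ, j < m → (j : ℝ) < c * k := fun j hj => Nat.lt_ceil.1 hj
  have key := threshold_of_avg (G := G) hk hv0 hδ (by linarith) m hmk
    (fun j hj => by
      have h1 := hjlt j hj
      have h2 : c * k ≤ δ ^ 2 / 2048 * k := mul_le_mul_of_nonneg_right hcle hkpos.le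
      have h3 : δ ^ 2 / 2048 * k ≤ δ / 2048 * k := by
        apply mul_le_mul_of_nonneg_right _ hkpos.le
        linarith
      have h4 : 0 ≤ δ * k := by positivity
      linarith)
    (fun d S' hS' C hC => by
      have hj := hjlt _ hC
      have hav := avg537 hv hκ hA hB S' hS' C
      obtain ⟨hL0, hL⟩ := F537.log_PW S' C
      set L := Real.log (1 / PW S' C) with hLdef
      rw [← hℓ] at hav
      set j : ℝ := (C.card : ℝ) with hjdef
      have hj0 : 0 ≤ j := Nat.cast_nonneg _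
      set n : ℝ := (k : ℝ) - j with hn
      have hn2 : (k : ℝ) ≤ 2 * n := by
        have : c * k ≤ 1 / 2048 * k := mul_le_mul_of_nonneg_right hc1 hkpos.le
        rw [hn]
        linarith
      have hn0 : 0 < n := by linarith
      have hj2 : j ≤ 2 * c * n := by
        have : c * k ≤ c * (2 * n) := mul_le_mul_of_nonneg_left hn2 hc0.le
        linarith
      -- first square root
      have hs1 : Real.sqrt (n * L) ≤ n * δ / 8 := by
        apply Real.sqrt_le_iff.2
        refine ⟨by positivity, ?_⟩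
        have h1 : L ≤ 7 / 5 * c * n := by linarith
        have h2 : L ≤ 7 / 5 * (δ ^ 2 / 2048) * n := by
          have : c * n ≤ δ ^ 2 / 2048 * n := mul_le_mul_of_nonneg_right hcle hn0.le
          linarith
        have h3 : n * L ≤ n * (7 / 5 * (δ ^ 2 / 2048) * n) := mul_le_mul_of_nonneg_left h2 hn0.le
        have h4 : 0 ≤ n ^ 2 * δ ^ 2 := by positivity
        nlinarith
      have hs2 : Real.sqrt (κ * (n * (2 * L + j * ℓ))) ≤ n * δ / 8 := by
        apply Real.sqrt_le_iff.2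
        refine ⟨by positivity, ?_⟩
        have h1 : 2 * L + j * ℓ ≤ 14 / 5 * (c * n) * (1 + ℓ) := by
          have h2 : j * ℓ ≤ 2 * c * n * ℓ := mul_le_mul_of_nonneg_right hj2 hℓ0
          have h3 : 0 ≤ c * n * ℓ := by positivity
          nlinarith
        have h5 : κ * (n * (2 * L + j * ℓ)) ≤ (1 + κ) * (n * (14 / 5 * (c * n) * (1 + ℓ))) := by
          apply mul_le_mul (by linarith) _ _ (by linarith)
          · exact mul_le_mul_of_nonneg_left h1 hn0.le
          · positivity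
        have h6 : (1 + κ) * (n * (14 / 5 * (c * n) * (1 + ℓ))) = 14 / 5 * (c * D) * n ^ 2 := by
          rw [hD]
          ring
        rw [h6, hcD] at h5
        have h4 : 0 ≤ n ^ 2 * δ ^ 2 := by positivity
        nlinarith
      have e : n * (v + δ / 2) = n * v + n * δ / 2 := by ring
      rw [e]
      linarith)
    dA dB S
  refine key.trans ?_
  apply Real.exp_le_exp.2
  have h1 : c * k ≤ m := Nat.le_ceil _
  have h2 : δ ^ 3 / (16384 * (1 + κ) * (1 + ℓ)) * k = c * k * δ / 8 := by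
    rw [hc, hD]
    have : (1 + κ) ≠ 0 := by linarith
    have : (1 + ℓ) ≠ 0 := by linarith
    field_simp
    ring
  rw [h2]
  have h3 : c * k * δ ≤ m * δ := mul_le_mul_of_nonneg_right h1 hδ.le
  linarith

end Crest.Agent.NG
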