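import Crest.Agent.NG.GaugeAlg

/-!
Chunk R342-G4b (`overlap`): see the notation in GaugeAlg.lean. `z = 1/2 + iτ`,
`√c Ψ = Xm Λᴴ`, `√c (√α' K B^{1/2})ᴴ = Λ Smᴴ`, `Smᴴ Sm = σ`, `Xmᴴ Xm = ρ`, hence
`c tr(bgᴴ ug Ψ) = tr (r^{z} s^{-z} Λ (Smᴴ Sm) σ^{-1/2+iτ} ρ^{-1/2-iτ} (Xmᴴ Xm) Λᴴ)
= tr (r^z s^{-z} Λ σ^z ρ^{1-z} Λᴴ) = tf ρ r s σ Λ z` (cyclicity).
-/

set_option autoImplicit false

namespace Crest.Agent.NG
open Matrix Complex
open scoped ComplexOrder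

variable {n : Type} [Fintype n] [DecidableEq n]
variable {α α' : ℝ} {K A Ay B Bx : Matrix n n ℂ}

namespace OV

theorem sqrt_mul_sqrt_C {a : ℝ} (ha : 0 ≤ a) : ((Real.sqrt a : ℝ) : ℂ) * (Real.sqrt a : ℝ) = a := by
  rw [← Complex.ofReal_mul, Real.mul_self_sqrt ha]

theorem msqrt_inv_mul (hBx : Bx.PosDef) : (msqrt Bx)⁻¹ * msqrt Bx = 1 :=
  Matrix.nonsing_inv_mul _ ((Matrix.isUnit_iff_isUnit_det _).mp (msqrt_isUnit hBx))

theorem msqrt_mul_inv (hBx : Bx.PosDef) : msqrt Bx * (msqrt Bx)⁻¹ = 1 :=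
  Matrix.mul_nonsing_inv _ ((Matrix.isUnit_iff_isUnit_det _).mp (msqrt_isUnit hBx))

theorem sm_gram (hα' : 0 < α') (hBx : Bx.PosDef) :
    ((Real.sqrt α' : ℂ) • (K * msqrt Bx))ᴴ * ((Real.sqrt α' : ℂ) • (K * msqrt Bx)) =
      rhoOf α' K 1 Bx := by
  unfold rhoOf
  rw [Matrix.conjTranspose_smul, Matrix.conjTranspose_mul, msqrt_conjTranspose hBx,
    Matrix.smul_mul, Matrix.mul_smul, smul_smul]
  have h1 : star ((Real.sqrt α' : ℝ) : ℂ) = (Real.sqrt α' : ℝ) := Complex.conj_ofReal _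
  rw [h1, sqrt_mul_sqrt_C hα'.le]
  congr 1
  simp only [Matrix.mul_assoc, Matrix.one_mul]

theorem xm_gram (hα : 0 < α) (hA : A.PosDef) (hBx : Bx.PosDef) :
    ((Real.sqrt α : ℂ) • (msqrt A * K * msqrt Bx))ᴴ *
      ((Real.sqrt α : ℂ) • (msqrt A * K * msqrt Bx)) = rhoOf α K A Bx := by
  unfold rhoOf
  rw [Matrix.conjTranspose_smul, Matrix.conjTranspose_mul, Matrix.conjTranspose_mul,
    msqrt_conjTranspose hBx, msqrt_conjTranspose hA,
    Matrix.smul_mul, Matrix.mul_smul, smul_smul]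
  have h1 : star ((Real.sqrt α : ℝ) : ℂ) = (Real.sqrt α : ℝ) := Complex.conj_ofReal _
  rw [h1, sqrt_mul_sqrt_C hα.le]
  congr 1
  have h2 : msqrt Bx * (Kᴴ * msqrt A) * (msqrt A * K * msqrt Bx) =
      msqrt Bx * (Kᴴ * (msqrt A * msqrt A) * K) * msqrt Bx := by
    simp only [Matrix.mul_assoc]
  rw [h2, msqrt_mul_self hA]

theorem lam_sm (hB : B.PosDef) (hBx : Bx.PosDef) (c : ℝ) :
    (Real.sqrt c : ℂ) • ((Real.sqrt α' : ℂ) • (K * msqrt B))ᴴ =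
      lam c B Bx * ((Real.sqrt α' : ℂ) • (K * msqrt Bx))ᴴ := by
  unfold lam
  rw [Matrix.conjTranspose_smul, Matrix.conjTranspose_mul, Matrix.conjTranspose_smul,
    Matrix.conjTranspose_mul, msqrt_conjTranspose hBx, msqrt_conjTranspose hB,
    Matrix.smul_mul, Matrix.mul_smul]
  congr 2
  have : msqrt B * (msqrt Bx)⁻¹ * (msqrt Bx * Kᴴ) =
      msqrt B * ((msqrt Bx)⁻¹ * msqrt Bx) * Kᴴ := by simp only [Matrix.mul_assoc]
  rw [this, msqrt_inv_mul hBx, Matrix.mul_one]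

theorem lam_psi (hB : B.PosDef) (hBx : Bx.PosDef) (c : ℝ) :
    (Real.sqrt c : ℂ) • psiOf α K A B =
      ((Real.sqrt α : ℂ) • (msqrt A * K * msqrt Bx)) * (lam c B Bx)ᴴ := by
  unfold lam psiOf
  rw [Matrix.conjTranspose_smul, Matrix.conjTranspose_mul, Matrix.conjTranspose_nonsing_inv,
    msqrt_conjTranspose hBx, msqrt_conjTranspose hB, Matrix.smul_mul, Matrix.mul_smul]
  have h1 : star ((Real.sqrt c : ℝ) : ℂ) = (Real.sqrt c : ℝ) := Complex.conj_ofReal _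
  rw [h1, smul_comm]
  congr 2
  have : msqrt A * K * msqrt Bx * ((msqrt Bx)⁻¹ * msqrt B) =
      msqrt A * K * (msqrt Bx * (msqrt Bx)⁻¹) * msqrt B := by simp only [Matrix.mul_assoc]
  rw [this, msqrt_mul_inv hBx, Matrix.mul_one]

end OV

open OV

theorem overlap (hα : 0 < α) (hα' : 0 < α') (hK : IsUnit K) (hA : A.PosDef) (hAy : Ay.PosDef)
    (hB : B.PosDef) (hBx : Bx.PosDef) {c : ℝ} (hc : 0 ≤ c) (τ : ℝ) :
    (c : ℂ) * ((bg α α' K Ay B τ)ᴴ * (ug α α' K A Bx τ * psiOf α K A B)).trace =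
      tf (rhoOf α K A Bx) (rhoOf α K Ay B) (rhoOf α' K 1 B) (rhoOf α' K 1 Bx) (lam c B Bx)
        (1 / 2 + τ * I) := by
  have hρ : (rhoOf α K A Bx).PosDef := rhoOf_posDef hα hK hA hBx
  have hr : (rhoOf α K Ay B).PosDef := rhoOf_posDef hα hK hAy hB
  have h1pd : (1 : Matrix n n ℂ).PosDef := Matrix.PosDef.one
  have hs : (rhoOf α' K 1 B).PosDef := rhoOf_posDef hα' hK h1pd hB
  have hσ : (rhoOf α' K 1 Bx).PosDef := rhoOf_posDef hα' hK h1pd hBx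
  have hxm := xm_gram (K := K) hα hA hBx
  have hsm := sm_gram (K := K) hα' hBx
  have hls := lam_sm (α' := α') (K := K) hB hBx c
  have hlp := lam_psi (α := α) (K := K) (A := A) hB hBx c
  have hc2 : (starRingEnd ℂ) (2 : ℂ) = 2 := Complex.conj_ofNat 2
  have e1 : (mpow (rhoOf α K Ay B) (1 / 2 - τ * I))ᴴ = mpow (rhoOf α K Ay B) (1 / 2 + τ * I) := by
    rw [mpow_conjTranspose hr]; congr 1; simp [hc2]
  have e2 : (mpow (rhoOf α' K 1 B) (-(1 / 2) + τ * I))ᴴ =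
      mpow (rhoOf α' K 1 B) (-(1 / 2 + τ * I)) := by
    rw [mpow_conjTranspose hs]; congr 1; simp [hc2]; ring
  have e3 : rhoOf α' K 1 Bx * mpow (rhoOf α' K 1 Bx) (-(1 / 2) + τ * I) =
      mpow (rhoOf α' K 1 Bx) (1 / 2 + τ * I) := by
    have := mpow_add hσ 1 (-(1 / 2) + τ * I)
    rw [mpow_one hσ] at this
    rw [this]; congr 1; ring
  have e4 : mpow (rhoOf α K A Bx) (-(1 / 2) - τ * I) * rhoOf α K A Bx =
      mpow (rhoOf α K A Bx) (1 - (1 / 2 + τ * I)) := by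
    have := mpow_add hρ (-(1 / 2) - τ * I) 1
    rw [mpow_one hρ] at this
    rw [this]; congr 1; ring
  unfold bg ug tf
  rw [Matrix.conjTranspose_mul, Matrix.conjTranspose_mul, e1, e2]
  rw [← e3, ← e4, ← hsm, ← hxm]
  have hcc : (c : ℂ) = (Real.sqrt c : ℝ) * (Real.sqrt c : ℝ) := (sqrt_mul_sqrt_C hc).symm
  rw [hcc]
  generalize (mpow (rhoOf α K Ay B) (1 / 2 + τ * I)) = R at *
  generalize (mpow (rhoOf α' K 1 B) (-(1 / 2 + τ * I))) = S at *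
  rw [hsm, hxm]
  generalize (mpow (rhoOf α' K 1 Bx) (-(1 / 2) + τ * I)) = T at *
  generalize (mpow (rhoOf α K A Bx) (-(1 / 2) - τ * I)) = U at *
  rw [← hsm, ← hxm]
  generalize ((Real.sqrt α' : ℂ) • (K * msqrt Bx)) = Sm at *
  generalize ((Real.sqrt α : ℂ) • (msqrt A * K * msqrt Bx)) = Xm at *
  generalize ((Real.sqrt α' : ℂ) • (K * msqrt B))ᴴ = Kb at *
  generalize psiOf α K A B = Ψ at *
  generalize lam c B Bx = L at *
  generalize ((Real.sqrt c : ℝ) : ℂ) = w at *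
  calc w * w * (R * (S * Kb) * (Sm * T * U * Xmᴴ * Ψ)).trace
      = (R * S * (w • Kb) * Sm * T * U * Xmᴴ * (w • Ψ)).trace := by
        simp only [Matrix.mul_smul, Matrix.smul_mul, Matrix.trace_smul, smul_eq_mul,
          Matrix.mul_assoc]
        ring
    _ = ((R * S * L * (Smᴴ * Sm) * T) * (U * (Xmᴴ * Xm) * Lᴴ)).trace := by
        rw [hls, hlp]
        exact congrArg Matrix.trace (by simp only [Matrix.mul_assoc])
    _ = ((U * (Xmᴴ * Xm) * Lᴴ) * (R * S * L * (Smᴴ * Sm) * T)).trace := Matrix.trace_mul_comm _ _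
    _ = (U * (Xmᴴ * Xm) * Lᴴ * R * S * L * (Smᴴ * Sm * T)).trace :=
        congrArg Matrix.trace (by simp only [Matrix.mul_assoc])

end Crest.Agent.NG
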