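import Crest.Agent.NG.Defs

/-!
Chunk R342-G1 (pure complex analysis). Proof: suppose `‖F (1/2 + iτ)‖ < exp (-D/2) - η =: b`
for all `τ` (then `b > 0`). Hadamard three lines (Mathlib
`Complex.HadamardThreeLines.norm_le_interp_of_mem_verticalClosedStrip₀₁'` applied to
`w ↦ F (w/2)` on `0 ≤ Re w ≤ 1`) gives `‖F (θ/2)‖ ≤ b^θ` for `0 ≤ θ ≤ 1`. Both sides are `1` at
`θ = 0`, the derivative of `θ ↦ Re F (θ/2)` at `0` is `-D/2` and of `b^θ` is `log b`, so
`-D/2 ≤ log b`, i.e. `exp (-D/2) ≤ b = exp(-D/2) - η`, contradiction.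
-/

set_option autoImplicit false

namespace Crest.Agent.NG
open Complex

theorem three_lines_lower (F : ℂ → ℂ) (hd : Differentiable ℂ F)
    (hB : ∃ B : ℝ, ∀ z : ℂ, 0 ≤ z.re → z.re ≤ 1 / 2 → ‖F z‖ ≤ B)
    (h0 : ∀ τ : ℝ, ‖F (τ * I)‖ ≤ 1) (hF0 : F 0 = 1) (D : ℝ)
    (hD : HasDerivAt F (-(D : ℂ)) 0) (η : ℝ) (hη : 0 < η) :
    ∃ τ : ℝ, Real.exp (-D / 2) - η ≤ ‖F (1 / 2 + τ * I)‖ := by
  by_contra hcon
  push Not at hcon
  obtain ⟨B, hB⟩ := hB
  set b : ℝ := Real.exp (-D / 2) - η with hb
  have hbpos : 0 < b := lt_of_le_of_lt (norm_nonneg _) (hcon 0)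
  have hline : ∀ t : ℝ, 0 ≤ t → t ≤ 1 / 2 → ‖F (t : ℂ)‖ ≤ b ^ (2 * t) := by
    intro t ht0 ht1
    have key := Complex.HadamardThreeLines.norm_le_interp_of_mem_verticalClosedStrip'
      (f := F) (z := (t : ℂ)) (a := 1) (b := b) (l := 0) (u := 1 / 2) (by norm_num)
      (by
        simp only [Complex.HadamardThreeLines.verticalClosedStrip, Set.mem_preimage, ofReal_re,
          Set.mem_Icc]
        exact ⟨ht0, ht1⟩)
      hd.diffContOnCl
      (by
        refine ⟨B, ?_⟩
        rintro _ ⟨z, hz, rfl⟩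
        simp only [Complex.HadamardThreeLines.verticalClosedStrip, Set.mem_preimage,
          Set.mem_Icc] at hz
        exact hB z hz.1 hz.2)
      (by
        intro z hz
        simp only [Set.mem_preimage, Set.mem_singleton_iff] at hz
        have : z = (z.im : ℂ) * I := by
          apply Complex.ext <;> simp [hz]
        rw [this]
        exact h0 z.im)
      (by
        intro z hz
        simp only [Set.mem_preimage, Set.mem_singleton_iff] at hz
        have : z = 1 / 2 + (z.im : ℂ) * I := by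
          apply Complex.ext <;> simp [hz]
        rw [this]
        exact (hcon z.im).le)
    rw [Real.one_rpow, one_mul, ofReal_re] at key
    convert key using 2
    ring
  -- the real function
  have hd1 : HasDerivAt (fun t : ℝ => (F (t : ℂ)).re) (-D) 0 := by
    have h := HasDerivAt.real_of_complex (e := F) (e' := -(D : ℂ)) (z := 0) (by simpa using hD)
    simpa using h
  have hd2 : HasDerivAt (fun t : ℝ => Real.exp (2 * t * Real.log b)) (2 * Real.log b) 0 := by
    have h : HasDerivAt (fun t : ℝ => 2 * t * Real.log b) (2 * Real.log b) 0 := by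
      have h1 := ((hasDerivAt_id (0 : ℝ)).const_mul 2).mul_const (Real.log b)
      simpa using h1
    have h2 := h.exp
    simpa using h2
  have hg := hd1.sub hd2
  have ht := hg.tendsto_slope_zero_right
  have hle : -D - 2 * Real.log b ≤ 0 := by
    refine le_of_tendsto ht ?_
    have hmem : Set.Ioc (0 : ℝ) (1 / 2) ∈ nhdsWithin (0 : ℝ) (Set.Ioi 0) :=
      Ioc_mem_nhdsGT (by norm_num)
    filter_upwards [hmem] with t ht
    have h1 : (F (t : ℂ)).re ≤ Real.exp (2 * t * Real.log b) := by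
      calc (F (t : ℂ)).re ≤ ‖F (t : ℂ)‖ := Complex.re_le_norm _
        _ ≤ b ^ (2 * t) := hline t ht.1.le ht.2
        _ = Real.exp (2 * t * Real.log b) := by
            rw [Real.rpow_def_of_pos hbpos]
            ring_nf
    have h2 : t⁻¹ * ((F (t : ℂ)).re - Real.exp (2 * t * Real.log b)) ≤ 0 :=
      mul_nonpos_of_nonneg_of_nonpos (inv_nonneg.2 ht.1.le) (by linarith)
    simpa [hF0] using h2
  have h3 : Real.exp (-D / 2) ≤ b := by
    rw [← Real.le_log_iff_exp_le hbpos]
    linarith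
  linarith

end Crest.Agent.NG
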