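import Crest.Agent.NG.TraceFun
import Crest.Agent.NG.Nsq

/-!
Chunk R342-G3.
On `z = τ I`: `P^{1-z} = P^{1/2} P^{1/2} P^{-iτ}`; the operator
`Z = ∑_y Λ_yᴴ (Q_y^{iτ} S_y^{-iτ}) Λ_y` is a contraction (`(Q^{iτ}S^{-iτ})` unitary, `∑ ΛᴴΛ = 1`),
`W = P^{-iτ} Z T^{iτ}` too, and `|tr (P W)| = |tr (P^{1/2} W P^{1/2})| ≤ tr P` for a contraction `W`.
(A direct way: `|tr(Aᴴ B)| ≤ √nsq A √nsq B` on the stacked matrices `Λ_y ...`:
`∑_y tr[(Λ_y P^{1/2} ...)ᴴ (u_y Λ_y T^{iτ} P^{1/2})]`, each stack having `nsq = tr P`.)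
-/

set_option autoImplicit false

namespace Crest.Agent.NG
open Matrix Complex
open scoped ComplexOrder

variable {n : Type} [Fintype n] [DecidableEq n]

omit [DecidableEq n] in
theorem norm_trace_conjTranspose_mul_le (A B : Matrix n n ℂ) :
    ‖(Aᴴ * B).trace‖ ≤ Real.sqrt (nsq A) * Real.sqrt (nsq B) := by
  have e : (Aᴴ * B).trace = ∑ p : n × n, (starRingEnd ℂ) (A p.1 p.2) * B p.1 p.2 := by
    rw [Fintype.sum_prod_type, Finset.sum_comm]
    simp only [Matrix.trace, Matrix.diag_apply, Matrix.mul_apply, Matrix.conjTranspose_apply]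
    rfl
  have e1 : nsq A = ∑ p : n × n, ‖A p.1 p.2‖ ^ 2 := by
    rw [Fintype.sum_prod_type]; rfl
  have e2 : nsq B = ∑ p : n × n, ‖B p.1 p.2‖ ^ 2 := by
    rw [Fintype.sum_prod_type]; rfl
  rw [e, e1, e2]
  refine (norm_sum_le _ _).trans ?_
  calc ∑ p : n × n, ‖(starRingEnd ℂ) (A p.1 p.2) * B p.1 p.2‖
      = ∑ p : n × n, ‖A p.1 p.2‖ * ‖B p.1 p.2‖ := by
        refine Finset.sum_congr rfl fun p _ => ?_
        rw [norm_mul, RCLike.norm_conj]
    _ ≤ _ := Real.sum_mul_le_sqrt_mul_sqrt _ _ _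

theorem sum_nsq_mul {Y : Type} [Fintype Y] (Λ : Y → Matrix n n ℂ)
    (hΛ : ∑ y, (Λ y)ᴴ * Λ y = 1) (W : Matrix n n ℂ) :
    ∑ y, nsq (Λ y * W) = nsq W := by
  have h : ∀ y, nsq (Λ y * W) = ((Wᴴ * ((Λ y)ᴴ * Λ y) * W).trace).re := by
    intro y
    rw [nsq_eq_trace, Matrix.conjTranspose_mul]
    congr 2
    simp only [Matrix.mul_assoc]
  simp only [h]
  rw [← Complex.re_sum, ← Matrix.trace_sum, ← Finset.sum_mul, ← Finset.mul_sum, hΛ, mul_one,
    nsq_eq_trace]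

theorem tf_boundary {Y : Type} [Fintype Y] {P T : Matrix n n ℂ} {Q S : Y → Matrix n n ℂ}
    (hP : P.PosDef) (hQ : ∀ y, (Q y).PosDef) (hS : ∀ y, (S y).PosDef) (hT : T.PosDef)
    (Λ : Y → Matrix n n ℂ) (hΛ : ∑ y, (Λ y)ᴴ * Λ y = 1) (τ : ℝ) :
    ‖∑ y, tf P (Q y) (S y) T (Λ y) (τ * I)‖ ≤ (P.trace).re := by
  set R : Matrix n n ℂ := mpow P (1 / 2) with hR
  set V : Matrix n n ℂ := mpow P (((-τ : ℝ) : ℂ) * I) with hV
  have hVu : V ∈ Matrix.unitaryGroup n ℂ := mpow_imag_unitary hP (-τ)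
  have hRR : R * R = P := msqrt_mul_self hP
  have hRH : Rᴴ = R := msqrt_conjTranspose hP
  have hneg : -((τ : ℂ) * I) = ((-τ : ℝ) : ℂ) * I := by push_cast; ring
  have hPz : mpow P (1 - τ * I) = V * R * R := by
    rw [hV, hR, mpow_add hP, mpow_add hP]
    congr 1
    push_cast; ring
  have htr : (P.trace).re = nsq R := by
    rw [nsq_eq_trace, hRH, hRR]
  have hVR : nsq (V * R) = (P.trace).re := by
    rw [nsq_unitary_mul hVu, htr]
  have hTu : mpow T (τ * I) ∈ Matrix.unitaryGroup n ℂ := mpow_imag_unitary hT τ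
  set W : Matrix n n ℂ := mpow T (τ * I) * (V * R) with hW
  have hWn : nsq W = (P.trace).re := by
    rw [hW, nsq_unitary_mul hTu, hVR]
  have hterm : ∀ y, tf P (Q y) (S y) T (Λ y) (τ * I) =
      ((Λ y * R)ᴴ * (mpow (Q y) (τ * I) * mpow (S y) (-(τ * I)) * (Λ y * W))).trace := by
    intro y
    unfold tf
    rw [hPz, hW, Matrix.conjTranspose_mul, hRH]
    generalize mpow (Q y) (τ * I) = q
    generalize mpow (S y) (-(τ * I)) = s
    generalize mpow T (τ * I) = t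
    generalize (Λ y)ᴴ = L'
    generalize Λ y = L
    calc (V * R * R * L' * q * s * L * t).trace
        = ((V * R) * (R * L' * q * s * L * t)).trace :=
          congrArg Matrix.trace (by simp only [Matrix.mul_assoc])
      _ = ((R * L' * q * s * L * t) * (V * R)).trace := Matrix.trace_mul_comm _ _
      _ = (R * L' * (q * s * (L * (t * (V * R))))).trace :=
          congrArg Matrix.trace (by simp only [Matrix.mul_assoc])
  have hbound : ∀ y, ‖tf P (Q y) (S y) T (Λ y) (τ * I)‖ ≤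
      Real.sqrt (nsq (Λ y * R)) * Real.sqrt (nsq (Λ y * W)) := by
    intro y
    rw [hterm]
    refine (norm_trace_conjTranspose_mul_le _ _).trans (le_of_eq ?_)
    have hu : mpow (Q y) (τ * I) * mpow (S y) (-(τ * I)) ∈ Matrix.unitaryGroup n ℂ := by
      refine mul_mem (mpow_imag_unitary (hQ y) τ) ?_
      rw [hneg]
      exact mpow_imag_unitary (hS y) (-τ)
    rw [nsq_unitary_mul hu]
  calc ‖∑ y, tf P (Q y) (S y) T (Λ y) (τ * I)‖
      ≤ ∑ y, ‖tf P (Q y) (S y) T (Λ y) (τ * I)‖ := norm_sum_le _ _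
    _ ≤ ∑ y, Real.sqrt (nsq (Λ y * R)) * Real.sqrt (nsq (Λ y * W)) :=
        Finset.sum_le_sum fun y _ => hbound y
    _ ≤ Real.sqrt (∑ y, Real.sqrt (nsq (Λ y * R)) ^ 2) *
          Real.sqrt (∑ y, Real.sqrt (nsq (Λ y * W)) ^ 2) := Real.sum_mul_le_sqrt_mul_sqrt _ _ _
    _ = Real.sqrt (∑ y, nsq (Λ y * R)) * Real.sqrt (∑ y, nsq (Λ y * W)) := by
        simp only [Real.sq_sqrt (nsq_nonneg _)]
    _ = Real.sqrt ((P.trace).re) * Real.sqrt ((P.trace).re) := by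
        rw [sum_nsq_mul Λ hΛ, sum_nsq_mul Λ hΛ, hWn, htr]
    _ = (P.trace).re := Real.mul_self_sqrt (by rw [htr]; exact nsq_nonneg _)

end Crest.Agent.NG
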