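import Crest.Agent.NG.GaugeDeriv
import Crest.Agent.NG.Overlap
import Crest.Agent.NG.TraceBd
import Crest.Agent.NG.ThreeLines

/-!
Chunk R342-G6 (`gauge`). `Fz 0 = 1` (`tf_zero`, `lam_sum`, `rhoOf_trace`, `hnorm`; note
`∑_y k x y • B y = Bx`), `|Fz (iτ)| ≤ 1` (`tf_boundary`), differentiable and bounded on the strip
(`tf_differentiable`, `tf_bdd`), `three_lines_lower` gives `τ` with
`exp(-Δ/2) - η/2 ≤ |Fz (1/2+iτ)|`, `Δ = gap`. With a phase `u` (`u * Fz = |Fz|`, `|u| = 1`),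
`U r x = u • ug ...`, `b r y = bg ...`: by `nsq_sub`, `nsq_unitary_mul`, `nsq_psiOf`, `nsq_bg`,
`overlap` (`μ x y = μx k x y`): total `= 1 + 1 - 2 |Fz(1/2+iτ)| ≤ 2 - 2 exp(-Δ/2) + η ≤ Δ + η`.
-/

set_option autoImplicit false

namespace Crest.Agent.NG
open Matrix Complex
open scoped ComplexOrder

variable {R X Y n : Type} [Fintype R] [Fintype X] [Fintype Y] [Fintype n] [DecidableEq n]
variable {p : R → ℝ} {μ : X → Y → ℝ} {k : X → Y → ℝ}
    {A : R → X → Matrix n n ℂ} {B : R → Y → Matrix n n ℂ}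
    {Ay : R → Y → Matrix n n ℂ} {Bx : R → X → Matrix n n ℂ}
    {K : Matrix n n ℂ} {α α' : R → ℝ}

/-- total trace on Alice's side -/
theorem gauge_norm_x (H : GaugeHyp p μ k A B Ay Bx K α α') :
    ∑ r, ∑ x, (p r * ∑ y, μ x y) * ((rhoOf (α r) K (A r x) (Bx r x)).trace).re = 1 := by
  rw [← H.hnorm]
  refine Finset.sum_congr rfl fun r _ => ?_
  rw [Finset.mul_sum]
  refine Finset.sum_congr rfl fun x _ => ?_
  rw [rhoOf_trace (H.hBx r x), H.hBx2 r x, qf_sum_right, mul_assoc]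
  congr 1
  rw [Finset.mul_sum, Finset.mul_sum]
  refine Finset.sum_congr rfl fun y _ => ?_
  rw [qf_smul_right, H.hμk x y]
  ring

/-- total weight of Bob's vectors -/
theorem gauge_norm_y (H : GaugeHyp p μ k A B Ay Bx K α α') :
    ∑ r, p r * ∑ x, ∑ y, μ x y * (α r * qf K (Ay r y) (B r y)) = 1 := by
  rw [← H.hnorm]
  refine Finset.sum_congr rfl fun r _ => ?_
  congr 1
  rw [Finset.sum_comm, Finset.sum_comm (f := fun x y => μ x y * (α r * qf K (A r x) (B r y)))]
  refine Finset.sum_congr rfl fun y _ => ?_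
  have h1 : ∑ x, μ x y * (α r * qf K (Ay r y) (B r y)) =
      α r * qf K ((∑ x, μ x y) • Ay r y) (B r y) := by
    rw [qf_smul_left, ← Finset.sum_mul]
    ring
  rw [h1, ← H.hAy2 r y, qf_sum_left, Finset.mul_sum]
  refine Finset.sum_congr rfl fun x _ => ?_
  rw [qf_smul_left]
  ring

omit [Fintype n] in
theorem gauge_posDef_one : (1 : Matrix n n ℂ).PosDef := Matrix.PosDef.one

omit [DecidableEq n] in
theorem gauge_trace_real {P : Matrix n n ℂ} (hP : P.PosDef) :
    P.trace = ((P.trace).re : ℂ) := by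
  have h : star P.trace = P.trace := by
    rw [← Matrix.trace_conjTranspose, hP.isHermitian.eq]
  exact (Complex.conj_eq_iff_re.1 h).symm

theorem gauge_phase (c : ℂ) : ∃ u : ℂ, ‖u‖ = 1 ∧ u * c = (‖c‖ : ℂ) := by
  by_cases h : c = 0
  · exact ⟨1, norm_one, by rw [h]; simp⟩
  · have hn : (‖c‖ : ℂ) ≠ 0 := by
      exact_mod_cast norm_ne_zero_iff.2 h
    refine ⟨(starRingEnd ℂ) c / (‖c‖ : ℂ), ?_, ?_⟩
    · rw [norm_div, RCLike.norm_conj, Complex.norm_real, norm_norm]
      exact div_self (norm_ne_zero_iff.2 h)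
    · rw [div_mul_eq_mul_div, mul_comm, Complex.mul_conj, Complex.normSq_eq_norm_sq,
        Complex.ofReal_pow, sq, mul_div_assoc, div_self hn, mul_one]

theorem gauge (H : GaugeHyp p μ k A B Ay Bx K α α') (η : ℝ) (hη : 0 < η) :
    ∃ (U : R → X → Matrix n n ℂ) (b : R → Y → Matrix n n ℂ),
      (∀ r x, U r x ∈ Matrix.unitaryGroup n ℂ) ∧
      ∑ r, p r * ∑ x, ∑ y, μ x y * nsq (U r x * psiOf (α r) K (A r x) (B r y) - b r y) ≤
        gap p μ A B Ay Bx K α α' + η := by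
  have hρ : ∀ r x, (rhoOf (α r) K (A r x) (Bx r x)).PosDef := fun r x =>
    rhoOf_posDef (H.hα r) H.hK (H.hA r x) (H.hBx r x)
  have hr : ∀ r y, (rhoOf (α r) K (Ay r y) (B r y)).PosDef := fun r y =>
    rhoOf_posDef (H.hα r) H.hK (H.hAy r y) (H.hB r y)
  have hs : ∀ r y, (rhoOf (α' r) K 1 (B r y)).PosDef := fun r y =>
    rhoOf_posDef (H.hα' r) H.hK gauge_posDef_one (H.hB r y)
  have hσ : ∀ r x, (rhoOf (α' r) K 1 (Bx r x)).PosDef := fun r x =>
    rhoOf_posDef (H.hα' r) H.hK gauge_posDef_one (H.hBx r x)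
  have hlam : ∀ r x, ∑ y, (lam (k x y) (B r y) (Bx r x))ᴴ * lam (k x y) (B r y) (Bx r x) = 1 :=
    fun r x => lam_sum (H.hk x) (H.hB r) (H.hBx r x) (H.hBx2 r x)
  have hw : ∀ r x, 0 ≤ p r * ∑ y, μ x y := fun r x =>
    mul_nonneg (H.hp r) (Finset.sum_nonneg fun y _ => H.hμ x y)
  set F := Fz p μ k A B Ay Bx K α α' with hF
  set D := gap p μ A B Ay Bx K α α' with hD
  -- the hypotheses of the three lines lemma
  have hd : Differentiable ℂ F := by
    rw [hF]
    unfold Fz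
    refine Differentiable.fun_sum fun r _ => Differentiable.fun_sum fun x _ => ?_
    refine (differentiable_const _).mul (Differentiable.fun_sum fun y _ => ?_)
    exact tf_differentiable (hρ r x) (hr r y) (hs r y) (hσ r x) _
  have hBd : ∃ C : ℝ, ∀ z : ℂ, 0 ≤ z.re → z.re ≤ 1 / 2 → ‖F z‖ ≤ C := by
    choose C hC using fun (r : R) (x : X) (y : Y) =>
      tf_bdd (hρ r x) (hr r y) (hs r y) (hσ r x) (lam (k x y) (B r y) (Bx r x))
    refine ⟨∑ r, ∑ x, (p r * ∑ y, μ x y) * ∑ y, C r x y, fun z hz1 hz2 => ?_⟩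
    rw [hF]
    unfold Fz
    refine (norm_sum_le _ _).trans (Finset.sum_le_sum fun r _ => ?_)
    refine (norm_sum_le _ _).trans (Finset.sum_le_sum fun x _ => ?_)
    rw [norm_mul, Complex.norm_real, Real.norm_eq_abs, abs_of_nonneg (hw r x)]
    refine mul_le_mul_of_nonneg_left ?_ (hw r x)
    exact (norm_sum_le _ _).trans (Finset.sum_le_sum fun y _ => hC r x y z hz1 hz2)
  have hbd0 : ∀ τ : ℝ, ‖F (τ * I)‖ ≤ 1 := by
    intro τ
    rw [← gauge_norm_x H, hF]
    unfold Fz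
    refine (norm_sum_le _ _).trans (Finset.sum_le_sum fun r _ => ?_)
    refine (norm_sum_le _ _).trans (Finset.sum_le_sum fun x _ => ?_)
    rw [norm_mul, Complex.norm_real, Real.norm_eq_abs, abs_of_nonneg (hw r x)]
    refine mul_le_mul_of_nonneg_left ?_ (hw r x)
    exact tf_boundary (hρ r x) (hr r) (hs r) (hσ r x) _ (hlam r x) τ
  have hF0 : F 0 = 1 := by
    have h1 : F 0 = ∑ r, ∑ x, ((p r * ∑ y, μ x y : ℝ) : ℂ) *
        ((((rhoOf (α r) K (A r x) (Bx r x)).trace).re : ℝ) : ℂ) := by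
      rw [hF]
      unfold Fz
      refine Finset.sum_congr rfl fun r _ => Finset.sum_congr rfl fun x _ => ?_
      congr 1
      rw [← gauge_trace_real (hρ r x)]
      have h2 : ∀ y, tf (rhoOf (α r) K (A r x) (Bx r x)) (rhoOf (α r) K (Ay r y) (B r y))
          (rhoOf (α' r) K 1 (B r y)) (rhoOf (α' r) K 1 (Bx r x))
          (lam (k x y) (B r y) (Bx r x)) 0 =
          (rhoOf (α r) K (A r x) (Bx r x) *
            ((lam (k x y) (B r y) (Bx r x))ᴴ * lam (k x y) (B r y) (Bx r x))).trace := fun y =>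
        tf_zero (hρ r x) (hr r y) (hs r y) (hσ r x) _
      simp only [h2]
      rw [← Matrix.trace_sum, ← Finset.mul_sum, hlam r x, Matrix.mul_one]
    rw [h1, ← Complex.ofReal_one, ← gauge_norm_x H]
    push_cast
    rfl
  obtain ⟨τ, hτ⟩ := three_lines_lower F hd hBd hbd0 hF0 D (Fz_deriv H) (η / 2) (by linarith)
  -- the phase
  obtain ⟨u, hu1, hu2⟩ := gauge_phase (F (1 / 2 + τ * I))
  have huu : (starRingEnd ℂ) u * u = 1 := by
    rw [mul_comm, Complex.mul_conj, Complex.normSq_eq_norm_sq, hu1]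
    norm_num
  have hun : ∀ r x, u • ug (α r) (α' r) K (A r x) (Bx r x) τ ∈ Matrix.unitaryGroup n ℂ := by
    intro r x
    have h0 := ug_unitary (H.hα r) (H.hα' r) H.hK (H.hA r x) (H.hBx r x) τ
    rw [Matrix.mem_unitaryGroup_iff'] at h0 ⊢
    rw [star_smul, Matrix.smul_mul, Matrix.mul_smul, smul_smul, h0, Complex.star_def, huu, one_smul]
  refine ⟨fun r x => u • ug (α r) (α' r) K (A r x) (Bx r x) τ,
    fun r y => bg (α r) (α' r) K (Ay r y) (B r y) τ, hun, ?_⟩
  -- the overlap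
  have hov : ∑ r, p r * ∑ x, ∑ y, μ x y *
      (((bg (α r) (α' r) K (Ay r y) (B r y) τ)ᴴ *
        (u • ug (α r) (α' r) K (A r x) (Bx r x) τ * psiOf (α r) K (A r x) (B r y))).trace).re =
      ‖F (1 / 2 + τ * I)‖ := by
    have h1 : (∑ r, ∑ x, ∑ y, ((p r * μ x y : ℝ) : ℂ) *
        ((bg (α r) (α' r) K (Ay r y) (B r y) τ)ᴴ *
        (u • ug (α r) (α' r) K (A r x) (Bx r x) τ * psiOf (α r) K (A r x) (B r y))).trace) =
        u * F (1 / 2 + τ * I) := by
      rw [hF]
      unfold Fz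
      rw [Finset.mul_sum]
      refine Finset.sum_congr rfl fun r _ => ?_
      rw [Finset.mul_sum]
      refine Finset.sum_congr rfl fun x _ => ?_
      rw [Finset.mul_sum, Finset.mul_sum]
      refine Finset.sum_congr rfl fun y _ => ?_
      rw [← overlap (H.hα r) (H.hα' r) H.hK (H.hA r x) (H.hAy r y) (H.hB r y) (H.hBx r x)
        (H.hk x y) τ, H.hμk x y, Matrix.smul_mul, Matrix.mul_smul, Matrix.trace_smul, smul_eq_mul]
      push_cast
      ring
    rw [hu2] at h1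
    have h2 := congrArg Complex.re h1
    rw [Complex.ofReal_re] at h2
    rw [← h2]
    simp only [Complex.re_sum]
    refine Finset.sum_congr rfl fun r _ => ?_
    rw [Finset.mul_sum]
    refine Finset.sum_congr rfl fun x _ => ?_
    rw [Finset.mul_sum]
    refine Finset.sum_congr rfl fun y _ => ?_
    rw [Complex.re_ofReal_mul]
    ring
  have hexp : ∀ r x y, μ x y * nsq (u • ug (α r) (α' r) K (A r x) (Bx r x) τ *
      psiOf (α r) K (A r x) (B r y) - bg (α r) (α' r) K (Ay r y) (B r y) τ) =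
      μ x y * (α r * qf K (A r x) (B r y)) + μ x y * (α r * qf K (Ay r y) (B r y)) -
      2 * (μ x y * (((bg (α r) (α' r) K (Ay r y) (B r y) τ)ᴴ *
        (u • ug (α r) (α' r) K (A r x) (Bx r x) τ * psiOf (α r) K (A r x) (B r y))).trace).re) := by
    intro r x y
    rw [nsq_sub, nsq_unitary_mul (hun r x), nsq_psiOf (H.hα r) (H.hA r x) (H.hB r y),
      nsq_bg (H.hα r) (H.hα' r) H.hK (H.hAy r y) (H.hB r y)]
    ring
  have htot : ∑ r, p r * ∑ x, ∑ y, μ x y * nsq (u • ug (α r) (α' r) K (A r x) (Bx r x) τ *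
      psiOf (α r) K (A r x) (B r y) - bg (α r) (α' r) K (Ay r y) (B r y) τ) =
      1 + 1 - 2 * ‖F (1 / 2 + τ * I)‖ := by
    conv_rhs => rw [← hov]
    nth_rewrite 1 [← H.hnorm]
    rw [← gauge_norm_y H]
    simp only [hexp, Finset.sum_sub_distrib, Finset.sum_add_distrib, mul_add, mul_sub]
    congr 1
    simp only [Finset.mul_sum]
    refine Finset.sum_congr rfl fun r _ => Finset.sum_congr rfl fun x _ =>
      Finset.sum_congr rfl fun y _ => ?_
    ring
  rw [htot]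
  have he : 1 - D / 2 ≤ Real.exp (-D / 2) := by
    have := Real.add_one_le_exp (-D / 2)
    linarith
  linarith

end Crest.Agent.NG
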