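import Crest.Agent.NG.TraceFun
import Crest.Agent.NG.Nsq

/-!
Chunk R342-G4 (and R342-G4b in Overlap.lean): matrix algebra of the gauge unitary. Notation: `c = k(y|x)`,
`ρ = rhoOf α K A Bx`, `σ = rhoOf α' K 1 Bx`, `r = rhoOf α K Ay B`, `s = rhoOf α' K 1 B`,
`Λ = √c B^{1/2} Bx^{-1/2}`, `Xm = √α A^{1/2} K Bx^{1/2}` (`Xmᴴ Xm = ρ`),
`Sm = √α' K Bx^{1/2}` (`Smᴴ Sm = σ`), `Ψ = √α A^{1/2} K B^{1/2}`.
* `ug = Sm σ^{-1/2+iτ} ρ^{-1/2-iτ} Xmᴴ` is unitary: `Sm σ^{-1/2}`, `Xm ρ^{-1/2}` are unitary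
  (square, isometric), imaginary powers are unitary.
* `bg = √α' K B^{1/2} s^{-1/2+iτ} r^{1/2-iτ}`, `bgᴴ bg = r`.
* `√c Ψ = Xm Λᴴ`, `√c √α' B^{1/2} Kᴴ = Λ Smᴴ`, so `c tr(bgᴴ ug Ψ) =
  tr (r^{1/2+iτ} s^{-1/2-iτ} Λ σ^{1/2+iτ} ρ^{1/2-iτ} Λᴴ) = tf ρ r s σ Λ (1/2+iτ)`.
-/

set_option autoImplicit false

namespace Crest.Agent.NG
open Matrix Complex
open scoped ComplexOrder

variable {n : Type} [Fintype n] [DecidableEq n]

/-- the unnormalised vector `Ψ = √α A^{1/2} K B^{1/2}` -/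
noncomputable def psiOf (α : ℝ) (K A B : Matrix n n ℂ) : Matrix n n ℂ :=
  (Real.sqrt α : ℂ) • (msqrt A * K * msqrt B)

/-- the gauge unitary -/
noncomputable def ug (α α' : ℝ) (K A Bx : Matrix n n ℂ) (τ : ℝ) : Matrix n n ℂ :=
  ((Real.sqrt α' : ℂ) • (K * msqrt Bx)) * mpow (rhoOf α' K 1 Bx) (-(1 / 2) + τ * I) *
    mpow (rhoOf α K A Bx) (-(1 / 2) - τ * I) * ((Real.sqrt α : ℂ) • (msqrt A * K * msqrt Bx))ᴴ

/-- the local vector of Bob -/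
noncomputable def bg (α α' : ℝ) (K Ay B : Matrix n n ℂ) (τ : ℝ) : Matrix n n ℂ :=
  ((Real.sqrt α' : ℂ) • (K * msqrt B)) * mpow (rhoOf α' K 1 B) (-(1 / 2) + τ * I) *
    mpow (rhoOf α K Ay B) (1 / 2 - τ * I)

/-- the transition operator -/
noncomputable def lam (c : ℝ) (B Bx : Matrix n n ℂ) : Matrix n n ℂ :=
  (Real.sqrt c : ℂ) • (msqrt B * (msqrt Bx)⁻¹)

variable {α α' : ℝ} {K A Ay B Bx : Matrix n n ℂ}

theorem sqrt_mul_sqrt_cast {c : ℝ} (hc : 0 ≤ c) : (Real.sqrt c : ℂ) * (Real.sqrt c : ℂ) = (c : ℂ) := by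
  rw [← Complex.ofReal_mul, Real.mul_self_sqrt hc]

/-- `Xmᴴ Xm = ρ` -/
theorem psiOf_conj_mul_self (hα : 0 ≤ α) (hA : A.PosDef) (hB : B.PosDef) :
    (psiOf α K A B)ᴴ * psiOf α K A B = rhoOf α K A B := by
  unfold psiOf rhoOf
  rw [conjTranspose_smul, smul_mul_smul_comm]
  have h1 : star (Real.sqrt α : ℂ) = (Real.sqrt α : ℂ) := Complex.conj_ofReal _
  rw [h1, sqrt_mul_sqrt_cast hα, conjTranspose_mul, conjTranspose_mul, msqrt_conjTranspose hA,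
    msqrt_conjTranspose hB]
  congr 1
  calc msqrt B * (Kᴴ * msqrt A) * (msqrt A * K * msqrt B)
      = msqrt B * (Kᴴ * (msqrt A * msqrt A) * K) * msqrt B := by simp only [Matrix.mul_assoc]
    _ = msqrt B * (Kᴴ * A * K) * msqrt B := by rw [msqrt_mul_self hA]

/-- `Smᴴ Sm = σ` -/
theorem sm_conj_mul_self (hα : 0 ≤ α) (hB : B.PosDef) :
    ((Real.sqrt α : ℂ) • (K * msqrt B))ᴴ * ((Real.sqrt α : ℂ) • (K * msqrt B)) =
      rhoOf α K 1 B := by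
  unfold rhoOf
  rw [conjTranspose_smul, smul_mul_smul_comm]
  have h1 : star (Real.sqrt α : ℂ) = (Real.sqrt α : ℂ) := Complex.conj_ofReal _
  rw [h1, sqrt_mul_sqrt_cast hα, conjTranspose_mul, msqrt_conjTranspose hB]
  congr 1
  simp only [Matrix.mul_assoc, Matrix.mul_one]

theorem conj_half_add (τ : ℝ) : (starRingEnd ℂ) (-(1 / 2) + τ * I) = -(1 / 2) - τ * I := by
  apply Complex.ext <;> simp

theorem conj_half_sub (τ : ℝ) : (starRingEnd ℂ) (-(1 / 2) - τ * I) = -(1 / 2) + τ * I := by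
  apply Complex.ext <;> simp

theorem conj_half_sub' (τ : ℝ) : (starRingEnd ℂ) (1 / 2 - τ * I) = 1 / 2 + τ * I := by
  apply Complex.ext <;> simp

/-- `(σ^{-1/2+iτ})ᴴ σ σ^{-1/2+iτ} = 1` -/
theorem mpow_sandwich {P : Matrix n n ℂ} (hP : P.PosDef) (τ : ℝ) :
    (mpow P (-(1 / 2) + τ * I))ᴴ * P * mpow P (-(1 / 2) + τ * I) = 1 := by
  have h1 : (mpow P (-(1 / 2) + τ * I))ᴴ * P * mpow P (-(1 / 2) + τ * I) =
      mpow P (-(1 / 2) - τ * I) * mpow P 1 * mpow P (-(1 / 2) + τ * I) := by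
    rw [mpow_conjTranspose hP, conj_half_add, mpow_one hP]
  rw [h1, mpow_add hP, mpow_add hP]
  have : (-(1 / 2) - (τ : ℂ) * I + 1 + (-(1 / 2) + τ * I)) = 0 := by ring
  rw [this, mpow_zero hP]

theorem ug_unitary (hα : 0 < α) (hα' : 0 < α') (hK : IsUnit K) (hA : A.PosDef) (hBx : Bx.PosDef)
    (τ : ℝ) : ug α α' K A Bx τ ∈ Matrix.unitaryGroup n ℂ := by
  rw [Matrix.mem_unitaryGroup_iff', Matrix.star_eq_conjTranspose]
  have hρ : (rhoOf α K A Bx).PosDef := rhoOf_posDef hα hK hA hBx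
  have hσ : (rhoOf α' K 1 Bx).PosDef := rhoOf_posDef hα' hK Matrix.PosDef.one hBx
  have hS : ((Real.sqrt α' : ℂ) • (K * msqrt Bx))ᴴ * ((Real.sqrt α' : ℂ) • (K * msqrt Bx)) =
      rhoOf α' K 1 Bx := sm_conj_mul_self hα'.le hBx
  have hX : ((Real.sqrt α : ℂ) • (msqrt A * K * msqrt Bx))ᴴ *
      ((Real.sqrt α : ℂ) • (msqrt A * K * msqrt Bx)) = rhoOf α K A Bx :=
    psiOf_conj_mul_self hα.le hA hBx
  unfold ug
  generalize rhoOf α K A Bx = ρ at *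
  generalize rhoOf α' K 1 Bx = σ at *
  generalize (Real.sqrt α' : ℂ) • (K * msqrt Bx) = S at *
  generalize (Real.sqrt α : ℂ) • (msqrt A * K * msqrt Bx) = X at *
  have h1 : mpow ρ (-(1 / 2) + τ * I) * mpow ρ (-(1 / 2) - τ * I) = mpow ρ (-1) := by
    rw [mpow_add hρ]; congr 1; ring
  have h2 : mpow ρ (-1) * ρ = 1 := by
    have := mpow_neg_mul hρ 1
    rwa [mpow_one hρ] at this
  have h3 : X * (mpow ρ (-1) * Xᴴ) = 1 := by
    rw [mul_eq_one_comm]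
    rw [Matrix.mul_assoc, hX, h2]
  calc (S * mpow σ (-(1 / 2) + τ * I) * mpow ρ (-(1 / 2) - τ * I) * Xᴴ)ᴴ *
        (S * mpow σ (-(1 / 2) + τ * I) * mpow ρ (-(1 / 2) - τ * I) * Xᴴ)
      = X * ((mpow ρ (-(1 / 2) - τ * I))ᴴ * (((mpow σ (-(1 / 2) + τ * I))ᴴ * (Sᴴ * S) *
          mpow σ (-(1 / 2) + τ * I)) * mpow ρ (-(1 / 2) - τ * I))) * Xᴴ := by
        simp only [conjTranspose_mul, conjTranspose_conjTranspose, Matrix.mul_assoc]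
    _ = X * ((mpow ρ (-(1 / 2) - τ * I))ᴴ * mpow ρ (-(1 / 2) - τ * I)) * Xᴴ := by
        rw [hS, mpow_sandwich hσ, Matrix.one_mul]
    _ = X * mpow ρ (-1) * Xᴴ := by
        rw [mpow_conjTranspose hρ, conj_half_sub, h1]
    _ = 1 := by rw [Matrix.mul_assoc, h3]

theorem nsq_bg (hα : 0 < α) (hα' : 0 < α') (hK : IsUnit K) (hAy : Ay.PosDef) (hB : B.PosDef)
    (τ : ℝ) : nsq (bg α α' K Ay B τ) = α * qf K Ay B := by
  rw [nsq_eq_trace, ← rhoOf_trace hB]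
  congr 2
  have hr : (rhoOf α K Ay B).PosDef := rhoOf_posDef hα hK hAy hB
  have hs : (rhoOf α' K 1 B).PosDef := rhoOf_posDef hα' hK Matrix.PosDef.one hB
  have hS : ((Real.sqrt α' : ℂ) • (K * msqrt B))ᴴ * ((Real.sqrt α' : ℂ) • (K * msqrt B)) =
      rhoOf α' K 1 B := sm_conj_mul_self hα'.le hB
  unfold bg
  generalize rhoOf α K Ay B = r at *
  generalize rhoOf α' K 1 B = s at *
  generalize (Real.sqrt α' : ℂ) • (K * msqrt B) = S at *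
  calc (S * mpow s (-(1 / 2) + τ * I) * mpow r (1 / 2 - τ * I))ᴴ *
        (S * mpow s (-(1 / 2) + τ * I) * mpow r (1 / 2 - τ * I))
      = (mpow r (1 / 2 - τ * I))ᴴ * (((mpow s (-(1 / 2) + τ * I))ᴴ * (Sᴴ * S) *
          mpow s (-(1 / 2) + τ * I)) * mpow r (1 / 2 - τ * I)) := by
        simp only [conjTranspose_mul, Matrix.mul_assoc]
    _ = (mpow r (1 / 2 - τ * I))ᴴ * mpow r (1 / 2 - τ * I) := by
        rw [hS, mpow_sandwich hs, Matrix.one_mul]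
    _ = r := by
        rw [mpow_conjTranspose hr, conj_half_sub', mpow_add hr]
        have : (1 / 2 + (τ : ℂ) * I + (1 / 2 - τ * I)) = 1 := by ring
        rw [this, mpow_one hr]

theorem nsq_psiOf (hα : 0 < α) (hA : A.PosDef) (hB : B.PosDef) :
    nsq (psiOf α K A B) = α * qf K A B := by
  rw [nsq_eq_trace, ← rhoOf_trace hB, psiOf_conj_mul_self hα.le hA hB]

theorem msqrt_inv_mul (hB : B.PosDef) : (msqrt B)⁻¹ * msqrt B = 1 :=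
  Matrix.nonsing_inv_mul _ ((Matrix.isUnit_iff_isUnit_det _).1 (msqrt_isUnit hB))

theorem msqrt_mul_inv (hB : B.PosDef) : msqrt B * (msqrt B)⁻¹ = 1 :=
  Matrix.mul_nonsing_inv _ ((Matrix.isUnit_iff_isUnit_det _).1 (msqrt_isUnit hB))

theorem msqrt_inv_conjTranspose (hB : B.PosDef) : ((msqrt B)⁻¹)ᴴ = (msqrt B)⁻¹ := by
  rw [Matrix.conjTranspose_nonsing_inv, msqrt_conjTranspose hB]

theorem lam_conj_mul_self (hB : B.PosDef) (hBx : Bx.PosDef) {c : ℝ} (hc : 0 ≤ c) :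
    (lam c B Bx)ᴴ * lam c B Bx = (msqrt Bx)⁻¹ * (c • B) * (msqrt Bx)⁻¹ := by
  unfold lam
  rw [conjTranspose_smul, smul_mul_smul_comm]
  have h1 : star (Real.sqrt c : ℂ) = (Real.sqrt c : ℂ) := Complex.conj_ofReal _
  rw [h1, sqrt_mul_sqrt_cast hc, conjTranspose_mul, msqrt_conjTranspose hB,
    msqrt_inv_conjTranspose hBx]
  have h2 : (c • B : Matrix n n ℂ) = (c : ℂ) • B := by
    ext i j
    simp [Matrix.smul_apply]
  rw [h2, Matrix.mul_smul, Matrix.smul_mul]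
  congr 1
  calc (msqrt Bx)⁻¹ * msqrt B * (msqrt B * (msqrt Bx)⁻¹)
      = (msqrt Bx)⁻¹ * (msqrt B * msqrt B) * (msqrt Bx)⁻¹ := by simp only [Matrix.mul_assoc]
    _ = (msqrt Bx)⁻¹ * B * (msqrt Bx)⁻¹ := by rw [msqrt_mul_self hB]

theorem lam_sum {Y : Type} [Fintype Y] {k : Y → ℝ} (hk : ∀ y, 0 ≤ k y)
    {B : Y → Matrix n n ℂ} (hB : ∀ y, (B y).PosDef) (hBx : Bx.PosDef)
    (h : Bx = ∑ y, k y • B y) :
    ∑ y, (lam (k y) (B y) Bx)ᴴ * lam (k y) (B y) Bx = 1 := by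
  calc ∑ y, (lam (k y) (B y) Bx)ᴴ * lam (k y) (B y) Bx
      = ∑ y, (msqrt Bx)⁻¹ * (k y • B y) * (msqrt Bx)⁻¹ :=
        Finset.sum_congr rfl fun y _ => lam_conj_mul_self (hB y) hBx (hk y)
    _ = (msqrt Bx)⁻¹ * (∑ y, k y • B y) * (msqrt Bx)⁻¹ := by
        rw [Finset.mul_sum, Finset.sum_mul]
    _ = (msqrt Bx)⁻¹ * Bx * (msqrt Bx)⁻¹ := by rw [← h]
    _ = (msqrt Bx)⁻¹ * (msqrt Bx * msqrt Bx) * (msqrt Bx)⁻¹ := by rw [msqrt_mul_self hBx]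
    _ = ((msqrt Bx)⁻¹ * msqrt Bx) * (msqrt Bx * (msqrt Bx)⁻¹) := by
        simp only [Matrix.mul_assoc]
    _ = 1 := by rw [msqrt_inv_mul hBx, msqrt_mul_inv hBx, Matrix.one_mul]

theorem lam_conj (hB : B.PosDef) (hBx : Bx.PosDef) {c : ℝ} (hc : 0 ≤ c) :
    lam c B Bx * rhoOf α K A Bx * (lam c B Bx)ᴴ = (c : ℂ) • rhoOf α K A B := by
  unfold lam rhoOf
  have h1 : star (Real.sqrt c : ℂ) = (Real.sqrt c : ℂ) := Complex.conj_ofReal _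
  rw [conjTranspose_smul, h1, conjTranspose_mul, msqrt_conjTranspose hB,
    msqrt_inv_conjTranspose hBx]
  calc (Real.sqrt c : ℂ) • (msqrt B * (msqrt Bx)⁻¹) * ((α : ℂ) • (msqrt Bx * (Kᴴ * A * K) * msqrt Bx)) *
        ((Real.sqrt c : ℂ) • ((msqrt Bx)⁻¹ * msqrt B))
      = ((Real.sqrt c : ℂ) * (Real.sqrt c : ℂ)) • ((α : ℂ) • (msqrt B * ((msqrt Bx)⁻¹ * msqrt Bx) *
          (Kᴴ * A * K) * (msqrt Bx * (msqrt Bx)⁻¹) * msqrt B)) := by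
        simp only [Matrix.smul_mul, Matrix.mul_smul, smul_smul, Matrix.mul_assoc]
        congr 1
        ring
    _ = (c : ℂ) • ((α : ℂ) • (msqrt B * (Kᴴ * A * K) * msqrt B)) := by
        rw [sqrt_mul_sqrt_cast hc, msqrt_inv_mul hBx, msqrt_mul_inv hBx, Matrix.mul_one,
          Matrix.mul_one]

end Crest.Agent.NG
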