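import Crest.Agent.NG.GaugeDefs

/-!
Chunk R342-G5 (`Fz_deriv`). `Fz z = ∑_r ∑_x p_r μx(x) ∑_y tf ρ_{rx} 𝔯_{ry} 𝔰_{ry} σ_{rx} Λ_{rxy} z`.
`Fz' (0) = -(T1 - T2)`: by `tf_hasDerivAt` the derivative is
`∑ p μx ( -tr(ρ log ρ ΣΛᴴΛ) + tr(ρ ΣΛᴴΛ log σ) + ∑_y tr(Λ ρ Λᴴ (log 𝔯 - log 𝔰)) )`; use
`lam_sum` (=1), `lam_conj` and `hμk`, `hAy2`:
`∑_x μx x • lam ρ lamᴴ = ∑_x μx x k x y rhoOf α K (A x) (B y) = μy y • 𝔯_y`.
(the value is real: trace of a product of two Hermitian matrices.)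
-/

set_option autoImplicit false

namespace Crest.Agent.NG
open Matrix Complex
open scoped ComplexOrder

variable {R X Y n : Type} [Fintype R] [Fintype X] [Fintype Y] [Fintype n] [DecidableEq n]
variable {p : R → ℝ} {μ : X → Y → ℝ} {k : X → Y → ℝ}
    {A : R → X → Matrix n n ℂ} {B : R → Y → Matrix n n ℂ}
    {Ay : R → Y → Matrix n n ℂ} {Bx : R → X → Matrix n n ℂ}
    {K : Matrix n n ℂ} {α α' : R → ℝ}

omit [DecidableEq n] in
private theorem trace_herm_real {P H : Matrix n n ℂ} (hP : P.IsHermitian) (hH : H.IsHermitian) :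
    (P * H).trace = ((((P * H).trace).re : ℝ) : ℂ) := by
  have h : (starRingEnd ℂ) ((P * H).trace) = (P * H).trace := by
    rw [← Complex.star_def, ← trace_conjTranspose, conjTranspose_mul, hP.eq, hH.eq,
      trace_mul_comm]
  exact (Complex.conj_eq_iff_re.1 h).symm

private theorem dpot_complex {a a' : ℝ} (ha : 0 < a) (ha' : 0 < a') {L M N : Matrix n n ℂ}
    (hL : IsUnit L) (hM : M.PosDef) (hN : N.PosDef) :
    (rhoOf a L M N * (mlog (rhoOf a L M N) - mlog (rhoOf a' L 1 N))).trace =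
      ((dpot a a' L M N : ℝ) : ℂ) := by
  have h1 := rhoOf_posDef ha hL hM hN
  have h2 := rhoOf_posDef ha' hL (Matrix.PosDef.one (n := n) (R := ℂ)) hN
  exact trace_herm_real h1.1 ((mlog_isHermitian h1).sub (mlog_isHermitian h2))

private theorem rhoOf_smul_sum {a : ℝ} {L N : Matrix n n ℂ} (c : X → ℝ) (M : X → Matrix n n ℂ)
    (m : ℝ) (M' : Matrix n n ℂ) (h : ∑ x, c x • M x = m • M') :
    ∑ x, ((c x : ℝ) : ℂ) • rhoOf a L (M x) N = ((m : ℝ) : ℂ) • rhoOf a L M' N := by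
  have h' : ∑ x, ((c x : ℝ) : ℂ) • M x = ((m : ℝ) : ℂ) • M' := by
    simpa only [Complex.coe_smul] using h
  unfold rhoOf
  have e1 : ∀ (b : ℂ) (Z : Matrix n n ℂ), b • ((a : ℂ) • (msqrt N * (Lᴴ * Z * L) * msqrt N)) =
      (a : ℂ) • (msqrt N * (Lᴴ * (b • Z) * L) * msqrt N) := by
    intro b Z
    simp only [Matrix.mul_smul, Matrix.smul_mul]
    rw [smul_comm]
  simp only [e1]
  rw [← h', ← Finset.smul_sum, Matrix.mul_sum, Matrix.sum_mul, Matrix.mul_sum, Matrix.sum_mul]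

theorem Fz_deriv (H : GaugeHyp p μ k A B Ay Bx K α α') :
    HasDerivAt (Fz p μ k A B Ay Bx K α α') (-((gap p μ A B Ay Bx K α α' : ℝ) : ℂ)) 0 := by
  have hone : (1 : Matrix n n ℂ).PosDef := Matrix.PosDef.one
  have hρ : ∀ r x, (rhoOf (α r) K (A r x) (Bx r x)).PosDef := fun r x =>
    rhoOf_posDef (H.hα r) H.hK (H.hA r x) (H.hBx r x)
  have hr : ∀ r y, (rhoOf (α r) K (Ay r y) (B r y)).PosDef := fun r y =>
    rhoOf_posDef (H.hα r) H.hK (H.hAy r y) (H.hB r y)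
  have hs : ∀ r y, (rhoOf (α' r) K 1 (B r y)).PosDef := fun r y =>
    rhoOf_posDef (H.hα' r) H.hK hone (H.hB r y)
  have hσ : ∀ r x, (rhoOf (α' r) K 1 (Bx r x)).PosDef := fun r x =>
    rhoOf_posDef (H.hα' r) H.hK hone (H.hBx r x)
  have hD : HasDerivAt (Fz p μ k A B Ay Bx K α α')
      (∑ r, ∑ x, ((p r * ∑ y, μ x y : ℝ) : ℂ) *
        ∑ y, (-(rhoOf (α r) K (A r x) (Bx r x) * mlog (rhoOf (α r) K (A r x) (Bx r x)) *
            ((lam (k x y) (B r y) (Bx r x))ᴴ * lam (k x y) (B r y) (Bx r x))).trace +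
          (rhoOf (α r) K (A r x) (Bx r x) * (lam (k x y) (B r y) (Bx r x))ᴴ *
            (mlog (rhoOf (α r) K (Ay r y) (B r y)) - mlog (rhoOf (α' r) K 1 (B r y))) *
              lam (k x y) (B r y) (Bx r x)).trace +
          (rhoOf (α r) K (A r x) (Bx r x) *
            ((lam (k x y) (B r y) (Bx r x))ᴴ * lam (k x y) (B r y) (Bx r x)) *
              mlog (rhoOf (α' r) K 1 (Bx r x))).trace)) 0 := by
    unfold Fz
    refine HasDerivAt.fun_sum fun r _ => HasDerivAt.fun_sum fun x _ => ?_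
    refine HasDerivAt.const_mul _ ?_
    refine HasDerivAt.fun_sum fun y _ => ?_
    exact tf_hasDerivAt (hρ r x) (hr r y) (hs r y) (hσ r x) _
  convert hD using 1
  -- the inner sum over `y`
  have hin : ∀ r x, (∑ y, (-(rhoOf (α r) K (A r x) (Bx r x) *
            mlog (rhoOf (α r) K (A r x) (Bx r x)) *
            ((lam (k x y) (B r y) (Bx r x))ᴴ * lam (k x y) (B r y) (Bx r x))).trace +
          (rhoOf (α r) K (A r x) (Bx r x) * (lam (k x y) (B r y) (Bx r x))ᴴ *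
            (mlog (rhoOf (α r) K (Ay r y) (B r y)) - mlog (rhoOf (α' r) K 1 (B r y))) *
              lam (k x y) (B r y) (Bx r x)).trace +
          (rhoOf (α r) K (A r x) (Bx r x) *
            ((lam (k x y) (B r y) (Bx r x))ᴴ * lam (k x y) (B r y) (Bx r x)) *
              mlog (rhoOf (α' r) K 1 (Bx r x))).trace)) =
      -((dpot (α r) (α' r) K (A r x) (Bx r x) : ℝ) : ℂ) +
        ∑ y, ((k x y : ℝ) : ℂ) * (rhoOf (α r) K (A r x) (B r y) *
          (mlog (rhoOf (α r) K (Ay r y) (B r y)) - mlog (rhoOf (α' r) K 1 (B r y)))).trace := by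
    intro r x
    have hl := lam_sum (H.hk x) (H.hB r) (H.hBx r x) (H.hBx2 r x)
    rw [Finset.sum_add_distrib, Finset.sum_add_distrib]
    have e1 : ∑ y, -(rhoOf (α r) K (A r x) (Bx r x) * mlog (rhoOf (α r) K (A r x) (Bx r x)) *
        ((lam (k x y) (B r y) (Bx r x))ᴴ * lam (k x y) (B r y) (Bx r x))).trace =
        -(rhoOf (α r) K (A r x) (Bx r x) * mlog (rhoOf (α r) K (A r x) (Bx r x))).trace := by
      rw [Finset.sum_neg_distrib, ← Matrix.trace_sum, ← Matrix.mul_sum, hl, Matrix.mul_one]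
    have e2 : ∑ y, (rhoOf (α r) K (A r x) (Bx r x) *
            ((lam (k x y) (B r y) (Bx r x))ᴴ * lam (k x y) (B r y) (Bx r x)) *
              mlog (rhoOf (α' r) K 1 (Bx r x))).trace =
        (rhoOf (α r) K (A r x) (Bx r x) * mlog (rhoOf (α' r) K 1 (Bx r x))).trace := by
      rw [← Matrix.trace_sum, ← Matrix.sum_mul, ← Matrix.mul_sum, hl, Matrix.mul_one]
    have e3 : ∀ y, (rhoOf (α r) K (A r x) (Bx r x) * (lam (k x y) (B r y) (Bx r x))ᴴ *
            (mlog (rhoOf (α r) K (Ay r y) (B r y)) - mlog (rhoOf (α' r) K 1 (B r y))) *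
              lam (k x y) (B r y) (Bx r x)).trace =
        ((k x y : ℝ) : ℂ) * (rhoOf (α r) K (A r x) (B r y) *
          (mlog (rhoOf (α r) K (Ay r y) (B r y)) - mlog (rhoOf (α' r) K 1 (B r y)))).trace := by
      intro y
      rw [Matrix.trace_mul_comm, ← Matrix.mul_assoc, ← Matrix.mul_assoc,
        lam_conj (H.hB r y) (H.hBx r x) (H.hk x y), Matrix.smul_mul, Matrix.trace_smul,
        smul_eq_mul]
    rw [e1, e2, Finset.sum_congr rfl (fun y _ => e3 y),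
      ← dpot_complex (H.hα r) (H.hα' r) H.hK (H.hA r x) (H.hBx r x), Matrix.mul_sub,
      Matrix.trace_sub]
    ring
  simp only [hin]
  -- exchange of the sums
  have hout : ∀ r, ∑ x, ((p r * ∑ y, μ x y : ℝ) : ℂ) *
      (-((dpot (α r) (α' r) K (A r x) (Bx r x) : ℝ) : ℂ) +
        ∑ y, ((k x y : ℝ) : ℂ) * (rhoOf (α r) K (A r x) (B r y) *
          (mlog (rhoOf (α r) K (Ay r y) (B r y)) - mlog (rhoOf (α' r) K 1 (B r y)))).trace) =
      -(((p r * ∑ x, (∑ y, μ x y) * dpot (α r) (α' r) K (A r x) (Bx r x) : ℝ)) : ℂ) +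
        ((p r * ∑ y, (∑ x, μ x y) * dpot (α r) (α' r) K (Ay r y) (B r y) : ℝ) : ℂ) := by
    intro r
    have e1 : ∀ x, ((p r * ∑ y, μ x y : ℝ) : ℂ) *
        (-((dpot (α r) (α' r) K (A r x) (Bx r x) : ℝ) : ℂ) +
        ∑ y, ((k x y : ℝ) : ℂ) * (rhoOf (α r) K (A r x) (B r y) *
          (mlog (rhoOf (α r) K (Ay r y) (B r y)) - mlog (rhoOf (α' r) K 1 (B r y)))).trace) =
        -((p r : ℂ) * (((∑ y, μ x y) * dpot (α r) (α' r) K (A r x) (Bx r x) : ℝ) : ℂ)) +
        (p r : ℂ) * ∑ y, ((μ x y : ℝ) : ℂ) * (rhoOf (α r) K (A r x) (B r y) *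
          (mlog (rhoOf (α r) K (Ay r y) (B r y)) - mlog (rhoOf (α' r) K 1 (B r y)))).trace := by
      intro x
      have e2 : ∑ y, ((μ x y : ℝ) : ℂ) * (rhoOf (α r) K (A r x) (B r y) *
          (mlog (rhoOf (α r) K (Ay r y) (B r y)) - mlog (rhoOf (α' r) K 1 (B r y)))).trace =
          ((∑ y', μ x y' : ℝ) : ℂ) * ∑ y, ((k x y : ℝ) : ℂ) * (rhoOf (α r) K (A r x) (B r y) *
          (mlog (rhoOf (α r) K (Ay r y) (B r y)) - mlog (rhoOf (α' r) K 1 (B r y)))).trace := by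
        rw [Finset.mul_sum]
        refine Finset.sum_congr rfl fun y _ => ?_
        rw [H.hμk x y, Complex.ofReal_mul, mul_assoc]
      rw [e2, Complex.ofReal_mul, Complex.ofReal_mul]
      ring
    rw [Finset.sum_congr rfl (fun x _ => e1 x), Finset.sum_add_distrib, Finset.sum_neg_distrib,
      ← Finset.mul_sum, ← Finset.mul_sum, ← Complex.ofReal_sum, ← Complex.ofReal_mul]
    congr 1
    rw [Finset.sum_comm, Complex.ofReal_mul]
    congr 1
    rw [Complex.ofReal_sum]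
    refine Finset.sum_congr rfl fun y _ => ?_
    have e4 := rhoOf_smul_sum (a := α r) (L := K) (N := B r y) (fun x => μ x y) (fun x => A r x)
      (∑ x, μ x y) (Ay r y) (H.hAy2 r y)
    have e5 : ∑ x, ((μ x y : ℝ) : ℂ) * (rhoOf (α r) K (A r x) (B r y) *
          (mlog (rhoOf (α r) K (Ay r y) (B r y)) - mlog (rhoOf (α' r) K 1 (B r y)))).trace =
        ((∑ x, ((μ x y : ℝ) : ℂ) • rhoOf (α r) K (A r x) (B r y)) *
          (mlog (rhoOf (α r) K (Ay r y) (B r y)) - mlog (rhoOf (α' r) K 1 (B r y)))).trace := by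
      rw [Matrix.sum_mul, Matrix.trace_sum]
      refine Finset.sum_congr rfl fun x _ => ?_
      rw [Matrix.smul_mul, Matrix.trace_smul, smul_eq_mul]
    rw [e5, e4, Matrix.smul_mul, Matrix.trace_smul, smul_eq_mul,
      dpot_complex (H.hα r) (H.hα' r) H.hK (H.hAy r y) (H.hB r y), Complex.ofReal_mul]
  rw [Finset.sum_congr rfl (fun r _ => hout r), Finset.sum_add_distrib, Finset.sum_neg_distrib]
  unfold gap
  push_cast
  ring

end Crest.Agent.NG
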