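import Crest.Agent.NG.Mfun

/-!
Chunk R342-F5 (Klein's inequality): for positive definite `ρ, σ`:
`relEnt ρ σ = tr ρ (log ρ - log σ) ≥ tr ρ - tr σ`.
Proof: with eigenvalues `r_i` (vectors `u_i`), `s_j` (vectors `v_j`), `c i j = |⟨u_i,v_j⟩|²`
(doubly stochastic): `tr ρ log σ = ∑ c i j r_i log s_j`, so the difference is
`∑ c i j (r_i log r_i - r_i log s_j - r_i + s_j) ≥ 0` termwise (`log t ≤ t - 1`).
-/

set_option autoImplicit false

namespace Crest.Agent.NG
open Matrix Complex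
open scoped ComplexOrder

variable {n : Type} [Fintype n] [DecidableEq n]

/-- trace of a product of functions of two Hermitian matrices -/
theorem trace_mfun_mul_mfun {ρ σ : Matrix n n ℂ} (f g : ℝ → ℂ) (hρ : ρ.IsHermitian)
    (hσ : σ.IsHermitian) :
    (mfun f ρ * mfun g σ).trace = ∑ i, ∑ j, f (hρ.eigenvalues i) * g (hσ.eigenvalues j) *
      ((‖((hρ.eigenvectorUnitary : Matrix n n ℂ)ᴴ *
        (hσ.eigenvectorUnitary : Matrix n n ℂ)) i j‖ ^ 2 : ℝ) : ℂ) := by
  rw [mfun_eq f hρ, mfun_eq g hσ]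
  set U : Matrix n n ℂ := (hρ.eigenvectorUnitary : Matrix n n ℂ)
  set V : Matrix n n ℂ := (hσ.eigenvectorUnitary : Matrix n n ℂ)
  set D : Matrix n n ℂ := diagonal (fun i => f (hρ.eigenvalues i)) with hD
  set E : Matrix n n ℂ := diagonal (fun i => g (hσ.eigenvalues i)) with hE
  have h1 : (U * D * Uᴴ * (V * E * Vᴴ)).trace = (D * ((Uᴴ * V) * (E * (Uᴴ * V)ᴴ))).trace := by
    rw [Matrix.conjTranspose_mul, Matrix.conjTranspose_conjTranspose]
    calc (U * D * Uᴴ * (V * E * Vᴴ)).trace = (U * (D * (Uᴴ * (V * (E * Vᴴ))))).trace := by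
          simp only [Matrix.mul_assoc]
      _ = ((D * (Uᴴ * (V * (E * Vᴴ)))) * U).trace := Matrix.trace_mul_comm _ _
      _ = (D * ((Uᴴ * V) * (E * (Vᴴ * U)))).trace := by simp only [Matrix.mul_assoc]
  rw [h1]
  set W : Matrix n n ℂ := Uᴴ * V
  rw [Matrix.trace]
  refine Finset.sum_congr rfl fun i _ => ?_
  rw [Matrix.diag_apply, hD, Matrix.diagonal_mul, Matrix.mul_apply, Finset.mul_sum]
  refine Finset.sum_congr rfl fun j _ => ?_
  rw [hE, Matrix.diagonal_mul, Matrix.conjTranspose_apply]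
  have h2 : (((‖W i j‖ ^ 2 : ℝ)) : ℂ) = W i j * star (W i j) := by
    have := Complex.mul_conj' (W i j)
    rw [← Complex.star_def] at this
    rw [this]
    push_cast
    rfl
  rw [h2]
  ring

theorem klein_weights_row {ρ σ : Matrix n n ℂ} (hρ : ρ.IsHermitian)
    (hσ : σ.IsHermitian) (i : n) :
    ∑ j, ‖((hρ.eigenvectorUnitary : Matrix n n ℂ)ᴴ *
        (hσ.eigenvectorUnitary : Matrix n n ℂ)) i j‖ ^ 2 = 1 := by
  set U : Matrix n n ℂ := (hρ.eigenvectorUnitary : Matrix n n ℂ) with hU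
  set V : Matrix n n ℂ := (hσ.eigenvectorUnitary : Matrix n n ℂ) with hV
  have hUU : Uᴴ * U = 1 := Matrix.mem_unitaryGroup_iff'.mp hρ.eigenvectorUnitary.2
  have hVV : V * Vᴴ = 1 := Matrix.mem_unitaryGroup_iff.mp hσ.eigenvectorUnitary.2
  have hW : (Uᴴ * V) * (Uᴴ * V)ᴴ = 1 := by
    rw [Matrix.conjTranspose_mul, Matrix.conjTranspose_conjTranspose]
    calc Uᴴ * V * (Vᴴ * U) = Uᴴ * (V * Vᴴ) * U := by simp only [Matrix.mul_assoc]
      _ = 1 := by rw [hVV, Matrix.mul_one, hUU]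
  have h := congrFun (congrFun hW i) i
  rw [Matrix.mul_apply, Matrix.one_apply_eq] at h
  have h2 : ((∑ j, ‖(Uᴴ * V) i j‖ ^ 2 : ℝ) : ℂ) = 1 := by
    rw [← h]
    push_cast
    refine Finset.sum_congr rfl fun j _ => ?_
    rw [Matrix.conjTranspose_apply, Complex.star_def, Complex.mul_conj']
  exact_mod_cast h2

theorem klein_weights_col {ρ σ : Matrix n n ℂ} (hρ : ρ.IsHermitian)
    (hσ : σ.IsHermitian) (j : n) :
    ∑ i, ‖((hρ.eigenvectorUnitary : Matrix n n ℂ)ᴴ *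
        (hσ.eigenvectorUnitary : Matrix n n ℂ)) i j‖ ^ 2 = 1 := by
  set U : Matrix n n ℂ := (hρ.eigenvectorUnitary : Matrix n n ℂ) with hU
  set V : Matrix n n ℂ := (hσ.eigenvectorUnitary : Matrix n n ℂ) with hV
  have hUU : U * Uᴴ = 1 := Matrix.mem_unitaryGroup_iff.mp hρ.eigenvectorUnitary.2
  have hVV : Vᴴ * V = 1 := Matrix.mem_unitaryGroup_iff'.mp hσ.eigenvectorUnitary.2
  have hW : (Uᴴ * V)ᴴ * (Uᴴ * V) = 1 := by
    rw [Matrix.conjTranspose_mul, Matrix.conjTranspose_conjTranspose]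
    calc Vᴴ * U * (Uᴴ * V) = Vᴴ * (U * Uᴴ) * V := by simp only [Matrix.mul_assoc]
      _ = 1 := by rw [hUU, Matrix.mul_one, hVV]
  have h := congrFun (congrFun hW j) j
  rw [Matrix.mul_apply, Matrix.one_apply_eq] at h
  have h2 : ((∑ i, ‖(Uᴴ * V) i j‖ ^ 2 : ℝ) : ℂ) = 1 := by
    rw [← h]
    push_cast
    refine Finset.sum_congr rfl fun i _ => ?_
    rw [Matrix.conjTranspose_apply, Complex.star_def, Complex.conj_mul']
  exact_mod_cast h2

theorem trace_mfun {ρ : Matrix n n ℂ} (f : ℝ → ℂ) (hρ : ρ.IsHermitian) :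
    (mfun f ρ).trace = ∑ i, f (hρ.eigenvalues i) := by
  rw [mfun_eq f hρ]
  have hUU : (hρ.eigenvectorUnitary : Matrix n n ℂ)ᴴ * (hρ.eigenvectorUnitary : Matrix n n ℂ) = 1 :=
    Matrix.mem_unitaryGroup_iff'.mp hρ.eigenvectorUnitary.2
  rw [Matrix.trace_mul_comm, ← Matrix.mul_assoc, hUU, Matrix.one_mul, Matrix.trace_diagonal]

theorem klein {ρ σ : Matrix n n ℂ} (hρ : ρ.PosDef) (hσ : σ.PosDef) :
    (ρ.trace).re - (σ.trace).re ≤ relEnt ρ σ := by
  have hr := hρ.isHermitian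
  have hs := hσ.isHermitian
  set c : n → n → ℝ := fun i j => ‖((hr.eigenvectorUnitary : Matrix n n ℂ)ᴴ *
        (hs.eigenvectorUnitary : Matrix n n ℂ)) i j‖ ^ 2 with hc
  set r : n → ℝ := hr.eigenvalues with hrr
  set s : n → ℝ := hs.eigenvalues with hss
  have hc0 : ∀ i j, 0 ≤ c i j := fun i j => sq_nonneg _
  have hrow : ∀ i, ∑ j, c i j = 1 := fun i => klein_weights_row hr hs i
  have hcol : ∀ j, ∑ i, c i j = 1 := fun j => klein_weights_col hr hs j
  have hrpos : ∀ i, 0 < r i := fun i => hρ.eigenvalues_pos i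
  have hspos : ∀ j, 0 < s j := fun j => hσ.eigenvalues_pos j
  -- traces
  have ht1 : (ρ.trace).re = ∑ i, r i := by
    have h := trace_mfun (fun t => (t : ℂ)) hr
    rw [mfun_id hr] at h
    rw [h, ← Complex.ofReal_sum, Complex.ofReal_re]
  have ht2 : (σ.trace).re = ∑ j, s j := by
    have h := trace_mfun (fun t => (t : ℂ)) hs
    rw [mfun_id hs] at h
    rw [h, ← Complex.ofReal_sum, Complex.ofReal_re]
  have hA : ((ρ * mlog ρ).trace).re = ∑ i, r i * Real.log (r i) := by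
    have h0 : ρ * mlog ρ = mfun (fun t => (t : ℂ) * (Real.log t : ℂ)) ρ := by
      unfold mlog
      conv_lhs => rw [← mfun_id hr]
      rw [show mfun (fun t => (Real.log t : ℂ)) (mfun (fun t => (t : ℂ)) ρ)
        = mfun (fun t => (Real.log t : ℂ)) ρ by rw [mfun_id hr]]
      rw [mfun_mul _ _ hr]
    rw [h0, trace_mfun _ hr]
    have : ∑ i, ((hr.eigenvalues i : ℂ) * (Real.log (hr.eigenvalues i) : ℂ))
        = ((∑ i, r i * Real.log (r i) : ℝ) : ℂ) := by
      push_cast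
      rfl
    rw [this, Complex.ofReal_re]
  have hB : ((ρ * mlog σ).trace).re = ∑ i, ∑ j, c i j * (r i * Real.log (s j)) := by
    have h0 : ρ * mlog σ = mfun (fun t => (t : ℂ)) ρ * mfun (fun t => (Real.log t : ℂ)) σ := by
      rw [mfun_id hr]; rfl
    rw [h0, trace_mfun_mul_mfun _ _ hr hs]
    have : (∑ i, ∑ j, (hr.eigenvalues i : ℂ) * (Real.log (hs.eigenvalues j) : ℂ) *
        ((‖((hr.eigenvectorUnitary : Matrix n n ℂ)ᴴ *
          (hs.eigenvectorUnitary : Matrix n n ℂ)) i j‖ ^ 2 : ℝ) : ℂ))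
        = ((∑ i, ∑ j, c i j * (r i * Real.log (s j)) : ℝ) : ℂ) := by
      rw [Complex.ofReal_sum]
      refine Finset.sum_congr rfl fun i _ => ?_
      rw [Complex.ofReal_sum]
      refine Finset.sum_congr rfl fun j _ => ?_
      rw [Complex.ofReal_mul, Complex.ofReal_mul]
      simp only [hc, hrr, hss]
      ring
    rw [this, Complex.ofReal_re]
  have hE : relEnt ρ σ = ∑ i, r i * Real.log (r i) - ∑ i, ∑ j, c i j * (r i * Real.log (s j)) := by
    unfold relEnt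
    rw [Matrix.mul_sub, Matrix.trace_sub, Complex.sub_re, hA, hB]
  have e1 : ∑ i, r i * Real.log (r i) = ∑ i, ∑ j, c i j * (r i * Real.log (r i)) := by
    refine Finset.sum_congr rfl fun i _ => ?_
    rw [← Finset.sum_mul, hrow, one_mul]
  have e2 : ∑ i, r i = ∑ i, ∑ j, c i j * r i := by
    refine Finset.sum_congr rfl fun i _ => ?_
    rw [← Finset.sum_mul, hrow, one_mul]
  have e3 : ∑ j, s j = ∑ i, ∑ j, c i j * s j := by
    rw [Finset.sum_comm]
    refine Finset.sum_congr rfl fun j _ => ?_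
    rw [← Finset.sum_mul, hcol, one_mul]
  rw [ht1, ht2, hE, e1, e2, e3, ← Finset.sum_sub_distrib, ← Finset.sum_sub_distrib]
  refine Finset.sum_le_sum fun i _ => ?_
  rw [← Finset.sum_sub_distrib, ← Finset.sum_sub_distrib]
  refine Finset.sum_le_sum fun j _ => ?_
  rw [← mul_sub, ← mul_sub]
  refine mul_le_mul_of_nonneg_left ?_ (hc0 i j)
  -- r - s ≤ r log r - r log s
  have hlog : Real.log (s j / r i) ≤ s j / r i - 1 :=
    Real.log_le_sub_one_of_pos (div_pos (hspos j) (hrpos i))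
  rw [Real.log_div (hspos j).ne' (hrpos i).ne'] at hlog
  have h3 := mul_le_mul_of_nonneg_left hlog (hrpos i).le
  have h4 : r i * (s j / r i - 1) = s j - r i := by
    have hne : r i ≠ 0 := (hrpos i).ne'
    rw [mul_sub, mul_div_cancel₀ _ hne, mul_one]
  rw [h4] at h3
  nlinarith [h3]

end Crest.Agent.NG
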