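import Crest.Agent.NG.Mfun

/-!
Chunk R342-F6: if `ρ ≤ c σ` then `relEnt ρ σ ≤ log c * tr ρ` (operator monotonicity of the
logarithm, Mathlib: `CFC.log_monotoneOn`, `CFC.log_le_log`; `cfc f P` for a Hermitian matrix is
`Matrix.IsHermitian.cfc_eq` / `Matrix.IsHermitian.cfc`, which is the same `U diag(f λ) U*` as
`mfun`; C*-algebra instances on matrices: `open scoped Matrix.Norms.L2Operator MatrixOrder`).
Steps: `mlog P = CFC.log P`; `log (cσ) = log c • 1 + log σ` (same eigenvectors; or use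
`mfun` with `Real.log (c*t)`; or `CFC.log_smul`); `X ≤ Y`, `ρ ≥ 0` ⟹ `Re tr ρX ≤ Re tr ρY`.
-/

set_option autoImplicit false

namespace Crest.Agent.NG
open Matrix Complex
open scoped ComplexOrder

variable {n : Type} [Fintype n] [DecidableEq n]

section
open scoped Matrix.Norms.L2Operator MatrixOrder

private theorem log_eq_mlog {P : Matrix n n ℂ} (hP : P.IsHermitian) : CFC.log P = mlog P := by
  unfold CFC.log mlog
  rw [hP.cfc_eq, mfun_eq _ hP, Matrix.IsHermitian.cfc, Unitary.conjStarAlgAut_apply]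
  rfl

private theorem mlog_sub_posSemidef {ρ σ : Matrix n n ℂ} (hρ : ρ.PosDef) (hσ : σ.PosDef) (c : ℝ)
    (hc : 0 < c) (h : ((c : ℂ) • σ - ρ).PosSemidef) :
    (((Real.log c : ℝ) : ℂ) • (1 : Matrix n n ℂ) + mlog σ - mlog ρ).PosSemidef := by
  have h1 : ρ ≤ (c : ℝ) • σ := by
    have e : (c : ℝ) • σ = (c : ℂ) • σ := by
      ext i j
      simp [Matrix.smul_apply]
    rw [e]
    exact h
  have h2 := CFC.log_le_log h1 hρ.isStrictlyPositive
  rw [CFC.log_smul' σ hc hσ.isStrictlyPositive, log_eq_mlog hρ.isHermitian,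
    log_eq_mlog hσ.isHermitian, Matrix.le_iff] at h2
  have e : algebraMap ℝ (Matrix n n ℂ) (Real.log c) =
      ((Real.log c : ℝ) : ℂ) • (1 : Matrix n n ℂ) := by
    rw [Algebra.algebraMap_eq_smul_one]
    ext i j
    simp [Matrix.smul_apply]
  rw [e] at h2
  exact h2

end

theorem relEnt_le {ρ σ : Matrix n n ℂ} (hρ : ρ.PosDef) (hσ : σ.PosDef) (c : ℝ) (hc : 0 < c)
    (h : ((c : ℂ) • σ - ρ).PosSemidef) :
    relEnt ρ σ ≤ Real.log c * (ρ.trace).re := by
  have hD := mlog_sub_posSemidef hρ hσ c hc h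
  obtain ⟨B, hB⟩ : ∃ B : Matrix n n ℂ, ρ = Bᴴ * B := by
    open scoped MatrixOrder in
    exact CStarAlgebra.nonneg_iff_eq_star_mul_self.mp hρ.posSemidef.nonneg
  have h1 : 0 ≤ (ρ * (((Real.log c : ℝ) : ℂ) • (1 : Matrix n n ℂ) + mlog σ - mlog ρ)).trace := by
    rw [hB, Matrix.mul_assoc, Matrix.trace_mul_comm, ← hB]
    exact (hD.mul_mul_conjTranspose_same B).trace_nonneg
  have h2 := (Complex.le_def.1 h1).1
  unfold relEnt
  rw [Matrix.mul_sub, Matrix.mul_add, Matrix.mul_smul, Matrix.mul_one, Matrix.trace_sub,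
    Matrix.trace_add, Matrix.trace_smul, smul_eq_mul, Complex.sub_re, Complex.add_re,
    Complex.re_ofReal_mul, Complex.zero_re] at h2
  rw [Matrix.mul_sub, Matrix.trace_sub, Complex.sub_re]
  linarith

end Crest.Agent.NG
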