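import Crest.Agent.NG.Defs

/-!
Chunk R342-F1: calculus of `mfun f P = U diag(f(λ_i)) U*` for a fixed Hermitian `P`.
All proofs: unfold `mfun`, `dif_pos h`, use `Uᴴ * U = 1` (unitary) and `diagonal_mul_diagonal`.
`mfun_id` is Mathlib's `Matrix.IsHermitian.spectral_theorem`.
-/

set_option autoImplicit false

namespace Crest.Agent.NG
open Matrix
open scoped ComplexOrder

variable {n : Type} [Fintype n] [DecidableEq n] {P : Matrix n n ℂ}

theorem mfun_eq (f : ℝ → ℂ) (h : P.IsHermitian) :
    mfun f P = (h.eigenvectorUnitary : Matrix n n ℂ) * diagonal (fun i => f (h.eigenvalues i)) *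
      (h.eigenvectorUnitary : Matrix n n ℂ)ᴴ := by
  unfold mfun
  rw [dif_pos h]

theorem eigU_star_mul (h : P.IsHermitian) :
    (h.eigenvectorUnitary : Matrix n n ℂ)ᴴ * (h.eigenvectorUnitary : Matrix n n ℂ) = 1 := by
  have := Unitary.coe_star_mul_self h.eigenvectorUnitary
  rwa [star_eq_conjTranspose] at this

theorem eigU_mul_star (h : P.IsHermitian) :
    (h.eigenvectorUnitary : Matrix n n ℂ) * (h.eigenvectorUnitary : Matrix n n ℂ)ᴴ = 1 :=
  mul_eq_one_comm.mp (eigU_star_mul h)

theorem mfun_mul (f g : ℝ → ℂ) (h : P.IsHermitian) :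
    mfun f P * mfun g P = mfun (fun t => f t * g t) P := by
  rw [mfun_eq f h, mfun_eq g h, mfun_eq _ h, ← diagonal_mul_diagonal]
  have h1 := eigU_star_mul h
  set U := (h.eigenvectorUnitary : Matrix n n ℂ)
  calc U * diagonal (fun i => f (h.eigenvalues i)) * Uᴴ * (U * diagonal (fun i => g (h.eigenvalues i)) * Uᴴ)
      = U * diagonal (fun i => f (h.eigenvalues i)) * (Uᴴ * U) *
          diagonal (fun i => g (h.eigenvalues i)) * Uᴴ := by
        simp only [Matrix.mul_assoc]
    _ = _ := by rw [h1, Matrix.mul_one]; simp only [Matrix.mul_assoc]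

theorem mfun_add (f g : ℝ → ℂ) (h : P.IsHermitian) :
    mfun f P + mfun g P = mfun (fun t => f t + g t) P := by
  rw [mfun_eq f h, mfun_eq g h, mfun_eq _ h, ← diagonal_add, Matrix.mul_add, Matrix.add_mul]

theorem mfun_smul (c : ℂ) (f : ℝ → ℂ) (h : P.IsHermitian) :
    c • mfun f P = mfun (fun t => c * f t) P := by
  rw [mfun_eq f h, mfun_eq _ h]
  have h1 : diagonal (fun i => c * f (h.eigenvalues i)) =
      c • diagonal (fun i => f (h.eigenvalues i)) := by
    rw [← diagonal_smul]
    rfl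
  rw [h1, Matrix.mul_smul, Matrix.smul_mul]

theorem mfun_conjTranspose (f : ℝ → ℂ) (h : P.IsHermitian) :
    (mfun f P)ᴴ = mfun (fun t => (starRingEnd ℂ) (f t)) P := by
  rw [mfun_eq f h, mfun_eq _ h, conjTranspose_mul, conjTranspose_mul, conjTranspose_conjTranspose,
    diagonal_conjTranspose, Matrix.mul_assoc]
  rfl

theorem mfun_one (h : P.IsHermitian) : mfun (fun _ => 1) P = 1 := by
  rw [mfun_eq _ h]
  have h1 : diagonal (fun _ : n => (1 : ℂ)) = 1 := diagonal_one
  rw [h1, Matrix.mul_one, eigU_mul_star h]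

theorem mfun_id (h : P.IsHermitian) : mfun (fun t => (t : ℂ)) P = P := by
  rw [mfun_eq _ h]
  conv_rhs => rw [h.spectral_theorem]
  rw [Unitary.conjStarAlgAut_apply]
  rfl

theorem mfun_congr (f g : ℝ → ℂ) (h : P.IsHermitian)
    (hfg : ∀ i, f (h.eigenvalues i) = g (h.eigenvalues i)) : mfun f P = mfun g P := by
  rw [mfun_eq f h, mfun_eq g h, funext hfg]

/-- a function with nonnegative real values on the spectrum gives a positive semidefinite matrix -/
theorem mfun_posSemidef (f : ℝ → ℝ) (h : P.IsHermitian) (hf : ∀ i, 0 ≤ f (h.eigenvalues i)) :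
    (mfun (fun t => (f t : ℂ)) P).PosSemidef := by
  rw [mfun_eq _ h]
  refine PosSemidef.mul_mul_conjTranspose_same ?_ _
  rw [posSemidef_diagonal_iff]
  intro i
  exact_mod_cast hf i

/-- a function with positive real values on the spectrum gives a positive definite matrix -/
theorem mfun_posDef (f : ℝ → ℝ) (h : P.IsHermitian) (hf : ∀ i, 0 < f (h.eigenvalues i)) :
    (mfun (fun t => (f t : ℂ)) P).PosDef := by
  have h1 : (diagonal (fun i => ((f (h.eigenvalues i) : ℝ) : ℂ))).PosDef := by
    rw [posDef_diagonal_iff]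
    intro i
    exact_mod_cast hf i
  rw [mfun_eq _ h]
  have hU : IsUnit (h.eigenvectorUnitary : Matrix n n ℂ) :=
    ⟨⟨_, _, eigU_mul_star h, eigU_star_mul h⟩, rfl⟩
  exact h1.mul_mul_conjTranspose_same (vecMul_injective_of_isUnit hU)

/-- entries as finite sums over the spectrum -/
theorem mfun_apply (f : ℝ → ℂ) (h : P.IsHermitian) (i j : n) :
    mfun f P i j = ∑ l, (h.eigenvectorUnitary : Matrix n n ℂ) i l * f (h.eigenvalues l) *
      (starRingEnd ℂ) ((h.eigenvectorUnitary : Matrix n n ℂ) j l) := by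
  rw [mfun_eq _ h, Matrix.mul_apply]
  refine Finset.sum_congr rfl fun l _ => ?_
  rw [Matrix.mul_diagonal, conjTranspose_apply]
  rfl

end Crest.Agent.NG
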