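import Crest.Agent.NG.Mfun

/-!
Chunk R342-F2: complex powers of a positive definite matrix. All statements follow from
`Crest.Agent.NG.Mfun` (`mfun_mul`, `mfun_conjTranspose`, `mfun_one`, `mfun_id`, `mfun_congr`,
`mfun_posDef`) applied to `f t = exp (z * log t)`, and `hP.eigenvalues_pos`.
-/

set_option autoImplicit false

namespace Crest.Agent.NG
open Matrix Complex
open scoped ComplexOrder

variable {n : Type} [Fintype n] [DecidableEq n] {P : Matrix n n ℂ}

theorem mpow_zero (hP : P.PosDef) : mpow P 0 = 1 := by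
  rw [mpow, ← mfun_one hP.isHermitian]
  refine mfun_congr _ _ hP.isHermitian (fun i => ?_)
  simp

theorem mpow_one (hP : P.PosDef) : mpow P 1 = P := by
  conv_rhs => rw [← mfun_id hP.isHermitian]
  rw [mpow]
  refine mfun_congr _ _ hP.isHermitian (fun i => ?_)
  rw [one_mul, ← Complex.ofReal_exp, Real.exp_log (hP.eigenvalues_pos i)]

theorem mpow_add (hP : P.PosDef) (z w : ℂ) : mpow P z * mpow P w = mpow P (z + w) := by
  rw [mpow, mpow, mpow, mfun_mul _ _ hP.isHermitian]
  refine mfun_congr _ _ hP.isHermitian (fun i => ?_)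
  rw [← Complex.exp_add, add_mul]

theorem mpow_conjTranspose (hP : P.PosDef) (z : ℂ) :
    (mpow P z)ᴴ = mpow P ((starRingEnd ℂ) z) := by
  rw [mpow, mpow, mfun_conjTranspose _ hP.isHermitian]
  refine mfun_congr _ _ hP.isHermitian (fun i => ?_)
  rw [← Complex.exp_conj, map_mul, Complex.conj_ofReal]

/-- real powers are positive definite -/
theorem mpow_real_posDef (hP : P.PosDef) (s : ℝ) : (mpow P (s : ℂ)).PosDef := by
  have h1 : mpow P (s : ℂ) = mfun (fun t => ((Real.exp (s * Real.log t) : ℝ) : ℂ)) P := by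
    rw [mpow]
    refine mfun_congr _ _ hP.isHermitian (fun i => ?_)
    rw [Complex.ofReal_exp, Complex.ofReal_mul]
  rw [h1]
  exact mfun_posDef _ hP.isHermitian (fun i => Real.exp_pos _)

theorem mpow_neg_mul (hP : P.PosDef) (z : ℂ) : mpow P (-z) * mpow P z = 1 := by
  rw [mpow_add hP, neg_add_cancel, mpow_zero hP]

theorem mpow_mul_neg (hP : P.PosDef) (z : ℂ) : mpow P z * mpow P (-z) = 1 := by
  rw [mpow_add hP, add_neg_cancel, mpow_zero hP]

/-- imaginary powers are unitary -/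
theorem mpow_imag_unitary (hP : P.PosDef) (t : ℝ) :
    mpow P (t * I) ∈ Matrix.unitaryGroup n ℂ := by
  rw [Matrix.mem_unitaryGroup_iff, Matrix.star_eq_conjTranspose, mpow_conjTranspose hP]
  have h1 : (starRingEnd ℂ) ((t : ℂ) * I) = -((t : ℂ) * I) := by
    rw [map_mul, Complex.conj_ofReal, Complex.conj_I, mul_neg]
  rw [h1, mpow_mul_neg hP]

theorem mlog_isHermitian (hP : P.PosDef) : (mlog P).IsHermitian := by
  rw [Matrix.IsHermitian, mlog, mfun_conjTranspose _ hP.isHermitian]
  refine mfun_congr _ _ hP.isHermitian (fun i => ?_)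
  rw [Complex.conj_ofReal]

theorem msqrt_mul_self (hP : P.PosDef) : msqrt P * msqrt P = P := by
  rw [msqrt, mpow_add hP, show (1 / 2 + 1 / 2 : ℂ) = 1 by norm_num, mpow_one hP]

theorem msqrt_posDef (hP : P.PosDef) : (msqrt P).PosDef := by
  have h := mpow_real_posDef hP (1 / 2 : ℝ)
  have h2 : (((1 / 2 : ℝ)) : ℂ) = (1 / 2 : ℂ) := by norm_num
  rw [h2] at h
  exact h

theorem msqrt_conjTranspose (hP : P.PosDef) : (msqrt P)ᴴ = msqrt P :=
  (msqrt_posDef hP).isHermitian

theorem msqrt_isUnit (hP : P.PosDef) : IsUnit (msqrt P) :=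
  (msqrt_posDef hP).isUnit

/-- `α N^{1/2} K* M K N^{1/2}` is positive definite -/
theorem rhoOf_posDef {α : ℝ} (hα : 0 < α) {K M N : Matrix n n ℂ} (hK : IsUnit K)
    (hM : M.PosDef) (hN : N.PosDef) : (rhoOf α K M N).PosDef := by
  have h1 : (Kᴴ * M * K).PosDef := by
    apply hM.conjTranspose_mul_mul_same
    exact Matrix.mulVec_injective_iff_isUnit.mpr hK
  have h2 : ((msqrt N)ᴴ * (Kᴴ * M * K) * msqrt N).PosDef := by
    apply h1.conjTranspose_mul_mul_same
    exact Matrix.mulVec_injective_iff_isUnit.mpr (msqrt_isUnit hN)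
  rw [msqrt_conjTranspose hN] at h2
  rw [rhoOf]
  refine h2.smul ?_
  exact_mod_cast hα

/-- trace of `α N^{1/2} K* M K N^{1/2}` is `α tr (K* M K N)` -/
theorem rhoOf_trace {α : ℝ} {K M N : Matrix n n ℂ} (hN : N.PosDef) :
    ((rhoOf α K M N).trace).re = α * qf K M N := by
  rw [rhoOf, Matrix.trace_smul, smul_eq_mul, Complex.re_ofReal_mul, qf]
  congr 2
  rw [Matrix.mul_assoc, Matrix.trace_mul_comm, Matrix.mul_assoc, msqrt_mul_self hN]

end Crest.Agent.NG
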