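import Crest.Agent.NG.Mfun

/-!
Chunk R342-F3: `z ↦ P^z` is entrywise analytic (a finite sum of exponentials, see `mfun_apply`),
with derivative `mlog P * mpow P z` (`mfun_mul`), and bounded on vertical strips
(`‖exp (z * log λ)‖ = exp (z.re * log λ)`, finitely many eigenvalues).
-/

set_option autoImplicit false

namespace Crest.Agent.NG
open Matrix Complex
open scoped ComplexOrder

variable {n : Type} [Fintype n] [DecidableEq n] {P : Matrix n n ℂ}

theorem mpow_hasDerivAt (hP : P.PosDef) (i j : n) (z : ℂ) :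
    HasDerivAt (fun z => mpow P z i j) ((mlog P * mpow P z) i j) z := by
  have hH := hP.isHermitian
  have h1 : (fun z => mpow P z i j) = fun z => ∑ l, (hH.eigenvectorUnitary : Matrix n n ℂ) i l *
      Complex.exp (z * (Real.log (hH.eigenvalues l) : ℂ)) *
      (starRingEnd ℂ) ((hH.eigenvectorUnitary : Matrix n n ℂ) j l) := by
    funext z
    exact mfun_apply _ hH i j
  have h2 : (mlog P * mpow P z) i j = ∑ l, (hH.eigenvectorUnitary : Matrix n n ℂ) i l *
      (Complex.exp (z * (Real.log (hH.eigenvalues l) : ℂ)) *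
        (1 * (Real.log (hH.eigenvalues l) : ℂ))) *
      (starRingEnd ℂ) ((hH.eigenvectorUnitary : Matrix n n ℂ) j l) := by
    unfold mlog mpow
    rw [mfun_mul _ _ hH, mfun_apply _ hH]
    refine Finset.sum_congr rfl fun l _ => ?_
    ring
  rw [h1, h2]
  refine HasDerivAt.fun_sum fun l _ => ?_
  exact ((((hasDerivAt_id z).mul_const (Real.log (hH.eigenvalues l) : ℂ)).cexp).const_mul _).mul_const _

theorem mpow_bdd (hP : P.PosDef) (a b : ℝ) :
    ∃ B : ℝ, ∀ z : ℂ, a ≤ z.re → z.re ≤ b → ∀ i j, ‖mpow P z i j‖ ≤ B := by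
  have hH := hP.isHermitian
  set U : Matrix n n ℂ := (hH.eigenvectorUnitary : Matrix n n ℂ) with hU
  refine ⟨∑ i, ∑ j, ∑ l, ‖U i l‖ * Real.exp ((|a| + |b|) * |Real.log (hH.eigenvalues l)|) *
    ‖U j l‖, fun z hza hzb i j => ?_⟩
  have h1 : mpow P z i j = ∑ l, U i l * Complex.exp (z * (Real.log (hH.eigenvalues l) : ℂ)) *
      (starRingEnd ℂ) (U j l) := mfun_apply _ hH i j
  have hz : |z.re| ≤ |a| + |b| := by
    rw [abs_le]
    constructor
    · have := neg_abs_le a
      have := abs_nonneg b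
      linarith
    · have := le_abs_self b
      have := abs_nonneg a
      linarith
  have h2 : ‖mpow P z i j‖ ≤ ∑ l, ‖U i l‖ *
      Real.exp ((|a| + |b|) * |Real.log (hH.eigenvalues l)|) * ‖U j l‖ := by
    rw [h1]
    refine (norm_sum_le _ _).trans (Finset.sum_le_sum fun l _ => ?_)
    rw [norm_mul, norm_mul, RCLike.norm_conj, Complex.norm_exp]
    refine mul_le_mul_of_nonneg_right (mul_le_mul_of_nonneg_left (Real.exp_le_exp.2 ?_)
      (norm_nonneg _)) (norm_nonneg _)
    rw [Complex.re_mul_ofReal]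
    refine (le_abs_self _).trans ?_
    rw [abs_mul]
    exact mul_le_mul_of_nonneg_right hz (abs_nonneg _)
  refine h2.trans ?_
  have hnn : ∀ i j l, 0 ≤ ‖U i l‖ *
      Real.exp ((|a| + |b|) * |Real.log (hH.eigenvalues l)|) * ‖U j l‖ := fun i j l => by positivity
  refine (Finset.single_le_sum (f := fun j => ∑ l, ‖U i l‖ *
      Real.exp ((|a| + |b|) * |Real.log (hH.eigenvalues l)|) * ‖U j l‖)
    (fun j _ => Finset.sum_nonneg fun l _ => hnn i j l) (Finset.mem_univ j)).trans ?_
  exact Finset.single_le_sum (f := fun i => ∑ j, ∑ l, ‖U i l‖ *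
      Real.exp ((|a| + |b|) * |Real.log (hH.eigenvalues l)|) * ‖U j l‖)
    (fun i _ => Finset.sum_nonneg fun j _ => Finset.sum_nonneg fun l _ => hnn i j l)
    (Finset.mem_univ i)

end Crest.Agent.NG
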