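import Crest.Agent.NG.Cond

/-!
Chunk R342-H4 (`pair`).

`pair`: given the public data the two strings are independent and have the right joint law:
`∑_z Pr z g(z) β(condX SX f z, condY SY h z) = ∑_z Pr z g(z) β(f(fst∘z), h(snd∘z))`
when every coordinate is revealed on at least one side and `g` depends only on the coordinates
revealed on both sides. Proof: expand, swap: `∑_{x,y} β(f x, h y) ∑_z g(z) ∏_j [μ(z_j)
kerX_j(z_j,x_j) kerY_j(z_j,y_j)]`. If `j ∈ SX ∩ SY` the factor forces `z_j = (x_j,y_j)`, so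
`g(z) = g(zip x y)` whenever the product is nonzero; then `∑_z ∏_j = ∏_j ∑_w μ(w) kerX kerY` and
each factor is `μ(x_j,y_j)`: for `j ∈ SX \ SY`: `∑_w μ(w) 1(w.1 = x_j) kY(x_j,y_j) = μX(x_j)
kY(x_j,y_j) = μ(x_j,y_j)` (`mu_eq_kY`).
-/

set_option autoImplicit false

namespace Crest.Agent.NG

variable {k : ℕ} {X Y : Type} [Fintype X] [Fintype Y] [DecidableEq X] [DecidableEq Y]
variable {V W : Type} [AddCommGroup V] [Module ℝ V] [AddCommGroup W] [Module ℝ W]
variable {μ : X → Y → ℝ}

theorem pair_factor (hμ : IsProb μ) (p q : Prop) [Decidable p] [Decidable q] (hpq : p ∨ q)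
    (x : X) (y : Y) :
    ∑ w : X × Y, μ w.1 w.2 * kerX μ p w x * kerY μ q w y = μ x y := by
  rw [Fintype.sum_prod_type]
  unfold kerX kerY
  by_cases hp : p <;> by_cases hq : q
  · simp only [hp, hq, if_true]
    simp
  · simp only [hp, hq, if_true, if_false]
    rw [Finset.sum_eq_single x]
    · simp only [if_true, mul_one]
      rw [← Finset.sum_mul, ← mu_eq_kY hμ x y]
    · intro b _ hb
      simp [Ne.symm hb]
    · simp
  · simp only [hp, hq, if_true, if_false]
    rw [Finset.sum_comm, Finset.sum_eq_single y]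
    · simp only [if_true, mul_one]
      rw [← Finset.sum_mul, ← mu_eq_kX hμ x y]
    · intro b _ hb
      simp [Ne.symm hb]
    · simp
  · exact absurd hpq (by tauto)

theorem pair (hμ : IsProb μ) (SX SY : Finset (Fin k)) (hcov : ∀ j, j ∈ SX ∨ j ∈ SY)
    (β : V →ₗ[ℝ] W →ₗ[ℝ] ℝ) (f : (Fin k → X) → V) (h : (Fin k → Y) → W)
    (g : (Fin k → X × Y) → ℝ)
    (hg : ∀ z z' : Fin k → X × Y, (∀ j, j ∈ SX → j ∈ SY → z j = z' j) → g z = g z') :
    ∑ z, Pr μ z * (g z * β (condX μ SX f z) (condY μ SY h z)) =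
      ∑ z, Pr μ z * (g z * β (f (fun j => (z j).1)) (h (fun j => (z j).2))) := by
  classical
  -- expansion of the bilinear form
  have hexp : ∀ z : Fin k → X × Y, β (condX μ SX f z) (condY μ SY h z) =
      ∑ x : Fin k → X, ∑ y : Fin k → Y,
        ((∏ j, kerX μ (j ∈ SX) (z j) (x j)) * (∏ j, kerY μ (j ∈ SY) (z j) (y j))) *
          β (f x) (h y) := by
    intro z
    unfold condX
    rw [map_sum β, LinearMap.sum_apply]
    refine Finset.sum_congr rfl fun x _ => ?_
    unfold condY
    rw [map_smul β, LinearMap.smul_apply, map_sum (β (f x)), smul_eq_mul, Finset.mul_sum]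
    refine Finset.sum_congr rfl fun y _ => ?_
    rw [map_smul (β (f x)), smul_eq_mul]
    ring
  -- the inner sum over `z`
  have hin : ∀ (x : Fin k → X) (y : Fin k → Y),
      ∑ z : Fin k → X × Y, g z * ∏ j, (μ (z j).1 (z j).2 * kerX μ (j ∈ SX) (z j) (x j) *
        kerY μ (j ∈ SY) (z j) (y j)) =
      g (fun j => (x j, y j)) * ∏ j, μ (x j) (y j) := by
    intro x y
    have h1 : ∀ z : Fin k → X × Y,
        g z * ∏ j, (μ (z j).1 (z j).2 * kerX μ (j ∈ SX) (z j) (x j) *
          kerY μ (j ∈ SY) (z j) (y j)) =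
        g (fun j => (x j, y j)) * ∏ j, (μ (z j).1 (z j).2 * kerX μ (j ∈ SX) (z j) (x j) *
          kerY μ (j ∈ SY) (z j) (y j)) := by
      intro z
      by_cases hz : (∏ j, (μ (z j).1 (z j).2 * kerX μ (j ∈ SX) (z j) (x j) *
          kerY μ (j ∈ SY) (z j) (y j))) = 0
      · rw [hz, mul_zero, mul_zero]
      · have hgz : g z = g (fun j => (x j, y j)) := by
          apply hg
          intro j hjX hjY
          have hj := Finset.prod_ne_zero_iff.mp hz j (Finset.mem_univ j)
          have hX : kerX μ (j ∈ SX) (z j) (x j) ≠ 0 := by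
            intro h0; apply hj; rw [h0]; ring
          have hY : kerY μ (j ∈ SY) (z j) (y j) ≠ 0 := by
            intro h0; apply hj; rw [h0]; ring
          unfold kerX at hX
          unfold kerY at hY
          rw [if_pos hjX] at hX
          rw [if_pos hjY] at hY
          have hx : x j = (z j).1 := by
            by_contra hne
            exact hX (if_neg hne)
          have hy : y j = (z j).2 := by
            by_contra hne
            exact hY (if_neg hne)
          rw [hx, hy]
        rw [hgz]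
    rw [Finset.sum_congr rfl fun z _ => h1 z, ← Finset.mul_sum]
    congr 1
    have h2 := Finset.prod_univ_sum (fun _ : Fin k => (Finset.univ : Finset (X × Y)))
      (fun j w => μ w.1 w.2 * kerX μ (j ∈ SX) w (x j) * kerY μ (j ∈ SY) w (y j))
    rw [Fintype.piFinset_univ] at h2
    rw [← h2]
    refine Finset.prod_congr rfl fun j _ => ?_
    exact pair_factor hμ (j ∈ SX) (j ∈ SY) (hcov j) (x j) (y j)
  -- left-hand side
  have hL : ∑ z, Pr μ z * (g z * β (condX μ SX f z) (condY μ SY h z)) =
      ∑ x : Fin k → X, ∑ y : Fin k → Y,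
        (g (fun j => (x j, y j)) * ∏ j, μ (x j) (y j)) * β (f x) (h y) := by
    have : ∀ z : Fin k → X × Y, Pr μ z * (g z * β (condX μ SX f z) (condY μ SY h z)) =
        ∑ x : Fin k → X, ∑ y : Fin k → Y,
          (g z * ∏ j, (μ (z j).1 (z j).2 * kerX μ (j ∈ SX) (z j) (x j) *
            kerY μ (j ∈ SY) (z j) (y j))) * β (f x) (h y) := by
      intro z
      rw [hexp z, Finset.mul_sum, Finset.mul_sum]
      refine Finset.sum_congr rfl fun x _ => ?_
      rw [Finset.mul_sum, Finset.mul_sum]
      refine Finset.sum_congr rfl fun y _ => ?_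
      unfold Pr
      rw [Finset.prod_mul_distrib, Finset.prod_mul_distrib]
      ring
    rw [Finset.sum_congr rfl fun z _ => this z, Finset.sum_comm]
    refine Finset.sum_congr rfl fun x _ => ?_
    rw [Finset.sum_comm]
    refine Finset.sum_congr rfl fun y _ => ?_
    rw [← Finset.sum_mul, hin x y]
  rw [hL]
  -- right-hand side
  rw [← Fintype.sum_prod_type (fun p : (Fin k → X) × (Fin k → Y) =>
    (g (fun j => (p.1 j, p.2 j)) * ∏ j, μ (p.1 j) (p.2 j)) * β (f p.1) (h p.2))]
  symm
  refine Fintype.sum_equiv (Equiv.arrowProdEquivProdArrow (Fin k) (fun _ => X) (fun _ => Y)) _ _ ?_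
  intro z
  simp only [Equiv.arrowProdEquivProdArrow_apply, Prod.mk.eta, Pr]
  ring

end Crest.Agent.NG
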