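import Crest.Agent.NG.PerturbEps

/-!
Chunk R342-L2c (`reduce_nondeg`): it suffices to bound nondegenerate strategies:
`embed_square` and `perturb_eps` (the finitely many coefficients of `probWinsAtLeast` do not depend
on the strategy; let `ε → 0`).
-/

set_option autoImplicit false

namespace Crest.Agent.NG
open Matrix Complex Crest.MathPhysics.NonlocalGame
open scoped ComplexOrder

theorem reduce_nondeg {G : Game} {k : ℕ} (hk : 1 ≤ k) (t β : ℝ)
    (h : ∀ (d : ℕ) (S : Strategy G k d d), Nondeg S → S.probWinsAtLeast t ≤ β)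
    (dA dB : ℕ) (S : Strategy G k dA dB) : S.probWinsAtLeast t ≤ β := by
  obtain ⟨d, S₁, hS₁⟩ := embed_square hk S
  have e : S.probWinsAtLeast t = S₁.probWinsAtLeast t := by
    simp only [Strategy.probWinsAtLeast, hS₁]
  rw [e]
  set C : ℝ := ∑ x : Fin k → Fin G.nX, ∑ y : Fin k → Fin G.nY,
    (∏ i, G.prob (x i) (y i)) * ∑ _a : Fin k → Fin G.nA, ∑ _b : Fin k → Fin G.nB, (1 : ℝ) with hCdef
  have hw : ∀ (x : Fin k → Fin G.nX) (y : Fin k → Fin G.nY), 0 ≤ ∏ i, G.prob (x i) (y i) :=
    fun x y => Finset.prod_nonneg fun i _ => G.prob_nonneg _ _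
  have hC : 0 ≤ C := by
    refine Finset.sum_nonneg fun x _ => Finset.sum_nonneg fun y _ => mul_nonneg (hw x y) ?_
    exact Finset.sum_nonneg fun a _ => Finset.sum_nonneg fun b _ => zero_le_one
  refine le_of_forall_pos_le_add (fun ε hε => ?_)
  obtain ⟨S', hS', hd⟩ := perturb_eps hk S₁ (ε / (C + 1)) (by positivity)
  have h1 := h d S' hS'
  have hε' : 0 < ε / (C + 1) := by positivity
  have h2 : S₁.probWinsAtLeast t ≤ S'.probWinsAtLeast t + C * (ε / (C + 1)) := by
    unfold Strategy.probWinsAtLeast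
    rw [hCdef, Finset.sum_mul, ← Finset.sum_add_distrib]
    refine Finset.sum_le_sum fun x _ => ?_
    rw [Finset.sum_mul, ← Finset.sum_add_distrib]
    refine Finset.sum_le_sum fun y _ => ?_
    rw [mul_assoc, ← mul_add]
    refine mul_le_mul_of_nonneg_left ?_ (hw x y)
    rw [Finset.sum_mul, ← Finset.sum_add_distrib]
    refine Finset.sum_le_sum fun a _ => ?_
    rw [Finset.sum_mul, ← Finset.sum_add_distrib]
    refine Finset.sum_le_sum fun b _ => ?_
    have h3 := abs_le.mp (hd x y a b)
    split_ifs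
    · linarith [h3.1, h3.2]
    · linarith
  have h4 : C * (ε / (C + 1)) ≤ ε := by
    rw [mul_div_assoc', div_le_iff₀ (by positivity)]
    nlinarith
  linarith

end Crest.Agent.NG
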