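import Crest.Agent.NG.Embed

/-!
Chunk R342-L2b (`perturb_eps`): nondegenerate strategies are dense. For small `ε > 0`:
`K_ε = (K + ε 1)/√(nsq (K + ε 1))` is invertible for all but finitely many `ε`
(`det (K + ε 1)` is a nonzero polynomial in `ε`: charpoly of `-K`), `M_ε = (1-ε) M + ε nA^{-k} 1`,
`N_ε` similarly, are positive definite POVMs. `answerProb` is a continuous function of
`(K, M, N)` (finite sums), hence of `ε` near `0`, and `probWinsAtLeast t` is a finite sum of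
`answerProb`s with fixed coefficients.
-/

set_option autoImplicit false

namespace Crest.Agent.NG
open Matrix Complex Crest.MathPhysics.NonlocalGame
open scoped ComplexOrder

/-- nondegenerate strategies -/
def Nondeg {G : Game} {k d : ℕ} (S : Strategy G k d d) : Prop :=
  (∀ x a, (S.M x a).PosDef) ∧ (∀ y b, (S.N y b).PosDef) ∧ IsUnit (KOf S.ψ)

namespace PE

open scoped Kronecker Topology
open Filter

/-- Mixing with the uniform POVM. -/
noncomputable def mixP {d : ℕ} (c e : ℝ) (P : Matrix (Fin d) (Fin d) ℂ) :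
    Matrix (Fin d) (Fin d) ℂ :=
  (((1 - e : ℝ)) : ℂ) • P + (((e * c : ℝ)) : ℂ) • 1

theorem mixP_posDef {d : ℕ} {c e : ℝ} (hc : 0 < c) (he : 0 < e) (he1 : e < 1)
    {P : Matrix (Fin d) (Fin d) ℂ} (hP : P.PosSemidef) : (mixP c e P).PosDef := by
  unfold mixP
  refine PosDef.posSemidef_add ?_ ?_
  · refine hP.smul ?_
    rw [← Complex.ofReal_zero]
    exact_mod_cast (sub_nonneg.2 he1.le)
  · refine PosDef.one.smul ?_
    rw [← Complex.ofReal_zero]
    exact_mod_cast mul_pos he hc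

theorem mixP_sum {d : ℕ} {A : Type} [Fintype A] {c e : ℝ} (hc : (Fintype.card A : ℝ) * c = 1)
    (P : A → Matrix (Fin d) (Fin d) ℂ) (hP : ∑ a, P a = 1) : ∑ a, mixP c e (P a) = 1 := by
  unfold mixP
  rw [Finset.sum_add_distrib, ← Finset.smul_sum, hP, Finset.sum_const, Finset.card_univ,
    ← Nat.cast_smul_eq_nsmul ℂ, smul_smul, ← add_smul]
  have h : (((1 - e : ℝ)) : ℂ) + ((Fintype.card A : ℕ) : ℂ) * (((e * c : ℝ)) : ℂ) = 1 := by
    have h1 : (1 - e) + (Fintype.card A : ℝ) * (e * c) = 1 := by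
      calc (1 - e) + (Fintype.card A : ℝ) * (e * c)
          = 1 - e + e * ((Fintype.card A : ℝ) * c) := by ring
        _ = 1 := by rw [hc]; ring
    have h2 := congrArg (fun r : ℝ => (r : ℂ)) h1
    simpa using h2
  rw [h, one_smul]

/-- The unnormalised perturbed vector. -/
noncomputable def vec (d : ℕ) (ψ : Fin d × Fin d → ℂ) (e : ℝ) (i : Fin d × Fin d) : ℂ :=
  ψ i + (e : ℂ) * (if i.1 = i.2 then 1 else 0)

/-- Its norm. -/
noncomputable def vnorm (d : ℕ) (ψ : Fin d × Fin d → ℂ) (e : ℝ) : ℝ :=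
  Real.sqrt (∑ i, ‖vec d ψ e i‖ ^ 2)

/-- The normalised vector. -/
noncomputable def nvec (d : ℕ) (ψ : Fin d × Fin d → ℂ) (e : ℝ) (i : Fin d × Fin d) : ℂ :=
  ((vnorm d ψ e)⁻¹ : ℝ) * vec d ψ e i

theorem continuous_vec (d : ℕ) (ψ : Fin d × Fin d → ℂ) (i : Fin d × Fin d) :
    Continuous (fun e => vec d ψ e i) := by
  unfold vec
  fun_prop

theorem continuous_vnorm (d : ℕ) (ψ : Fin d × Fin d → ℂ) : Continuous (vnorm d ψ) := by
  unfold vnorm
  exact Real.continuous_sqrt.comp (continuous_finsetSum _ fun i _ => (continuous_vec d ψ i).norm.pow 2)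

theorem vnorm_zero (d : ℕ) (ψ : Fin d × Fin d → ℂ) (h : ∑ i, ‖ψ i‖ ^ 2 = 1) :
    vnorm d ψ 0 = 1 := by
  unfold vnorm vec
  simp [h]

theorem nvec_norm (d : ℕ) (ψ : Fin d × Fin d → ℂ) (e : ℝ) (h : 0 < vnorm d ψ e) :
    ∑ i, ‖nvec d ψ e i‖ ^ 2 = 1 := by
  unfold nvec
  have h2 : vnorm d ψ e ^ 2 = ∑ i, ‖vec d ψ e i‖ ^ 2 :=
    Real.sq_sqrt (Finset.sum_nonneg fun i _ => by positivity)
  have h3 : ∀ i, ‖(((vnorm d ψ e)⁻¹ : ℝ) : ℂ) * vec d ψ e i‖ ^ 2 =
      ((vnorm d ψ e)⁻¹) ^ 2 * ‖vec d ψ e i‖ ^ 2 := by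
    intro i
    rw [norm_mul, Complex.norm_real, Real.norm_eq_abs, mul_pow, sq_abs]
  simp only [h3]
  rw [← Finset.mul_sum, ← h2]
  field_simp

/-- The value as a function. -/
noncomputable def val {d : ℕ} (ψ : Fin d × Fin d → ℂ) (P Q : Matrix (Fin d) (Fin d) ℂ) : ℝ :=
  (dotProduct (star ψ) ((P ⊗ₖ Q).mulVec ψ)).re

theorem val_eq {d : ℕ} (ψ : Fin d × Fin d → ℂ) (P Q : Matrix (Fin d) (Fin d) ℂ) :
    val ψ P Q = (∑ i, star (ψ i) * ∑ j, P i.1 j.1 * Q i.2 j.2 * ψ j).re := by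
  unfold val dotProduct mulVec dotProduct
  simp only [kroneckerMap_apply, Pi.star_apply]

theorem tendsto_val {d : ℕ} {l : Filter ℝ} {ψ : ℝ → Fin d × Fin d → ℂ}
    {P Q : ℝ → Matrix (Fin d) (Fin d) ℂ} {ψ0 : Fin d × Fin d → ℂ}
    {P0 Q0 : Matrix (Fin d) (Fin d) ℂ} (hψ : ∀ i, Tendsto (fun e => ψ e i) l (𝓝 (ψ0 i)))
    (hP : ∀ i j, Tendsto (fun e => P e i j) l (𝓝 (P0 i j)))
    (hQ : ∀ i j, Tendsto (fun e => Q e i j) l (𝓝 (Q0 i j))) :
    Tendsto (fun e => val (ψ e) (P e) (Q e)) l (𝓝 (val ψ0 P0 Q0)) := by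
  simp only [val_eq]
  refine (Complex.continuous_re.tendsto _).comp ?_
  refine tendsto_finsetSum _ fun i _ => ?_
  refine Tendsto.mul ?_ ?_
  · exact (continuous_star.tendsto _).comp (hψ i)
  · exact tendsto_finsetSum _ fun j _ => ((hP _ _).mul (hQ _ _)).mul (hψ j)

theorem tendsto_mixP {d : ℕ} (c : ℝ) (P : Matrix (Fin d) (Fin d) ℂ) (i j : Fin d) :
    Tendsto (fun e => mixP c e P i j) (𝓝 0) (𝓝 (P i j)) := by
  have hc : Continuous (fun e => mixP c e P i j) := by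
    unfold mixP
    simp only [Matrix.add_apply, Matrix.smul_apply, smul_eq_mul]
    fun_prop
  have h := hc.tendsto 0
  have e0 : mixP c 0 P i j = P i j := by simp [mixP]
  rwa [e0] at h

theorem tendsto_nvec (d : ℕ) (ψ : Fin d × Fin d → ℂ) (h : ∑ i, ‖ψ i‖ ^ 2 = 1)
    (i : Fin d × Fin d) : Tendsto (fun e => nvec d ψ e i) (𝓝 0) (𝓝 (ψ i)) := by
  have h1 : Tendsto (vnorm d ψ) (𝓝 0) (𝓝 1) := by
    have := (continuous_vnorm d ψ).tendsto 0
    rwa [vnorm_zero d ψ h] at this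
  have h2 : Tendsto (fun e => vec d ψ e i) (𝓝 0) (𝓝 (ψ i)) := by
    have := (continuous_vec d ψ i).tendsto 0
    have e0 : vec d ψ 0 i = ψ i := by simp [vec]
    rwa [e0] at this
  have h3 : Tendsto (fun e => (((vnorm d ψ e)⁻¹ : ℝ) : ℂ)) (𝓝 0) (𝓝 1) := by
    have := (Complex.continuous_ofReal.tendsto _).comp (h1.inv₀ one_ne_zero)
    rw [inv_one, Complex.ofReal_one] at this
    exact this
  have h4 := h3.mul h2
  rw [one_mul] at h4
  exact h4

/-- The perturbed strategy. -/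
noncomputable def pert {G : Game} {k d : ℕ} (S : Strategy G k d d) (e : ℝ) (he : 0 < e)
    (he1 : e < 1) (hn : 0 < vnorm d S.ψ e) (cA cB : ℝ) (hcA : 0 < cA) (hcB : 0 < cB)
    (hA : (Fintype.card (Fin k → Fin G.nA) : ℝ) * cA = 1)
    (hB : (Fintype.card (Fin k → Fin G.nB) : ℝ) * cB = 1) : Strategy G k d d where
  ψ := nvec d S.ψ e
  ψ_norm := nvec_norm d S.ψ e hn
  M x a := mixP cA e (S.M x a)
  N y b := mixP cB e (S.N y b)
  M_posSemidef x a := (mixP_posDef hcA he he1 (S.M_posSemidef x a)).posSemidef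
  N_posSemidef y b := (mixP_posDef hcB he he1 (S.N_posSemidef y b)).posSemidef
  M_sum x := mixP_sum hA _ (S.M_sum x)
  N_sum y := mixP_sum hB _ (S.N_sum y)

theorem eventually_det {d : ℕ} (K : Matrix (Fin d) (Fin d) ℂ) :
    ∀ᶠ e : ℝ in 𝓝[>] 0, (K + (e : ℂ) • (1 : Matrix (Fin d) (Fin d) ℂ)).det ≠ 0 := by
  have hfin : {e : ℝ | (K + (e : ℂ) • (1 : Matrix (Fin d) (Fin d) ℂ)).det = 0}.Finite := by
    have h1 : ((-K).charpoly.roots.toFinset : Set ℂ).Finite := Finset.finite_toSet _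
    refine (h1.preimage (f := fun e : ℝ => (e : ℂ)) (Complex.ofReal_injective.injOn)).subset ?_
    intro e he
    simp only [Set.mem_preimage, Finset.mem_coe, Multiset.mem_toFinset]
    rw [Polynomial.mem_roots (Matrix.charpoly_monic _).ne_zero, Polynomial.IsRoot,
      Matrix.eval_charpoly]
    have e2 : Matrix.scalar (Fin d) (e : ℂ) - -K = K + (e : ℂ) • (1 : Matrix (Fin d) (Fin d) ℂ) := by
      rw [sub_neg_eq_add, add_comm]
      congr 1
      ext i j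
      simp [Matrix.scalar_apply, Matrix.diagonal_apply, Matrix.one_apply]
    rw [e2]
    exact he
  have hne : ∀ᶠ e : ℝ in 𝓝[≠] 0,
      e ∉ {e : ℝ | (K + (e : ℂ) • (1 : Matrix (Fin d) (Fin d) ℂ)).det = 0} := by
    have h2 := (hfin.subset (Set.sdiff_subset (t := {(0 : ℝ)}))).isClosed.isOpen_compl
    have h3 : ({e : ℝ | (K + (e : ℂ) • (1 : Matrix (Fin d) (Fin d) ℂ)).det = 0} \ {0})ᶜ ∈
        𝓝 (0 : ℝ) := h2.mem_nhds (by simp)
    filter_upwards [mem_nhdsWithin_of_mem_nhds h3, self_mem_nhdsWithin] with e he he0 hmem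
    exact he ⟨hmem, he0⟩
  exact (hne.filter_mono (nhdsWithin_mono _ (fun x hx => ne_of_gt hx))).mono fun e he => he

end PE

open PE Filter Topology in
theorem perturb_eps {G : Game} {k d : ℕ} (hk : 1 ≤ k) (S : Strategy G k d d) (ε : ℝ) (hε : 0 < ε) :
    ∃ S' : Strategy G k d d, Nondeg S' ∧
      ∀ x y a b, |S'.answerProb x y a b - S.answerProb x y a b| ≤ ε := by
  obtain ⟨hA, hB⟩ := answers_pos hk S
  have hcA : (0 : ℝ) < Fintype.card (Fin k → Fin G.nA) := by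
    have : Nonempty (Fin G.nA) := ⟨⟨0, hA⟩⟩
    exact_mod_cast Fintype.card_pos
  have hcB : (0 : ℝ) < Fintype.card (Fin k → Fin G.nB) := by
    have : Nonempty (Fin G.nB) := ⟨⟨0, hB⟩⟩
    exact_mod_cast Fintype.card_pos
  set cA : ℝ := (Fintype.card (Fin k → Fin G.nA) : ℝ)⁻¹ with hcAd
  set cB : ℝ := (Fintype.card (Fin k → Fin G.nB) : ℝ)⁻¹ with hcBd
  have hcA' : 0 < cA := inv_pos.2 hcA
  have hcB' : 0 < cB := inv_pos.2 hcB
  have hA1 : (Fintype.card (Fin k → Fin G.nA) : ℝ) * cA = 1 := mul_inv_cancel₀ hcA.ne'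
  have hB1 : (Fintype.card (Fin k → Fin G.nB) : ℝ) * cB = 1 := mul_inv_cancel₀ hcB.ne'
  have hval : ∀ x y a b, ∀ᶠ e : ℝ in 𝓝[>] 0,
      |val (nvec d S.ψ e) (mixP cA e (S.M x a)) (mixP cB e (S.N y b)) - S.answerProb x y a b| ≤
        ε := by
    intro x y a b
    have h := tendsto_val (l := 𝓝 0) (tendsto_nvec d S.ψ S.ψ_norm)
      (tendsto_mixP cA (S.M x a)) (tendsto_mixP cB (S.N y b))
    have h2 := h.mono_left (nhdsWithin_le_nhds (s := Set.Ioi (0 : ℝ)))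
    rw [Metric.tendsto_nhds] at h2
    filter_upwards [h2 ε hε] with e he
    rw [Real.dist_eq] at he
    exact he.le
  have hval' : ∀ᶠ e : ℝ in 𝓝[>] 0, ∀ x y a b,
      |val (nvec d S.ψ e) (mixP cA e (S.M x a)) (mixP cB e (S.N y b)) - S.answerProb x y a b| ≤
        ε := by
    simp only [eventually_all]
    exact hval
  have hn : ∀ᶠ e : ℝ in 𝓝[>] 0, 0 < vnorm d S.ψ e := by
    have h := ((continuous_vnorm d S.ψ).tendsto 0).mono_left
      (nhdsWithin_le_nhds (s := Set.Ioi (0 : ℝ)))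
    rw [vnorm_zero d S.ψ S.ψ_norm] at h
    exact h.eventually (lt_mem_nhds zero_lt_one)
  have he1 : ∀ᶠ e : ℝ in 𝓝[>] 0, e < 1 :=
    mem_nhdsWithin_of_mem_nhds (Iio_mem_nhds zero_lt_one)
  obtain ⟨e, ⟨⟨⟨⟨hv, hne⟩, h1⟩, hdet⟩, h0⟩⟩ :=
    ((((hval'.and hn).and he1).and (eventually_det (KOf S.ψ))).and
      (self_mem_nhdsWithin)).exists
  have h0' : 0 < e := h0
  refine ⟨pert S e h0' h1 hne cA cB hcA' hcB' hA1 hB1, ⟨?_, ?_, ?_⟩, ?_⟩
  · exact fun x a => mixP_posDef hcA' h0' h1 (S.M_posSemidef x a)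
  · exact fun y b => mixP_posDef hcB' h0' h1 (S.N_posSemidef y b)
  · have e2 : KOf (nvec d S.ψ e) =
        (((vnorm d S.ψ e)⁻¹ : ℝ) : ℂ) • (KOf S.ψ + (e : ℂ) • (1 : Matrix (Fin d) (Fin d) ℂ)) := by
      ext i j
      simp [KOf, nvec, PE.vec, Matrix.one_apply]
    show IsUnit (KOf (nvec d S.ψ e))
    rw [e2, Matrix.isUnit_iff_isUnit_det, Matrix.det_smul]
    refine (isUnit_iff_ne_zero.2 ?_)
    refine mul_ne_zero (pow_ne_zero _ ?_) hdet
    exact_mod_cast (inv_pos.2 hne).ne'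
  · exact fun x y a b => hv x y a b

end Crest.Agent.NG
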