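import Crest.Agent.NG.QfPair
import Crest.Agent.NG.CondPos

/-!
Standing hypotheses (`StratHyp`) and chunk R342-H6a (`StratHyp.total`): `qf_hybrid` for every
`(a, b)` with `g z = w z a b`, summed.
-/

set_option autoImplicit false

namespace Crest.Agent.NG
open Matrix Complex
open scoped ComplexOrder

variable {k : ℕ} {X Y : Type} [Fintype X] [Fintype Y] [DecidableEq X] [DecidableEq Y]
variable {A B n : Type} [Fintype A] [Fintype B] [Fintype n] [DecidableEq n]

/-- standing hypotheses on the `k`-fold strategy and the event weight -/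
structure StratHyp (μ : X → Y → ℝ) (C : Finset (Fin k)) (M : (Fin k → X) → A → Matrix n n ℂ)
    (N : (Fin k → Y) → B → Matrix n n ℂ) (K : Matrix n n ℂ)
    (w : (Fin k → X × Y) → A → B → ℝ) : Prop where
  hμ : IsProb μ
  hM : ∀ x, IsPDPOVM (M x)
  hN : ∀ y, IsPDPOVM (N y)
  hK : IsUnit K
  hK1 : nsq K = 1
  hw : ∀ z a b, 0 < w z a b
  hwC : ∀ z z' : Fin k → X × Y, (∀ j ∈ C, z j = z' j) → ∀ a b, w z a b = w z' a b
  hw1 : ∑ z, Pr μ z * ∑ a, ∑ b, w z a b *
    qf K (M (fun j => (z j).1) a) (N (fun j => (z j).2) b) = 1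

variable {μ : X → Y → ℝ} {C : Finset (Fin k)} {M : (Fin k → X) → A → Matrix n n ℂ}
    {N : (Fin k → Y) → B → Matrix n n ℂ} {K : Matrix n n ℂ}
    {w : (Fin k → X × Y) → A → B → ℝ}

/-- total mass in the hybrid `s` (`qf_hybrid` for every `(a,b)`, with `g z = w z a b`) -/
theorem StratHyp.total (H : StratHyp μ C M N K w) (s : ℕ) :
    ∑ z, Pr μ z * ∑ a, ∑ b, w z a b *
      qf K (condX μ (SXs C s) (fun x => M x a) z) (condY μ (SYs C s) (fun y => N y b) z) = 1 := by
  have key : ∀ F : (Fin k → X × Y) → A → B → ℝ,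
      ∑ z, Pr μ z * ∑ a, ∑ b, w z a b * F z a b =
        ∑ a, ∑ b, ∑ z, Pr μ z * (w z a b * F z a b) := by
    intro F
    simp only [Finset.mul_sum]
    rw [Finset.sum_comm]
    refine Finset.sum_congr rfl fun a _ => ?_
    rw [Finset.sum_comm]
  rw [key (fun z a b => qf K (condX μ (SXs C s) (fun x => M x a) z)
    (condY μ (SYs C s) (fun y => N y b) z)), ← H.hw1,
    key (fun z a b => qf K (M (fun j => (z j).1) a) (N (fun j => (z j).2) b))]
  refine Finset.sum_congr rfl fun a _ => Finset.sum_congr rfl fun b _ => ?_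
  exact qf_hybrid H.hμ C s K (fun x => M x a) (fun y => N y b) (fun z => w z a b)
    (fun z z' h => H.hwC z z' h a b)

end Crest.Agent.NG
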