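import Crest.Agent.NG.PotDefs
import Crest.Agent.NG.Klein
import Crest.Agent.NG.Mpow

/-!
Chunk R342-H6b: the potentials are nonnegative. `klein` and `rhoOf_trace`, `rhoOf_posDef`:
`dpot ≥ w qf K M̄ N̄ - |A|⁻¹ qf K 1 N̄`; summing: `1` (`StratHyp.total`) minus
`∑_z Pr z ∑_a |A|⁻¹ ∑_b qf K 1 (condY (N · b) z) = ∑ Pr z |A| |A|⁻¹ qf K 1 1 = nsq K = 1`
(`condY_sum`, `condY_const`, `N y` POVM; `A` is nonempty by `hw1`).
`HA` is `HB` with the roles of the players exchanged: `qf Kᴴ N̄ M̄ = qf K M̄ N̄`.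
-/

set_option autoImplicit false

namespace Crest.Agent.NG
open Matrix Complex
open scoped ComplexOrder

variable {k : ℕ} {X Y : Type} [Fintype X] [Fintype Y] [DecidableEq X] [DecidableEq Y]
variable {A B n : Type} [Fintype A] [Fintype B] [Fintype n] [DecidableEq n]

variable {μ : X → Y → ℝ} {C : Finset (Fin k)} {M : (Fin k → X) → A → Matrix n n ℂ}
    {N : (Fin k → Y) → B → Matrix n n ℂ} {K : Matrix n n ℂ}
    {w : (Fin k → X × Y) → A → B → ℝ}

/-- Klein lower bound for one term of the potential -/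
theorem potLower_dpot_ge {α α' : ℝ} (hα : 0 < α) (hα' : 0 < α') {K P Q : Matrix n n ℂ} (hK : IsUnit K)
    (hP : P.PosDef) (hQ : Q.PosDef) :
    α * qf K P Q - α' * qf K 1 Q ≤ dpot α α' K P Q := by
  have h := klein (rhoOf_posDef hα hK hP hQ) (rhoOf_posDef hα' hK (Matrix.PosDef.one) hQ)
  rw [rhoOf_trace hQ, rhoOf_trace hQ] at h
  exact h

omit [DecidableEq n] in
theorem potLower_qf_swap (K P Q : Matrix n n ℂ) : qf Kᴴ P Q = qf K Q P := by
  unfold qf
  rw [Matrix.conjTranspose_conjTranspose]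
  congr 1
  calc (K * P * Kᴴ * Q).trace = ((K * P) * (Kᴴ * Q)).trace := by rw [Matrix.mul_assoc]
    _ = ((Kᴴ * Q) * (K * P)).trace := Matrix.trace_mul_comm _ _
    _ = (Kᴴ * Q * K * P).trace := by simp only [Matrix.mul_assoc]

omit [DecidableEq X] [DecidableEq Y] in
theorem StratHyp.potLower_nonempty_A (H : StratHyp μ C M N K w) : Nonempty A := by
  by_contra h
  rw [not_nonempty_iff] at h
  have := H.hw1
  simp at this

omit [DecidableEq X] [DecidableEq Y] in
theorem StratHyp.potLower_nonempty_B (H : StratHyp μ C M N K w) : Nonempty B := by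
  by_contra h
  rw [not_nonempty_iff] at h
  have := H.hw1
  simp at this

theorem StratHyp.potLower_sum_condY (H : StratHyp μ C M N K w) (SY : Finset (Fin k))
    (z : Fin k → X × Y) : ∑ b, condY μ SY (fun y => N y b) z = 1 := by
  rw [← condY_sum Finset.univ SY (fun b y => N y b) z]
  have h : (fun y => ∑ b, N y b) = fun _ : Fin k → Y => (1 : Matrix n n ℂ) := by
    funext y
    exact (H.hN y).2
  rw [h]
  exact condY_const H.hμ SY 1 z

theorem StratHyp.potLower_sum_condX (H : StratHyp μ C M N K w) (SX : Finset (Fin k))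
    (z : Fin k → X × Y) : ∑ a, condX μ SX (fun x => M x a) z = 1 := by
  rw [← condX_sum Finset.univ SX (fun a x => M x a) z]
  have h : (fun x => ∑ a, M x a) = fun _ : Fin k → X => (1 : Matrix n n ℂ) := by
    funext x
    exact (H.hM x).2
  rw [h]
  exact condX_const H.hμ SX 1 z

theorem HB_nonneg (H : StratHyp μ C M N K w) (s : ℕ) : 0 ≤ HB μ C M N K w s := by
  have hA : Nonempty A := H.potLower_nonempty_A
  have hcA : (0 : ℝ) < (Fintype.card A : ℝ) := by
    exact_mod_cast Fintype.card_pos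
  have hcA' : (0 : ℝ) < (Fintype.card A : ℝ)⁻¹ := inv_pos.mpr hcA
  have h2 : ∑ z, Pr μ z * ∑ _a : A, ∑ b : B, (Fintype.card A : ℝ)⁻¹ *
      qf K 1 (condY μ (SYs C s) (fun y => N y b) z) = 1 := by
    have : ∀ z : Fin k → X × Y, ∑ _a : A, ∑ b : B, (Fintype.card A : ℝ)⁻¹ *
        qf K 1 (condY μ (SYs C s) (fun y => N y b) z) = 1 := by
      intro z
      rw [Finset.sum_const, Finset.card_univ, nsmul_eq_mul, ← Finset.mul_sum, ← mul_assoc,
        mul_inv_cancel₀ hcA.ne', one_mul, ← qf_sum_right, H.potLower_sum_condY, qf_one_one, H.hK1]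
    simp_rw [this, mul_one]
    exact Pr_sum H.hμ
  have h1 := H.total s
  have h3 : (0 : ℝ) = (∑ z, Pr μ z * ∑ a, ∑ b, w z a b *
      qf K (condX μ (SXs C s) (fun x => M x a) z) (condY μ (SYs C s) (fun y => N y b) z)) -
      ∑ z, Pr μ z * ∑ _a : A, ∑ b : B, (Fintype.card A : ℝ)⁻¹ *
      qf K 1 (condY μ (SYs C s) (fun y => N y b) z) := by
    rw [h1, h2, sub_self]
  rw [h3, ← Finset.sum_sub_distrib]
  unfold HB
  refine Finset.sum_le_sum fun z _ => ?_
  rw [← mul_sub]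
  refine mul_le_mul_of_nonneg_left ?_ (Pr_nonneg H.hμ z)
  rw [← Finset.sum_sub_distrib]
  refine Finset.sum_le_sum fun a _ => ?_
  rw [← Finset.sum_sub_distrib]
  refine Finset.sum_le_sum fun b _ => ?_
  exact potLower_dpot_ge (H.hw z a b) hcA' H.hK
    (condX_posDef H.hμ _ _ (fun x => (H.hM x).1 a) z)
    (condY_posDef H.hμ _ _ (fun y => (H.hN y).1 b) z)

theorem HA_nonneg (H : StratHyp μ C M N K w) (s : ℕ) : 0 ≤ HA μ C M N K w s := by
  have hB : Nonempty B := H.potLower_nonempty_B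
  have hcB : (0 : ℝ) < (Fintype.card B : ℝ) := by
    exact_mod_cast Fintype.card_pos
  have hcB' : (0 : ℝ) < (Fintype.card B : ℝ)⁻¹ := inv_pos.mpr hcB
  have h2 : ∑ z, Pr μ z * ∑ a : A, ∑ _b : B, (Fintype.card B : ℝ)⁻¹ *
      qf K (condX μ (SXs C s) (fun x => M x a) z) 1 = 1 := by
    have : ∀ z : Fin k → X × Y, ∑ a : A, ∑ _b : B, (Fintype.card B : ℝ)⁻¹ *
        qf K (condX μ (SXs C s) (fun x => M x a) z) 1 = 1 := by
      intro z
      rw [Finset.sum_comm, Finset.sum_const, Finset.card_univ, nsmul_eq_mul, ← Finset.mul_sum,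
        ← mul_assoc, mul_inv_cancel₀ hcB.ne', one_mul, ← qf_sum_left, H.potLower_sum_condX, qf_one_one,
        H.hK1]
    simp_rw [this, mul_one]
    exact Pr_sum H.hμ
  have h1 := H.total s
  have h3 : (0 : ℝ) = (∑ z, Pr μ z * ∑ a, ∑ b, w z a b *
      qf K (condX μ (SXs C s) (fun x => M x a) z) (condY μ (SYs C s) (fun y => N y b) z)) -
      ∑ z, Pr μ z * ∑ a : A, ∑ _b : B, (Fintype.card B : ℝ)⁻¹ *
      qf K (condX μ (SXs C s) (fun x => M x a) z) 1 := by
    rw [h1, h2, sub_self]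
  rw [h3, ← Finset.sum_sub_distrib]
  unfold HA
  refine Finset.sum_le_sum fun z _ => ?_
  rw [← mul_sub]
  refine mul_le_mul_of_nonneg_left ?_ (Pr_nonneg H.hμ z)
  rw [← Finset.sum_sub_distrib]
  refine Finset.sum_le_sum fun a _ => ?_
  rw [← Finset.sum_sub_distrib]
  refine Finset.sum_le_sum fun b _ => ?_
  have h4 := potLower_dpot_ge (K := Kᴴ) (H.hw z a b) hcB' ((Matrix.isUnit_conjTranspose K).mpr H.hK)
    (condY_posDef H.hμ (SYs C s) (fun y => N y b) (fun y => (H.hN y).1 b) z)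
    (condX_posDef H.hμ (SXs C s) (fun x => M x a) (fun x => (H.hM x).1 a) z)
  rw [potLower_qf_swap K _ _, potLower_qf_swap K _ _] at h4
  exact h4

end Crest.Agent.NG
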