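import Crest.Agent.NG.PotDefs
import Crest.Agent.NG.LogMono
import Crest.Agent.NG.Mpow

/-!
Chunk R342-H6c: upper bound. `M̄ ≤ 1` (POVM element: `1 - M̄ a = ∑_{a' ≠ a} M̄ a'` is PSD) gives
`rhoOf w K M̄ N̄ ≤ (w |A|) • rhoOf |A|⁻¹ K 1 N̄`, then `relEnt_le` with `c = w |A|`:
`dpot ≤ log (w |A|) w qf K M̄ N̄ ≤ log (W |A|) w qf K M̄ N̄`, and the masses sum to one
(`StratHyp.total`, `rhoOf_trace`, `qf_nonneg`). `HA`: exchange the players,
`qf Kᴴ N̄ M̄ = qf K M̄ N̄`. (`A`, `B` are nonempty by `hw1`.)
-/

set_option autoImplicit false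

namespace Crest.Agent.NG
open Matrix Complex
open scoped ComplexOrder

variable {k : ℕ} {X Y : Type} [Fintype X] [Fintype Y] [DecidableEq X] [DecidableEq Y]
variable {A B n : Type} [Fintype A] [Fintype B] [Fintype n] [DecidableEq n]

variable {μ : X → Y → ℝ} {C : Finset (Fin k)} {M : (Fin k → X) → A → Matrix n n ℂ}
    {N : (Fin k → Y) → B → Matrix n n ℂ} {K : Matrix n n ℂ}
    {w : (Fin k → X × Y) → A → B → ℝ}

private theorem smul_psd {c : ℝ} (hc : 0 ≤ c) {P : Matrix n n ℂ} (hP : P.PosSemidef) :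
    ((c : ℂ) • P).PosSemidef := by
  have hc' : (0 : ℂ) ≤ (c : ℂ) := by exact_mod_cast hc
  exact hP.smul hc'

private theorem dpot_le {α α' : ℝ} (hα : 0 < α) (hα' : 0 < α') {K P Q : Matrix n n ℂ}
    (hK : IsUnit K) (hP : P.PosDef) (hP1 : (1 - P).PosSemidef) (hQ : Q.PosDef) :
    dpot α α' K P Q ≤ Real.log (α / α') * (α * qf K P Q) := by
  have h1 := relEnt_le (rhoOf_posDef hα hK hP hQ)
    (rhoOf_posDef hα' hK (Matrix.PosDef.one (n := n)) hQ) (α / α') (by positivity) ?_
  · unfold dpot
    refine h1.trans_eq ?_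
    rw [rhoOf_trace hQ]
  · have h2 : (((α / α' : ℝ) : ℂ) • rhoOf α' K 1 Q - rhoOf α K P Q) =
        (α : ℂ) • ((K * msqrt Q)ᴴ * (1 - P) * (K * msqrt Q)) := by
      have h3 : ((α / α' : ℝ) : ℂ) * (α' : ℂ) = (α : ℂ) := by
        rw [← Complex.ofReal_mul]; congr 1; field_simp
      unfold rhoOf
      rw [smul_smul, h3, ← smul_sub]
      congr 1
      rw [Matrix.conjTranspose_mul, msqrt_conjTranspose hQ]
      noncomm_ring
    rw [h2]
    exact smul_psd hα.le (hP1.conjTranspose_mul_mul_same _)

private theorem povm_le {ι : Type} [Fintype ι] (E : ι → Matrix n n ℂ)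
    (hE : ∀ a, (E a).PosSemidef) (h1 : ∑ a, E a = 1) (a : ι) : (1 - E a).PosSemidef := by
  classical
  have h2 : 1 - E a = ∑ a' ∈ Finset.univ.erase a, E a' := by
    rw [← h1, ← Finset.add_sum_erase Finset.univ E (Finset.mem_univ a)]
    abel
  rw [h2]
  exact Matrix.posSemidef_sum _ fun a' _ => hE a'

private theorem qf_swap (K P Q : Matrix n n ℂ) : qf Kᴴ Q P = qf K P Q := by
  unfold qf
  rw [Matrix.conjTranspose_conjTranspose, Matrix.mul_assoc (K * Q), Matrix.trace_mul_comm,
    ← Matrix.mul_assoc]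

private theorem condX_povm (hμ : IsProb μ) (SX : Finset (Fin k))
    (hM : ∀ x, IsPDPOVM (M x)) (z : Fin k → X × Y) :
    IsPDPOVM (fun a => condX μ SX (fun x => M x a) z) := by
  refine ⟨fun a => condX_posDef hμ SX _ (fun x => (hM x).1 a) z, ?_⟩
  have h1 := condX_sum (μ := μ) Finset.univ SX (fun (a : A) x => M x a) z
  rw [← h1]
  have h2 : (fun x => ∑ a, M x a) = fun _ => (1 : Matrix n n ℂ) := by
    funext x; exact (hM x).2
  rw [h2]
  exact condX_const hμ SX 1 z

private theorem condY_povm (hμ : IsProb μ) (SY : Finset (Fin k))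
    (hN : ∀ y, IsPDPOVM (N y)) (z : Fin k → X × Y) :
    IsPDPOVM (fun b => condY μ SY (fun y => N y b) z) := by
  refine ⟨fun b => condY_posDef hμ SY _ (fun y => (hN y).1 b) z, ?_⟩
  have h1 := condY_sum (μ := μ) Finset.univ SY (fun (b : B) y => N y b) z
  rw [← h1]
  have h2 : (fun y => ∑ b, N y b) = fun _ => (1 : Matrix n n ℂ) := by
    funext y; exact (hN y).2
  rw [h2]
  exact condY_const hμ SY 1 z

private theorem card_pos_A (H : StratHyp μ C M N K w) : 0 < Fintype.card A := by
  by_contra hcon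
  have h0 : Fintype.card A = 0 := by omega
  haveI := Fintype.card_eq_zero_iff.mp h0
  have := H.hw1
  simp at this

private theorem card_pos_B (H : StratHyp μ C M N K w) : 0 < Fintype.card B := by
  by_contra hcon
  have h0 : Fintype.card B = 0 := by omega
  haveI := Fintype.card_eq_zero_iff.mp h0
  have := H.hw1
  simp at this

theorem HB_le (H : StratHyp μ C M N K w) (s : ℕ) (W : ℝ) (hW : ∀ z a b, w z a b ≤ W) :
    HB μ C M N K w s ≤ Real.log (W * Fintype.card A) := by
  have hA : (0 : ℝ) < Fintype.card A := by exact_mod_cast card_pos_A H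
  have htot := H.total s
  calc HB μ C M N K w s
      ≤ ∑ z, Pr μ z * ∑ a, ∑ b, Real.log (W * Fintype.card A) * (w z a b *
        qf K (condX μ (SXs C s) (fun x => M x a) z) (condY μ (SYs C s) (fun y => N y b) z)) := by
        unfold HB
        refine Finset.sum_le_sum fun z _ => mul_le_mul_of_nonneg_left ?_ (Pr_nonneg H.hμ z)
        refine Finset.sum_le_sum fun a _ => Finset.sum_le_sum fun b _ => ?_
        have hMp := condX_povm H.hμ (SXs C s) H.hM z
        have hNp := condY_povm H.hμ (SYs C s) H.hN z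
        have hP := hMp.1 a
        have hQ := hNp.1 b
        have hP1 := povm_le _ (fun a => (hMp.1 a).posSemidef) hMp.2 a
        have hwz := H.hw z a b
        refine (dpot_le hwz (inv_pos.mpr hA) H.hK hP hP1 hQ).trans ?_
        have h1 : w z a b / ((Fintype.card A : ℝ)⁻¹) = w z a b * Fintype.card A := by
          rw [div_inv_eq_mul]
        rw [h1]
        refine mul_le_mul_of_nonneg_right ?_
          (mul_nonneg hwz.le (qf_nonneg hP.posSemidef hQ.posSemidef K))
        exact Real.log_le_log (mul_pos hwz hA) (mul_le_mul_of_nonneg_right (hW z a b) hA.le)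
    _ = Real.log (W * Fintype.card A) * ∑ z, Pr μ z * ∑ a, ∑ b, w z a b *
        qf K (condX μ (SXs C s) (fun x => M x a) z)
          (condY μ (SYs C s) (fun y => N y b) z) := by
        simp_rw [← Finset.mul_sum]
        rw [Finset.mul_sum]
        refine Finset.sum_congr rfl fun z _ => ?_
        ring
    _ = Real.log (W * Fintype.card A) := by rw [htot, mul_one]

theorem HA_le (H : StratHyp μ C M N K w) (s : ℕ) (W : ℝ) (hW : ∀ z a b, w z a b ≤ W) :
    HA μ C M N K w s ≤ Real.log (W * Fintype.card B) := by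
  have hB : (0 : ℝ) < Fintype.card B := by exact_mod_cast card_pos_B H
  have htot := H.total s
  have hKs : IsUnit Kᴴ := by
    have := H.hK.star
    simpa [Matrix.star_eq_conjTranspose] using this
  calc HA μ C M N K w s
      ≤ ∑ z, Pr μ z * ∑ a, ∑ b, Real.log (W * Fintype.card B) * (w z a b *
        qf K (condX μ (SXs C s) (fun x => M x a) z) (condY μ (SYs C s) (fun y => N y b) z)) := by
        unfold HA
        refine Finset.sum_le_sum fun z _ => mul_le_mul_of_nonneg_left ?_ (Pr_nonneg H.hμ z)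
        refine Finset.sum_le_sum fun a _ => Finset.sum_le_sum fun b _ => ?_
        have hMp := condX_povm H.hμ (SXs C s) H.hM z
        have hNp := condY_povm H.hμ (SYs C s) H.hN z
        have hP := hMp.1 a
        have hQ := hNp.1 b
        have hQ1 := povm_le _ (fun b => (hNp.1 b).posSemidef) hNp.2 b
        have hwz := H.hw z a b
        refine (dpot_le hwz (inv_pos.mpr hB) hKs hQ hQ1 hP).trans ?_
        have h1 : w z a b / ((Fintype.card B : ℝ)⁻¹) = w z a b * Fintype.card B := by
          rw [div_inv_eq_mul]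
        rw [h1, qf_swap]
        refine mul_le_mul_of_nonneg_right ?_
          (mul_nonneg hwz.le (qf_nonneg hP.posSemidef hQ.posSemidef K))
        exact Real.log_le_log (mul_pos hwz hB) (mul_le_mul_of_nonneg_right (hW z a b) hB.le)
    _ = Real.log (W * Fintype.card B) * ∑ z, Pr μ z * ∑ a, ∑ b, w z a b *
        qf K (condX μ (SXs C s) (fun x => M x a) z)
          (condY μ (SYs C s) (fun y => N y b) z) := by
        simp_rw [← Finset.mul_sum]
        rw [Finset.mul_sum]
        refine Finset.sum_congr rfl fun z _ => ?_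
        ring
    _ = Real.log (W * Fintype.card B) := by rw [htot, mul_one]

end Crest.Agent.NG
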