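import Crest.Agent.NG.PotLower
import Crest.Agent.NG.PotUpper

/-!
Chunk R342-H6d: telescoping over `Fin k` (`Finset.sum_range_sub`, `Fin.sum_univ_eq_sum_range`);
for `i ∈ C` the hybrids `i` and `i+1` have the same sets `SXs`, `SYs`, so the step is zero.
-/

set_option autoImplicit false

namespace Crest.Agent.NG
open Matrix Complex
open scoped ComplexOrder

theorem SXs_step_mem {k : ℕ} {C : Finset (Fin k)} {i : Fin k} (hi : i ∈ C) :
    SXs C (i.val + 1) = SXs C i.val := by
  unfold SXs
  ext j
  simp only [Finset.mem_filter, Finset.mem_univ, true_and]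
  by_cases hj : j = i
  · subst hj
    simp [hi]
  · have : j.val ≠ i.val := fun h => hj (Fin.ext h)
    constructor
    · rintro (h | h)
      · exact Or.inl h
      · exact Or.inr (by omega)
    · rintro (h | h)
      · exact Or.inl h
      · exact Or.inr (by omega)

theorem SYs_step_mem {k : ℕ} {C : Finset (Fin k)} {i : Fin k} (hi : i ∈ C) :
    SYs C (i.val + 1) = SYs C i.val := by
  unfold SYs
  ext j
  simp only [Finset.mem_filter, Finset.mem_univ, true_and]
  by_cases hj : j = i
  · subst hj
    simp [hi]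
  · have : j.val ≠ i.val := fun h => hj (Fin.ext h)
    constructor
    · rintro (h | h)
      · exact Or.inl h
      · exact Or.inr (by omega)
    · rintro (h | h)
      · exact Or.inl h
      · exact Or.inr (by omega)

variable {k : ℕ} {X Y : Type} [Fintype X] [Fintype Y] [DecidableEq X] [DecidableEq Y]
variable {A B n : Type} [Fintype A] [Fintype B] [Fintype n] [DecidableEq n]

variable {μ : X → Y → ℝ} {C : Finset (Fin k)} {M : (Fin k → X) → A → Matrix n n ℂ}
    {N : (Fin k → Y) → B → Matrix n n ℂ} {K : Matrix n n ℂ}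
    {w : (Fin k → X × Y) → A → B → ℝ}

theorem tele_aux (C : Finset (Fin k)) (f : ℕ → ℝ) (hf : ∀ i ∈ C, f (i.val + 1) = f i.val) :
    ∑ i ∈ Finset.univ.filter (fun i : Fin k => i ∉ C), (f (i.val + 1) - f i.val) = f k - f 0 := by
  rw [Finset.sum_filter]
  have h : ∀ i : Fin k, (if i ∉ C then f (i.val + 1) - f i.val else 0) =
      f (i.val + 1) - f i.val := by
    intro i
    by_cases hi : i ∈ C
    · rw [if_neg (by simpa using hi), hf i hi, sub_self]
    · rw [if_pos hi]
  rw [Finset.sum_congr rfl fun i _ => h i,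
    Fin.sum_univ_eq_sum_range (fun i => f (i + 1) - f i) k, Finset.sum_range_sub]

/-- telescoping: steps at coordinates of `C` do nothing -/
theorem HB_telescope (H : StratHyp μ C M N K w) (W : ℝ) (hW : ∀ z a b, w z a b ≤ W) :
    ∑ i ∈ Finset.univ.filter (fun i : Fin k => i ∉ C),
      (HB μ C M N K w (i.val + 1) - HB μ C M N K w i.val) ≤ Real.log (W * Fintype.card A) := by
  rw [tele_aux C (fun s => HB μ C M N K w s) (fun i hi => by
    simp only [HB, SXs_step_mem hi, SYs_step_mem hi])]
  have h1 := HB_le H k W hW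
  have h2 := HB_nonneg H 0
  linarith

theorem HA_telescope (H : StratHyp μ C M N K w) (W : ℝ) (hW : ∀ z a b, w z a b ≤ W) :
    ∑ i ∈ Finset.univ.filter (fun i : Fin k => i ∉ C),
      (HA μ C M N K w i.val - HA μ C M N K w (i.val + 1)) ≤ Real.log (W * Fintype.card B) := by
  have h0 := tele_aux C (fun s => -HA μ C M N K w s) (fun i hi => by
    simp only [HA, SXs_step_mem hi, SYs_step_mem hi])
  have e : ∑ i ∈ Finset.univ.filter (fun i : Fin k => i ∉ C),
      (HA μ C M N K w i.val - HA μ C M N K w (i.val + 1)) =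
      ∑ i ∈ Finset.univ.filter (fun i : Fin k => i ∉ C),
      ((fun s => -HA μ C M N K w s) (i.val + 1) - (fun s => -HA μ C M N K w s) i.val) := by
    refine Finset.sum_congr rfl fun i _ => ?_
    simp only
    ring
  rw [e, h0]
  have h1 := HA_le H 0 W hW
  have h2 := HA_nonneg H k
  linarith

end Crest.Agent.NG
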