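import Crest.Agent.NG.Cond

/-!
Chunk R342-H3 (`resample`): `E F(z) = E_z ∑_w μ(w) F(update z i w)` (the coordinate `i` is
independent; the weight of coordinate `i` in the outer sum integrates to one). Proof: the map
`(z, w) ↦ (update z i w, z i)` is an involution of `(Fin k → X×Y) × (X×Y)` which preserves
`Pr z * μ w`; or split `∑_z` as a sum over `z_i` and the rest.
-/

set_option autoImplicit false

namespace Crest.Agent.NG

variable {k : ℕ} {X Y : Type} [Fintype X] [Fintype Y] [DecidableEq X] [DecidableEq Y]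
variable {μ : X → Y → ℝ}

/-- the involution `(z, w) ↦ (update z i w, z i)` -/
def swapEquiv (k : ℕ) (Z : Type) (i : Fin k) : ((Fin k → Z) × Z) ≃ ((Fin k → Z) × Z) where
  toFun p := (Function.update p.1 i p.2, p.1 i)
  invFun p := (Function.update p.1 i p.2, p.1 i)
  left_inv p := by simp
  right_inv p := by simp

theorem Pr_update (i : Fin k) (z : Fin k → X × Y) (w : X × Y) :
    Pr μ (Function.update z i w) * μ (z i).1 (z i).2 = Pr μ z * μ w.1 w.2 := by
  unfold Pr
  rw [← Finset.mul_prod_erase Finset.univ _ (Finset.mem_univ i),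
    ← Finset.mul_prod_erase Finset.univ (fun j => μ (z j).1 (z j).2) (Finset.mem_univ i)]
  have : ∏ j ∈ Finset.univ.erase i, μ (Function.update z i w j).1 (Function.update z i w j).2 =
      ∏ j ∈ Finset.univ.erase i, μ (z j).1 (z j).2 := by
    refine Finset.prod_congr rfl fun j hj => ?_
    rw [Function.update_of_ne (Finset.ne_of_mem_erase hj)]
  rw [this, Function.update_self]
  ring

theorem resample (hμ : IsProb μ) (i : Fin k) (F : (Fin k → X × Y) → ℝ) :
    ∑ z, Pr μ z * F z = ∑ z, Pr μ z * ∑ x, ∑ y, μ x y * F (Function.update z i (x, y)) := by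
  have h1 : ∑ z, Pr μ z * ∑ x, ∑ y, μ x y * F (Function.update z i (x, y)) =
      ∑ p : (Fin k → X × Y) × (X × Y),
        Pr μ p.1 * μ p.2.1 p.2.2 * F (Function.update p.1 i p.2) := by
    rw [Fintype.sum_prod_type]
    refine Finset.sum_congr rfl fun z _ => ?_
    rw [Fintype.sum_prod_type, Finset.mul_sum]
    refine Finset.sum_congr rfl fun x _ => ?_
    rw [Finset.mul_sum]
    refine Finset.sum_congr rfl fun y _ => ?_
    ring
  have h2 : ∑ p : (Fin k → X × Y) × (X × Y),
        Pr μ p.1 * μ p.2.1 p.2.2 * F (Function.update p.1 i p.2) =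
      ∑ p : (Fin k → X × Y) × (X × Y), Pr μ p.1 * μ p.2.1 p.2.2 * F p.1 := by
    refine Fintype.sum_equiv (swapEquiv k (X × Y) i) _ _ ?_
    intro p
    show _ = Pr μ (Function.update p.1 i p.2) * μ (p.1 i).1 (p.1 i).2 *
      F (Function.update p.1 i p.2)
    rw [Pr_update]
  rw [h1, h2, Fintype.sum_prod_type]
  refine Finset.sum_congr rfl fun z _ => ?_
  have h3 : ∑ w : X × Y, μ w.1 w.2 = 1 := by
    rw [Fintype.sum_prod_type]
    exact hμ.sum_one
  simp only
  rw [← Finset.sum_mul, ← Finset.mul_sum, h3, mul_one]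

end Crest.Agent.NG
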