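import Crest.Agent.NG.Pair
import Crest.Agent.NG.Resample
import Crest.Agent.NG.Nsq

/-!
Chunk R342-H5: `pair` for the bilinear form `(P, Q) ↦ qf K P Q = Re tr (Kᴴ P K Q)`
(`LinearMap.mk₂ ℝ`), and its version with one resampled coordinate `i ∉ C`, in the hybrid `i`:
`SXs C (i+1) = insert i (SXs C i)`, `SYs C i = insert i (SYs C (i+1))`,
`SXs C (i+1) ∩ SYs C i = C ∪ {i}` and together they cover everything.
`qf_hybrid_coord`: apply `resample` with `i` to the right side of `pair` etc.; note that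
`condX (SXs C (i+1)) f (update z i (x,y))` depends only on `x` in the last argument
(`condX_update_rev`).
-/

set_option autoImplicit false

namespace Crest.Agent.NG
open Matrix Complex
open scoped ComplexOrder

variable {k : ℕ} {X Y : Type} [Fintype X] [Fintype Y] [DecidableEq X] [DecidableEq Y]
variable {n : Type} [Fintype n] [DecidableEq n] {μ : X → Y → ℝ}

theorem mem_SXs {C : Finset (Fin k)} {s : ℕ} {j : Fin k} : j ∈ SXs C s ↔ j ∈ C ∨ j.val < s := by
  simp [SXs]

theorem mem_SYs {C : Finset (Fin k)} {s : ℕ} {j : Fin k} : j ∈ SYs C s ↔ j ∈ C ∨ s ≤ j.val := by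
  simp [SYs]

theorem SXs_succ (C : Finset (Fin k)) (i : Fin k) :
    SXs C (i.val + 1) = insert i (SXs C i.val) := by
  ext j
  rw [Finset.mem_insert, mem_SXs, mem_SXs, Fin.ext_iff]
  constructor
  · rintro (h | h)
    · exact Or.inr (Or.inl h)
    · rcases Nat.lt_or_ge j.val i.val with h' | h'
      · exact Or.inr (Or.inr h')
      · exact Or.inl (by omega)
  · rintro (h | h | h)
    · exact Or.inr (by omega)
    · exact Or.inl h
    · exact Or.inr (by omega)

theorem SYs_eq_insert (C : Finset (Fin k)) (i : Fin k) :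
    SYs C i.val = insert i (SYs C (i.val + 1)) := by
  ext j
  rw [Finset.mem_insert, mem_SYs, mem_SYs, Fin.ext_iff]
  constructor
  · rintro (h | h)
    · exact Or.inr (Or.inl h)
    · rcases Nat.lt_or_ge i.val j.val with h' | h'
      · exact Or.inr (Or.inr h')
      · exact Or.inl (by omega)
  · rintro (h | h | h)
    · exact Or.inr (by omega)
    · exact Or.inl h
    · exact Or.inr (by omega)

theorem not_mem_SXs {C : Finset (Fin k)} {i : Fin k} (hi : i ∉ C) : i ∉ SXs C i.val := by
  rw [mem_SXs]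
  rintro (h | h)
  · exact hi h
  · omega

theorem not_mem_SYs {C : Finset (Fin k)} {i : Fin k} (hi : i ∉ C) : i ∉ SYs C (i.val + 1) := by
  rw [mem_SYs]
  rintro (h | h)
  · exact hi h
  · omega

/-- the bilinear form `(P, Q) ↦ Re tr (Kᴴ P K Q)` -/
noncomputable def qfBil (K : Matrix n n ℂ) : Matrix n n ℂ →ₗ[ℝ] Matrix n n ℂ →ₗ[ℝ] ℝ :=
  LinearMap.mk₂ ℝ (fun P Q => qf K P Q) (fun P P' Q => qf_add_left K P P' Q)
    (fun c P Q => qf_smul_left c K P Q) (fun P Q Q' => qf_add_right K P Q Q')
    (fun c P Q => qf_smul_right c K P Q)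

theorem qfBil_apply (K P Q : Matrix n n ℂ) : qfBil K P Q = qf K P Q := rfl

/-- `pair` for the form `qf` -/
theorem qf_pair (hμ : IsProb μ) (SX SY : Finset (Fin k)) (hcov : ∀ j, j ∈ SX ∨ j ∈ SY)
    (K : Matrix n n ℂ) (f : (Fin k → X) → Matrix n n ℂ) (h : (Fin k → Y) → Matrix n n ℂ)
    (g : (Fin k → X × Y) → ℝ)
    (hg : ∀ z z' : Fin k → X × Y, (∀ j, j ∈ SX → j ∈ SY → z j = z' j) → g z = g z') :
    ∑ z, Pr μ z * (g z * qf K (condX μ SX f z) (condY μ SY h z)) =
      ∑ z, Pr μ z * (g z * qf K (f (fun j => (z j).1)) (h (fun j => (z j).2))) := by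
  have := pair hμ SX SY hcov (qfBil K) f h g hg
  simpa only [qfBil_apply] using this

/-- hybrid `s`: public data `SXs C s`, `SYs C s`; `g` depends only on the coordinates in `C` -/
theorem qf_hybrid (hμ : IsProb μ) (C : Finset (Fin k)) (s : ℕ) (K : Matrix n n ℂ)
    (f : (Fin k → X) → Matrix n n ℂ) (h : (Fin k → Y) → Matrix n n ℂ)
    (g : (Fin k → X × Y) → ℝ)
    (hg : ∀ z z' : Fin k → X × Y, (∀ j ∈ C, z j = z' j) → g z = g z') :
    ∑ z, Pr μ z * (g z * qf K (condX μ (SXs C s) f z) (condY μ (SYs C s) h z)) =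
      ∑ z, Pr μ z * (g z * qf K (f (fun j => (z j).1)) (h (fun j => (z j).2))) := by
  refine qf_pair hμ _ _ ?_ K f h g ?_
  · intro j
    rw [mem_SXs, mem_SYs]
    rcases Nat.lt_or_ge j.val s with h' | h'
    · exact Or.inl (Or.inr h')
    · exact Or.inr (Or.inr h')
  · intro z z' hz
    refine hg z z' fun j hj => hz j ?_ ?_
    · rw [mem_SXs]; exact Or.inl hj
    · rw [mem_SYs]; exact Or.inl hj

/-- coordinate `i ∉ C`, both questions of coordinate `i` are public; `φ` is a weight of the
question pair of coordinate `i` -/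
theorem qf_hybrid_coord (hμ : IsProb μ) (C : Finset (Fin k)) (i : Fin k) (hi : i ∉ C)
    (K : Matrix n n ℂ)
    (f : (Fin k → X) → Matrix n n ℂ) (h : (Fin k → Y) → Matrix n n ℂ)
    (g : (Fin k → X × Y) → ℝ)
    (hg : ∀ z z' : Fin k → X × Y, (∀ j ∈ C, z j = z' j) → g z = g z') (φ : X → Y → ℝ) :
    ∑ z, Pr μ z * ∑ x, ∑ y, μ x y * (φ x y * (g z *
      qf K (condX μ (SXs C (i.val + 1)) f (Function.update z i (x, (z i).2)))
        (condY μ (SYs C i.val) h (Function.update z i ((z i).1, y))))) =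
      ∑ z, Pr μ z * (φ (z i).1 (z i).2 *
        (g z * qf K (f (fun j => (z j).1)) (h (fun j => (z j).2)))) := by
  have hX : i ∈ SXs C (i.val + 1) := by rw [mem_SXs]; exact Or.inr (Nat.lt_succ_self _)
  have hY : i ∈ SYs C i.val := by rw [mem_SYs]; exact Or.inr le_rfl
  have key := resample hμ i (fun z => φ (z i).1 (z i).2 *
    (g z * qf K (condX μ (SXs C (i.val + 1)) f z) (condY μ (SYs C i.val) h z)))
  have h1 : ∑ z, Pr μ z * ∑ x, ∑ y, μ x y * (φ x y * (g z *
      qf K (condX μ (SXs C (i.val + 1)) f (Function.update z i (x, (z i).2)))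
        (condY μ (SYs C i.val) h (Function.update z i ((z i).1, y))))) =
      ∑ z, Pr μ z * (φ (z i).1 (z i).2 *
        (g z * qf K (condX μ (SXs C (i.val + 1)) f z) (condY μ (SYs C i.val) h z))) := by
    rw [key]
    refine Finset.sum_congr rfl fun z _ => ?_
    congr 1
    refine Finset.sum_congr rfl fun x _ => Finset.sum_congr rfl fun y _ => ?_
    have hgz : g z = g (Function.update z i (x, y)) := by
      refine hg _ _ fun j hj => ?_
      have hji : j ≠ i := by
        rintro rfl
        exact hi hj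
      rw [Function.update_of_ne hji]
    rw [condX_update_rev hX f z (x, (z i).2) (x, y) rfl,
      condY_update_rev hY h z ((z i).1, y) (x, y) rfl, hgz]
    simp only [Function.update_self]
  rw [h1]
  have h2 := qf_pair hμ (SXs C (i.val + 1)) (SYs C i.val) (by
    intro j
    rw [mem_SXs, mem_SYs]
    rcases Nat.lt_or_ge j.val i.val with h' | h'
    · exact Or.inl (Or.inr (by omega))
    · exact Or.inr (Or.inr h')) K f h (fun z => φ (z i).1 (z i).2 * g z) (by
    intro z z' hz
    have hzi : z i = z' i := hz i hX hY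
    have hgz : g z = g z' := by
      refine hg z z' fun j hj => hz j ?_ ?_
      · rw [mem_SXs]; exact Or.inl hj
      · rw [mem_SYs]; exact Or.inl hj
    show φ (z i).1 (z i).2 * g z = φ (z' i).1 (z' i).2 * g z'
    rw [hzi, hgz])
  simp only [mul_assoc] at h2
  exact h2

end Crest.Agent.NG
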