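import Crest.Agent.NG.Mpow
import Crest.Agent.NG.MpowAnalytic

/-!
Chunk R342-G2.
`tf P Q S T Λ z = tr (P^{1-z} Λᴴ Q^z S^{-z} Λ T^z)`.
G2 (`tf_differentiable`, `tf_bdd`, `tf_hasDerivAt`): expand the trace of the product into finite
sums of products of entries, use `mpow_hasDerivAt`, `mpow_bdd`; at `z = 0`:
`P^1 = P`, `Q^0 = S^0 = T^0 = 1`.
-/

set_option autoImplicit false

namespace Crest.Agent.NG
open Matrix Complex
open scoped ComplexOrder

variable {n : Type} [Fintype n] [DecidableEq n]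

noncomputable def tf (P Q S T Λ : Matrix n n ℂ) (z : ℂ) : ℂ :=
  (mpow P (1 - z) * Λᴴ * mpow Q z * mpow S (-z) * Λ * mpow T z).trace

namespace TF

/-- entrywise derivative -/
def MD (f : ℂ → Matrix n n ℂ) (f' : Matrix n n ℂ) (z : ℂ) : Prop :=
  ∀ i j, HasDerivAt (fun w => f w i j) (f' i j) z

omit [DecidableEq n] in
theorem MD.mul {f g : ℂ → Matrix n n ℂ} {f' g' : Matrix n n ℂ} {z : ℂ} (hf : MD f f' z)
    (hg : MD g g' z) : MD (fun w => f w * g w) (f' * g z + f z * g') z := by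
  intro i j
  simp only [Matrix.mul_apply, Matrix.add_apply]
  rw [← Finset.sum_add_distrib]
  exact HasDerivAt.fun_sum fun l _ => (hf i l).mul (hg l j)

omit [Fintype n] [DecidableEq n] in
theorem MD.const (A : Matrix n n ℂ) (z : ℂ) : MD (fun _ => A) 0 z := by
  intro i j
  exact hasDerivAt_const z (A i j)

omit [DecidableEq n] in
theorem MD.trace {f : ℂ → Matrix n n ℂ} {f' : Matrix n n ℂ} {z : ℂ} (hf : MD f f' z) :
    HasDerivAt (fun w => (f w).trace) f'.trace z := by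
  unfold Matrix.trace
  simp only [Matrix.diag_apply]
  exact HasDerivAt.fun_sum fun i _ => hf i i

theorem MD.mpow {P : Matrix n n ℂ} (hP : P.PosDef) (z : ℂ) :
    MD (fun w => mpow P w) (mlog P * mpow P z) z := fun i j => mpow_hasDerivAt hP i j z

theorem MD.mpow_neg {P : Matrix n n ℂ} (hP : P.PosDef) (z : ℂ) :
    MD (fun w => Crest.Agent.NG.mpow P (-w)) (-(mlog P * Crest.Agent.NG.mpow P (-z))) z := by
  intro i j
  have h1 := (mpow_hasDerivAt hP i j (-z)).comp z (hasDerivAt_neg z)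
  simpa [Function.comp_def] using h1

theorem MD.mpow_one_sub {P : Matrix n n ℂ} (hP : P.PosDef) (z : ℂ) :
    MD (fun w => Crest.Agent.NG.mpow P (1 - w)) (-(mlog P * Crest.Agent.NG.mpow P (1 - z))) z := by
  intro i j
  have h0 : HasDerivAt (fun w : ℂ => 1 - w) (-1) z := by
    simpa using (hasDerivAt_id z).const_sub 1
  have h1 := (mpow_hasDerivAt hP i j (1 - z)).comp z h0
  simpa [Function.comp_def] using h1

/-- entrywise boundedness on the strip -/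
def BD (f : ℂ → Matrix n n ℂ) : Prop :=
  ∃ B : ℝ, ∀ z : ℂ, 0 ≤ z.re → z.re ≤ 1 / 2 → ∀ i j, ‖f z i j‖ ≤ B

omit [DecidableEq n] in
theorem BD.mul {f g : ℂ → Matrix n n ℂ} (hf : BD f) (hg : BD g) : BD (fun w => f w * g w) := by
  obtain ⟨B, hB⟩ := hf
  obtain ⟨C, hC⟩ := hg
  refine ⟨∑ _l : n, B * C, fun z h1 h2 i j => ?_⟩
  change ‖(f z * g z) i j‖ ≤ _
  rw [Matrix.mul_apply]
  refine (norm_sum_le _ _).trans (Finset.sum_le_sum fun l _ => ?_)
  rw [norm_mul]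
  exact mul_le_mul (hB z h1 h2 i l) (hC z h1 h2 l j) (norm_nonneg _)
    ((norm_nonneg _).trans (hB z h1 h2 i l))

omit [DecidableEq n] in
theorem BD.const (A : Matrix n n ℂ) : BD (fun _ => A) := by
  refine ⟨∑ i, ∑ j, ‖A i j‖, fun z _ _ i j => ?_⟩
  have h1 : ‖A i j‖ ≤ ∑ j, ‖A i j‖ :=
    Finset.single_le_sum (f := fun j => ‖A i j‖) (fun _ _ => norm_nonneg _) (Finset.mem_univ j)
  have h2 : ∑ j, ‖A i j‖ ≤ ∑ i, ∑ j, ‖A i j‖ :=
    Finset.single_le_sum (f := fun i => ∑ j, ‖A i j‖)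
      (fun _ _ => Finset.sum_nonneg fun _ _ => norm_nonneg _) (Finset.mem_univ i)
  exact h1.trans h2

omit [DecidableEq n] in
theorem BD.trace {f : ℂ → Matrix n n ℂ} (hf : BD f) :
    ∃ B : ℝ, ∀ z : ℂ, 0 ≤ z.re → z.re ≤ 1 / 2 → ‖(f z).trace‖ ≤ B := by
  obtain ⟨B, hB⟩ := hf
  refine ⟨∑ _i : n, B, fun z h1 h2 => ?_⟩
  unfold Matrix.trace
  exact (norm_sum_le _ _).trans (Finset.sum_le_sum fun i _ => hB z h1 h2 i i)

theorem BD.mpow {P : Matrix n n ℂ} (hP : P.PosDef) : BD (fun w => Crest.Agent.NG.mpow P w) := by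
  obtain ⟨B, hB⟩ := mpow_bdd hP 0 (1 / 2)
  exact ⟨B, fun z h1 h2 i j => hB z h1 h2 i j⟩

theorem BD.mpow_neg {P : Matrix n n ℂ} (hP : P.PosDef) :
    BD (fun w => Crest.Agent.NG.mpow P (-w)) := by
  obtain ⟨B, hB⟩ := mpow_bdd hP (-(1 / 2)) 0
  refine ⟨B, fun z h1 h2 i j => hB (-z) ?_ ?_ i j⟩
  · rw [neg_re]; linarith
  · rw [neg_re]; linarith

theorem BD.mpow_one_sub {P : Matrix n n ℂ} (hP : P.PosDef) :
    BD (fun w => Crest.Agent.NG.mpow P (1 - w)) := by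
  obtain ⟨B, hB⟩ := mpow_bdd hP 0 1
  refine ⟨B, fun z h1 h2 i j => hB (1 - z) ?_ ?_ i j⟩
  · rw [sub_re, one_re]; linarith
  · rw [sub_re, one_re]; linarith

theorem mlog_mpow_comm {P : Matrix n n ℂ} (hP : P.PosDef) (z : ℂ) :
    mlog P * Crest.Agent.NG.mpow P z = Crest.Agent.NG.mpow P z * mlog P := by
  unfold mlog Crest.Agent.NG.mpow
  rw [mfun_mul _ _ hP.1, mfun_mul _ _ hP.1]
  congr 1
  funext t
  ring

end TF

open TF

theorem tf_hasDerivAt_gen {P Q S T : Matrix n n ℂ} (hP : P.PosDef) (hQ : Q.PosDef)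
    (hS : S.PosDef) (hT : T.PosDef) (Λ : Matrix n n ℂ) (z : ℂ) :
    ∃ D : Matrix n n ℂ, HasDerivAt (tf P Q S T Λ) D.trace z ∧
      D = ((((-(mlog P * mpow P (1 - z)) * Λᴴ + mpow P (1 - z) * 0) * mpow Q z +
        mpow P (1 - z) * Λᴴ * (mlog Q * mpow Q z)) * mpow S (-z) +
        mpow P (1 - z) * Λᴴ * mpow Q z * (-(mlog S * mpow S (-z)))) * Λ +
        mpow P (1 - z) * Λᴴ * mpow Q z * mpow S (-z) * 0) * mpow T z +
        mpow P (1 - z) * Λᴴ * mpow Q z * mpow S (-z) * Λ * (mlog T * mpow T z) := by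
  have h := (((((MD.mpow_one_sub hP z).mul (MD.const Λᴴ z)).mul (MD.mpow hQ z)).mul
    (MD.mpow_neg hS z)).mul (MD.const Λ z)).mul (MD.mpow hT z)
  exact ⟨_, h.trace, rfl⟩

theorem tf_differentiable {P Q S T : Matrix n n ℂ} (hP : P.PosDef) (hQ : Q.PosDef)
    (hS : S.PosDef) (hT : T.PosDef) (Λ : Matrix n n ℂ) : Differentiable ℂ (tf P Q S T Λ) := by
  intro z
  obtain ⟨D, hD, -⟩ := tf_hasDerivAt_gen hP hQ hS hT Λ z
  exact hD.differentiableAt

theorem tf_bdd {P Q S T : Matrix n n ℂ} (hP : P.PosDef) (hQ : Q.PosDef)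
    (hS : S.PosDef) (hT : T.PosDef) (Λ : Matrix n n ℂ) :
    ∃ B : ℝ, ∀ z : ℂ, 0 ≤ z.re → z.re ≤ 1 / 2 → ‖tf P Q S T Λ z‖ ≤ B :=
  ((((((BD.mpow_one_sub hP).mul (BD.const Λᴴ)).mul (BD.mpow hQ)).mul
    (BD.mpow_neg hS)).mul (BD.const Λ)).mul (BD.mpow hT)).trace

theorem tf_hasDerivAt {P Q S T : Matrix n n ℂ} (hP : P.PosDef) (hQ : Q.PosDef)
    (hS : S.PosDef) (hT : T.PosDef) (Λ : Matrix n n ℂ) :
    HasDerivAt (tf P Q S T Λ)
      (-(P * mlog P * (Λᴴ * Λ)).trace + (P * Λᴴ * (mlog Q - mlog S) * Λ).trace +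
        (P * (Λᴴ * Λ) * mlog T).trace) 0 := by
  obtain ⟨D, hD, hD2⟩ := tf_hasDerivAt_gen hP hQ hS hT Λ 0
  have e : D.trace = -(P * mlog P * (Λᴴ * Λ)).trace + (P * Λᴴ * (mlog Q - mlog S) * Λ).trace +
        (P * (Λᴴ * Λ) * mlog T).trace := by
    rw [hD2, mlog_mpow_comm hP, sub_zero, neg_zero, mpow_one hP, mpow_zero hQ, mpow_zero hS,
      mpow_zero hT]
    rw [← trace_neg, ← trace_add, ← trace_add]
    congr 1
    simp only [mul_one, mul_zero, add_zero, Matrix.mul_sub, Matrix.sub_mul, Matrix.mul_neg,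
      Matrix.neg_mul, Matrix.add_mul, Matrix.mul_assoc]
    abel
  rw [e] at hD
  exact hD

theorem tf_zero {P Q S T : Matrix n n ℂ} (hP : P.PosDef) (hQ : Q.PosDef)
    (hS : S.PosDef) (hT : T.PosDef) (Λ : Matrix n n ℂ) :
    tf P Q S T Λ 0 = (P * (Λᴴ * Λ)).trace := by
  unfold tf
  rw [sub_zero, neg_zero, mpow_one hP, mpow_zero hQ, mpow_zero hS, mpow_zero hT]
  simp only [mul_one, Matrix.mul_assoc]

end Crest.Agent.NG
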