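import Crest.Agent.NG.AchStep

/-!
Chunk R342-T2 (`trials_limit`). Normalise `S` (scale by `1/√(nsq S)`; `winQ` and `qf` scale by
`1/nsq S`). Start with `Ach G 0` (`ach_zero`) and iterate `ach_step`: with
`q = winQ`, `den = pA + pB - pAB`: `w_{T+1} = q + (1-den) w_T` converges to `q/den`
(if `den = 0` then `q = 0`, Lean's `0/0 = 0`); each `w_T` has average `≤ v` (`ach_value`); take
the limit (`w_T = q/den (1 - (1-den)^T)`). Here `0 ≤ q ≤ pAB ≤ pA, pB ≤ 1` and
`pA + pB - pAB ≤ 1` (all are `qf` of positive semidefinite matrices).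
-/

set_option autoImplicit false

namespace Crest.Agent.NG
open Matrix Complex Crest.MathPhysics.NonlocalGame
open scoped ComplexOrder Kronecker

private theorem tl_qf_smul_vec {n : Type} [Fintype n] [DecidableEq n] (c : ℝ) (S P R : Matrix n n ℂ) :
    qf ((c : ℂ) • S) P R = c ^ 2 * qf S P R := by
  unfold qf
  rw [Matrix.conjTranspose_smul, Matrix.smul_mul, Matrix.smul_mul, Matrix.mul_smul,
    Matrix.smul_mul, Matrix.smul_mul, Matrix.trace_smul, Matrix.trace_smul, smul_eq_mul, smul_eq_mul,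
    Complex.star_def, Complex.conj_ofReal, ← mul_assoc, ← Complex.ofReal_mul, Complex.re_ofReal_mul]
  ring

private theorem tl_winQ_smul {G : Game} {n : Type} [Fintype n] [DecidableEq n]
    (c : ℝ) (S : Matrix n n ℂ)
    (E : Fin G.nX → Fin G.nA → Matrix n n ℂ) (F : Fin G.nY → Fin G.nB → Matrix n n ℂ) (x y) :
    winQ G E F ((c : ℂ) • S) x y = c ^ 2 * winQ G E F S x y := by
  unfold winQ
  rw [Finset.mul_sum]
  refine Finset.sum_congr rfl fun a _ => ?_
  rw [Finset.mul_sum]
  refine Finset.sum_congr rfl fun b _ => ?_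
  split_ifs
  · exact tl_qf_smul_vec c S _ _
  · simp

private theorem tl_bounds {G : Game} {n : Type} [Fintype n] [DecidableEq n]
    (S : Matrix n n ℂ) (hS : nsq S = 1)
    (E : Fin G.nX → Fin G.nA → Matrix n n ℂ) (F : Fin G.nY → Fin G.nB → Matrix n n ℂ)
    (hE : ∀ x, IsSubPOVM (E x)) (hF : ∀ y, IsSubPOVM (F y)) (x y) :
    0 ≤ winQ G E F S x y ∧
    winQ G E F S x y ≤
      qf S (∑ a, E x a) 1 + qf S 1 (∑ b, F y b) - qf S (∑ a, E x a) (∑ b, F y b) ∧
    qf S (∑ a, E x a) 1 + qf S 1 (∑ b, F y b) - qf S (∑ a, E x a) (∑ b, F y b) ≤ 1 := by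
  have hP : (∑ a, E x a).PosSemidef :=
    Matrix.posSemidef_sum Finset.univ fun a _ => (hE x).1 a
  have hR : (∑ b, F y b).PosSemidef :=
    Matrix.posSemidef_sum Finset.univ fun b _ => (hF y).1 b
  have hone : (1 : Matrix n n ℂ).PosSemidef := Matrix.PosSemidef.one
  have h11 : qf S 1 1 = 1 := by rw [qf_one_one, hS]
  have e1 : qf S (∑ a, E x a) 1 = qf S (∑ a, E x a) (∑ b, F y b)
      + qf S (∑ a, E x a) (1 - ∑ b, F y b) := by
    rw [← qf_add_right]; congr 1; abel
  have e2 : qf S 1 (∑ b, F y b) = qf S (∑ a, E x a) (∑ b, F y b)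
      + qf S (1 - ∑ a, E x a) (∑ b, F y b) := by
    rw [← qf_add_left]; congr 1; abel
  have e3 : qf S 1 1 = qf S (∑ a, E x a) 1 + qf S (1 - ∑ a, E x a) 1 := by
    rw [← qf_add_left]; congr 1; abel
  have e4 : qf S (1 - ∑ a, E x a) 1 = qf S (1 - ∑ a, E x a) (∑ b, F y b)
      + qf S (1 - ∑ a, E x a) (1 - ∑ b, F y b) := by
    rw [← qf_add_right]; congr 1; abel
  have n1 : 0 ≤ qf S (∑ a, E x a) (1 - ∑ b, F y b) := qf_nonneg hP (hF y).2 S
  have n2 : 0 ≤ qf S (1 - ∑ a, E x a) (∑ b, F y b) := qf_nonneg (hE x).2 hR S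
  have n3 : 0 ≤ qf S (1 - ∑ a, E x a) (1 - ∑ b, F y b) := qf_nonneg (hE x).2 (hF y).2 S
  have hq : winQ G E F S x y ≤ qf S (∑ a, E x a) (∑ b, F y b) := by
    rw [qf_sum_left]
    unfold winQ
    refine Finset.sum_le_sum fun a _ => ?_
    rw [qf_sum_right]
    refine Finset.sum_le_sum fun b _ => ?_
    split_ifs
    · exact le_refl _
    · exact qf_nonneg ((hE x).1 a) ((hF y).1 b) S
  refine ⟨?_, by linarith, by linarith⟩
  unfold winQ
  refine Finset.sum_nonneg fun a _ => Finset.sum_nonneg fun b _ => ?_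
  split_ifs
  · exact qf_nonneg ((hE x).1 a) ((hF y).1 b) S
  · exact le_refl _

theorem trials_limit {G : Game} {v : ℝ} (hv : ValBound G v) (hA : 0 < G.nA) (hB : 0 < G.nB)
    {n : Type} [Fintype n] [DecidableEq n] (S : Matrix n n ℂ) (hS : S ≠ 0)
    (E : Fin G.nX → Fin G.nA → Matrix n n ℂ) (F : Fin G.nY → Fin G.nB → Matrix n n ℂ)
    (hE : ∀ x, IsSubPOVM (E x)) (hF : ∀ y, IsSubPOVM (F y)) :
    ∑ x, ∑ y, G.prob x y * (winQ G E F S x y /
      (qf S (∑ a, E x a) 1 + qf S 1 (∑ b, F y b) - qf S (∑ a, E x a) (∑ b, F y b))) ≤ v := by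
  have hpos : 0 < nsq S := lt_of_le_of_ne (nsq_nonneg S) fun h => hS ((nsq_eq_zero S).1 h.symm)
  set c : ℝ := (Real.sqrt (nsq S))⁻¹ with hc
  have hc0 : 0 < c := inv_pos.2 (Real.sqrt_pos.2 hpos)
  have hc2 : c ^ 2 = (nsq S)⁻¹ := by rw [hc, inv_pow, Real.sq_sqrt hpos.le]
  set S1 : Matrix n n ℂ := (c : ℂ) • S with hS1
  have hn1 : nsq S1 = 1 := by
    rw [hS1, nsq_smul, Complex.norm_real, Real.norm_eq_abs, abs_of_pos hc0, hc2,
      inv_mul_cancel₀ hpos.ne']
  set q : Fin G.nX → Fin G.nY → ℝ := fun x y => winQ G E F S1 x y with hqdef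
  set den : Fin G.nX → Fin G.nY → ℝ := fun x y =>
    qf S1 (∑ a, E x a) 1 + qf S1 1 (∑ b, F y b) - qf S1 (∑ a, E x a) (∑ b, F y b) with hdendef
  have hb : ∀ x y, 0 ≤ q x y ∧ q x y ≤ den x y ∧ den x y ≤ 1 := fun x y =>
    tl_bounds S1 hn1 E F hE hF x y
  -- the quotients are unchanged
  have hquot : ∀ x y, winQ G E F S x y /
      (qf S (∑ a, E x a) 1 + qf S 1 (∑ b, F y b) - qf S (∑ a, E x a) (∑ b, F y b))
      = q x y / den x y := by
    intro x y
    have h1 : q x y = c ^ 2 * winQ G E F S x y := tl_winQ_smul c S E F x y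
    have h2 : den x y = c ^ 2 * (qf S (∑ a, E x a) 1 + qf S 1 (∑ b, F y b)
        - qf S (∑ a, E x a) (∑ b, F y b)) := by
      simp only [hdendef, hS1, tl_qf_smul_vec]
      ring
    rw [h1, h2, mul_div_mul_left _ _ (by positivity)]
  -- iterate
  have hach : ∀ T : ℕ, Ach G (fun x y => q x y / den x y * (1 - (1 - den x y) ^ T)) := by
    intro T
    induction T with
    | zero =>
      have h0 := ach_zero (G := G) hA hB
      have e : (fun (x : Fin G.nX) (y : Fin G.nY) => q x y / den x y * (1 - (1 - den x y) ^ 0))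
          = fun _ _ => (0 : ℝ) := by
        funext x y; simp
      rw [e]; exact h0
    | succ T ih =>
      have h1 := ach_step ih S1 hn1 E F hE hF
      have e : (fun (x : Fin G.nX) (y : Fin G.nY) => q x y / den x y * (1 - (1 - den x y) ^ (T + 1)))
          = fun x y => winQ G E F S1 x y +
            (1 - (qf S1 (∑ a, E x a) 1 + qf S1 1 (∑ b, F y b)
              - qf S1 (∑ a, E x a) (∑ b, F y b))) *
              (q x y / den x y * (1 - (1 - den x y) ^ T)) := by
        funext x y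
        show q x y / den x y * (1 - (1 - den x y) ^ (T + 1))
          = q x y + (1 - den x y) * (q x y / den x y * (1 - (1 - den x y) ^ T))
        obtain ⟨b1, b2, b3⟩ := hb x y
        by_cases hd : den x y = 0
        · have hq0 : q x y = 0 := le_antisymm (hd ▸ b2) b1
          simp [hd, hq0]
        · have : q x y = q x y / den x y * den x y := by field_simp
          rw [pow_succ]
          conv_rhs => rw [this]
          have hcancel : q x y / den x y * den x y / den x y = q x y / den x y := by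
            field_simp
          rw [hcancel]
          ring
      rw [e]; exact h1
  have hle : ∀ T : ℕ, ∑ x, ∑ y, G.prob x y * (q x y / den x y * (1 - (1 - den x y) ^ T)) ≤ v :=
    fun T => ach_value hv (hach T)
  have hlim : Filter.Tendsto
      (fun T : ℕ => ∑ x, ∑ y, G.prob x y * (q x y / den x y * (1 - (1 - den x y) ^ T)))
      Filter.atTop (nhds (∑ x, ∑ y, G.prob x y * (q x y / den x y))) := by
    refine tendsto_finsetSum _ fun x _ => tendsto_finsetSum _ fun y _ => ?_
    refine Filter.Tendsto.const_mul _ ?_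
    obtain ⟨b1, b2, b3⟩ := hb x y
    by_cases hd : den x y = 0
    · simp [hd]
    · have hdpos : 0 < den x y := lt_of_le_of_ne (b1.trans b2) (Ne.symm hd)
      have h1 : Filter.Tendsto (fun T : ℕ => (1 - den x y) ^ T) Filter.atTop (nhds 0) :=
        tendsto_pow_atTop_nhds_zero_of_lt_one (by linarith) (by linarith)
      have h2 := (h1.const_sub 1).const_mul (q x y / den x y)
      simpa using h2
  have hfin : ∑ x, ∑ y, G.prob x y * (q x y / den x y) ≤ v :=
    le_of_tendsto hlim (Filter.Eventually.of_forall hle)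
  calc ∑ x, ∑ y, G.prob x y * (winQ G E F S x y /
      (qf S (∑ a, E x a) 1 + qf S 1 (∑ b, F y b) - qf S (∑ a, E x a) (∑ b, F y b)))
      = ∑ x, ∑ y, G.prob x y * (q x y / den x y) :=
        Finset.sum_congr rfl fun x _ => Finset.sum_congr rfl fun y _ => by rw [hquot]
    _ ≤ v := hfin

end Crest.Agent.NG
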