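import Crest.Agent.NG.WinQ

/-!
Chunk R342-V1 (`answerProb_eq`, `nsq_KOf`): `⟨ψ, (M ⊗ N) ψ⟩ = tr (Kᴴ M K Nᵀ)` with
`K i j = ψ (i,j)` (expand `kroneckerMap_apply`, `mulVec`, `dotProduct`, `Fintype.sum_prod_type`).
-/

set_option autoImplicit false

namespace Crest.Agent.NG
open Matrix Complex Crest.MathPhysics.NonlocalGame
open scoped ComplexOrder

/-- the matrix of the shared vector -/
def KOf {dA dB : ℕ} (ψ : Fin dA × Fin dB → ℂ) : Matrix (Fin dA) (Fin dB) ℂ :=
  Matrix.of fun i j => ψ (i, j)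

theorem answerProb_eq {G : Game} {k d : ℕ} (S : Strategy G k d d) (x : Fin k → Fin G.nX)
    (y : Fin k → Fin G.nY) (a : Fin k → Fin G.nA) (b : Fin k → Fin G.nB) :
    S.answerProb x y a b = qf (KOf S.ψ) (S.M x a) ((S.N y b)ᵀ) := by
  unfold Strategy.answerProb qf
  congr 1
  have hL : dotProduct (star S.ψ) ((kroneckerMap (· * ·) (S.M x a) (S.N y b)).mulVec S.ψ)
      = ∑ i, ∑ j, ∑ i', ∑ j', (starRingEnd ℂ) (S.ψ (i, j)) * (S.M x a i i' * S.N y b j j'
          * S.ψ (i', j')) := by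
    simp only [dotProduct, mulVec, Fintype.sum_prod_type, kroneckerMap_apply, Pi.star_apply,
      Finset.mul_sum]
    rfl
  have hR : ((KOf S.ψ)ᴴ * S.M x a * KOf S.ψ * (S.N y b)ᵀ).trace
      = ∑ j, ∑ j', ∑ i', ∑ i, (starRingEnd ℂ) (S.ψ (i, j)) * S.M x a i i' * S.ψ (i', j')
          * S.N y b j j' := by
    simp only [trace, diag_apply, mul_apply, conjTranspose_apply, KOf, of_apply, transpose_apply,
      Finset.sum_mul]
    rfl
  rw [hL, hR]
  calc (∑ i, ∑ j, ∑ i', ∑ j', (starRingEnd ℂ) (S.ψ (i, j)) * (S.M x a i i' * S.N y b j j'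
          * S.ψ (i', j')))
      = ∑ j, ∑ i, ∑ i', ∑ j', (starRingEnd ℂ) (S.ψ (i, j)) * (S.M x a i i' * S.N y b j j'
          * S.ψ (i', j')) := Finset.sum_comm
    _ = ∑ j, ∑ j', ∑ i', ∑ i, (starRingEnd ℂ) (S.ψ (i, j)) * S.M x a i i' * S.ψ (i', j')
          * S.N y b j j' := by
        refine Finset.sum_congr rfl fun j _ => ?_
        calc (∑ i, ∑ i', ∑ j', (starRingEnd ℂ) (S.ψ (i, j)) * (S.M x a i i' * S.N y b j j'
              * S.ψ (i', j')))
            = ∑ i, ∑ j', ∑ i', (starRingEnd ℂ) (S.ψ (i, j)) * (S.M x a i i' * S.N y b j j'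
              * S.ψ (i', j')) := Finset.sum_congr rfl fun i _ => Finset.sum_comm
          _ = ∑ j', ∑ i, ∑ i', (starRingEnd ℂ) (S.ψ (i, j)) * (S.M x a i i' * S.N y b j j'
              * S.ψ (i', j')) := Finset.sum_comm
          _ = ∑ j', ∑ i', ∑ i, (starRingEnd ℂ) (S.ψ (i, j)) * (S.M x a i i' * S.N y b j j'
              * S.ψ (i', j')) := Finset.sum_congr rfl fun j' _ => Finset.sum_comm
          _ = _ := by
              refine Finset.sum_congr rfl fun j' _ => Finset.sum_congr rfl fun i' _ =>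
                Finset.sum_congr rfl fun i _ => ?_
              ring

theorem nsq_KOf {G : Game} {k d : ℕ} (S : Strategy G k d d) : nsq (KOf S.ψ) = 1 := by
  have h := S.ψ_norm
  rw [Fintype.sum_prod_type] at h
  exact h

end Crest.Agent.NG
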