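import Crest.Agent.NG.Value

/-!
Chunk R342-V2 (`value_general`): a one-shot strategy in matrix form with an arbitrary finite index
type gives an honest `Strategy G 1 d d` (`d = card n`, reindex by `Fintype.equivFin n`;
question/answer strings of length one: `x 0`, `a 0`; `ψ (i,j) = S (e.symm i) (e.symm j)`,
`N = Fᵀ`), and `probWinsAtLeast 1` is the winning probability (`1 ≤ wins` iff accept; sums over
`Fin 1 → _` by `Equiv.funUnique`/`Fintype.sum_equiv`).
-/

set_option autoImplicit false

namespace Crest.Agent.NG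
open Matrix Complex Crest.MathPhysics.NonlocalGame
open scoped ComplexOrder

theorem sum_fin_one_fun {A : Type} [Fintype A] {M : Type*} [AddCommMonoid M]
    (f : A → M) : ∑ a : Fin 1 → A, f (a 0) = ∑ a, f a :=
  Fintype.sum_equiv (Equiv.funUnique (Fin 1) A) _ _ (fun _ => rfl)

/-- the honest one-shot strategy -/
noncomputable def stratOf {G : Game} {d : ℕ} (S : Matrix (Fin d) (Fin d) ℂ) (hS : nsq S = 1)
    (E : Fin G.nX → Fin G.nA → Matrix (Fin d) (Fin d) ℂ)
    (F : Fin G.nY → Fin G.nB → Matrix (Fin d) (Fin d) ℂ)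
    (hE : ∀ x, IsPOVM (E x)) (hF : ∀ y, IsPOVM (F y)) : Strategy G 1 d d where
  ψ := fun p => S p.1 p.2
  ψ_norm := by
    rw [Fintype.sum_prod_type]
    exact hS
  M := fun x a => E (x 0) (a 0)
  N := fun y b => (F (y 0) (b 0))ᵀ
  M_posSemidef := fun x a => (hE (x 0)).1 (a 0)
  N_posSemidef := fun y b => ((hF (y 0)).1 (b 0)).transpose
  M_sum := fun x => by
    rw [sum_fin_one_fun (fun a => E (x 0) a)]
    exact (hE (x 0)).2
  N_sum := fun y => by
    rw [sum_fin_one_fun (fun b => (F (y 0) b)ᵀ), ← Matrix.transpose_sum, (hF (y 0)).2,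
      Matrix.transpose_one]

theorem value_fin {G : Game} {v : ℝ} (hv : ValBound G v) {d : ℕ}
    (S : Matrix (Fin d) (Fin d) ℂ) (hS : nsq S = 1)
    (E : Fin G.nX → Fin G.nA → Matrix (Fin d) (Fin d) ℂ)
    (F : Fin G.nY → Fin G.nB → Matrix (Fin d) (Fin d) ℂ)
    (hE : ∀ x, IsPOVM (E x)) (hF : ∀ y, IsPOVM (F y)) :
    ∑ x, ∑ y, G.prob x y * winQ G E F S x y ≤ v := by
  have h := hv d d (stratOf S hS E F hE hF)
  have hwins : ∀ (x : Fin 1 → Fin G.nX) (y : Fin 1 → Fin G.nY) (a : Fin 1 → Fin G.nA)
      (b : Fin 1 → Fin G.nB),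
      ((1 : ℝ) ≤ (wins G 1 x y a b : ℝ)) ↔ G.accept (x 0) (y 0) (a 0) (b 0) = true := by
    intro x y a b
    unfold wins
    rw [Finset.univ_unique]
    by_cases hacc : G.accept (x 0) (y 0) (a 0) (b 0) = true
    · simp [hacc, Finset.filter_singleton]
    · simp [hacc, Finset.filter_singleton]
  have key : (stratOf S hS E F hE hF).probWinsAtLeast 1
      = ∑ x, ∑ y, G.prob x y * winQ G E F S x y := by
    unfold Strategy.probWinsAtLeast
    refine Eq.trans ?_ (sum_fin_one_fun (fun x => ∑ y, G.prob x y * winQ G E F S x y))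
    refine Finset.sum_congr rfl fun x _ => ?_
    refine Eq.trans ?_ (sum_fin_one_fun (fun y => G.prob (x 0) y * winQ G E F S (x 0) y))
    refine Finset.sum_congr rfl fun y _ => ?_
    rw [Fin.prod_univ_one]
    congr 1
    unfold winQ
    refine Eq.trans ?_ (sum_fin_one_fun (fun a => ∑ b,
      if G.accept (x 0) (y 0) a b = true then qf S (E (x 0) a) (F (y 0) b) else 0))
    refine Finset.sum_congr rfl fun a _ => ?_
    refine Eq.trans ?_ (sum_fin_one_fun (fun b =>
      if G.accept (x 0) (y 0) (a 0) b = true then qf S (E (x 0) (a 0)) (F (y 0) b) else 0))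
    refine Finset.sum_congr rfl fun b _ => ?_
    rw [if_congr (hwins x y a b) rfl rfl, answerProb_eq]
    rfl
  rw [key] at h
  exact h

theorem value_general {G : Game} {v : ℝ} (hv : ValBound G v)
    {n : Type} [Fintype n] [DecidableEq n] (S : Matrix n n ℂ) (hS : nsq S = 1)
    (E : Fin G.nX → Fin G.nA → Matrix n n ℂ) (F : Fin G.nY → Fin G.nB → Matrix n n ℂ)
    (hE : ∀ x, IsPOVM (E x)) (hF : ∀ y, IsPOVM (F y)) :
    ∑ x, ∑ y, G.prob x y * winQ G E F S x y ≤ v := by
  classical
  let e : n ≃ Fin (Fintype.card n) := Fintype.equivFin n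
  have hnsq : nsq (S.submatrix e.symm e.symm) = 1 := by
    rw [← hS]
    unfold nsq
    refine Fintype.sum_equiv e.symm _ _ fun i => ?_
    refine Fintype.sum_equiv e.symm _ _ fun j => ?_
    rfl
  have hpovm : ∀ {A : Type} [Fintype A] (P : A → Matrix n n ℂ), IsPOVM P →
      IsPOVM (fun a => (P a).submatrix e.symm e.symm) := by
    intro A _ P hP
    refine ⟨fun a => (hP.1 a).submatrix e.symm, ?_⟩
    have : ∑ a, (P a).submatrix e.symm e.symm = (∑ a, P a).submatrix e.symm e.symm := by
      ext i j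
      simp [Matrix.sum_apply]
    rw [this, hP.2]
    simp
  have hqf : ∀ P Q : Matrix n n ℂ,
      qf (S.submatrix e.symm e.symm) (P.submatrix e.symm e.symm) (Q.submatrix e.symm e.symm)
        = qf S P Q := by
    intro P Q
    unfold qf
    rw [Matrix.conjTranspose_submatrix, Matrix.submatrix_mul_equiv, Matrix.submatrix_mul_equiv,
      Matrix.submatrix_mul_equiv]
    congr 1
    unfold Matrix.trace
    exact Fintype.sum_equiv e.symm _ _ fun i => rfl
  have h := value_fin hv (S.submatrix e.symm e.symm) hnsq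
    (fun x a => (E x a).submatrix e.symm e.symm) (fun y b => (F y b).submatrix e.symm e.symm)
    (fun x => hpovm _ (hE x)) (fun y => hpovm _ (hF y))
  have heq : ∀ x y, winQ G (fun x a => (E x a).submatrix e.symm e.symm)
      (fun y b => (F y b).submatrix e.symm e.symm) (S.submatrix e.symm e.symm) x y
      = winQ G E F S x y := by
    intro x y
    unfold winQ
    refine Finset.sum_congr rfl fun a _ => ?_
    refine Finset.sum_congr rfl fun b _ => ?_
    rw [hqf]
  simp only [heq] at h
  exact h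

end Crest.Agent.NG
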